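import Vale.Agent.P078b.Trans

open Polynomial MeasureTheory
open scoped ComplexConjugate

set_option linter.unusedSectionVars false
set_option linter.unusedVariables false

namespace Vale.Agent.P078

universe u

variable {Ω : Type u} [TopologicalSpace Ω] [CompactSpace Ω] [T2Space Ω]
  [TotallyDisconnectedSpace Ω] [DecidableEq Ω] {B : Base Ω} {R : ℕ}
variable {κ : Type*} [Fintype κ] [DecidableEq κ]

/-- multiplicity of a neighbour -/
noncomputable def alloc_mult (ch : Chart B R) (a b : Ω) : ℝ :=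
  ((Finset.univ.filter fun u => ch.t u a = b).card : ℝ)

theorem alloc_mult_le (ch : Chart B R) {a b : Ω} (h : b ≠ a) :
    alloc_mult ch a b ≤ alloc_mult ch b a := by
  unfold alloc_mult
  refine Nat.cast_le.2 (Finset.card_le_card_of_injOn ch.inv (fun u hu => ?_) fun u _ v _ huv => ?_)
  · have hu' : ch.t u a = b := (Finset.mem_filter.1 hu).2
    refine Finset.mem_filter.2 ⟨Finset.mem_univ _, ?_⟩
    rw [← hu']
    exact ch.t_inv u a (hu' ▸ h)
  · rw [← ch.inv_inv u, huv, ch.inv_inv]

theorem alloc_mult_symm (ch : Chart B R) {a b : Ω} (h : b ≠ a) :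
    alloc_mult ch a b = alloc_mult ch b a :=
  le_antisymm (alloc_mult_le ch h) (alloc_mult_le ch h.symm)

theorem alloc_sum_N (ch : Chart B R) (a : Ω) (g : Ω → ℝ) :
    (∑ b ∈ ch.N a, g b) / B.w a = g a / B.w a +
      ∑ u, if ch.t u a = a then 0 else g (ch.t u a) / B.w a * (alloc_mult ch a (ch.t u a))⁻¹ := by
  rw [Finset.sum_comp (fun b => if b = a then 0 else g b / B.w a * (alloc_mult ch a b)⁻¹)
    fun u => ch.t u a, Finset.sum_div, ← Finset.add_sum_erase _ _ (ch.self_mem_N a)]
  congr 1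
  show _ = ∑ b ∈ ch.N a, _
  rw [← Finset.add_sum_erase _ _ (ch.self_mem_N a), if_pos rfl, smul_zero, zero_add]
  refine Finset.sum_congr rfl fun b hb => ?_
  obtain ⟨h1, h2⟩ := Finset.mem_erase.1 hb
  obtain ⟨u, -, hu⟩ := Finset.mem_image.1 h2
  have h3 : alloc_mult ch a b ≠ 0 :=
    Nat.cast_ne_zero.2 (Finset.card_ne_zero.2 ⟨u, Finset.mem_filter.2 ⟨Finset.mem_univ _, hu⟩⟩)
  rw [if_neg h1, nsmul_eq_mul]
  show _ = alloc_mult ch a b * _
  field_simp

theorem alloc_cont_mult (ch : Chart B R) (v : ch.W) :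
    Continuous fun b => (alloc_mult ch b (ch.t v b))⁻¹ := by
  refine continuous_iff_continuousAt.2 fun b₀ =>
    (continuousAt_const (y := (alloc_mult ch b₀ (ch.t v b₀))⁻¹)).congr ?_
  filter_upwards [ch.eventually_coin b₀] with b hb
  unfold alloc_mult
  rw [Finset.filter_congr fun u _ => hb u v]

theorem alloc_cont_ite (ch : Chart B R) (v : ch.W) {f : Ω → ℝ} (hf : Continuous f) :
    Continuous fun b => if ch.t v b = b then 0 else f b := by
  refine continuous_iff_continuousAt.2 fun b₀ => ?_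
  have hc : Continuous fun b => if ch.t v b₀ = b₀ then 0 else f b := by
    split_ifs
    · exact continuous_const
    · exact hf
  refine hc.continuousAt.congr ?_
  filter_upwards [ch.eventually_coin b₀] with b hb
  have := hb v ch.e
  rw [ch.t_e, ch.t_e] at this
  exact if_congr this.symm rfl rfl

/-- Mass transport for pair functions. -/
theorem Chart.pair_transport (ch : Chart B R) (Φ : Ω → Ω → ℝ)
    (h : ∀ u, Continuous fun b => Φ (ch.t u b) b / B.w b)
    (h' : ∀ u, Continuous fun a => Φ a (ch.t u a) / B.w a) :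
    B.I (fun a => (∑ b ∈ ch.N a, Φ a b) / B.w a) =
      B.I fun b => (∑ a ∈ ch.N b, Φ a b) / B.w b := by
  have h0 : Continuous fun a => Φ a a / B.w a := by simpa only [ch.t_e] using h ch.e
  have c1 : ∀ u, Continuous fun a => if ch.t u a = a then 0 else
      Φ a (ch.t u a) / B.w a * (alloc_mult ch a (ch.t u a))⁻¹ := fun u =>
    alloc_cont_ite ch u ((h' u).mul (alloc_cont_mult ch u))
  have c2 : ∀ u, Continuous fun a => if ch.t u a = a then 0 else
      Φ (ch.t u a) a / B.w a * (alloc_mult ch a (ch.t u a))⁻¹ := fun u =>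
    alloc_cont_ite ch u ((h u).mul (alloc_cont_mult ch u))
  simp only [alloc_sum_N]
  rw [B.I_add _ _ h0 (continuous_finsetSum _ fun u _ => c1 u),
    B.I_add _ _ h0 (continuous_finsetSum _ fun u _ => c2 u), B.I_sum _ fun u _ => c1 u,
    B.I_sum _ fun u _ => c2 u]
  congr 1
  refine Fintype.sum_equiv (Function.Involutive.toPerm ch.inv ch.inv_inv) _ _ fun u => ?_
  refine Eq.trans ?_ (ch.transport u (fun b => Φ (ch.t (ch.inv u) b) b / B.w b *
    (alloc_mult ch b (ch.t (ch.inv u) b))⁻¹) ((h (ch.inv u)).mul (alloc_cont_mult ch (ch.inv u))))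
  congr 1
  funext a
  split_ifs with hu
  · rfl
  · have := (B.w_pos (ch.t u a)).ne'
    have := (B.w_pos a).ne'
    rw [ch.t_inv u a hu, alloc_mult_symm ch hu]
    field_simp

theorem Chart.LocC.tot {ch : Chart B R} {Ψ : Finset Ω → Ω → ℝ} (h : ch.LocC Ψ) :
    ch.LocC fun T _ => (∑ b ∈ T, Ψ T b) * (1 / T.card) := by
  intro U u
  refine ch.continuous_of_inj (G := fun T _ a => (∑ b ∈ T, Ψ T b) * (1 / T.card) / B.w a)
    (fun U u a₀ hU _ => ?_) U u
  have hc : Continuous fun a => (∑ v ∈ U, Ψ (U.image fun v => ch.t v a) (ch.t v a) / B.w a) *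
      (1 / U.card : ℝ) := (continuous_finsetSum _ fun v _ => h U v).mul continuous_const
  refine hc.continuousAt.congr ?_
  filter_upwards [ch.eventually_coin a₀] with a ha
  have hi : Set.InjOn (fun v => ch.t v a) U := fun v hv v' hv' e => hU hv hv' ((ha _ _).1 e)
  rw [Finset.card_image_of_injOn hi, Finset.sum_image hi, ← Finset.sum_div]
  ring

theorem alloc_cont_pair {ch : Chart B R} {Ψ : Finset Ω → Ω → ℝ} (h : ch.LocC Ψ) (u u' : ch.W) :
    Continuous fun a => (∑ T ∈ (ch.N a).powerset,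
      if ch.t u a ∈ T ∧ ch.t u' a ∈ T then Ψ T (ch.t u a) * (1 / T.card) else 0) / B.w a := by
  classical
  refine continuous_iff_continuousAt.2 fun a₀ => ?_
  obtain ⟨U, h1, hU, h3⟩ := trans_rep ch Finset.univ a₀
  have hc : Continuous fun a => ∑ S ∈ U.powerset,
      if (∃ v ∈ S, ch.t v a₀ = ch.t u a₀) ∧ ∃ v ∈ S, ch.t v a₀ = ch.t u' a₀ then
        Ψ (S.image fun v => ch.t v a) (ch.t u a) / B.w a * (1 / S.card : ℝ) else 0 :=
    continuous_finsetSum _ fun S _ => by
      split_ifs
      · exact (h S u).mul continuous_const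
      · exact continuous_const
  refine hc.continuousAt.congr ?_
  filter_upwards [ch.eventually_coin a₀] with a ha
  have hi : Set.InjOn (fun v => ch.t v a) U := fun v hv v' hv' e => hU hv hv' ((ha _ _).1 e)
  unfold Chart.N
  rw [trans_image ch h1 h3 ha, trans_sum_powerset hi, Finset.sum_div]
  refine Finset.sum_congr rfl fun S hS => ?_
  have e : ∀ u, ch.t u a ∈ S.image (fun v => ch.t v a) ↔ ∃ v ∈ S, ch.t v a₀ = ch.t u a₀ :=
    fun u => by simp only [Finset.mem_image, ha]
  simp only [e]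
  rw [Finset.card_image_of_injOn (hi.mono (Finset.mem_powerset.1 hS))]
  split_ifs
  · ring
  · rw [zero_div]

theorem Chart.alloc_tot (ch : Chart B R) {Ψ : Finset Ω → Ω → ℝ} (h : ch.LocC Ψ)
    (hs : B.Supp R Ψ) :
    B.I (ch.loc Ψ) = B.I (ch.loc fun T _ => (∑ b ∈ T, Ψ T b) * (1 / T.card)) := by
  let Φ : Ω → Ω → ℝ := fun a b =>
    ∑ T ∈ (ch.N a).powerset, if a ∈ T ∧ b ∈ T then Ψ T a * (1 / T.card) else 0
  have hΦ : ∀ a b, Φ a b =
      ∑ T ∈ (ch.N b).powerset, if a ∈ T ∧ b ∈ T then Ψ T a * (1 / T.card) else 0 := fun a b => by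
    have key : ∀ T : Finset Ω, (if a ∈ T ∧ b ∈ T then Ψ T a * (1 / T.card) else 0) ≠ 0 →
        T ∈ (ch.N a).powerset ∩ (ch.N b).powerset := fun T hT => by
      split_ifs at hT with h1
      · have h2 := hs T a h1.1 (left_ne_zero_of_mul hT)
        exact Finset.mem_inter.2 ⟨Finset.mem_powerset.2 (ch.subset_N h2 h1.1),
          Finset.mem_powerset.2 (ch.subset_N h2 h1.2)⟩
      · exact absurd rfl hT
    exact (Finset.sum_subset Finset.inter_subset_left fun T _ hT =>
      by_contra fun h0 => hT (key T h0)).symm.trans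
      (Finset.sum_subset Finset.inter_subset_right fun T _ hT => by_contra fun h0 => hT (key T h0))
  have key := ch.pair_transport Φ (fun u => by
    simpa only [ch.t_e, ← hΦ] using alloc_cont_pair h u ch.e) (fun u => by
    simpa only [ch.t_e] using alloc_cont_pair h ch.e u)
  have e1 : ch.loc Ψ = fun a => (∑ b ∈ ch.N a, Φ a b) / B.w a := by
    funext a
    unfold Chart.loc
    rw [Finset.sum_comm, Finset.sum_filter]
    congr 1
    refine Finset.sum_congr rfl fun T hT => ?_
    by_cases ha : a ∈ T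
    · have h1 : (T.card : ℝ) ≠ 0 := Nat.cast_ne_zero.2 (Finset.card_ne_zero.2 ⟨a, ha⟩)
      simp only [ha, true_and, if_true]
      rw [Finset.sum_ite_mem, Finset.inter_eq_right.2 (Finset.mem_powerset.1 hT), Finset.sum_const,
        nsmul_eq_mul]
      field_simp
    · simp [ha]
  have e2 : (ch.loc fun T _ => (∑ b ∈ T, Ψ T b) * (1 / T.card)) =
      fun b => (∑ a ∈ ch.N b, Φ a b) / B.w b := by
    funext b
    unfold Chart.loc
    simp only [hΦ _ b]
    rw [Finset.sum_comm, Finset.sum_filter]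
    congr 1
    refine Finset.sum_congr rfl fun T hT => ?_
    by_cases hb : b ∈ T
    · simp only [hb, and_true, if_true]
      rw [Finset.sum_ite_mem, Finset.inter_eq_right.2 (Finset.mem_powerset.1 hT), Finset.sum_mul]
    · simp [hb]
  rw [e1, e2, key]

/-- The potential does not depend on the allocation of a cluster to its points. -/
theorem Chart.alloc (ch : Chart B R) {Ψ Ψ' : Finset Ω → Ω → ℝ} (h : ch.LocC Ψ) (h' : ch.LocC Ψ')
    (hs : B.Supp R Ψ) (hs' : B.Supp R Ψ') (he : ∀ T, ∑ a ∈ T, Ψ T a = ∑ a ∈ T, Ψ' T a) :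
    B.I (ch.loc Ψ) = B.I (ch.loc Ψ') := by
  rw [ch.alloc_tot h hs, ch.alloc_tot h' hs']
  simp only [he]

end Vale.Agent.P078
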