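import Vale.Agent.P078b.FD

open Polynomial MeasureTheory
open scoped ComplexConjugate

set_option linter.unusedSectionVars false
set_option linter.unusedVariables false

namespace Vale.Agent.P078

variable {ι : Type*} [Fintype ι] [DecidableEq ι]

theorem arrow_sylv {n : Type*} [Fintype n] [DecidableEq n] {P : Matrix n n ℝ} (hP : P.det ≠ 0)
    {a b : n → ℝ} (h : P.transpose * Matrix.diagonal a * P = Matrix.diagonal b) :
    (Finset.univ.filter fun i => 0 < b i).card = (Finset.univ.filter fun i => 0 < a i).card ∧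
    (Finset.univ.filter fun i => b i < 0).card = (Finset.univ.filter fun i => a i < 0).card := by
  have hw : ∀ (c v : n → ℝ), QuadraticMap.weightedSumSquares ℝ c v =
      v ⬝ᵥ (Matrix.diagonal c).mulVec v := fun c v => by
    rw [QuadraticMap.weightedSumSquares_apply, dotProduct]
    refine Finset.sum_congr rfl fun i _ => ?_
    rw [Matrix.mulVec_diagonal, smul_eq_mul]
    ring
  have he : QuadraticMap.Equivalent (QuadraticMap.weightedSumSquares ℝ b)
      (QuadraticMap.weightedSumSquares ℝ a) := by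
    refine ⟨⟨Matrix.toLinearEquiv' P (Matrix.invertibleOfIsUnitDet P hP.isUnit), fun v => ?_⟩⟩
    change QuadraticMap.weightedSumSquares ℝ a (P.mulVec v) = _
    rw [hw, hw, ← h, ← Matrix.mulVec_mulVec, ← Matrix.mulVec_mulVec,
      Matrix.dotProduct_mulVec v P.transpose, Matrix.vecMul_transpose]
  have h1 := QuadraticForm.sigPos_of_equiv_weightedSumSquares he
  have h2 := QuadraticForm.sigNeg_of_equiv_weightedSumSquares he
  rw [QuadraticForm.sigPos_weightedSumSquares] at h1
  rw [QuadraticForm.sigNeg_weightedSumSquares] at h2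
  have hc : ∀ p : n → Prop, ∀ [DecidablePred p],
      (Finset.univ.filter p).card = {i | p i}.ncard := fun p _ => by
    rw [← Set.ncard_coe_finset]
    congr 1
    ext i
    simp
  exact ⟨by rw [hc, hc, h1], by rw [hc, hc, h2]⟩

/-- The arrowhead matrix. -/
noncomputable def arrow_mat (t ν : ι → ℝ) : Matrix (Option ι) (Option ι) ℝ
  | none, none => 0
  | none, some j => √(ν j)
  | some i, none => √(ν i)
  | some i, some j => if i = j then t i else 0

theorem arrow_mat_herm (t ν : ι → ℝ) : (arrow_mat t ν).IsHermitian := by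
  refine Matrix.IsHermitian.ext fun a b => ?_
  rcases a with _ | i <;> rcases b with _ | j <;> simp only [arrow_mat, star_trivial]
  by_cases h : i = j
  · rw [h]
  · rw [if_neg h, if_neg (Ne.symm h)]

theorem arrow_factor (t : ι → ℝ) {ν : ι → ℝ} (hν : ∀ i, 0 ≤ ν i) {s : ℝ} (hs : ∀ i, s ≠ t i) :
    ∃ L : Matrix (Option ι) (Option ι) ℝ, L.det = 1 ∧
      L.transpose * Matrix.diagonal (fun k => k.elim (s - Mf t ν s) fun i => s - t i) * L =
        Matrix.scalar _ s - arrow_mat t ν := by
  let c : Option ι → ℝ := fun k => k.elim 1 fun i => -√(ν i) / (s - t i)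
  refine ⟨(1 : Matrix (Option ι) (Option ι) ℝ).updateCol none c, ?_, ?_⟩
  · rw [← Matrix.cramer_apply, Matrix.cramer_one]
    rfl
  · have hs' : ∀ i, s - t i ≠ 0 := fun i => sub_ne_zero.2 (hs i)
    ext a b
    rw [Matrix.mul_apply]
    simp only [Matrix.mul_diagonal, Matrix.transpose_apply, Fintype.sum_option, Option.elim]
    rcases a with _ | i <;> rcases b with _ | j
    · simp only [Matrix.updateCol_self, c, Option.elim, arrow_mat, Matrix.sub_apply,
        Matrix.scalar_apply, Matrix.diagonal_apply_eq, Mf]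
      have : ∀ i, -√(ν i) / (s - t i) * (s - t i) * (-√(ν i) / (s - t i)) = ν i / (s - t i) :=
        fun i => by
          rw [div_mul_cancel₀ _ (hs' i), ← mul_div_assoc, neg_mul_neg, Real.mul_self_sqrt (hν i)]
      simp [this]
    · simp [Matrix.updateCol_apply, c, arrow_mat, Matrix.one_apply, hs' j]
    · simp [Matrix.updateCol_apply, c, arrow_mat, Matrix.one_apply, mul_div_cancel₀ _ (hs' i)]
    · by_cases h : i = j
      · subst h
        simp [Matrix.updateCol_apply, arrow_mat, Matrix.one_apply]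
      · simp [Matrix.updateCol_apply, arrow_mat, Matrix.one_apply, h, Ne.symm h]

theorem arrow_eval (t ν : ι → ℝ) {s : ℝ} (hs : ∀ i, s ≠ t i) :
    (arrow t ν).eval s = (s - Mf t ν s) * ∏ i, (s - t i) := by
  simp only [arrow, eval_sub, eval_mul, eval_X, eval_prod, eval_C, eval_finsetSum, Mf, sub_mul,
    Finset.sum_mul]
  congr 1
  refine Finset.sum_congr rfl fun i _ => ?_
  rw [← Finset.mul_prod_erase _ _ (Finset.mem_univ i), ← mul_assoc,
    div_mul_cancel₀ _ (sub_ne_zero.2 (hs i))]

/-- Roots of the arrowhead polynomial and Sylvester counting. -/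
theorem exists_interl (t ν : ι → ℝ) (hν : ∀ i, 0 ≤ ν i) :
    ∃ θ : Option ι → ℝ, arrow t ν = ∏ j, (X - C (θ j)) ∧ Interl t ν θ := by
  have hT := arrow_mat_herm t ν
  refine ⟨hT.eigenvalues, ?_, ?_, fun s hs => ?_⟩
  · refine Polynomial.eq_of_infinite_eval_eq _ _
      ((Set.finite_range t).infinite_compl.mono fun s hs => ?_)
    have hs' : ∀ i, s ≠ t i := fun i h => hs ⟨i, h.symm⟩
    obtain ⟨L, h1, h2⟩ := arrow_factor t hν hs'
    have h3 := congrArg Matrix.det h2
    rw [Matrix.det_mul, Matrix.det_mul, Matrix.det_transpose, h1, one_mul, mul_one,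
      Matrix.det_diagonal, ← Matrix.eval_charpoly, hT.charpoly_eq, Fintype.prod_option] at h3
    rw [Set.mem_setOf_eq, arrow_eval t ν hs']
    exact h3
  · have h1 := hT.trace_eq_sum_eigenvalues
    simp only [Matrix.trace, Matrix.diag, Fintype.sum_option, arrow_mat, if_true, zero_add] at h1
    rw [h1, Fintype.sum_option]
    rfl
  · obtain ⟨L, h1, h2⟩ := arrow_factor t hν hs
    set U : Matrix (Option ι) (Option ι) ℝ := hT.eigenvectorUnitary.1 with hU
    have u1 : U.transpose * U = 1 := hT.eigenvectorUnitary.2.1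
    have u2 : U.transpose * arrow_mat t ν * U = Matrix.diagonal hT.eigenvalues :=
      hT.conjStarAlgAut_star_eigenvectorUnitary
    have u3 : U.det ≠ 0 := fun h => by
      have := congrArg Matrix.det u1
      rw [Matrix.det_mul, h, mul_zero, Matrix.det_one] at this
      exact zero_ne_one this
    have h3 : (L * U).transpose *
        Matrix.diagonal (fun k => k.elim (s - Mf t ν s) fun i => s - t i) * (L * U) =
        Matrix.diagonal fun j => s - hT.eigenvalues j := by
      rw [Matrix.transpose_mul, Matrix.mul_assoc, Matrix.mul_assoc, ← Matrix.mul_assoc _ L,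
        ← Matrix.mul_assoc L.transpose, ← Matrix.mul_assoc L.transpose, h2, ← Matrix.mul_assoc,
        Matrix.mul_sub, Matrix.sub_mul, u2, ← (Matrix.scalar_commute s (fun _ => Commute.all _ _)
        U.transpose).eq, Matrix.mul_assoc, u1, Matrix.mul_one, Matrix.scalar_apply,
        Matrix.diagonal_sub]
    obtain ⟨h4, h5⟩ := arrow_sylv (by rw [Matrix.det_mul, h1, one_mul]; exact u3) h3
    rw [Finset.card_filter _ (Finset.univ : Finset (Option ι)),
      Finset.card_filter _ (Finset.univ : Finset (Option ι)), Fintype.sum_option,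
      Fintype.sum_option] at h4 h5
    simp only [Option.elim_none, Option.elim_some, sub_pos, sub_neg] at h4 h5
    simp only [Finset.card_filter, Fintype.sum_option]
    exact ⟨h5.trans (add_comm _ _), h4.trans (add_comm _ _)⟩

theorem Mf_neg (t ν : ι → ℝ) (s : ℝ) : Mf (fun i => -t i) ν s = -Mf t ν (-s) := by
  rw [Mf, Mf, ← Finset.sum_neg_distrib]
  refine Finset.sum_congr rfl fun i _ => ?_
  rw [← div_neg, neg_sub, sub_neg_eq_add, sub_neg_eq_add, add_comm]

theorem Interl.neg {t ν : ι → ℝ} {θ : Option ι → ℝ} (h : Interl t ν θ) :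
    Interl (fun i => -t i) ν fun j => -θ j := by
  refine ⟨by rw [Finset.sum_neg_distrib, Finset.sum_neg_distrib, h.1], fun s hs => ?_⟩
  obtain ⟨h1, h2⟩ := h.2 (-s) fun i e => hs i (neg_eq_iff_eq_neg.1 e)
  simp only [Mf_neg, lt_neg (a := s), neg_lt (b := s)]
  exact ⟨h2, h1⟩

theorem measurable_Mf (t ν : ι → ℝ) : Measurable (Mf t ν) := by
  exact Finset.measurable_sum _ fun i _ => measurable_const.div (measurable_id.sub_const _)

theorem Interl.vol_ne_top {t ν : ι → ℝ} {θ : Option ι → ℝ} (h : Interl t ν θ) (y : ℝ) :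
    volume {s : ℝ | y < s ∧ s < Mf t ν s} ≠ ⊤ := by
  refine ne_top_of_le_ne_top (b := volume (Set.range t ∪ ⋃ j, Set.Ioo y (θ j))) ?_
    (measure_mono fun s hs => ?_)
  · refine ne_top_of_le_ne_top ?_ (measure_union_le _ _)
    rw [(Set.finite_range t).measure_zero, zero_add]
    refine ne_top_of_le_ne_top ?_ (measure_iUnion_fintype_le _ _)
    exact ENNReal.sum_ne_top.2 fun j _ => measure_Ioo_lt_top.ne
  · by_cases h1 : s ∈ Set.range t
    · exact Or.inl h1
    · have h2 := (h.2 s fun i e => h1 ⟨i, e.symm⟩).1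
      rw [if_pos hs.2] at h2
      obtain ⟨j, hj⟩ := Finset.card_pos.1 ((Nat.succ_pos _).trans_eq h2.symm)
      exact Or.inr (Set.mem_iUnion.2 ⟨j, hs.1, (Finset.mem_filter.1 hj).2⟩)

theorem arrow_vol_neg (t ν : ι → ℝ) (y : ℝ) : volume {s : ℝ | s < y ∧ Mf t ν s < s} =
    volume {s : ℝ | -y < s ∧ s < Mf (fun i => -t i) ν s} := by
  rw [← Measure.measure_neg]
  congr 1
  ext s
  simp only [Set.mem_neg, Set.mem_setOf_eq, Mf_neg, lt_neg (a := s), neg_lt (b := s)]

theorem Interl.vol_ne_top' {t ν : ι → ℝ} {θ : Option ι → ℝ} (h : Interl t ν θ) (y : ℝ) :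
    volume {s : ℝ | s < y ∧ Mf t ν s < s} ≠ ⊤ := by
  rw [arrow_vol_neg]
  exact h.neg.vol_ne_top _

theorem Interl.dl_eq {t ν : ι → ℝ} {θ : Option ι → ℝ} (h : Interl t ν θ) (y : ℝ) :
    dl t ν y = ∑ j, max (θ j - y) 0 - ∑ i, max (t i - y) 0 := by
  have hm : MeasurableSet {s : ℝ | y < s ∧ s < Mf t ν s} :=
    (measurableSet_lt measurable_const measurable_id).inter
      (measurableSet_lt measurable_id (measurable_Mf t ν))
  have hi : ∀ x : ℝ, Integrable ((Set.Ioo y x).indicator (1 : ℝ → ℝ)) := fun x =>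
    (integrable_indicator_iff measurableSet_Ioo).2 (integrableOn_const measure_Ioo_lt_top.ne)
  have he : ∀ x : ℝ, max (x - y) 0 = ∫ s, (Set.Ioo y x).indicator (1 : ℝ → ℝ) s := fun x => by
    rw [integral_indicator_one measurableSet_Ioo, Real.volume_real_Ioo]
  simp only [he]
  rw [dl, ← measureReal_def, ← integral_indicator_one hm, ← integral_finsetSum _ fun j _ => hi _,
    ← integral_finsetSum _ fun j _ => hi _, ← integral_sub
      (integrable_finsetSum _ fun j _ => hi _) (integrable_finsetSum _ fun j _ => hi _)]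
  refine integral_congr_ae ?_
  have : ∀ᵐ s : ℝ, s ∉ Set.range t := (Set.finite_range t).countable.ae_notMem _
  filter_upwards [this] with s hs
  have h2 := (h.2 s fun i e => hs ⟨i, e.symm⟩).1
  by_cases hy : y < s
  · simp only [Set.indicator_apply, Set.mem_setOf_eq, Set.mem_Ioo, hy, true_and, Pi.one_apply,
      Finset.sum_boole, h2]
    split_ifs <;> simp
  · simp [Set.indicator_apply, hy]

/-- The trace identity. -/
theorem Interl.dl_eq' {t ν : ι → ℝ} {θ : Option ι → ℝ} (h : Interl t ν θ) (y : ℝ) :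
    dl t ν y = (volume {s : ℝ | s < y ∧ Mf t ν s < s}).toReal - y := by
  have h1 := h.neg.dl_eq (-y)
  rw [dl, ← arrow_vol_neg] at h1
  rw [h1, h.dl_eq]
  have e : ∀ x : ℝ, max (x - y) 0 = max (-x - -y) 0 + (x - y) := fun x => by
    rcases le_total x y with h | h
    · rw [max_eq_right (by linarith), max_eq_left (by linarith)]
      ring
    · rw [max_eq_left (by linarith), max_eq_right (by linarith)]
      ring
  simp only [e, Finset.sum_add_distrib, Finset.sum_sub_distrib, h.1, Finset.sum_const,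
    Finset.card_univ, Fintype.card_option, nsmul_eq_mul]
  push_cast
  ring

end Vale.Agent.P078
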