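import Vale.Agent.P078b.Stab

open Polynomial MeasureTheory
open scoped ComplexConjugate

set_option linter.unusedSectionVars false
set_option linter.unusedVariables false

namespace Vale.Agent.P078

variable {V : Type*} [DecidableEq V] {κ : Type*} [Fintype κ] [DecidableEq κ]

theorem Contr.neg {X : V → V → ℂ} (h : Contr X) : Contr fun a b => -X a b := by
  intro S v
  simp only [neg_mul, Finset.sum_neg_distrib, norm_neg]
  exact h S v

theorem Herm.neg {X : V → V → ℂ} (h : Herm X) : Herm fun a b => -X a b := by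
  intro a b
  simp only [map_neg, h a b]

theorem Contr.norm_le {X : V → V → ℂ} (h : Contr X) (a b : V) : ‖X a b‖ ≤ 1 := by
  have h1 := h {a, b} fun j => if j = b then 1 else 0
  have h2 : ∀ i, ∑ j ∈ ({a, b} : Finset V), X i j * (if j = b then 1 else 0) = X i b := by
    intro i
    simp
  have h3 : ∑ j ∈ ({a, b} : Finset V), ‖(if j = b then 1 else 0 : ℂ)‖ ^ 2 = 1 := by
    rw [Finset.sum_eq_single b]
    · simp
    · intro j _ hj
      simp [hj]
    · simp
  simp only [h2, h3] at h1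
  have h4 : ‖X a b‖ ^ 2 ≤ 1 := (Finset.single_le_sum (f := fun i => ‖X i b‖ ^ 2)
    (fun i _ => sq_nonneg _) (Finset.mem_insert_self a {b})).trans h1
  nlinarith [norm_nonneg (X a b)]

theorem init0_det_im {X : V → V → ℂ} (hX : Herm X) (t : V → ℝ) (S : Finset V) :
    (1 - Matrix.of fun i j : S => (t i : ℂ) * X i j).det.im = 0 := by
  have h1 := Zf_pw1 (κ := Unit) X (fun j _ => (t j : ℂ)) S
  rw [Fintype.prod_unique] at h1
  rw [← h1]
  refine Zf_im_eq_zero hX fun j _ T => ?_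
  unfold pw1
  rw [← Complex.ofReal_prod, Complex.ofReal_im]

theorem init0_det_pos {X : V → V → ℂ} (hX : Herm X) (t : V → ℝ) (S : Finset V)
    (h : ∀ σ : ℝ, 0 ≤ σ → σ ≤ 1 → ∀ v : V → ℂ,
      (∀ i ∈ S, v i = ((σ * t i : ℝ) : ℂ) * ∑ j ∈ S, X i j * v j) → ∀ i ∈ S, v i = 0) :
    0 < (1 - Matrix.of fun i j : S => (t i : ℂ) * X i j).det.re := by
  let f : ℝ → ℝ := fun σ => (1 - Matrix.of fun i j : S => ((σ * t i : ℝ) : ℂ) * X i j).det.re
  have hf : Continuous f := by
    refine Complex.continuous_re.comp (Continuous.matrix_det ?_)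
    refine continuous_const.sub (continuous_matrix fun i j => ?_)
    simp only [Matrix.of_apply]
    fun_prop
  have hf0 : f 0 = 1 := by
    have : (Matrix.of fun i j : S => (((0 : ℝ) * t i : ℝ) : ℂ) * X i j) = 0 := by
      ext i j
      simp
    simp only [f, this, sub_zero, Matrix.det_one, Complex.one_re]
  have hf1 : f 1 = (1 - Matrix.of fun i j : S => (t i : ℂ) * X i j).det.re := by
    simp only [f, one_mul]
  rw [← hf1]
  by_contra hneg
  obtain ⟨σ, hσ, hσ0⟩ := intermediate_value_Icc' zero_le_one hf.continuousOn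
    (show (0 : ℝ) ∈ Set.Icc (f 1) (f 0) from ⟨not_lt.1 hneg, by rw [hf0]; exact zero_le_one⟩)
  have hdet : (1 - Matrix.of fun i j : S => ((σ * t i : ℝ) : ℂ) * X i j).det = 0 :=
    Complex.ext hσ0 (init0_det_im hX (fun i => σ * t i) S)
  obtain ⟨v, hv, hv0⟩ := Matrix.exists_mulVec_eq_zero_iff.2 hdet
  let w : V → ℂ := fun x => if hx : x ∈ S then v ⟨x, hx⟩ else 0
  have hw : ∀ i : S, w i = v i := fun i => by simp [w]
  have h1 := h σ hσ.1 hσ.2 w fun i hi => by
    have := congrFun hv0 ⟨i, hi⟩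
    rw [Matrix.sub_mulVec, Matrix.one_mulVec, Pi.sub_apply, Pi.zero_apply, sub_eq_zero] at this
    rw [hw ⟨i, hi⟩, this, ← Finset.sum_coe_sort S]
    simp only [Matrix.mulVec, dotProduct, Matrix.of_apply, Finset.mul_sum, mul_assoc, hw]
  apply hv
  funext i
  rw [← hw i]
  exact h1 i i.2

theorem init0_ker {X : V → V → ℂ} (hX : Herm X) (hc : Contr X) {F : Finset V} {k : V}
    (hk : k ∉ F) (h0 : X k k = 0) {w₀ : ℝ} (hw : 1 < w₀) {t : V → ℝ}
    (ht : ∀ j ∈ F, 0 ≤ t j ∧ t j ≤ 1 / w₀) (hτ : 0 ≤ t k ∧ t k < w₀ - 1) (v : V → ℂ)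
    (hv : ∀ i ∈ insert k F, v i = (t i : ℂ) * ∑ j ∈ insert k F, X i j * v j) :
    ∀ i ∈ insert k F, v i = 0 := by
  set y : V → ℂ := fun i => ∑ j ∈ F, X i j * v j with hy
  have hw0 : 0 < w₀ := by linarith
  have hC : ‖y k‖ ^ 2 + ∑ i ∈ F, ‖y i‖ ^ 2 ≤ ∑ j ∈ F, ‖v j‖ ^ 2 := by
    have h1 := hc (insert k F) (Function.update v k 0)
    have h2 : ∀ i, ∑ j ∈ insert k F, X i j * Function.update v k 0 j = y i := by
      intro i
      rw [Finset.sum_insert hk, Function.update_self, mul_zero, zero_add]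
      refine Finset.sum_congr rfl fun j hj => ?_
      rw [Function.update_of_ne (ne_of_mem_of_not_mem hj hk)]
    have h3 : ∑ j ∈ insert k F, ‖Function.update v k 0 j‖ ^ 2 = ∑ j ∈ F, ‖v j‖ ^ 2 := by
      rw [Finset.sum_insert hk, Function.update_self, norm_zero, zero_pow two_ne_zero, zero_add]
      refine Finset.sum_congr rfl fun j hj => ?_
      rw [Function.update_of_ne (ne_of_mem_of_not_mem hj hk)]
    simp only [h2, h3] at h1
    rwa [Finset.sum_insert hk] at h1
  have hvk : v k = (t k : ℂ) * y k := by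
    rw [hv k (Finset.mem_insert_self k F), Finset.sum_insert hk, h0, zero_mul, zero_add]
  have hvj : ∀ j ∈ F, v j = (t j : ℂ) * (X j k * v k + y j) := by
    intro j hj
    rw [hv j (Finset.mem_insert_of_mem hj), Finset.sum_insert hk]
  have h4 : ∑ j ∈ F, conj (v j) * (X j k * v k + y j) =
      (t k : ℂ) * (y k * conj (y k)) + ∑ j ∈ F, conj (v j) * y j := by
    have h5 : conj (y k) = ∑ j ∈ F, conj (v j) * X j k := by
      rw [hy]
      simp only [map_sum, map_mul]
      refine Finset.sum_congr rfl fun j _ => ?_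
      rw [hX k j, mul_comm]
    rw [← mul_assoc, ← hvk, h5, Finset.mul_sum, ← Finset.sum_add_distrib]
    refine Finset.sum_congr rfl fun j _ => ?_
    ring
  have h6 : w₀ * ∑ j ∈ F, ‖v j‖ ^ 2 ≤ (∑ j ∈ F, conj (v j) * (X j k * v k + y j)).re := by
    rw [Complex.re_sum, Finset.mul_sum]
    refine Finset.sum_le_sum fun j hj => ?_
    obtain ⟨h7, h8⟩ := ht j hj
    have h9 := hvj j hj
    generalize X j k * v k + y j = u at h9 ⊢
    rw [h9, map_mul, Complex.conj_ofReal, mul_assoc, Complex.conj_mul', ← Complex.ofReal_pow,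
      ← Complex.ofReal_mul, Complex.ofReal_re, norm_mul, Complex.norm_real, Real.norm_eq_abs,
      mul_pow, sq_abs]
    have h10 : w₀ * t j ≤ 1 := by
      rw [le_div_iff₀ hw0] at h8
      linarith
    have h11 : 0 ≤ t j * ‖u‖ ^ 2 := mul_nonneg h7 (sq_nonneg _)
    nlinarith [mul_le_of_le_one_left h11 h10]
  have h9 : (∑ j ∈ F, conj (v j) * y j).re ≤
      (∑ j ∈ F, ‖v j‖ ^ 2 + ∑ j ∈ F, ‖y j‖ ^ 2) / 2 := by
    rw [Complex.re_sum, ← Finset.sum_add_distrib, Finset.sum_div]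
    refine Finset.sum_le_sum fun j _ => ?_
    refine (Complex.re_le_norm _).trans ?_
    rw [norm_mul, Complex.norm_conj]
    nlinarith [sq_nonneg (‖v j‖ - ‖y j‖)]
  rw [h4, Complex.add_re, Complex.mul_conj', ← Complex.ofReal_pow, ← Complex.ofReal_mul,
    Complex.ofReal_re] at h6
  have hb0 : 0 ≤ ∑ j ∈ F, ‖v j‖ ^ 2 := Finset.sum_nonneg fun j _ => sq_nonneg _
  have hy0 : 0 ≤ ∑ j ∈ F, ‖y j‖ ^ 2 := Finset.sum_nonneg fun j _ => sq_nonneg _
  have hb : ∑ j ∈ F, ‖v j‖ ^ 2 = 0 := by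
    refine le_antisymm ?_ hb0
    by_contra hpos
    have hpos' := not_le.1 hpos
    have h10 : t k * ‖y k‖ ^ 2 ≤ t k * ∑ j ∈ F, ‖v j‖ ^ 2 :=
      mul_le_mul_of_nonneg_left (by linarith) hτ.1
    have h11 : t k * ∑ j ∈ F, ‖v j‖ ^ 2 < (w₀ - 1) * ∑ j ∈ F, ‖v j‖ ^ 2 :=
      mul_lt_mul_of_pos_right hτ.2 hpos'
    nlinarith [sq_nonneg ‖y k‖]
  have hF : ∀ j ∈ F, v j = 0 := by
    intro j hj
    have := (Finset.sum_eq_zero_iff_of_nonneg fun j _ => sq_nonneg ‖v j‖).1 hb j hj
    simpa using this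
  intro i hi
  rcases Finset.mem_insert.1 hi with rfl | hi
  · rw [hvk, hy]
    simp only
    rw [Finset.sum_eq_zero fun j hj => by rw [hF j hj, mul_zero], mul_zero]
  · exact hF i hi

/-- Positivity of the determinant with one test site of weight `τ`. -/
theorem det_test_pos {X : V → V → ℂ} (hX : Herm X) (hc : Contr X) {F : Finset V} {k : V}
    (hk : k ∉ F) (h0 : X k k = 0) {w₀ : ℝ} (hw : 1 < w₀) {t : V → ℝ}
    (ht : ∀ j ∈ F, 0 ≤ t j ∧ t j ≤ 1 / w₀) (hτ : 0 ≤ t k ∧ t k < w₀ - 1) :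
    0 < (1 - Matrix.of fun i j : ↥(insert k F) => (t i : ℂ) * X i j).det.re := by
  refine init0_det_pos hX t _ fun σ h1 h2 v hv => ?_
  refine init0_ker hX hc hk h0 hw (t := fun j => σ * t j) (fun j hj => ?_) ?_ v hv
  · obtain ⟨h3, h4⟩ := ht j hj
    exact ⟨mul_nonneg h1 h3, (mul_le_of_le_one_left h3 h2).trans h4⟩
  · exact ⟨mul_nonneg h1 hτ.1, (mul_le_of_le_one_left hτ.1 h2).trans_lt hτ.2⟩

theorem init0_Zf_pos {X : V → V → ℂ} (hX : Herm X) (t : V → κ → ℝ) (S : Finset V)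
    (h : ∀ c, 0 < (1 - Matrix.of fun i j : S => (t i c : ℂ) * X i j).det.re) :
    0 < (Zf X (fun j => pw1 fun c => (t j c : ℂ)) S).re := by
  rw [Zf_pw1]
  have h1 : ∀ c, (1 - Matrix.of fun i j : S => (t i c : ℂ) * X i j).det =
      (((1 - Matrix.of fun i j : S => (t i c : ℂ) * X i j).det.re : ℝ) : ℂ) := fun c =>
    Complex.ext (by simp) (by rw [Complex.ofReal_im]; exact init0_det_im hX (fun i => t i c) S)
  rw [Finset.prod_congr rfl fun c _ => h1 c, ← Complex.ofReal_prod, Complex.ofReal_re]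
  exact Finset.prod_pos fun c _ => h c

/-- Base case of the barrier induction: positivity. -/
theorem base_pos {X : V → V → ℂ} (hX : Herm X) (hc : Contr X) {F : Finset V} {w₀ : ℝ}
    (hw : 1 < w₀) {t : V → ℝ} (ht : ∀ j ∈ F, 0 ≤ t j ∧ t j ≤ 1 / w₀) :
    0 < (Zf X (fun j => pw1 fun _ : κ => (t j : ℂ)) F).re := by
  refine init0_Zf_pos hX (fun j _ => t j) F fun c => ?_
  refine init0_det_pos hX t F fun σ h1 h2 v hv => ?_
  have hw0 : 0 < w₀ := by linarith
  have h3 : ∑ i ∈ F, ‖v i‖ ^ 2 ≤ (1 / w₀) ^ 2 * ∑ i ∈ F, ‖v i‖ ^ 2 := by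
    refine le_trans ?_ (mul_le_mul_of_nonneg_left (hc F v) (sq_nonneg _))
    rw [Finset.mul_sum]
    refine Finset.sum_le_sum fun i hi => ?_
    obtain ⟨h4, h5⟩ := ht i hi
    rw [hv i hi, norm_mul, mul_pow, Complex.norm_real, Real.norm_eq_abs, sq_abs]
    refine mul_le_mul_of_nonneg_right ?_ (sq_nonneg _)
    exact pow_le_pow_left₀ (mul_nonneg h1 h4) ((mul_le_of_le_one_left h4 h2).trans h5) 2
  have h6 : (1 / w₀) ^ 2 < 1 :=
    pow_lt_one₀ (by positivity) ((div_lt_one hw0).2 hw) two_ne_zero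
  have hb0 : 0 ≤ ∑ j ∈ F, ‖v j‖ ^ 2 := Finset.sum_nonneg fun j _ => sq_nonneg _
  have hb : ∑ j ∈ F, ‖v j‖ ^ 2 = 0 := by nlinarith
  intro j hj
  have := (Finset.sum_eq_zero_iff_of_nonneg fun j _ => sq_nonneg ‖v j‖).1 hb j hj
  simpa using this

/-- Base case of the barrier induction: the self-energy bound. -/
theorem base_self {X : V → V → ℂ} (hX : Herm X) (hc : Contr X) {F : Finset V} {k : V}
    (hk : k ∉ F) (h0 : X k k = 0) {w₀ : ℝ} (hw : 1 < w₀) {t : V → ℝ}
    (ht : ∀ j ∈ F, 0 ≤ t j ∧ t j ≤ 1 / w₀) (c : κ) :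
    -(Zf X (Function.update (fun j => pw1 fun _ : κ => (t j : ℂ)) k (dlt {c})) (insert k F)).re ≤
      (Zf X (fun j => pw1 fun _ : κ => (t j : ℂ)) F).re / (w₀ - 1) := by
  have hP := base_pos (κ := κ) hX hc hw ht
  have key : ∀ τ : ℝ, 0 ≤ τ → τ < w₀ - 1 →
      0 < (Zf X (fun j => pw1 fun _ : κ => (t j : ℂ)) F).re + τ *
        (Zf X (Function.update (fun j => pw1 fun _ : κ => (t j : ℂ)) k (dlt {c}))
          (insert k F)).re := by
    intro τ h1 h2
    rw [← Complex.re_ofReal_mul, ← Complex.add_re, ← stab_split0 X _ hk]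
    have h3 : Function.update (fun j => pw1 fun _ : κ => (t j : ℂ)) k
        (pw1 (Function.update (fun _ => 0) c (τ : ℂ))) = fun j => pw1 fun c' =>
          ((Function.update t k (if c' = c then τ else 0) j : ℝ) : ℂ) := by
      funext j
      by_cases hj : j = k
      · subst hj
        simp only [Function.update_self]
        congr 1
        funext c'
        by_cases hc' : c' = c
        · subst hc'
          simp
        · simp [hc']
      · simp only [Function.update_of_ne hj]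
    rw [h3]
    refine init0_Zf_pos hX (fun j c' => Function.update t k (if c' = c then τ else 0) j) _
      fun c' => det_test_pos hX hc hk h0 hw (fun j hj => ?_) ?_
    · rw [Function.update_of_ne (ne_of_mem_of_not_mem hj hk)]
      exact ht j hj
    · rw [Function.update_self]
      split_ifs
      · exact ⟨h1, h2⟩
      · exact ⟨le_rfl, by linarith⟩
  generalize (Zf X (fun j => pw1 fun _ : κ => (t j : ℂ)) F).re = P at hP key ⊢
  generalize (Zf X (Function.update (fun j => pw1 fun _ : κ => (t j : ℂ)) k (dlt {c}))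
    (insert k F)).re = Q at key ⊢
  by_contra hlt
  have hw1 : 0 < w₀ - 1 := by linarith
  rw [not_le, div_lt_iff₀ hw1] at hlt
  have hQ : 0 < -Q := by
    by_contra h5
    nlinarith
  have h6 := key (P / -Q) (by positivity) (by rw [div_lt_iff₀ hQ]; linarith)
  have h7 : P / -Q * Q = -P := by
    have : Q ≠ 0 := by linarith
    field_simp
  linarith

end Vale.Agent.P078
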