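import Vale.Agent.P078b.Mob

open Polynomial MeasureTheory
open scoped ComplexConjugate

set_option linter.unusedSectionVars false
set_option linter.unusedVariables false

namespace Vale.Agent.P078

variable {V : Type*} [DecidableEq V] {κ : Type*} [Fintype κ] [DecidableEq κ]

theorem pwS_eq_pow (X : V → V → ℂ) (S : Finset V) (n : ℕ) (a b : S) :
    pwS X S n a b = ((Matrix.of fun i j : S => X i j) ^ n) a b := by
  induction n generalizing b with
  | zero =>
    rw [pow_zero, Matrix.one_apply]
    exact if_congr Subtype.ext_iff.symm rfl rfl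
  | succ n ih =>
    rw [pow_succ, Matrix.mul_apply]
    show ∑ c ∈ S, pwS X S n a c * X c b = _
    rw [← Finset.sum_coe_sort S]
    exact Finset.sum_congr rfl fun c _ => by rw [ih c]; rfl

theorem pwS_near {X : V → V → ℂ} {S : Finset V} {n : ℕ} {a b : V} (h : pwS X S n a b ≠ 0) :
    Near X n a b := by
  induction n generalizing b with
  | zero =>
    have : a = b := by
      by_contra hne
      exact h (if_neg hne)
    exact this ▸ Near.refl 0 a
  | succ n ih =>
    obtain ⟨c, -, hc⟩ := Finset.exists_ne_zero_of_sum_ne_zero h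
    exact Near.step (ih (left_ne_zero_of_mul hc)) (right_ne_zero_of_mul hc)

/-- Powers only see the ball around the starting point. -/
theorem pwS_congr_set {X : V → V → ℂ} {S S' : Finset V} {n : ℕ} {a : V}
    (h : ∀ c, Near X n a c → (c ∈ S ↔ c ∈ S')) (b : V) : pwS X S n a b = pwS X S' n a b := by
  induction n generalizing b with
  | zero => rfl
  | succ n ih =>
    have h' : ∀ c, Near X n a c → (c ∈ S ↔ c ∈ S') := fun c hc => h c (hc.mono n.le_succ)
    show ∑ c ∈ S, pwS X S n a c * X c b = ∑ c ∈ S', pwS X S' n a c * X c b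
    simp only [ih h']
    rw [← Finset.sum_subset (Finset.inter_subset_left (s₁ := S) (s₂ := S')),
      ← Finset.sum_subset (Finset.inter_subset_right (s₁ := S) (s₂ := S'))]
    · intro c hc hc'
      by_contra hne
      exact hc' (Finset.mem_inter.2 ⟨(h' c (pwS_near (left_ne_zero_of_mul hne))).2 hc, hc⟩)
    · intro c hc hc'
      by_contra hne
      exact hc' (Finset.mem_inter.2 ⟨hc, (h' c (pwS_near (left_ne_zero_of_mul hne))).1 hc⟩)

theorem Herm.xcol {X : V → V → ℂ} (hX : Herm X) (col : V → κ) : Herm (Xcol X col) := by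
  intro a b
  unfold Xcol
  by_cases h : col a = col b
  · rw [if_pos h, if_pos h.symm, hX]
  · rw [if_neg h, if_neg (Ne.symm h), map_zero]

theorem Herm.xsc {X : V → V → ℂ} (hX : Herm X) (s : V → ℝ) : Herm (Xsc s X) := by
  intro a b
  unfold Xsc
  rw [hX a b, map_mul, map_mul, Complex.conj_ofReal, Complex.conj_ofReal, mul_comm (s b : ℂ)]

theorem dg_congr {X X' : V → V → ℂ} {S : Finset V} (hX : ∀ a ∈ S, ∀ b ∈ S, X a b = X' a b)
    (n : ℕ) (a : V) : dg X n S a = dg X' n S a := by
  have key : ∀ b ∈ S, pwS X S n a b = pwS X' S n a b := by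
    induction n with
    | zero => exact fun _ _ => rfl
    | succ n ih => exact fun b hb => Finset.sum_congr rfl fun c hc => by rw [ih c hc, hX c hc b hb]
  unfold dg
  split_ifs with ha
  · rw [key a ha]
  · rfl

theorem dg_image {V' : Type*} [DecidableEq V'] (X : V → V → ℂ) (n : ℕ) {f : V' → V}
    {S : Finset V'} (hf : Set.InjOn f S) {a : V'} (ha : a ∈ S) :
    dg X n (S.image f) (f a) = dg (fun a b => X (f a) (f b)) n S a := by
  have key : ∀ b ∈ S, pwS X (S.image f) n (f a) (f b) =
      pwS (fun a b => X (f a) (f b)) S n a b := by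
    induction n with
    | zero => exact fun b hb => if_congr (hf.eq_iff ha hb) rfl rfl
    | succ n ih =>
      intro b hb
      show ∑ c ∈ S.image f, pwS X (S.image f) n (f a) c * X c (f b) = _
      rw [Finset.sum_image hf]
      exact Finset.sum_congr rfl fun c hc => by rw [ih c hc]
  unfold dg
  rw [if_pos ha, if_pos (Finset.mem_image_of_mem f ha), key a ha]

theorem dg_gauge (X : V → V → ℂ) (n : ℕ) (S : Finset V) (a : V) {θ : V → ℂ}
    (hθ : ∀ a, ‖θ a‖ = 1) : dg (fun a b => conj (θ a) * θ b * X a b) n S a = dg X n S a := by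
  have h1 : ∀ c, conj (θ c) * θ c = 1 := fun c => by
    rw [Complex.conj_mul', hθ]; simp
  have key : ∀ b, pwS (fun a b => conj (θ a) * θ b * X a b) S n a b =
      conj (θ a) * θ b * pwS X S n a b := by
    induction n with
    | zero =>
      intro b
      show (if a = b then 1 else 0) = _ * (if a = b then 1 else 0)
      split_ifs with h
      · rw [← h, h1, mul_one]
      · rw [mul_zero]
    | succ n ih =>
      intro b
      show ∑ c ∈ S, _ = _ * ∑ c ∈ S, _
      rw [Finset.mul_sum]
      refine Finset.sum_congr rfl fun c _ => ?_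
      rw [ih c]
      linear_combination (conj (θ a) * θ b * pwS X S n a c * X c b) * h1 c
  unfold dg
  rw [key a, h1, one_mul]

theorem dg_smul (X : V → V → ℂ) (s : ℝ) (n : ℕ) (S : Finset V) (a : V) :
    dg (fun a b => (s : ℂ) * X a b) n S a = s ^ n * dg X n S a := by
  have key : ∀ b, pwS (fun a b => (s : ℂ) * X a b) S n a b = ((s ^ n : ℝ) : ℂ) * pwS X S n a b := by
    induction n with
    | zero => intro b; simp [pwS]
    | succ n ih =>
      intro b
      show ∑ c ∈ S, _ = _ * ∑ c ∈ S, _
      rw [Finset.mul_sum]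
      refine Finset.sum_congr rfl fun c _ => ?_
      rw [ih c]
      push_cast
      ring
  unfold dg
  split_ifs
  · rw [key a, Complex.re_ofReal_mul]
  · rw [mul_zero]

theorem continuous_dg {P : Type*} [TopologicalSpace P] {X : P → V → V → ℂ}
    (hX : ∀ a b, Continuous fun p => X p a b) (n : ℕ) (S : Finset V) (a : V) :
    Continuous fun p => dg (X p) n S a := by
  have key : ∀ b, Continuous fun p => pwS (X p) S n a b := by
    induction n with
    | zero => exact fun b => continuous_const
    | succ n ih => exact fun b => continuous_finsetSum _ fun c _ => (ih c).mul (hX c b)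
  unfold dg
  split_ifs
  · exact Complex.continuous_re.comp (key a)
  · exact continuous_const

theorem mob_dg_near {X : V → V → ℂ} {n : ℕ} {T : Finset V} {a : V}
    (h : mob (fun S => dg X n S a) T ≠ 0) : a ∈ T ∧ ∀ c ∈ T, Near X n a c := by
  constructor
  · by_contra ha
    refine h (Finset.sum_eq_zero fun S hS => ?_)
    show _ * dg X n S a = 0
    unfold dg
    rw [if_neg fun h' => ha (Finset.mem_powerset.1 hS h'), mul_zero]
  · intro c hc
    by_contra hn
    have hca : a ≠ c := fun h' => hn (h' ▸ Near.refl n a)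
    refine h (mob_eq_zero_of_erase hc fun S _ => ?_)
    unfold dg
    rw [pwS_congr_set (S := S) (S' := S.erase c) fun d hd => by
      rw [Finset.mem_erase, and_iff_right fun h' : d = c => hn (h' ▸ hd)]]
    exact if_congr (by rw [Finset.mem_erase, and_iff_right hca]) rfl rfl

theorem pw_spec {n : Type*} [Fintype n] [DecidableEq n] {M : Matrix n n ℂ} (hM : M.IsHermitian) :
    ∃ p : n → n → ℝ, (∀ a i, 0 ≤ p a i) ∧ (∀ a, ∑ i, p a i = 1) ∧ (∀ i, ∑ a, p a i = 1) ∧
      ∀ (k : ℕ) (a : n), ((M ^ k) a a).re = ∑ i, p a i * hM.eigenvalues i ^ k := by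
  set U : Matrix n n ℂ := hM.eigenvectorUnitary.1 with hU
  have h1 : U * star U = 1 := Unitary.coe_mul_star_self _
  have h2 : star U * U = 1 := Unitary.coe_star_mul_self _
  refine ⟨fun a i => Complex.normSq (U a i), fun a i => Complex.normSq_nonneg _, fun a => ?_,
    fun i => ?_, fun k a => ?_⟩
  · have := congrArg Complex.re (congrFun (congrFun h1 a) a)
    simpa [Matrix.mul_apply, Complex.mul_conj] using this
  · have := congrArg Complex.re (congrFun (congrFun h2 i) i)
    simpa [Matrix.mul_apply, ← Complex.normSq_eq_conj_mul_self] using this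
  · have e : M ^ k = U * Matrix.diagonal (fun i => ((hM.eigenvalues i ^ k : ℝ) : ℂ)) * star U := by
      conv_lhs => rw [hM.spectral_theorem, ← map_pow, Unitary.conjStarAlgAut_apply,
        Matrix.diagonal_pow]
      congr 3
      funext i
      simp
    rw [e, Matrix.mul_apply, Complex.re_sum]
    refine Finset.sum_congr rfl fun i _ => ?_
    rw [Matrix.mul_diagonal, Matrix.star_apply, mul_right_comm, Complex.star_def, Complex.mul_conj,
      ← Complex.ofReal_mul, Complex.ofReal_re]

theorem pw_herm {X : V → V → ℂ} (hX : Herm X) (S : Finset V) :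
    (Matrix.of fun i j : S => X i j).IsHermitian :=
  Matrix.IsHermitian.ext fun i j => (hX j i).symm

/-- In a fully coloured state the power sum is a trace. -/
theorem Nq_col {X : V → V → ℂ} (hX : Herm X) (col : V → κ) (s : V → ℝ) {q : ℕ} (hq : 1 ≤ q)
    (S : Finset V) :
    Nq X (fun j c => if col j = c then s j ^ 2 else 0) q S =
      ∑ a ∈ S, dg (Xsc s (Xcol X col)) q S a := by
  have hM := pw_herm ((hX.xcol col).xsc s) S
  obtain ⟨p, -, -, hp, hk⟩ := pw_spec hM
  have h1 : pol X (fun j c => if col j = c then s j ^ 2 else 0) S =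
      ∏ i, (Polynomial.X - C (hM.eigenvalues i)) := by
    refine Polynomial.map_injective (algebraMap ℝ ℂ) (algebraMap ℝ ℂ).injective
      (Polynomial.funext fun z => ?_)
    rw [eval_map_algebraMap, eval_map_algebraMap, aeval_pol_col hX, hM.charpoly_eq, eval_prod,
      map_prod]
    simp
  rw [Nq_eq_of_pol h1 hq, ← Finset.sum_coe_sort S]
  have h2 : ∀ a : S, dg (Xsc s (Xcol X col)) q S a = ∑ i, p a i * hM.eigenvalues i ^ q :=
    fun a => by rw [← hk, ← pwS_eq_pow]; exact if_pos a.2
  simp only [h2]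
  rw [Finset.sum_comm]
  exact Finset.sum_congr rfl fun i _ => by rw [← Finset.sum_mul, hp, one_mul]

theorem pw_young {n q : ℕ} (hn : Even n) (hq : Even q) (hnq : n ≤ q) {l : ℝ} (hl : 0 < l) (x : ℝ) :
    x ^ n ≤ l ^ n + l ^ n / l ^ q * x ^ q := by
  rw [← hn.pow_abs x, ← hq.pow_abs x]
  rcases le_total |x| l with h | h
  · have h1 : |x| ^ n ≤ l ^ n := pow_le_pow_left₀ (abs_nonneg x) h n
    have h2 : 0 ≤ l ^ n / l ^ q * |x| ^ q := by positivity
    linarith
  · obtain ⟨k, rfl⟩ := Nat.exists_eq_add_of_le hnq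
    have h1 : l ^ k ≤ |x| ^ k := pow_le_pow_left₀ hl.le h k
    have h2 : l ^ n / l ^ (n + k) * |x| ^ (n + k) = |x| ^ n * (|x| ^ k / l ^ k) := by
      rw [pow_add, pow_add]; field_simp
    have h3 : 1 ≤ |x| ^ k / l ^ k := (one_le_div (pow_pos hl k)).2 h1
    have h4 : |x| ^ n ≤ |x| ^ n * (|x| ^ k / l ^ k) := le_mul_of_one_le_right (by positivity) h3
    have h5 : 0 < l ^ n := pow_pos hl n
    linarith

/-- Young's inequality for the spectral measure. -/
theorem dg_young {X : V → V → ℂ} (hX : Herm X) {n q : ℕ} (hn : Even n) (hq : Even q)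
    (hnq : n ≤ q) {l : ℝ} (hl : 0 < l) (S : Finset V) (a : V) :
    dg X n S a ≤ l ^ n + l ^ n / l ^ q * dg X q S a := by
  by_cases ha : a ∈ S
  · have hM := pw_herm hX S
    obtain ⟨p, h0, hp, -, hk⟩ := pw_spec hM
    have h2 : ∀ k, dg X k S a = ∑ i, p ⟨a, ha⟩ i * hM.eigenvalues i ^ k :=
      fun k => by rw [← hk, ← pwS_eq_pow]; exact if_pos ha
    rw [h2, h2, Finset.mul_sum, ← one_mul (l ^ n), ← hp ⟨a, ha⟩, Finset.sum_mul,
      ← Finset.sum_add_distrib]
    refine Finset.sum_le_sum fun i _ => ?_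
    have := mul_le_mul_of_nonneg_left (pw_young hn hq hnq hl (hM.eigenvalues i)) (h0 ⟨a, ha⟩ i)
    rw [← Finset.sum_mul, hp, one_mul]
    linarith
  · unfold dg
    rw [if_neg ha, if_neg ha, mul_zero, add_zero]
    positivity

/-- Removing a small multiplicative perturbation. -/
theorem pwS_perturb {X : V → V → ℂ} {s : V → ℝ} {S : Finset V} {a : V} {n : ℕ} {D τ : ℝ}
    (hD : ∀ b, ∑ c ∈ S, ‖X b c‖ ≤ D) (hτ : 0 ≤ τ)
    (hs : ∀ c, Near X n a c → |s c - 1| ≤ τ) (ha : a ∈ S) :
    |dg (Xsc s X) n S a - dg X n S a| ≤ ((1 + τ) ^ (2 * n) - 1) * D ^ n := by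
  have hD0 : 0 ≤ D := (Finset.sum_nonneg fun c _ => norm_nonneg _).trans (hD a)
  set ρ : ℝ := (1 + τ) ^ 2 with hρ
  have hρ1 : 1 ≤ ρ := one_le_pow₀ (by linarith)
  have hst : ∀ c b, Near X n a c → Near X n a b → |s c * s b - 1| ≤ ρ - 1 := fun c b hc hb => by
    have h1 := hs c hc
    have h2 := hs b hb
    have e : s c * s b - 1 = (s c - 1) * (s b - 1) + (s c - 1) + (s b - 1) := by ring
    have h3 : |(s c - 1) * (s b - 1)| ≤ τ * τ := by
      rw [abs_mul]; exact mul_le_mul h1 h2 (abs_nonneg _) hτ
    have h4 := abs_add_three ((s c - 1) * (s b - 1)) (s c - 1) (s b - 1)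
    rw [e, hρ]; nlinarith
  have hsum : ∀ (g : V → ℝ), (∀ c, 0 ≤ g c) →
      ∑ b ∈ S, ∑ c ∈ S, g c * ‖X c b‖ ≤ (∑ c ∈ S, g c) * D := fun g hg => by
    rw [Finset.sum_comm, Finset.sum_mul]
    exact Finset.sum_le_sum fun c _ => by
      rw [← Finset.mul_sum]; exact mul_le_mul_of_nonneg_left (hD c) (hg c)
  have key : ∀ m ≤ n, ∑ b ∈ S, ‖pwS X S m a b‖ ≤ D ^ m ∧
      ∑ b ∈ S, ‖pwS (Xsc s X) S m a b - pwS X S m a b‖ ≤ (ρ ^ m - 1) * D ^ m := by
    intro m
    induction m with
    | zero =>
      refine fun _ => ⟨?_, by simp [pwS]⟩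
      rw [Finset.sum_eq_single a (fun b _ hb => by simp [pwS, hb.symm]) (fun h => absurd ha h)]
      simp [pwS]
    | succ m ih =>
      intro hm
      obtain ⟨h1, h2⟩ := ih (by omega)
      constructor
      · calc ∑ b ∈ S, ‖pwS X S (m + 1) a b‖ ≤ ∑ b ∈ S, ∑ c ∈ S, ‖pwS X S m a c‖ * ‖X c b‖ :=
              Finset.sum_le_sum fun b _ => (norm_sum_le _ _).trans_eq
                (Finset.sum_congr rfl fun c _ => norm_mul _ _)
          _ ≤ (∑ c ∈ S, ‖pwS X S m a c‖) * D := hsum _ fun c => norm_nonneg _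
          _ ≤ D ^ (m + 1) := by rw [pow_succ]; exact mul_le_mul_of_nonneg_right h1 hD0
      · have h3 : ∀ b c, ‖pwS (Xsc s X) S m a c * Xsc s X c b - pwS X S m a c * X c b‖ ≤
            (‖pwS (Xsc s X) S m a c - pwS X S m a c‖ * ρ + ‖pwS X S m a c‖ * (ρ - 1)) *
              ‖X c b‖ := fun b c => by
          by_cases hcb : X c b = 0
          · simp [Xsc, hcb]
          by_cases hc : Near X m a c
          · have h4 := hst c b (hc.mono (by omega)) ((Near.step hc hcb).mono hm)
            have h5 : |s c * s b| ≤ ρ := by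
              have := abs_add_le (s c * s b - 1) 1
              rw [sub_add_cancel, abs_one] at this
              linarith
            have e : pwS (Xsc s X) S m a c * Xsc s X c b - pwS X S m a c * X c b =
                ((pwS (Xsc s X) S m a c - pwS X S m a c) * ((s c * s b : ℝ) : ℂ) +
                  pwS X S m a c * ((s c * s b - 1 : ℝ) : ℂ)) * X c b := by
              unfold Xsc; push_cast; ring
            rw [e, norm_mul]
            refine mul_le_mul_of_nonneg_right ((norm_add_le _ _).trans ?_) (norm_nonneg _)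
            rw [norm_mul, norm_mul, Complex.norm_real, Complex.norm_real]
            exact add_le_add (mul_le_mul_of_nonneg_left h5 (norm_nonneg _))
              (mul_le_mul_of_nonneg_left h4 (norm_nonneg _))
          · have e1 : pwS X S m a c = 0 := by_contra fun h => hc (pwS_near h)
            have e2 : pwS (Xsc s X) S m a c = 0 := by_contra fun h =>
              hc ((pwS_near h).of_imp fun a b hab => right_ne_zero_of_mul hab)
            simp [e1, e2]
        calc ∑ b ∈ S, ‖pwS (Xsc s X) S (m + 1) a b - pwS X S (m + 1) a b‖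
            ≤ ∑ b ∈ S, ∑ c ∈ S, (‖pwS (Xsc s X) S m a c - pwS X S m a c‖ * ρ +
                ‖pwS X S m a c‖ * (ρ - 1)) * ‖X c b‖ := by
              refine Finset.sum_le_sum fun b _ => ?_
              show ‖∑ c ∈ S, _ - ∑ c ∈ S, _‖ ≤ _
              rw [← Finset.sum_sub_distrib]
              exact (norm_sum_le _ _).trans (Finset.sum_le_sum fun c _ => h3 b c)
          _ ≤ (∑ c ∈ S, (‖pwS (Xsc s X) S m a c - pwS X S m a c‖ * ρ +
                ‖pwS X S m a c‖ * (ρ - 1))) * D :=
              hsum _ fun c => add_nonneg (mul_nonneg (norm_nonneg _) (by linarith))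
                (mul_nonneg (norm_nonneg _) (by linarith))
          _ ≤ ((ρ ^ m - 1) * D ^ m * ρ + D ^ m * (ρ - 1)) * D := by
              rw [Finset.sum_add_distrib, ← Finset.sum_mul, ← Finset.sum_mul]
              exact mul_le_mul_of_nonneg_right (add_le_add
                (mul_le_mul_of_nonneg_right h2 (by linarith))
                (mul_le_mul_of_nonneg_right h1 (by linarith))) hD0
          _ = (ρ ^ (m + 1) - 1) * D ^ (m + 1) := by ring
  unfold dg
  rw [if_pos ha, if_pos ha, ← Complex.sub_re, pow_mul]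
  exact (Complex.abs_re_le_norm _).trans ((Finset.single_le_sum
    (f := fun b => ‖pwS (Xsc s X) S n a b - pwS X S n a b‖) (fun _ _ => norm_nonneg _) ha).trans
    (key n le_rfl).2)

end Vale.Agent.P078
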