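import Vale.Agent.P078b.Trans
import Vale.Agent.P078b.Pw
import Vale.Agent.P078b.Init0

open Polynomial MeasureTheory
open scoped ComplexConjugate

set_option linter.unusedSectionVars false
set_option linter.unusedVariables false

namespace Vale.Agent.P078

universe u

variable {Ω : Type u} [TopologicalSpace Ω] [CompactSpace Ω] [T2Space Ω]
  [TotallyDisconnectedSpace Ω] [DecidableEq Ω] {B : Base Ω} {R : ℕ}
variable {κ : Type*} [Fintype κ] [DecidableEq κ]

theorem locn_rpow (B : Base Ω) (a x : Ω) (p : ℝ) :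
    B.w x ^ p = B.w a ^ p * (B.w x / B.w a) ^ p := by
  rw [← Real.mul_rpow (B.w_pos a).le (div_pos (B.w_pos x) (B.w_pos a)).le,
    mul_div_cancel₀ _ (B.w_pos a).ne']

theorem locn_pow (B : Base Ω) (a : Ω) {q : ℕ} (hq : 1 ≤ q) : (B.w a ^ (1 / q : ℝ)) ^ q = B.w a := by
  rw [one_div, Real.rpow_inv_natCast_pow (B.w_pos a).le (by omega)]

theorem locn_cont (ch : Chart B R) (v : ch.W) (p : ℝ) :
    Continuous fun a => (B.w (ch.t v a) / B.w a) ^ p :=
  (ch.w_cont v).rpow_const fun a => Or.inl (div_pos (B.w_pos _) (B.w_pos a)).ne'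

theorem Chart.locC_Nq (ch : Chart B R) {q : ℕ} (hq : 1 ≤ q) {b : Ω → κ → ℝ}
    (hb : IsLocallyConstant b) : ch.LocC fun T _ => Nq B.X (B.tilt q b) q T := by
  intro U u
  refine ch.continuous_of_inj (G := fun T _ a => Nq B.X (B.tilt q b) q T / B.w a)
    (fun U u a₀ hU _ => ?_) U u
  have hc : Continuous fun a => Nq (fun v v' => ch.Y v v' a)
      (fun v c => (B.w (ch.t v a) / B.w a) ^ (1 / q : ℝ) * b (ch.t v a) c) q U :=
    continuous_Nq (fun v v' => ch.Y_cont v v') (fun v c => (locn_cont ch v _).mul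
      ((hb.comp fun f => f c).continuous.comp (ch.cont v))) q U
  refine hc.continuousAt.congr ?_
  filter_upwards [ch.eventually_coin a₀] with a ha
  have hi : Set.InjOn (fun v => ch.t v a) U := fun v hv v' hv' e => hU hv hv' ((ha _ _).1 e)
  have e : (fun v => B.tilt q b (ch.t v a)) = fun v c => B.w a ^ (1 / q : ℝ) *
      ((B.w (ch.t v a) / B.w a) ^ (1 / q : ℝ) * b (ch.t v a) c) := by
    funext v c
    unfold Base.tilt
    rw [locn_rpow B a, mul_assoc]
  rw [Nq_image _ _ _ hi, e]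
  simp only [ch.gauge]
  rw [Nq_gauge _ _ _ _ (ch.θ_norm a), Nq_smul, locn_pow B a hq,
    mul_div_cancel_left₀ _ (B.w_pos a).ne']

theorem Chart.locC_ps (ch : Chart B R) {q : ℕ} (hq : 1 ≤ q) {b : Ω → κ → ℝ}
    (hb : IsLocallyConstant b) : ch.LocC (B.ps q b) := by
  exact (ch.locC_Nq hq hb).mob

theorem Base.supp_ps (B : Base Ω) {q : ℕ} {b : Ω → κ → ℝ} (hb : ∀ a c, 0 ≤ b a c) (hR : q ≤ R) :
    B.Supp R (B.ps q b) := by
  exact fun T a _ h => (psi_small B.herm (fun j _ c =>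
    mul_nonneg (Real.rpow_nonneg (B.w_pos j).le _) (hb j c)) h).mono hR

theorem Chart.locC_dg (ch : Chart B R) {q : ℕ} (hq : 1 ≤ q) {col : Ω → κ}
    (hcol : IsLocallyConstant col) (c : ℝ) :
    ch.LocC fun T a => dg (Xsc (fun j => c * B.w j ^ (1 / (2 * q) : ℝ)) (Xcol B.X col)) q T a := by
  intro U u
  refine ch.continuous_of_inj (G := fun T x a =>
    dg (Xsc (fun j => c * B.w j ^ (1 / (2 * q) : ℝ)) (Xcol B.X col)) q T x / B.w a)
    (fun U u a₀ hU hu => ?_) U u
  by_cases huU : u ∈ U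
  · have hc : Continuous fun a => dg (fun v v' =>
        ((c * (B.w (ch.t v a) / B.w a) ^ (1 / (2 * q) : ℝ) : ℝ) : ℂ) *
        ((c * (B.w (ch.t v' a) / B.w a) ^ (1 / (2 * q) : ℝ) : ℝ) : ℂ) *
          if col (ch.t v a₀) = col (ch.t v' a₀) then ch.Y v v' a else 0) q U u := by
      refine continuous_dg (fun v v' => ((Complex.continuous_ofReal.comp
        (continuous_const.mul (locn_cont ch v _))).mul (Complex.continuous_ofReal.comp
        (continuous_const.mul (locn_cont ch v' _)))).mul ?_) q U u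
      split_ifs
      · exact ch.Y_cont v v'
      · exact continuous_const
    refine hc.continuousAt.congr ?_
    have hcol' : ∀ᶠ a in nhds a₀, ∀ v, col (ch.t v a) = col (ch.t v a₀) :=
      Filter.eventually_all.2 fun v => (hcol.comp_continuous (ch.cont v)).eventually_eq a₀
    filter_upwards [ch.eventually_coin a₀, hcol'] with a ha ha'
    have hi : Set.InjOn (fun v => ch.t v a) U := fun v hv v' hv' e => hU hv hv' ((ha _ _).1 e)
    have e0 : B.w a ^ (1 / q : ℝ) = B.w a ^ (1 / (2 * q) : ℝ) * B.w a ^ (1 / (2 * q) : ℝ) := by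
      rw [← Real.rpow_add (B.w_pos a)]
      congr 1
      have : (q : ℝ) ≠ 0 := Nat.cast_ne_zero.2 (by omega)
      field_simp
      norm_num
    have e : (fun v v' => Xsc (fun j => c * B.w j ^ (1 / (2 * q) : ℝ)) (Xcol B.X col)
        (ch.t v a) (ch.t v' a)) = fun v v' => conj (ch.θ a v) * ch.θ a v' *
        (((B.w a ^ (1 / q : ℝ) : ℝ) : ℂ) *
          (((c * (B.w (ch.t v a) / B.w a) ^ (1 / (2 * q) : ℝ) : ℝ) : ℂ) *
          ((c * (B.w (ch.t v' a) / B.w a) ^ (1 / (2 * q) : ℝ) : ℝ) : ℂ) *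
          if col (ch.t v a₀) = col (ch.t v' a₀) then ch.Y v v' a else 0)) := by
      funext v v'
      unfold Xsc Xcol
      beta_reduce
      have r1 := locn_rpow B a (ch.t v a) (1 / (2 * q) : ℝ)
      have r2 := locn_rpow B a (ch.t v' a) (1 / (2 * q) : ℝ)
      rw [ha', ha', ch.gauge, r1, r2, e0]
      split_ifs
      · push_cast; ring
      · simp
    rw [dg_image _ _ hi huU, e, dg_gauge _ _ _ _ (ch.θ_norm a), dg_smul, locn_pow B a hq,
      mul_div_cancel_left₀ _ (B.w_pos a).ne']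
  · refine (continuousAt_const (y := (0 : ℝ))).congr ?_
    filter_upwards [ch.eventually_coin a₀] with a ha
    unfold dg
    rw [if_neg, zero_div]
    simp only [Finset.mem_image, ha]
    exact fun h => huU (hu h)

theorem Chart.locS_pl (ch : Chart B R) (m : ℕ) :
    ch.LocS fun T a => if a ∈ T then B.w a ^ m / ∑ j ∈ T, B.w j ^ m else 0 := by
  intro U u
  refine ch.continuous_of_inj (G := fun T x _ => if x ∈ T then B.w x ^ m / ∑ j ∈ T, B.w j ^ m else 0)
    (fun U u a₀ hU hu => ?_) U u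
  by_cases huU : u ∈ U
  · have hc : Continuous fun a => (B.w (ch.t u a) / B.w a) ^ m /
        ∑ v ∈ U, (B.w (ch.t v a) / B.w a) ^ m :=
      ((ch.w_cont u).pow m).div (continuous_finsetSum _ fun v _ => (ch.w_cont v).pow m) fun a =>
        (Finset.sum_pos (fun v _ => pow_pos (div_pos (B.w_pos _) (B.w_pos a)) m) ⟨u, huU⟩).ne'
    refine hc.continuousAt.congr ?_
    filter_upwards [ch.eventually_coin a₀] with a ha
    have hi : Set.InjOn (fun v => ch.t v a) U := fun v hv v' hv' e => hU hv hv' ((ha _ _).1 e)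
    rw [if_pos (Finset.mem_image_of_mem (fun v => ch.t v a) huU), Finset.sum_image hi]
    simp only [div_pow]
    rw [← Finset.sum_div, div_div_div_cancel_right₀ (pow_pos (B.w_pos a) m).ne']
  · refine (continuousAt_const (y := (0 : ℝ))).congr ?_
    filter_upwards [ch.eventually_coin a₀] with a ha
    rw [if_neg]
    simp only [Finset.mem_image, ha]
    exact fun h => huU (hu h)

/-- A locally constant selection from an open cover. -/
theorem exists_lc_choice {α : Type*} (V : α → Set Ω) (hV : ∀ i, IsOpen (V i))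
    (h : ∀ a, ∃ i, a ∈ V i) : ∃ g : Ω → α, IsLocallyConstant g ∧ ∀ a, a ∈ V (g a) := by
  have hU : TopologicalSpace.IsOpenCover fun i => (⟨V i, hV i⟩ : TopologicalSpace.Opens Ω) :=
    TopologicalSpace.IsOpenCover.of_sets hV (Set.eq_univ_of_forall fun a => Set.mem_iUnion.2 (h a))
  obtain ⟨n, W, h1, h2, h3⟩ := hU.exists_finite_nonempty_disjoint_clopen_cover
  choose i hi using fun j => (h1 j).2
  choose r hr using fun a => Set.mem_iUnion.1 (h2 (Set.mem_univ a))
  refine ⟨fun a => i (r a), IsLocallyConstant.comp (f := r) ?_ i, fun a => hi _ (hr a)⟩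
  refine (IsLocallyConstant.iff_eventually_eq r).2 fun a₀ => ?_
  filter_upwards [(W (r a₀)).isClopen.isOpen.mem_nhds (hr a₀)] with a ha
  by_contra hne
  have h4 : Disjoint (W (r a) : Set Ω) (W (r a₀)) :=
    TopologicalSpace.Clopens.coe_disjoint.2 (h3 hne)
  exact Set.disjoint_left.1 h4 (hr a) ha

/-- Sparse classes. -/
theorem Chart.exists_cls (ch : Chart B R) : ∃ (n : ℕ) (cls : Ω → ℕ), IsLocallyConstant cls ∧
    (∀ a, cls a < n) ∧ ∀ a, Set.InjOn cls (ch.N a) := by
  classical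
  let K : Set (Ω × Ω) := ⋃ p : ch.W × ch.W,
    (fun a => (ch.t p.1 a, ch.t p.2 a)) '' {a | ch.t p.1 a = ch.t p.2 a}ᶜ
  have hK : IsClosed K := isClosed_iUnion_of_finite fun p =>
    ((ch.coin p.1 p.2).isClosed_compl.isCompact.image
      ((ch.cont p.1).prodMk (ch.cont p.2))).isClosed
  have hV : ∀ x : Ω, ∃ V : Set Ω, IsOpen V ∧ x ∈ V ∧ V ×ˢ V ⊆ Kᶜ := fun x => by
    have : Kᶜ ∈ nhds (x, x) := hK.isOpen_compl.mem_nhds fun hx => by
      obtain ⟨p, a, ha, e⟩ := Set.mem_iUnion.1 hx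
      exact ha ((congrArg Prod.fst e).trans (congrArg Prod.snd e).symm)
    obtain ⟨u, v, huo, hux, hvo, hvx, H⟩ := mem_nhds_prod_iff'.1 this
    exact ⟨_, huo.inter hvo, ⟨hux, hvx⟩, fun p hp => H ⟨hp.1.1, hp.2.2⟩⟩
  choose V hVo hVx hVK using hV
  obtain ⟨g, hg, hgV⟩ := exists_lc_choice V hVo fun a => ⟨a, hVx a⟩
  have : Finite (Set.range g) := hg.range_finite
  obtain ⟨n, ⟨e⟩⟩ := Finite.exists_equiv_fin (Set.range g)
  let f : Ω → ℕ := fun y => if h : y ∈ Set.range g then e ⟨y, h⟩ else 0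
  have hf : ∀ a, f (g a) = e ⟨g a, a, rfl⟩ := fun a => dif_pos _
  refine ⟨n, fun a => f (g a), hg.comp f, fun a => (hf a).trans_lt (Fin.isLt _),
    fun a x hx y hy hxy => ?_⟩
  have h1 : g x = g y := by
    have h2 : f (g x) = f (g y) := hxy
    rw [hf, hf] at h2
    exact congrArg Subtype.val (e.injective (Fin.ext h2))
  obtain ⟨u, -, rfl⟩ := Finset.mem_image.1 hx
  obtain ⟨u', -, rfl⟩ := Finset.mem_image.1 hy
  by_contra hne
  exact hVK (g (ch.t u a)) (Set.mk_mem_prod (hgV _) (h1 ▸ hgV _))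
    (Set.mem_iUnion.2 ⟨(u, u'), a, hne, rfl⟩)

/-- Uniform degree and weight ratio bounds. -/
theorem Chart.exists_bounds (ch : Chart B 1) : ∃ D Γ : ℝ, 1 ≤ D ∧ 1 ≤ Γ ∧
    (∀ (b : Ω) (S : Finset Ω), ∑ c ∈ S, ‖B.X b c‖ ≤ D) ∧
    ∀ n a c, Near B.X n a c → B.w c ≤ Γ ^ n * B.w a ∧ B.w a ≤ Γ ^ n * B.w c := by
  have hc : Continuous fun a => ∑ u, B.w (ch.t u a) / B.w a :=
    continuous_finsetSum _ fun u _ => ch.w_cont u
  obtain ⟨Γ, hΓ⟩ := (isCompact_range hc).bddAbove
  have hedge : ∀ b c, B.X b c ≠ 0 → B.w c ≤ max 1 Γ * B.w b := fun b c hbc => by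
    obtain ⟨u, rfl⟩ := ch.near b c (Near.step (Near.refl 0 b) hbc)
    rw [← div_le_iff₀ (B.w_pos b)]
    exact ((Finset.single_le_sum (f := fun u => B.w (ch.t u b) / B.w b)
      (fun u _ => (div_pos (B.w_pos _) (B.w_pos b)).le) (Finset.mem_univ u)).trans
      (hΓ ⟨b, rfl⟩)).trans (le_max_right _ _)
  have h1 : (1 : ℝ) ≤ max 1 Γ := le_max_left _ _
  refine ⟨max 1 (Fintype.card ch.W), max 1 Γ, le_max_left _ _, h1, fun b S => ?_,
    fun n a c h => ?_⟩
  · calc ∑ c ∈ S, ‖B.X b c‖ ≤ ∑ c ∈ ch.N b, ‖B.X b c‖ :=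
          (Finset.sum_subset Finset.inter_subset_left fun c hc hc' => by_contra fun h0 =>
            hc' (Finset.mem_inter.2 ⟨hc, ch.mem_N_of_near
              (Near.step (Near.refl 0 b) (norm_ne_zero_iff.1 h0))⟩)).symm.le.trans
          (Finset.sum_le_sum_of_subset_of_nonneg Finset.inter_subset_right
            fun _ _ _ => norm_nonneg _)
      _ ≤ (ch.N b).card • (1 : ℝ) := Finset.sum_le_card_nsmul _ _ _ fun c _ => B.contr.norm_le b c
      _ ≤ Fintype.card ch.W := by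
          rw [nsmul_eq_mul, mul_one]
          exact Nat.cast_le.2 Finset.card_image_le
      _ ≤ _ := le_max_right _ _
  · induction h with
    | refl n a =>
      have := le_mul_of_one_le_left (B.w_pos a).le (one_le_pow₀ (n := n) h1)
      exact ⟨this, this⟩
    | @step n a b c _ hbc ih =>
      have hcb : B.X c b ≠ 0 := by
        rw [B.herm b c]; exact (_root_.map_ne_zero _).2 hbc
      have h0 : (0 : ℝ) ≤ max 1 Γ := by linarith
      constructor
      · rw [pow_succ', mul_assoc]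
        exact (hedge b c hbc).trans (mul_le_mul_of_nonneg_left ih.1 h0)
      · rw [pow_succ, mul_assoc]
        exact ih.2.trans (mul_le_mul_of_nonneg_left (hedge c b hcb) (pow_nonneg h0 n))

end Vale.Agent.P078
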