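import Vale.Agent.P078b.Alloc
import Vale.Agent.P078b.LocN

open Polynomial MeasureTheory
open scoped ComplexConjugate

set_option linter.unusedSectionVars false
set_option linter.unusedVariables false

namespace Vale.Agent.P078

universe u

variable {Ω : Type u} [TopologicalSpace Ω] [CompactSpace Ω] [T2Space Ω]
  [TotallyDisconnectedSpace Ω] [DecidableEq Ω] {B : Base Ω} {R : ℕ}
variable {κ : Type*} [Fintype κ] [DecidableEq κ]

theorem gfin_ne {X : Ω → Ω → ℂ} {s : Ω → ℝ} {col : Ω → κ} {u v : Ω}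
    (h : Xsc s (Xcol X col) u v ≠ 0) : X u v ≠ 0 := fun h' => h (by simp [Xsc, Xcol, h'])

theorem gfin_sq {x : ℝ} (hx : 0 ≤ x) (q : ℕ) : (x ^ (1 / (2 * q) : ℝ)) ^ 2 = x ^ (1 / q : ℝ) := by
  rw [← Real.rpow_natCast, ← Real.rpow_mul hx]
  congr 1
  push_cast
  ring

/-- The potential of a coloured state is a moment. -/
theorem Chart.pot_col (ch : Chart B R) {q : ℕ} (hq : 1 ≤ q) (hR : 2 * q ≤ R) {col : Ω → κ}
    (hcol : IsLocallyConstant col) {c : ℝ} :
    (Continuous fun a => dg (Xsc (fun j => c * B.w j ^ (1 / (2 * q) : ℝ)) (Xcol B.X col)) q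
      (ch.N a) a / B.w a) ∧
    ch.pot q (fun a σ => if col a = σ then c ^ 2 else 0) =
      B.I fun a => dg (Xsc (fun j => c * B.w j ^ (1 / (2 * q) : ℝ)) (Xcol B.X col)) q
        (ch.N a) a / B.w a := by
  obtain ⟨Y, hY⟩ : ∃ Y, Y = Xsc (fun j => c * B.w j ^ (1 / (2 * q) : ℝ)) (Xcol B.X col) := ⟨_, rfl⟩
  have h1 : ch.LocC fun T a => mob (fun S => dg Y q S a) T := hY ▸ (ch.locC_dg hq hcol c).mob
  have h2 : ch.loc (fun T a => mob (fun S => dg Y q S a) T) =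
      fun a => dg Y q (ch.N a) a / B.w a := by
    funext a
    rw [Chart.loc, sum_mob_mem _ (ch.self_mem_N a), dg, dg, if_neg (Finset.notMem_erase _ _),
      sub_zero]
  have h3 : B.Supp R fun T a => mob (fun S => dg Y q S a) T := fun T a _ h b hb b' hb' => by
    have h4 : ∀ b ∈ T, Near B.X q a b := fun b hb =>
      ((mob_dg_near h).2 b hb).of_imp fun u v h5 => gfin_ne (hY ▸ h5)
    exact (((h4 b hb).symm B.herm).trans (h4 b' hb')).mono (by omega)
  rw [← hY, ← h2, ch.alloc_tot h1 h3]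
  refine ⟨h1.continuous_loc, congrArg (fun Ψ => B.I (ch.loc Ψ)) ?_⟩
  funext T a
  have h4 : B.tilt q (fun a σ => if col a = σ then c ^ 2 else 0) =
      fun j σ => if col j = σ then (c * B.w j ^ (1 / (2 * q) : ℝ)) ^ 2 else 0 := by
    funext j σ
    rw [Base.tilt, mul_pow, gfin_sq (B.w_pos j).le, mul_ite, mul_zero, mul_comm]
  rw [Base.ps, psi, h4, ← mob_sum]
  refine congrArg (· * _) (mob_congr fun S hS => ?_)
  rw [Nq_col B.herm col _ hq, ← hY]
  exact Finset.sum_subset hS fun a _ ha => if_neg ha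

/-- From the potential to the low moments. -/
theorem moment_le (B : Base Ω) (ch₁ : Chart B 1) {n : ℕ} (hn : Even n) {η : ℝ} (hη : 0 < η) :
    ∃ q₀ : ℕ, ∀ q, q₀ ≤ q → Even q → ∀ (ch : Chart B (2 * q)) (col : Ω → κ),
      IsLocallyConstant col → ∀ l : ℝ, 0 < l → ∀ F : Ω → ℝ, Continuous F →
      (∀ a S, (∀ c, Near B.X n a c → c ∈ S) → F a = (pwS (Xcol B.X col) S n a a).re) →
      B.I F ≤ l ^ n + l ^ n / l ^ q * 3000 ^ q *
        ch.pot q (fun a σ => if col a = σ then 1 / 3000 else 0) + η := by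
  obtain ⟨D, Γ, hD1, hΓ, hD, hw⟩ := ch₁.exists_bounds
  have hA : 1 ≤ Γ ^ n := one_le_pow₀ hΓ
  have hlim : Filter.Tendsto (fun q : ℕ => (((Γ ^ n) ^ (1 / (2 * q) : ℝ)) ^ (2 * n) - 1) * D ^ n)
      Filter.atTop (nhds ((((Γ ^ n) ^ (0 : ℝ)) ^ (2 * n) - 1) * D ^ n)) :=
    ((((Real.continuousAt_const_rpow (one_pos.trans_le hA).ne').tendsto.comp
      (tendsto_const_nhds.div_atTop (tendsto_natCast_atTop_atTop.const_mul_atTop
        two_pos))).pow _).sub_const _).mul_const _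
  rw [Real.rpow_zero, one_pow, sub_self, zero_mul] at hlim
  obtain ⟨q₀, hq₀⟩ := Filter.eventually_atTop.1 (hlim.eventually (ge_mem_nhds hη))
  refine ⟨q₀ + n + 1, fun q hq he ch col hcol l hl F hF hFa => ?_⟩
  have hq1 : 1 ≤ q := by omega
  have hc : √(1 / 3000) ^ 2 = (1 / 3000 : ℝ) := Real.sq_sqrt (by norm_num)
  obtain ⟨hG, hpot⟩ := ch.pot_col hq1 le_rfl hcol (c := √(1 / 3000))
  rw [hc] at hpot
  rw [hpot, ← B.I_smul _ _ hG]
  have hG' := hG.const_mul (l ^ n / l ^ q * 3000 ^ q)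
  have key := B.I_le_const (hF.sub hG') (c := l ^ n + η) (by positivity) fun a => ?_
  · have := B.I_sub hF hG'
    simp only [Pi.sub_def] at key
    linarith
  have hp : (0 : ℝ) ≤ 1 / (2 * q) := by positivity
  have hwa := B.w_pos a
  have h1 : 1 ≤ (Γ ^ n) ^ (1 / (2 * q) : ℝ) := Real.one_le_rpow hA hp
  have h2 := pwS_perturb (X := Xcol B.X col) (s := fun j => (B.w j / B.w a) ^ (1 / (2 * q) : ℝ))
    (S := ch.N a) (a := a) (n := n) (D := D) (τ := (Γ ^ n) ^ (1 / (2 * q) : ℝ) - 1)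
    (fun b => (Finset.sum_le_sum fun c _ => by
      unfold Xcol
      split_ifs
      exacts [le_rfl, norm_zero.trans_le (norm_nonneg _)]).trans (hD b _)) (sub_nonneg.2 h1)
    (fun c hc => by
      obtain ⟨h3, h4⟩ := hw n a c (hc.of_imp fun u v h h' => h (by simp [Xcol, h']))
      have hwc := B.w_pos c
      have h5 : (B.w c / B.w a) ^ (1 / (2 * q) : ℝ) ≤ (Γ ^ n) ^ (1 / (2 * q) : ℝ) :=
        Real.rpow_le_rpow (by positivity) ((div_le_iff₀ hwa).2 h3) hp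
      have h6 : 1 ≤ (Γ ^ n) ^ (1 / (2 * q) : ℝ) * (B.w c / B.w a) ^ (1 / (2 * q) : ℝ) := by
        rw [← Real.mul_rpow (by positivity) (by positivity)]
        exact Real.one_le_rpow (by rwa [← mul_div_assoc, one_le_div hwa]) hp
      refine abs_le.2 ⟨?_, by linarith⟩
      by_contra h7
      nlinarith [mul_lt_mul_of_pos_left (not_le.1 h7) (one_pos.trans_le h1),
        sq_nonneg ((Γ ^ n) ^ (1 / (2 * q) : ℝ) - 1)]) (ch.self_mem_N a)
  rw [add_sub_cancel] at h2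
  have h3 := dg_young ((B.herm.xcol col).xsc fun j => (B.w j / B.w a) ^ (1 / (2 * q) : ℝ)) hn he
    (by omega) hl (ch.N a) a
  have h4 : F a = dg (Xcol B.X col) n (ch.N a) a := by
    rw [dg, if_pos (ch.self_mem_N a)]
    exact hFa a _ fun c hc => ch.mem_N_of_near (hc.mono (by omega))
  have h5 : Xsc (fun j => √(1 / 3000) * B.w j ^ (1 / (2 * q) : ℝ)) (Xcol B.X col) = fun j k =>
      ((1 / 3000 * B.w a ^ (1 / q : ℝ) : ℝ) : ℂ) *
        Xsc (fun j => (B.w j / B.w a) ^ (1 / (2 * q) : ℝ)) (Xcol B.X col) j k := by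
    funext j k
    rw [Xsc, Xsc, ← mul_assoc, ← Complex.ofReal_mul, ← Complex.ofReal_mul, ← Complex.ofReal_mul,
      locn_rpow B a j, locn_rpow B a k, ← gfin_sq hwa.le]
    congr 2
    linear_combination (B.w a ^ (1 / (2 * q) : ℝ)) ^ 2 * (B.w j / B.w a) ^ (1 / (2 * q) : ℝ) *
      (B.w k / B.w a) ^ (1 / (2 * q) : ℝ) * hc
  have h6 : (3000 : ℝ) ^ q * (1 / 3000) ^ q = 1 := by rw [← mul_pow]; norm_num
  show F a - l ^ n / l ^ q * 3000 ^ q * (_ / B.w a) ≤ _
  rw [h5, dg_smul, mul_pow, locn_pow B a hq1, mul_right_comm _ (B.w a),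
    mul_div_cancel_right₀ _ hwa.ne',
    mul_assoc, ← mul_assoc (3000 ^ q), h6, one_mul, h4]
  linarith [hq₀ q (by omega), (abs_le.1 h2).1]

end Vale.Agent.P078
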