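import Vale.Agent.P078b.Stab

open Polynomial MeasureTheory
open scoped ComplexConjugate

set_option linter.unusedSectionVars false
set_option linter.unusedVariables false

namespace Vale.Agent.P078

variable {V : Type*} [DecidableEq V] {κ : Type*} [Fintype κ] [DecidableEq κ]

theorem init1_deriv {g : ℂ → ℂ} {g' : ℂ} {s : ℝ} (hg : HasDerivAt g g' s) (h0 : (g s).im = 0)
    (h : ∀ z : ℂ, z.im < 0 → 0 ≤ (g z).im) : g'.re ≤ 0 := by
  have h1 : HasDerivAt (fun z : ℂ => (s : ℂ) - Complex.I * z) (-Complex.I) ((0 : ℝ) : ℂ) := by
    simpa using ((hasDerivAt_id ((0 : ℝ) : ℂ)).const_mul Complex.I).const_sub (s : ℂ)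
  have h2 : HasDerivAt g g' ((s : ℂ) - Complex.I * ((0 : ℝ) : ℂ)) := by simpa using hg
  have h3 := ((h2.comp ((0 : ℝ) : ℂ) h1).const_mul (-Complex.I)).real_of_complex
  have h4 := ge_of_tendsto h3.tendsto_slope_zero_right (b := 0) (by
    filter_upwards [self_mem_nhdsWithin] with ε hε
    have hε' : (0 : ℝ) < ε := hε
    have h5 := h ((s : ℂ) - Complex.I * ε) (by simpa using hε')
    refine smul_nonneg (inv_nonneg.2 hε'.le) ?_
    simpa [h0] using h5)
  simpa using h4

/-- A ratio with the Herglotz sign in the lower half plane decreases on `[0, 1]`. -/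
theorem ratio_antitone {P Q : ℂ → ℂ} (hP : Differentiable ℂ P) (hQ : Differentiable ℂ Q)
    (hPr : ∀ s : ℝ, (P s).im = 0) (hQr : ∀ s : ℝ, (Q s).im = 0)
    (hne : ∀ s : ℝ, 0 ≤ s → s ≤ 1 → P s ≠ 0)
    (h : ∀ z : ℂ, z.im < 0 → 0 ≤ (Q z * conj (P z)).im) :
    (Q 1).re / (P 1).re ≤ (Q 0).re / (P 0).re := by
  have hre : ∀ s : ℝ, (Q s / P s).re = (Q s).re / (P s).re := by
    intro s
    have h1 : Q s = ((Q s).re : ℂ) := Complex.ext (by simp) (by simp [hQr s])
    have h2 : P s = ((P s).re : ℂ) := Complex.ext (by simp) (by simp [hPr s])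
    nth_rewrite 1 [h1, h2]
    rw [← Complex.ofReal_div, Complex.ofReal_re]
  have him : ∀ z : ℂ, (Q z / P z).im = (Q z * conj (P z)).im / Complex.normSq (P z) := by
    intro z
    rw [Complex.div_im]
    simp only [Complex.mul_im, Complex.conj_re, Complex.conj_im]
    ring
  have hd : ∀ s : ℝ, s ∈ Set.Icc (0 : ℝ) 1 →
      HasDerivAt (fun z => Q z / P z) (deriv (fun z => Q z / P z) s) s := fun s hs =>
    ((hQ s).div (hP s) (hne s hs.1 hs.2)).hasDerivAt
  have hanti : AntitoneOn (fun s : ℝ => (Q s / P s).re) (Set.Icc 0 1) := by
    refine antitoneOn_of_deriv_nonpos (convex_Icc 0 1)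
      (fun s hs => (hd s hs).real_of_complex.continuousAt.continuousWithinAt)
      (fun s hs => (hd s (interior_subset hs)).real_of_complex.differentiableAt.differentiableWithinAt)
      fun s hs => ?_
    have hs' := interior_subset hs
    rw [(hd s hs').real_of_complex.deriv]
    refine init1_deriv (hd s hs') ?_ fun z hz => ?_
    · rw [him]
      simp [hPr s, hQr s]
    · rw [him]
      exact div_nonneg (h z hz) (Complex.normSq_nonneg _)
  have := hanti (Set.left_mem_Icc.2 zero_le_one) (Set.right_mem_Icc.2 zero_le_one) zero_le_one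
  simp only [hre] at this
  exact this

theorem init1_det (X : V → V → ℂ) {a : V} (h0 : X a a = 0) (u : ℂ) (Λ : Finset V) :
    (1 - Matrix.of fun i j : Λ => (if (i : V) = a then u else 0) * X i j).det = 1 := by
  have h1 : (1 - Matrix.of fun i j : Λ => (if (i : V) = a then u else 0) * X i j) =
      1 + Matrix.replicateCol Unit (fun i : Λ => if (i : V) = a then -u else 0) *
        Matrix.replicateRow Unit fun j : Λ => X a j := by
    rw [sub_eq_add_neg]
    congr 1
    ext i j
    rw [Matrix.mul_apply, Fintype.sum_unique]
    by_cases h : (i : V) = a <;> simp [h]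
  rw [h1, Matrix.det_one_add_replicateCol_mul_replicateRow, dotProduct, Finset.sum_eq_zero,
    add_zero]
  intro i _
  by_cases h : (i : V) = a <;> simp [h, h0]

/-- A free site with nonpositive weights keeps the partition function positive. -/
theorem hyb_neg_pos {X : V → V → ℂ} (hX : Herm X) {E L : Finset V} {a : V} (ha : a ∉ L)
    (h0 : X a a = 0) {Z t : V → ℝ} {b : ℝ} (hb : 0 ≤ b) (hZ : ∀ j ∈ L, 0 < Z j)
    (ht : ∀ j ∈ L, 0 ≤ t j)
    (hpos : ∀ σ : ℝ, 0 ≤ σ → σ ≤ 1 →
      0 < (Zf X (hyb (κ := κ) E Z (σ * b) fun j => σ * t j) L).re)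
    {τ : κ → ℝ} (hτ : ∀ c, τ c ≤ 0) :
    0 < (Zf X (Function.update (hyb E Z b t) a (pw1 fun c => (τ c : ℂ))) (insert a L)).re := by
  let W : ℂ → V → Finset κ → ℂ := fun σ j =>
    if j ∈ E then cw1 (Z j : ℂ) fun _ => σ * b else pw1 fun _ => σ * t j
  have hW : ∀ σ : ℝ, W σ = hyb E Z (σ * b) fun j => σ * t j := by
    intro σ
    funext j
    simp only [W, hyb, Complex.ofReal_mul]
  have hWd : ∀ g : Finset κ → ℂ,
      Differentiable ℂ fun σ => Zf X (Function.update (W σ) a g) (insert a L) := by
    intro g
    refine differentiable_Zf X (ω := fun σ => Function.update (W σ) a g) (fun j S => ?_) _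
    by_cases hja : j = a
    · subst hja
      simp only [Function.update_self]
      exact differentiable_const _
    · simp only [Function.update_of_ne hja, W]
      split_ifs
      · unfold cw1
        fun_prop
      · unfold pw1
        fun_prop
  have hWr : ∀ g : Finset κ → ℂ, (∀ S, (g S).im = 0) → ∀ σ : ℝ,
      (Zf X (Function.update (W σ) a g) (insert a L)).im = 0 := by
    intro g hg σ
    refine Zf_im_eq_zero hX fun j _ S => ?_
    by_cases hja : j = a
    · subst hja
      simp only [Function.update_self]
      exact hg S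
    · simp only [Function.update_of_ne hja, W]
      split_ifs
      · unfold cw1 dlt
        rw [Complex.add_im, Complex.im_sum, Finset.sum_eq_zero]
        · split_ifs <;> simp
        · intro c _
          split_ifs <;> simp
      · unfold pw1
        rw [← Complex.ofReal_mul, ← Complex.ofReal_prod, Complex.ofReal_im]
  have hWs : ∀ σ : ℂ, σ.im < 0 → ∃ (s : ℂ) (ω : V → Finset κ → ℂ), Adm ω L ∧
      ∀ g, Zf X (Function.update (W σ) a g) (insert a L) =
        s * Zf X (Function.update ω a g) (insert a L) := by
    intro σ hσ
    have hσ0 : σ ≠ 0 := by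
      rintro rfl
      simp at hσ
    refine ⟨∏ j ∈ insert a L, Function.update (fun j => if j ∈ E then σ else 1) a 1 j,
      fun j => if j ∈ E then cw1 ((Z j : ℂ) / σ) fun _ => (b : ℂ) else pw1 fun _ => σ * t j,
      fun j hj => ?_, fun g => ?_⟩
    · by_cases hjE : j ∈ E
      · refine Or.inr ⟨(Z j : ℂ) / σ, fun _ => b, ?_, fun _ => hb, by simp [hjE]⟩
        rw [Complex.div_im]
        have h1 := Complex.normSq_pos.2 hσ0
        have h2 := hZ j hj
        simp only [Complex.ofReal_im, Complex.ofReal_re, zero_mul, zero_div, zero_sub]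
        rw [← neg_div]
        exact div_nonneg (by nlinarith) h1.le
      · refine Or.inl ⟨fun _ => σ * t j, fun _ => ?_, by simp [hjE]⟩
        rw [Complex.im_mul_ofReal]
        exact mul_nonpos_of_nonpos_of_nonneg hσ.le (ht j hj)
    · rw [← Zf_smul]
      congr 1
      funext j S
      by_cases hja : j = a
      · subst hja
        simp only [Function.update_self, one_mul]
      · simp only [Function.update_of_ne hja, W]
        split_ifs
        · unfold cw1
          rw [mul_add, Finset.mul_sum, ← mul_assoc, mul_div_cancel₀ _ hσ0]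
          simp only [mul_assoc]
        · rw [one_mul]
  have hW0 : ∀ u u' : κ → ℂ, Zf X (Function.update (W 0) a (pw1 u)) (insert a L) =
      Zf X (Function.update (W 0) a (pw1 u')) (insert a L) := by
    have h1 : ∀ u : κ → ℂ, Zf X (Function.update (W 0) a (pw1 u)) (insert a L) =
        ∏ j ∈ insert a L, Function.update (fun j => if j ∈ E then (Z j : ℂ) else 1) a 1 j := by
      intro u
      have h2 : Function.update (W 0) a (pw1 u) = fun j S =>
          Function.update (fun j => if j ∈ E then (Z j : ℂ) else 1) a 1 j *
            (fun j => pw1 fun c => if j = a then u c else 0) j S := by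
        funext j S
        by_cases hja : j = a
        · subst hja
          simp only [Function.update_self, one_mul, if_true]
        · simp only [Function.update_of_ne hja, W, if_neg hja, zero_mul, pw1_zero]
          split_ifs
          · unfold cw1
            simp
          · rw [one_mul]
      rw [h2, Zf_smul, Zf_pw1 X (fun j c => if j = a then u c else 0),
        Finset.prod_eq_one fun c _ => init1_det X h0 (u c) _, mul_one]
    intro u u'
    rw [h1, h1]
  have key : ∀ D : Finset κ, ∀ σ : ℝ, 0 ≤ σ → σ ≤ 1 → 0 < (Zf X (Function.update (W σ) a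
      (pw1 fun c => ((if c ∈ D then τ c else 0 : ℝ) : ℂ))) (insert a L)).re := by
    intro D
    induction D using Finset.induction_on with
    | empty =>
      intro σ h1 h2
      simp only [Finset.notMem_empty, if_false, Complex.ofReal_zero]
      rw [pw1_zero, Zf_insert_empty X _ ha, hW]
      exact hpos σ h1 h2
    | insert c D hc ih =>
      intro σ h1 h2
      set u : κ → ℂ := fun c => ((if c ∈ D then τ c else 0 : ℝ) : ℂ) with hu
      have h3 : (fun c' => ((if c' ∈ insert c D then τ c' else 0 : ℝ) : ℂ)) =
          Function.update u c (τ c) := by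
        funext c'
        by_cases h : c' = c
        · subst h
          simp
        · simp [h, hu]
      have h4 : Function.update u c 0 = u := by
        funext c'
        by_cases h : c' = c
        · subst h
          simp [hc, hu]
        · simp [h]
      have hQ0 : Zf X (Function.update (W 0) a (pwd u c)) (insert a L) = 0 := by
        have h5 := stab_split X (W 0) (Finset.mem_insert_self a L) u c 1
        rw [hW0 _ (Function.update u c 0)] at h5
        linear_combination -h5
      have hur : ∀ S, (pw1 u S).im = 0 := by
        intro S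
        unfold pw1
        rw [hu, ← Complex.ofReal_prod, Complex.ofReal_im]
      have hur' : ∀ S, (pwd u c S).im = 0 := by
        intro S
        unfold pwd
        split_ifs
        · rw [hu, ← Complex.ofReal_prod, Complex.ofReal_im]
        · rfl
      have hP := ih σ h1 h2
      have hQ : (Zf X (Function.update (W σ) a (pwd u c)) (insert a L)).re ≤ 0 := by
        rcases h1.eq_or_lt with rfl | h1'
        · rw [Complex.ofReal_zero, hQ0, Complex.zero_re]
        have h6 := ratio_antitone
          (P := fun z => Zf X (Function.update (W (σ * z)) a (pw1 u)) (insert a L))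
          (Q := fun z => Zf X (Function.update (W (σ * z)) a (pwd u c)) (insert a L))
          ((hWd _).comp (by fun_prop)) ((hWd _).comp (by fun_prop))
          (fun s => by rw [← Complex.ofReal_mul]; exact hWr _ hur _)
          (fun s => by rw [← Complex.ofReal_mul]; exact hWr _ hur' _)
          (fun s hs hs' h7 => by
            have h8 := ih (σ * s) (mul_nonneg h1 hs) (mul_le_one₀ h2 hs hs')
            rw [Complex.ofReal_mul, h7] at h8
            exact lt_irrefl _ h8)
          (fun z hz => by
            obtain ⟨s, ω, hω, hs⟩ := hWs (σ * z) (by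
              rw [Complex.im_ofReal_mul]
              exact mul_neg_of_pos_of_neg h1' hz)
            have h8 := stabC hX ha hω (t := u) (fun c' => by rw [hu]; simp) c
            rw [h4] at h8
            rw [hs, hs, map_mul, mul_mul_mul_comm, Complex.mul_conj, Complex.im_ofReal_mul]
            exact mul_nonneg (Complex.normSq_nonneg _) h8)
        simp only [mul_one, mul_zero, hQ0, Complex.zero_re, zero_div] at h6
        by_contra h7
        exact absurd (div_pos (not_le.1 h7) hP) (not_lt.2 h6)
      rw [h3, stab_split X _ (Finset.mem_insert_self a L), h4, Complex.add_re,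
        Complex.re_ofReal_mul]
      nlinarith [mul_nonneg_of_nonpos_of_nonpos (hτ c) hQ]
  have := key Finset.univ 1 zero_le_one le_rfl
  rw [hW] at this
  simpa using this

end Vale.Agent.P078
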