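import Vale.Agent.P078b.FD

open Polynomial MeasureTheory
open scoped ComplexConjugate

set_option linter.unusedSectionVars false
set_option linter.unusedVariables false

namespace Vale.Agent.P078

theorem pf_enum (m : Multiset ℝ) {n : ℕ} (h : m.card = n) :
    ∃ t : Fin n → ℝ, m = Finset.univ.val.map t := by
  subst h
  induction m using Quotient.inductionOn with
  | h l => exact ⟨l.get, ((Fin.univ_val_map l.get).trans (congrArg _ (List.ofFn_get l))).symm⟩

/-- A monic real polynomial without zeros in the upper half plane is real rooted. -/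
theorem real_rooted {B : ℝ[X]} (hB : B.Monic) (h : ∀ z : ℂ, 0 < z.im → aeval z B ≠ 0) :
    ∃ t : Fin B.natDegree → ℝ, B = ∏ i, (X - C (t i)) := by
  have hs : B.Splits := by
    refine Splits.of_splits_map (algebraMap ℝ ℂ) (IsAlgClosed.splits _) fun a ha => ?_
    have h1 : aeval a B = 0 := by
      rw [aeval_def, ← eval_map]
      exact (mem_roots (hB.map _).ne_zero).1 ha
    have h2 : a.im = 0 := by
      rcases lt_trichotomy a.im 0 with h3 | h3 | h3
      · exact absurd (by rw [aeval_conj, h1, map_zero]) (h (conj a) (by simpa using h3))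
      · exact h3
      · exact absurd h1 (h a h3)
    exact ⟨a.re, Complex.ext (by simp) (by simp [h2])⟩
  obtain ⟨t, ht⟩ := pf_enum B.roots hs.natDegree_eq_card_roots.symm
  refine ⟨t, (hs.eq_prod_roots_of_monic hB).trans ?_⟩
  rw [ht, Multiset.map_map]
  rfl

theorem pf_local {A B : ℝ[X]} {t : ℝ} {m : ℕ} (h : ∀ z : ℂ, 0 < z.im →
    (aeval z A * conj (aeval z ((X - C t) ^ m * B))).im ≤ 0) {d : ℂ} (hd : 0 < d.im) :
    0 ≤ A.eval t * B.eval t * (d ^ m).im := by
  have hc : Continuous fun ε : ℝ => (aeval (t + ε * d) A *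
      (conj (d ^ m) * conj (aeval (t + ε * d) B))).im := by
    have := A.continuous_aeval (A := ℂ)
    have := B.continuous_aeval (A := ℂ)
    fun_prop
  have h1 : (aeval (t + (0 : ℝ) * d) A * (conj (d ^ m) * conj (aeval (t + (0 : ℝ) * d) B))).im
      ≤ 0 := by
    refine le_of_tendsto (hc.continuousAt.tendsto.mono_left nhdsWithin_le_nhds :
      Filter.Tendsto _ (nhdsWithin (0 : ℝ) (Set.Ioi 0)) _) (eventually_nhdsWithin_of_forall
        fun ε hε => ?_)
    have h2 := h (t + ε * d) (by simpa using mul_pos hε hd)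
    have h3 : aeval (t + ε * d) A * conj (aeval (t + ε * d) ((X - C t) ^ m * B)) =
        (ε ^ m : ℝ) * (aeval (t + ε * d) A * (conj (d ^ m) * conj (aeval (t + ε * d) B))) := by
      simp [mul_pow]
      ring
    rw [h3, Complex.im_ofReal_mul] at h2
    exact nonpos_of_mul_nonpos_right h2 (pow_pos hε m)
  have h4 : ∀ p : ℝ[X], aeval (t : ℂ) p = (p.eval t : ℝ) := fun p => aeval_ofReal p t
  simp only [Complex.ofReal_zero, zero_mul, add_zero, h4, Complex.conj_ofReal,
    Complex.im_ofReal_mul, Complex.im_mul_ofReal, Complex.conj_im] at h1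
  linarith

theorem pf_mult {A B : ℝ[X]} {t : ℝ} {m : ℕ} (h : ∀ z : ℂ, 0 < z.im →
    (aeval z A * conj (aeval z ((X - C t) ^ (m + 2) * B))).im ≤ 0) : A.eval t * B.eval t = 0 := by
  have hm : (0 : ℝ) < (m + 2 : ℕ) := by positivity
  have h1 : ∀ x : ℝ, 0 < x → x < 2 * Real.pi → 0 ≤ A.eval t * B.eval t * Real.sin x := by
    intro x hx hx'
    have h2 := pf_local h (d := Complex.exp ((x / (m + 2 : ℕ) : ℝ) * Complex.I)) (by
      rw [Complex.exp_ofReal_mul_I_im]
      refine Real.sin_pos_of_pos_of_lt_pi (by positivity) ?_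
      rw [div_lt_iff₀ hm]
      push_cast
      nlinarith [Real.pi_pos, mul_nonneg Real.pi_pos.le (Nat.cast_nonneg (α := ℝ) m)])
    rwa [← Complex.exp_nat_mul, ← mul_assoc, ← Complex.ofReal_natCast, ← Complex.ofReal_mul,
      mul_div_cancel₀ _ hm.ne', Complex.exp_ofReal_mul_I_im] at h2
  have h2 := h1 (Real.pi / 2) (by positivity) (by linarith [Real.pi_pos])
  have h3 := h1 (Real.pi / 2 + Real.pi) (by positivity) (by linarith [Real.pi_pos])
  rw [Real.sin_add_pi] at h3
  rw [Real.sin_pi_div_two] at h2 h3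
  linarith

/-- Partial fractions of a rational function with negative imaginary part. -/
theorem partial_fractions {ι : Type*} [DecidableEq ι] (s : Finset ι) (t : ι → ℝ) (A : ℝ[X])
    (hA : A.natDegree ≤ s.card)
    (h : ∀ z : ℂ, 0 < z.im →
      (aeval z A * conj (aeval z (∏ i ∈ s, (X - C (t i)) : ℝ[X]))).im ≤ 0) :
    ∃ (α : ℝ) (ν : ι → ℝ), (∀ i, 0 ≤ ν i) ∧
      A = C α * ∏ i ∈ s, (X - C (t i)) + ∑ i ∈ s, C (ν i) * ∏ j ∈ s.erase i, (X - C (t j)) := by
  induction hn : s.card generalizing s A with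
  | zero =>
    obtain rfl := Finset.card_eq_zero.1 hn
    exact ⟨A.coeff 0, 0, fun _ => le_rfl, by
      simpa using eq_C_of_natDegree_eq_zero (Nat.le_zero.1 hA)⟩
  | succ n ih =>
  by_cases h0 : ∃ i ∈ s, A.eval (t i) = 0
  · obtain ⟨i, hi, h1⟩ := h0
    obtain ⟨A1, rfl⟩ : X - C (t i) ∣ A := dvd_iff_isRoot.2 h1
    have hc : (s.erase i).card = n := by rw [Finset.card_erase_of_mem hi, hn]; rfl
    obtain ⟨α, ν, hν, hA1⟩ := ih (s.erase i) A1 (by
      by_cases h2 : A1 = 0
      · simp [h2]
      · rw [natDegree_mul (X_sub_C_ne_zero _) h2, natDegree_X_sub_C] at hA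
        omega) (fun z hz => by
      have h2 := h z hz
      have h3 : 0 < Complex.normSq (z - t i) :=
        Complex.normSq_pos.2 fun e => hz.ne' (by simpa using congrArg Complex.im e)
      rw [← Finset.mul_prod_erase s _ hi, map_mul, map_mul, map_mul, mul_mul_mul_comm,
        Complex.mul_conj, Complex.im_ofReal_mul] at h2
      simp only [map_sub, aeval_X, aeval_C, Complex.coe_algebraMap] at h2
      exact nonpos_of_mul_nonpos_right h2 h3) hc
    refine ⟨α, Function.update ν i 0, fun j => ?_, ?_⟩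
    · by_cases hj : j = i
      · simp [hj]
      · rw [Function.update_of_ne hj]; exact hν j
    · rw [hA1, ← Finset.mul_prod_erase s _ hi, ← Finset.add_sum_erase s _ hi, Function.update_self,
        C_0, zero_mul, zero_add, mul_add, Finset.mul_sum, mul_left_comm]
      refine congrArg _ (Finset.sum_congr rfl fun j hj => ?_)
      have h2 := Finset.ne_of_mem_erase hj
      rw [Function.update_of_ne h2, ← Finset.mul_prod_erase (s.erase j) _
        (Finset.mem_erase.2 ⟨h2.symm, hi⟩), Finset.erase_right_comm, mul_left_comm]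
  push Not at h0
  have hinj : Set.InjOn t s := by
    intro i hi j hj hij
    by_contra hne
    obtain ⟨m, hm⟩ : ∃ m, (s.filter fun k => t k = t i).card = m + 2 :=
      Nat.exists_eq_add_of_le' (Finset.one_lt_card.2 ⟨i, Finset.mem_filter.2 ⟨hi, rfl⟩, j,
        Finset.mem_filter.2 ⟨hj, hij.symm⟩, hne⟩)
    have h1 : (∏ k ∈ s, (X - C (t k)) : ℝ[X]) = (X - C (t i)) ^ (m + 2) *
        ∏ k ∈ s.filter fun k => ¬t k = t i, (X - C (t k)) := by
      rw [← Finset.prod_filter_mul_prod_filter_not s fun k => t k = t i, ← hm,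
        ← Finset.prod_const]
      exact congrArg (· * _) (Finset.prod_congr rfl fun k hk => by
        rw [(Finset.mem_filter.1 hk).2])
    rw [h1] at h
    refine mul_ne_zero (h0 i hi) ?_ (pf_mult h)
    rw [eval_prod]
    exact Finset.prod_ne_zero_iff.2 fun k hk => by
      simpa [sub_eq_zero, eq_comm] using (Finset.mem_filter.1 hk).2
  have hP : ∀ i ∈ s, (∏ j ∈ s.erase i, (X - C (t j)) : ℝ[X]).eval (t i) ≠ 0 := fun i hi => by
    rw [eval_prod]
    exact Finset.prod_ne_zero_iff.2 fun k hk => by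
      simpa [sub_eq_zero] using fun e => Finset.ne_of_mem_erase hk
        (hinj hi (Finset.mem_of_mem_erase hk) e).symm
  refine ⟨A.coeff s.card, fun i => if i ∈ s then
    A.eval (t i) / (∏ j ∈ s.erase i, (X - C (t j)) : ℝ[X]).eval (t i) else 0, fun i => ?_, ?_⟩
  · dsimp only
    split_ifs with hi
    · rw [← Finset.mul_prod_erase s _ hi, ← pow_one (X - C (t i))] at h
      have := pf_local h (d := Complex.I) (by simp)
      rw [pow_one, Complex.I_im, mul_one] at this
      exact div_nonneg_iff.2 (mul_nonneg_iff.1 this)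
    · exact le_rfl
  · rw [← sub_eq_iff_eq_add']
    refine eq_of_degrees_lt_of_eval_index_eq s hinj ?_ ?_ fun i hi => ?_
    · refine (degree_lt_iff_coeff_zero _ _).2 fun m hm => ?_
      have h1 := natDegree_finsetProd_X_sub_C_eq_card s t
      rw [coeff_sub, coeff_C_mul]
      rcases hm.eq_or_lt with rfl | h2
      · have := (monic_prod_X_sub_C t s).coeff_natDegree
        rw [h1] at this
        rw [this, mul_one, sub_self]
      · rw [coeff_eq_zero_of_natDegree_lt (hA.trans_lt h2),
          coeff_eq_zero_of_natDegree_lt (h1.trans_lt h2), mul_zero, sub_zero]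
    · refine mem_degreeLT.1 (Submodule.sum_mem _ fun i hi => mem_degreeLT.2 ?_)
      refine degree_le_natDegree.trans_lt (Nat.cast_lt.2 ((natDegree_C_mul_le _ _).trans_lt ?_))
      rw [natDegree_finsetProd_X_sub_C_eq_card]
      exact Finset.card_erase_lt_of_mem hi
    · have h1 : ∀ u : Finset ι, i ∈ u → (∏ j ∈ u, (X - C (t j)) : ℝ[X]).eval (t i) = 0 :=
        fun u hu => by rw [eval_prod]; exact Finset.prod_eq_zero hu (by simp)
      rw [eval_sub, eval_mul, h1 s hi, mul_zero, sub_zero, eval_finsetSum,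
        Finset.sum_eq_single_of_mem i hi fun j _ hj => by
          rw [eval_mul, h1 _ (Finset.mem_erase.2 ⟨hj.symm, hi⟩), mul_zero], eval_mul, eval_C]
      simp only [if_pos hi, div_mul_cancel₀ _ (hP i hi)]

end Vale.Agent.P078
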