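import Vale.Agent.P078b.ZfA

open Polynomial MeasureTheory
open scoped ComplexConjugate

set_option linter.unusedSectionVars false
set_option linter.unusedVariables false

namespace Vale.Agent.P078

variable {V : Type*} [DecidableEq V] {κ : Type*} [Fintype κ] [DecidableEq κ]

theorem mu_image {V' : Type*} [DecidableEq V'] (X : V → V → ℂ) {f : V' → V} {S : Finset V'}
    (hf : Set.InjOn f S) : mu X (S.image f) = mu (fun a b => X (f a) (f b)) S := by
  let e : S ≃ (S.image f) := Equiv.ofBijective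
    (fun a => ⟨f a, Finset.mem_image_of_mem f a.2⟩)
    ⟨fun a b h => Subtype.ext (hf a.2 b.2 (congrArg Subtype.val h)), fun y => by
      obtain ⟨x, hx, hxy⟩ := Finset.mem_image.1 y.2
      exact ⟨⟨x, hx⟩, Subtype.ext hxy⟩⟩
  unfold mu
  rw [← Matrix.det_submatrix_equiv_self e]
  rfl

theorem zfb_mem_image {V' : Type*} [DecidableEq V'] {f : V' → V} {Λ T : Finset V'}
    (hf : Set.InjOn f Λ) (hT : T ⊆ Λ) {x : V'} (hx : x ∈ Λ) : f x ∈ T.image f ↔ x ∈ T := by
  constructor
  · intro h
    obtain ⟨y, hy, hyx⟩ := Finset.mem_image.1 h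
    rwa [← hf (hT hy) hx hyx]
  · exact Finset.mem_image_of_mem f

theorem Zf_image {V' : Type*} [DecidableEq V'] (X : V → V → ℂ) (ω : V → Finset κ → ℂ)
    {f : V' → V} {Λ : Finset V'} (hf : Set.InjOn f Λ) :
    Zf X ω (Λ.image f) = Zf (fun a b => X (f a) (f b)) (fun j => ω (f j)) Λ := by
  unfold Zf
  symm
  refine Finset.sum_nbij (fun O c => (O c).image f) ?_ ?_ ?_ ?_
  · intro O hO
    rw [Fintype.mem_piFinset] at hO ⊢
    intro c
    exact Finset.mem_powerset.2 (Finset.image_subset_image (Finset.mem_powerset.1 (hO c)))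
  · intro O hO O' hO' h
    rw [Finset.mem_coe, Fintype.mem_piFinset] at hO hO'
    funext c
    have h1 : (O c).image f = (O' c).image f := congrFun h c
    ext x
    constructor
    · intro hx
      have hxΛ := Finset.mem_powerset.1 (hO c) hx
      exact (zfb_mem_image hf (Finset.mem_powerset.1 (hO' c)) hxΛ).1
        (h1 ▸ Finset.mem_image_of_mem f hx)
    · intro hx
      have hxΛ := Finset.mem_powerset.1 (hO' c) hx
      exact (zfb_mem_image hf (Finset.mem_powerset.1 (hO c)) hxΛ).1
        (h1.symm ▸ Finset.mem_image_of_mem f hx)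
  · intro O hO
    rw [Finset.mem_coe, Fintype.mem_piFinset] at hO
    refine ⟨fun c => Λ.filter fun x => f x ∈ O c, ?_, ?_⟩
    · rw [Finset.mem_coe, Fintype.mem_piFinset]
      intro c
      exact Finset.mem_powerset.2 (Finset.filter_subset _ _)
    · funext c
      ext y
      simp only [Finset.mem_image, Finset.mem_filter]
      constructor
      · rintro ⟨x, ⟨_, hx⟩, rfl⟩
        exact hx
      · intro hy
        obtain ⟨x, hx, rfl⟩ := Finset.mem_image.1 (Finset.mem_powerset.1 (hO c) hy)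
        exact ⟨x, ⟨hx, hy⟩, rfl⟩
  · intro O hO
    rw [Fintype.mem_piFinset] at hO
    rw [Finset.prod_image hf]
    congr 1
    · refine Finset.prod_congr rfl fun j hj => ?_
      congr 1
      refine Finset.filter_congr fun c _ => ?_
      exact (zfb_mem_image hf (Finset.mem_powerset.1 (hO c)) hj).symm
    · refine Finset.prod_congr rfl fun c _ => ?_
      exact (mu_image X (hf.mono (Finset.coe_subset.2 (Finset.mem_powerset.1 (hO c))))).symm

theorem zfb_mu_congr {X X' : V → V → ℂ} {S : Finset V}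
    (h : ∀ a ∈ S, ∀ b ∈ S, X a b = X' a b) : mu X S = mu X' S := by
  unfold mu
  congr 1
  ext i j
  simp [h i i.2 j j.2]

theorem zfb_mu_scale (u v : V → ℂ) (X : V → V → ℂ) (S : Finset V) :
    mu (fun a b => u a * v b * X a b) S = (∏ a ∈ S, u a * v a) * mu X S := by
  unfold mu
  have h1 : (Matrix.of fun i j : S => -(u i * v j * X i j)) =
      Matrix.of fun i j : S => u i * (Matrix.of fun i j : S =>
        v j * (Matrix.of fun i j : S => -X i j) i j) i j := by
    ext i j
    simp [mul_assoc]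
  rw [h1, Matrix.det_mul_column, Matrix.det_mul_row, Finset.prod_mul_distrib,
    Finset.prod_coe_sort S u, Finset.prod_coe_sort S v, mul_assoc]

theorem zfb_Zf_scale (u v : V → ℂ) (X : V → V → ℂ) (ω : V → Finset κ → ℂ) (Λ : Finset V) :
    Zf (fun a b => u a * v b * X a b) ω Λ =
      Zf X (fun j S => (u j * v j) ^ S.card * ω j S) Λ := by
  unfold Zf
  refine Finset.sum_congr rfl fun O hO => ?_
  rw [Fintype.mem_piFinset] at hO
  simp only [zfb_mu_scale, Finset.prod_mul_distrib (s := Finset.univ),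
    Finset.prod_mul_distrib (s := Λ)]
  have h1 : ∏ c, ∏ a ∈ O c, u a * v a =
      ∏ j ∈ Λ, (u j * v j) ^ (Finset.univ.filter fun c => j ∈ O c).card := by
    rw [Finset.prod_comm' (t' := Λ) (s' := fun j => Finset.univ.filter fun c => j ∈ O c)]
    · simp only [Finset.prod_const]
    · intro c j
      simp only [Finset.mem_univ, true_and, Finset.mem_filter]
      exact ⟨fun h => ⟨h, Finset.mem_powerset.1 (hO c) h⟩, fun h => h.1⟩
  rw [h1]
  ring

theorem Zf_gauge (X : V → V → ℂ) (ω : V → Finset κ → ℂ) (Λ : Finset V) {θ : V → ℂ}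
    (hθ : ∀ a, ‖θ a‖ = 1) : Zf (fun a b => conj (θ a) * θ b * X a b) ω Λ = Zf X ω Λ := by
  unfold Zf
  refine Finset.sum_congr rfl fun O _ => ?_
  congr 1
  refine Finset.prod_congr rfl fun c _ => ?_
  rw [zfb_mu_scale]
  have : ∏ a ∈ O c, (conj (θ a) * θ a) = 1 := by
    refine Finset.prod_eq_one fun a _ => ?_
    rw [Complex.conj_mul', hθ a]
    simp
  rw [this, one_mul]

theorem zfb_mu_union (X : V → V → ℂ) {S T : Finset V} (hd : Disjoint S T)
    (h : ∀ a ∈ S, ∀ b ∈ T, X a b = 0) : mu X (S ∪ T) = mu X S * mu X T := by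
  unfold mu
  rw [← Matrix.det_submatrix_equiv_self (Equiv.Finset.union S T hd),
    ← Matrix.det_fromBlocks_zero₁₂ _ (Matrix.of fun (i : T) (j : S) => -X i j)]
  congr 1
  ext (i | i) (j | j)
  · rfl
  · have := h i i.2 j j.2
    simp [Matrix.submatrix_apply, this]
  · rfl
  · rfl

theorem Zf_union (X : V → V → ℂ) (ω : V → Finset κ → ℂ) {Λ₁ Λ₂ : Finset V}
    (hd : Disjoint Λ₁ Λ₂) (h : ∀ a ∈ Λ₁, ∀ b ∈ Λ₂, X a b = 0) :
    Zf X ω (Λ₁ ∪ Λ₂) = Zf X ω Λ₁ * Zf X ω Λ₂ := by
  unfold Zf
  rw [Finset.sum_mul_sum, ← Finset.sum_product']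
  refine Finset.sum_nbij' (fun O => (fun c => O c ∩ Λ₁, fun c => O c ∩ Λ₂))
    (fun P c => P.1 c ∪ P.2 c) ?_ ?_ ?_ ?_ ?_
  · intro O hO
    simp only [Finset.mem_product, Fintype.mem_piFinset, Finset.mem_powerset]
    exact ⟨fun c => Finset.inter_subset_right, fun c => Finset.inter_subset_right⟩
  · intro P hP
    simp only [Finset.mem_product, Fintype.mem_piFinset, Finset.mem_powerset] at hP ⊢
    exact fun c => Finset.union_subset_union (hP.1 c) (hP.2 c)
  · intro O hO
    simp only [Fintype.mem_piFinset, Finset.mem_powerset] at hO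
    funext c
    show O c ∩ Λ₁ ∪ O c ∩ Λ₂ = O c
    rw [← Finset.inter_union_distrib_left, Finset.inter_eq_left.2 (hO c)]
  · intro P hP
    simp only [Finset.mem_product, Fintype.mem_piFinset, Finset.mem_powerset] at hP
    have hd' := Finset.disjoint_left.1 hd
    refine Prod.ext ?_ ?_
    · funext c
      ext x
      simp only [Finset.mem_inter, Finset.mem_union]
      constructor
      · rintro ⟨h1 | h1, h2⟩
        · exact h1
        · exact absurd (hP.2 c h1) (hd' h2)
      · exact fun h1 => ⟨Or.inl h1, hP.1 c h1⟩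
    · funext c
      ext x
      simp only [Finset.mem_inter, Finset.mem_union]
      constructor
      · rintro ⟨h1 | h1, h2⟩
        · exact absurd h2 (hd' (hP.1 c h1))
        · exact h1
      · exact fun h1 => ⟨Or.inr h1, hP.2 c h1⟩
  · intro O hO
    simp only [Fintype.mem_piFinset, Finset.mem_powerset] at hO
    have h1 : ∏ j ∈ Λ₁, ω j (Finset.univ.filter fun c => j ∈ O c) =
        ∏ j ∈ Λ₁, ω j (Finset.univ.filter fun c => j ∈ O c ∩ Λ₁) := by
      refine Finset.prod_congr rfl fun j hj => ?_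
      congr 1
      refine Finset.filter_congr fun c _ => ?_
      simp [hj]
    have h2 : ∏ j ∈ Λ₂, ω j (Finset.univ.filter fun c => j ∈ O c) =
        ∏ j ∈ Λ₂, ω j (Finset.univ.filter fun c => j ∈ O c ∩ Λ₂) := by
      refine Finset.prod_congr rfl fun j hj => ?_
      congr 1
      refine Finset.filter_congr fun c _ => ?_
      simp [hj]
    have h3 : ∏ c, mu X (O c) = (∏ c, mu X (O c ∩ Λ₁)) * ∏ c, mu X (O c ∩ Λ₂) := by
      rw [← Finset.prod_mul_distrib]
      refine Finset.prod_congr rfl fun c _ => ?_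
      rw [← zfb_mu_union X (hd.mono Finset.inter_subset_right Finset.inter_subset_right)
        (fun a ha b hb => h a (Finset.mem_inter.1 ha).2 b (Finset.mem_inter.1 hb).2),
        ← Finset.inter_union_distrib_left, Finset.inter_eq_left.2 (hO c)]
    rw [Finset.prod_union hd, h1, h2, h3]
    ring

theorem kap_empty (X : V → V → ℂ) (β : V → κ → ℝ) : kap X β ∅ = 1 := by
  unfold kap
  rw [Zf_empty]
  rfl

theorem kap_coe {X : V → V → ℂ} (hX : Herm X) (β : V → κ → ℝ) (S : Finset V) :
    (kap X β S : ℂ) = Zf X (fun j => cw1 0 fun c => (β j c : ℂ)) S := by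
  unfold kap
  refine Complex.ext (by simp) ?_
  rw [Complex.ofReal_im, Zf_im_eq_zero hX]
  intro j _ T
  unfold cw1 dlt
  rw [zero_mul, zero_add, Complex.im_sum]
  refine Finset.sum_eq_zero fun c _ => ?_
  split_ifs <;> simp

theorem kap_smul (X : V → V → ℂ) (β : V → κ → ℝ) (s : ℝ) (S : Finset V) :
    kap X (fun j c => s * β j c) S = s ^ S.card * kap X β S := by
  unfold kap
  have h1 : (fun j => cw1 0 fun c => ((s * β j c : ℝ) : ℂ)) =
      fun j T => (fun _ : V => (s : ℂ)) j * cw1 0 (fun c => (β j c : ℂ)) T := by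
    funext j T
    unfold cw1
    simp only [zero_mul, zero_add, Finset.mul_sum, Complex.ofReal_mul, mul_assoc]
  rw [h1, Zf_smul, Finset.prod_const, ← Complex.ofReal_pow, Complex.re_ofReal_mul]

theorem zfb_pow_cw1 (u : ℂ) (b : κ → ℂ) (T : Finset κ) :
    u ^ T.card * cw1 0 b T = u * cw1 0 b T := by
  unfold cw1 dlt
  simp only [zero_mul, zero_add, Finset.mul_sum]
  refine Finset.sum_congr rfl fun c _ => ?_
  split_ifs with h
  · rw [h, Finset.card_singleton, pow_one]
  · simp

theorem kap_neg (X : V → V → ℂ) (β : V → κ → ℝ) (S : Finset V) :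
    kap (fun a b => -X a b) β S = (-1) ^ S.card * kap X β S := by
  unfold kap
  have h0 : (fun a b => -X a b) = fun a b => (fun _ : V => (-1 : ℂ)) a * (fun _ : V => (1 : ℂ)) b *
      X a b := by
    funext a b
    simp
  rw [h0, zfb_Zf_scale]
  simp only [zfb_pow_cw1]
  rw [Zf_smul X (fun j => cw1 0 fun c => (β j c : ℂ)) S (fun _ => -1 * 1), Finset.prod_const]
  have : ((-1 : ℂ) * 1) ^ S.card = (((-1 : ℝ) ^ S.card : ℝ) : ℂ) := by simp
  rw [this, Complex.re_ofReal_mul]

theorem aeval_pol {X : V → V → ℂ} (hX : Herm X) (β : V → κ → ℝ) (Λ : Finset V) (z : ℂ) :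
    aeval z (pol X β Λ) = Zf X (fun j => cw1 z fun c => (β j c : ℂ)) Λ := by
  unfold pol
  rw [Zf_cw1 X (fun _ => z) (fun j c => (β j c : ℂ)) Λ, map_sum]
  refine Finset.sum_congr rfl fun S hS => ?_
  rw [map_mul, map_pow, aeval_X, aeval_C, Finset.prod_const,
    Finset.card_sdiff_of_subset (Finset.mem_powerset.1 hS), ← kap_coe hX, mul_comm]
  rfl

theorem zfb_coeff {R : Type*} [Semiring R] (f : Finset V → R) (Λ : Finset V) {i : ℕ}
    (hi : i ≤ Λ.card) :
    (∑ S ∈ Λ.powerset, C (f S) * (Polynomial.X : R[X]) ^ (Λ.card - S.card)).coeff (Λ.card - i) =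
      ∑ S ∈ Λ.powersetCard i, f S := by
  rw [Polynomial.finsetSum_coeff, Finset.powersetCard_eq_filter, Finset.sum_filter]
  refine Finset.sum_congr rfl fun S hS => ?_
  have := Finset.card_le_card (Finset.mem_powerset.1 hS)
  rw [Polynomial.coeff_C_mul_X_pow]
  refine if_congr ?_ rfl rfl
  omega

theorem zfb_natDegree_le {R : Type*} [Semiring R] (f : Finset V → R) (Λ : Finset V) :
    (∑ S ∈ Λ.powerset, C (f S) * (Polynomial.X : R[X]) ^ (Λ.card - S.card)).natDegree ≤
      Λ.card := by
  refine Polynomial.natDegree_sum_le_of_forall_le _ _ fun S _ => ?_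
  exact (Polynomial.natDegree_C_mul_X_pow_le _ _).trans (Nat.sub_le _ _)

theorem pol_monic (X : V → V → ℂ) (β : V → κ → ℝ) (Λ : Finset V) : (pol X β Λ).Monic := by
  refine Polynomial.monic_of_natDegree_le_of_coeff_eq_one Λ.card (zfb_natDegree_le _ _) ?_
  have := zfb_coeff (kap X β) Λ (Nat.zero_le Λ.card)
  rw [Nat.sub_zero, Finset.powersetCard_zero, Finset.sum_singleton, kap_empty] at this
  exact this

theorem natDegree_pol (X : V → V → ℂ) (β : V → κ → ℝ) (Λ : Finset V) :
    (pol X β Λ).natDegree = Λ.card := by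
  refine Polynomial.natDegree_eq_of_le_of_coeff_ne_zero (zfb_natDegree_le _ _) ?_
  have := zfb_coeff (kap X β) Λ (Nat.zero_le Λ.card)
  rw [Nat.sub_zero, Finset.powersetCard_zero, Finset.sum_singleton, kap_empty] at this
  unfold pol
  rw [this]
  exact one_ne_zero

theorem coeff_pol (X : V → V → ℂ) (β : V → κ → ℝ) (Λ : Finset V) {i : ℕ} (hi : i ≤ Λ.card) :
    (pol X β Λ).coeff (Λ.card - i) = ∑ S ∈ Λ.powersetCard i, kap X β S :=
  zfb_coeff (kap X β) Λ hi

theorem pol_congr {X X' : V → V → ℂ} {β β' : V → κ → ℝ} {Λ : Finset V}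
    (hX : ∀ a ∈ Λ, ∀ b ∈ Λ, X a b = X' a b) (hβ : ∀ j ∈ Λ, β j = β' j) :
    pol X β Λ = pol X' β' Λ := by
  unfold pol
  refine Finset.sum_congr rfl fun S hS => ?_
  have hS' := Finset.mem_powerset.1 hS
  congr 2
  unfold kap
  rw [Zf_congr (fun a ha b hb => hX a (hS' ha) b (hS' hb)) (fun j hj => by rw [hβ j (hS' hj)])]

theorem pol_union {X : V → V → ℂ} (hX : Herm X) (β : V → κ → ℝ) {Λ₁ Λ₂ : Finset V}
    (hd : Disjoint Λ₁ Λ₂) (h : ∀ a ∈ Λ₁, ∀ b ∈ Λ₂, X a b = 0) :
    pol X β (Λ₁ ∪ Λ₂) = pol X β Λ₁ * pol X β Λ₂ := by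
  refine Polynomial.map_injective (algebraMap ℝ ℂ) (algebraMap ℝ ℂ).injective ?_
  refine Polynomial.funext fun z => ?_
  rw [Polynomial.eval_map_algebraMap, Polynomial.eval_map_algebraMap, map_mul, aeval_pol hX,
    aeval_pol hX, aeval_pol hX, Zf_union X _ hd h]

theorem eval_pol_neg (X : V → V → ℂ) (β : V → κ → ℝ) (Λ : Finset V) (z : ℝ) :
    (pol (fun a b => -X a b) β Λ).eval z = (-1) ^ Λ.card * (pol X β Λ).eval (-z) := by
  unfold pol
  simp only [Polynomial.eval_finsetSum, Finset.mul_sum, Polynomial.eval_mul, Polynomial.eval_C,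
    Polynomial.eval_pow, Polynomial.eval_X, kap_neg]
  refine Finset.sum_congr rfl fun S hS => ?_
  have hle := Finset.card_le_card (Finset.mem_powerset.1 hS)
  obtain ⟨m, hm⟩ := Nat.exists_eq_add_of_le hle
  rw [hm, Nat.add_sub_cancel_left, pow_add, neg_pow z m]
  have : ((-1 : ℝ) ^ m) * (-1) ^ m = 1 := by rw [← mul_pow]; simp
  linear_combination (-((-1 : ℝ) ^ S.card * kap X β S * z ^ m)) * this

theorem zfb_charpoly (Y : V → V → ℂ) (Λ : Finset V) :
    (Matrix.of fun i j : Λ => Y i j).charpoly =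
      ∑ S ∈ Λ.powerset, C (mu Y S) * Polynomial.X ^ (Λ.card - S.card) := by
  ext n
  by_cases hn : n ≤ Λ.card
  · obtain ⟨k, hk, rfl⟩ : ∃ k, k ≤ Λ.card ∧ n = Λ.card - k := ⟨Λ.card - n, by omega, by omega⟩
    rw [zfb_coeff _ _ hk]
    have h1 := Matrix.charpoly_coeff_eq_sum_minors (Matrix.of fun i j : Λ => Y i j) k
      (by rwa [Fintype.card_coe])
    rw [Fintype.card_coe] at h1
    rw [h1, Finset.mul_sum]
    refine Finset.sum_nbij (fun s => s.image Subtype.val) ?_ ?_ ?_ ?_
    · intro s hs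
      rw [Finset.mem_powersetCard] at hs ⊢
      refine ⟨fun x hx => ?_, ?_⟩
      · obtain ⟨y, _, rfl⟩ := Finset.mem_image.1 hx
        exact y.2
      · rw [Finset.card_image_of_injective _ Subtype.val_injective, hs.2]
    · intro s _ t _ h
      exact Finset.image_injective Subtype.val_injective h
    · intro T hT
      rw [Finset.mem_coe, Finset.mem_powersetCard] at hT
      have h2 : (T.subtype (· ∈ Λ)).image Subtype.val = T := by
        ext x
        simp only [Finset.mem_image, Finset.mem_subtype]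
        constructor
        · rintro ⟨y, hy, rfl⟩
          exact hy
        · exact fun hx => ⟨⟨x, hT.1 hx⟩, hx, rfl⟩
      refine ⟨T.subtype (· ∈ Λ), ?_, h2⟩
      rw [Finset.mem_coe, Finset.mem_powersetCard]
      refine ⟨Finset.subset_univ _, ?_⟩
      rw [← Finset.card_image_of_injective _ Subtype.val_injective, h2, hT.2]
    · intro s hs
      rw [Finset.mem_powersetCard] at hs
      rw [mu_image Y Subtype.val_injective.injOn]
      unfold mu
      have h3 : (Matrix.of fun i j : s => -Y i j) =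
          -((Matrix.of fun i j : Λ => Y i j).submatrix (Subtype.val : s → Λ) Subtype.val) := by
        ext i j
        rfl
      rw [h3, Matrix.det_neg, Fintype.card_coe, hs.2]
  · rw [Polynomial.coeff_eq_zero_of_natDegree_lt, Polynomial.coeff_eq_zero_of_natDegree_lt]
    · exact (zfb_natDegree_le _ _).trans_lt (not_le.1 hn)
    · rw [Matrix.charpoly_natDegree_eq_dim, Fintype.card_coe]
      exact not_le.1 hn

theorem zfb_mu_Xcol_aux (X : V → V → ℂ) (col : V → κ) (S : Finset V) (D : Finset κ) :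
    mu (Xcol X col) (S.filter fun j => col j ∈ D) =
      ∏ c ∈ D, mu X (S.filter fun j => col j = c) := by
  induction D using Finset.induction_on with
  | empty => simp [mu_empty]
  | insert c D hc ih =>
    have h1 : (S.filter fun j => col j ∈ insert c D) =
        (S.filter fun j => col j = c) ∪ S.filter fun j => col j ∈ D := by
      rw [← Finset.filter_or]
      simp only [Finset.mem_insert]
    rw [h1, Finset.prod_insert hc, zfb_mu_union, ih]
    · congr 1
      refine zfb_mu_congr fun a ha b hb => ?_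
      unfold Xcol
      rw [if_pos ((Finset.mem_filter.1 ha).2.trans (Finset.mem_filter.1 hb).2.symm)]
    · refine Finset.disjoint_filter.2 fun x _ h1 h2 => hc (h1 ▸ h2)
    · intro a ha b hb
      unfold Xcol
      rw [if_neg]
      intro h
      exact hc ((Finset.mem_filter.1 ha).2 ▸ h ▸ (Finset.mem_filter.1 hb).2)

theorem zfb_mu_Xcol (X : V → V → ℂ) (col : V → κ) (S : Finset V) :
    mu (Xcol X col) S = ∏ c, mu X (S.filter fun j => col j = c) := by
  rw [← zfb_mu_Xcol_aux]
  simp

theorem zfb_Zf_dlt (X : V → V → ℂ) (col : V → κ) (S : Finset V) :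
    Zf X (fun j => dlt {col j}) S = ∏ c, mu X (S.filter fun j => col j = c) := by
  unfold Zf
  rw [Finset.sum_eq_single (fun c => S.filter fun j => col j = c)]
  · rw [Finset.prod_eq_one, one_mul]
    intro j hj
    refine if_pos ?_
    ext c
    simp [hj, eq_comm]
  · intro O hO hne
    rw [Fintype.mem_piFinset] at hO
    by_contra h0
    apply hne
    have h1 := Finset.prod_ne_zero_iff.1 (left_ne_zero_of_mul h0)
    funext c
    ext j
    rw [Finset.mem_filter]
    have h2 : ∀ j ∈ S, (j ∈ O c ↔ col j = c) := by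
      intro j hj
      have h3 := h1 j hj
      unfold dlt at h3
      have h4 : (Finset.univ.filter fun c => j ∈ O c) = {col j} := by
        by_contra h5
        exact h3 (if_neg h5)
      have h5 : c ∈ (Finset.univ.filter fun c => j ∈ O c) ↔ c ∈ ({col j} : Finset κ) := by
        rw [h4]
      simpa [eq_comm] using h5
    constructor
    · intro h
      have hj := Finset.mem_powerset.1 (hO c) h
      exact ⟨hj, (h2 j hj).1 h⟩
    · exact fun h => (h2 j h.1).2 h.2
  · intro h
    exfalso
    apply h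
    rw [Fintype.mem_piFinset]
    exact fun c => Finset.mem_powerset.2 (Finset.filter_subset _ _)

/-- When every site has a colour, `pol` is a characteristic polynomial. -/
theorem aeval_pol_col {X : V → V → ℂ} (hX : Herm X) (col : V → κ) (s : V → ℝ) (Λ : Finset V)
    (z : ℂ) :
    aeval z (pol X (fun j c => if col j = c then s j ^ 2 else 0) Λ) =
      (Matrix.of fun i j : Λ => Xsc s (Xcol X col) i j).charpoly.eval z := by
  rw [aeval_pol hX, Zf_cw1 X (fun _ => z), zfb_charpoly, Polynomial.eval_finsetSum]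
  refine Finset.sum_congr rfl fun S hS => ?_
  rw [Polynomial.eval_mul, Polynomial.eval_C, Polynomial.eval_pow, Polynomial.eval_X,
    Finset.prod_const, Finset.card_sdiff_of_subset (Finset.mem_powerset.1 hS), mul_comm]
  congr 1
  have h1 : (fun j => cw1 0 fun c => ((if col j = c then s j ^ 2 else 0 : ℝ) : ℂ)) =
      fun j T => (fun j => (s j : ℂ) * (s j : ℂ)) j * dlt {col j} T := by
    funext j T
    unfold cw1
    rw [zero_mul, zero_add, Finset.sum_eq_single (col j)]
    · simp [sq]
    · intro c _ hc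
      simp [Ne.symm hc]
    · simp
  rw [h1, Zf_smul, zfb_Zf_dlt]
  unfold Xsc
  rw [zfb_mu_scale (fun j => (s j : ℂ)) (fun j => (s j : ℂ)), zfb_mu_Xcol]

end Vale.Agent.P078
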