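import Vale.Agent.P078b.Init0
import Vale.Agent.P078b.Init1
import Vale.Agent.P078b.PF
import Vale.Agent.P078b.ZfB

open Polynomial MeasureTheory
open scoped ComplexConjugate

set_option linter.unusedSectionVars false
set_option linter.unusedVariables false

namespace Vale.Agent.P078

variable {V : Type*} [DecidableEq V] {κ : Type*} [Fintype κ] [DecidableEq κ]

/-- The one-variable barrier step. -/
theorem barrier_step {r : ℕ} (hr : 1 ≤ r) {g h : ℝ[X]} {g₀ w₀ B Z : ℝ} (hg₀ : 0 < g₀)
    (hw₀ : 0 < w₀) (hgd : g.natDegree ≤ r) (hhd : h.natDegree ≤ r) (hgc : g.coeff r = g₀)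
    (hU : ∀ z : ℂ, 0 < z.im → aeval z g ≠ 0)
    (hS : ∀ z : ℂ, 0 < z.im → (aeval z h * conj (aeval z g)).im ≤ 0)
    (hneg : ∀ w : ℝ, w < 0 → g.eval w ≠ 0) (hbig : ∀ w : ℝ, w₀ ≤ w → g.eval w ≠ 0)
    (hB : h.eval w₀ ≤ B * g.eval w₀) (hZ : w₀ / r - g.coeff (r - 1) / (r * g₀) ≤ Z) :
    Z * h.coeff r + h.coeff (r - 1) / r ≤ B * (Z * g₀ + g.coeff (r - 1) / r) := by
  have hdeg : g.natDegree = r :=
    le_antisymm hgd (le_natDegree_of_ne_zero (hgc.trans_ne hg₀.ne'))
  have hm : (C g₀⁻¹ * g).Monic := monic_C_mul_of_mul_leadingCoeff_eq_one (by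
    rw [leadingCoeff, hdeg, hgc, inv_mul_cancel₀ hg₀.ne'])
  obtain ⟨t, ht⟩ := real_rooted hm fun z hz => by
    rw [map_mul, aeval_C]
    exact mul_ne_zero (by simpa using hg₀.ne') (hU z hz)
  have hd : (C g₀⁻¹ * g).natDegree = r := by rw [natDegree_C_mul (inv_ne_zero hg₀.ne'), hdeg]
  generalize (C g₀⁻¹ * g).natDegree = n at t ht hd
  subst hd
  have hg : g = C g₀ * ∏ i, (X - C (t i)) := by
    rw [← ht, ← mul_assoc, ← C_mul, mul_inv_cancel₀ hg₀.ne', C_1, one_mul]
  have hroot : ∀ i, g.eval (t i) = 0 := fun i => by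
    rw [hg, eval_mul, eval_prod, Finset.prod_eq_zero (Finset.mem_univ i) (by simp), mul_zero]
  have t0 : ∀ i, 0 ≤ t i := fun i => not_lt.1 fun h => hneg _ h (hroot i)
  have t1 : ∀ i, t i < w₀ := fun i => not_le.1 fun h => hbig _ h (hroot i)
  obtain ⟨α, ν, hν, hh⟩ := partial_fractions Finset.univ t h (by simpa using hhd) fun z hz => by
    have h1 := hS z hz
    rw [hg, map_mul, aeval_C, map_mul, Complex.coe_algebraMap, Complex.conj_ofReal,
      mul_left_comm, Complex.im_ofReal_mul] at h1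
    exact nonpos_of_mul_nonpos_right h1 hg₀
  have c1 : (∏ i, (X - C (t i)) : ℝ[X]).coeff n = 1 := by
    have := (monic_prod_X_sub_C t Finset.univ).coeff_natDegree
    rwa [natDegree_finsetProd_X_sub_C_eq_card, Finset.card_fin] at this
  have c2 : (∏ i, (X - C (t i)) : ℝ[X]).coeff (n - 1) = -∑ i, t i := by
    have := prod_X_sub_C_coeff_card_pred Finset.univ t (by rwa [Finset.card_fin])
    rwa [Finset.card_fin] at this
  have c0 : ∀ i, (∏ j ∈ Finset.univ.erase i, (X - C (t j)) : ℝ[X]).natDegree = n - 1 := fun i => by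
    rw [natDegree_finsetProd_X_sub_C_eq_card, Finset.card_erase_of_mem (Finset.mem_univ i),
      Finset.card_fin]
  have c3 : ∀ i, (∏ j ∈ Finset.univ.erase i, (X - C (t j)) : ℝ[X]).coeff n = 0 := fun i =>
    coeff_eq_zero_of_natDegree_lt (by rw [c0]; omega)
  have c4 : ∀ i, (∏ j ∈ Finset.univ.erase i, (X - C (t j)) : ℝ[X]).coeff (n - 1) = 1 := fun i => by
    rw [← c0 i]
    exact (monic_prod_X_sub_C t _).coeff_natDegree
  have e1 : h.coeff n = α := by
    rw [hh]
    simp only [coeff_add, coeff_C_mul, finsetSum_coeff, c1, c3, mul_one, mul_zero,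
      Finset.sum_const_zero, add_zero]
  have e2 : h.coeff (n - 1) = α * -∑ i, t i + ∑ i, ν i := by
    rw [hh]
    simp only [coeff_add, coeff_C_mul, finsetSum_coeff, c2, c4, mul_one]
  have e3 : g.coeff (n - 1) = g₀ * -∑ i, t i := by rw [hg, coeff_C_mul, c2]
  have hP : 0 < ∏ i, (w₀ - t i) := Finset.prod_pos fun i _ => sub_pos.2 (t1 i)
  have e4 : α + (∑ i, ν i) / w₀ ≤ B * g₀ := by
    refine le_of_mul_le_mul_right (le_trans ?_ (hB.trans (le_of_eq ?_))) hP
    · rw [hh]
      simp only [eval_add, eval_mul, eval_C, eval_prod, eval_sub, eval_X, eval_finsetSum, add_mul,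
        Finset.sum_div, Finset.sum_mul]
      refine add_le_add le_rfl (Finset.sum_le_sum fun i _ => ?_)
      rw [← Finset.mul_prod_erase _ _ (Finset.mem_univ i), ← mul_assoc]
      refine mul_le_mul_of_nonneg_right ?_ (Finset.prod_nonneg fun j _ => (sub_pos.2 (t1 j)).le)
      rw [div_mul_eq_mul_div, div_le_iff₀ hw₀]
      exact mul_le_mul_of_nonneg_left (sub_le_self _ (t0 i)) (hν i)
    · rw [hg]
      simp only [eval_mul, eval_C, eval_prod, eval_sub, eval_X, mul_assoc]
  have hn : (0 : ℝ) < n := by exact_mod_cast hr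
  rw [e3, show g₀ * (-∑ i, t i) / (n * g₀) = -((∑ i, t i) / n) by field_simp] at hZ
  have e5 : w₀ / n ≤ Z - (∑ i, t i) / n := by linarith
  have e6 : (∑ i, ν i) / n ≤ (∑ i, ν i) / w₀ * (Z - (∑ i, t i) / n) := by
    refine le_trans (le_of_eq ?_) (mul_le_mul_of_nonneg_left e5
      (div_nonneg (Finset.sum_nonneg fun i _ => hν i) hw₀.le))
    field_simp
  have e7 := mul_le_mul_of_nonneg_right e4 ((div_pos hw₀ hn).le.trans e5)
  rw [e1, e2, e3]
  calc _ = α * (Z - (∑ i, t i) / n) + (∑ i, ν i) / n := by ring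
    _ ≤ (α + (∑ i, ν i) / w₀) * (Z - (∑ i, t i) / n) := by linarith
    _ ≤ _ := e7.trans (le_of_eq (by ring))

/-- The partition function as a polynomial in the inverse weight of the site `j`. -/
noncomputable def init2_p (X : V → V → ℂ) (Ω : V → Finset κ → ℂ) (Λ : Finset V) (j : V) : ℝ[X] :=
  ∑ S : Finset κ, C (Zf X (Function.update Ω j (dlt S)) Λ).re *
    Polynomial.X ^ (Fintype.card κ - S.card)

theorem init2_deg (X : V → V → ℂ) (Ω : V → Finset κ → ℂ) (Λ : Finset V) (j : V) :
    (init2_p X Ω Λ j).natDegree ≤ Fintype.card κ :=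
  natDegree_sum_le_of_forall_le _ _ fun _ _ => (natDegree_C_mul_X_pow_le _ _).trans (Nat.sub_le _ _)

theorem init2_top (X : V → V → ℂ) (Ω : V → Finset κ → ℂ) (Λ : Finset V) (j : V) :
    (init2_p X Ω Λ j).coeff (Fintype.card κ) = (Zf X (Function.update Ω j (dlt ∅)) Λ).re := by
  simp only [init2_p, finsetSum_coeff, coeff_C_mul_X_pow]
  rw [Finset.sum_eq_single ∅ (fun S _ hS => if_neg ?_) (by simp)]
  · simp
  · have h1 := Finset.card_pos.2 (Finset.nonempty_iff_ne_empty.2 hS)
    have h2 := Finset.card_le_univ S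
    omega

theorem init2_next (hκ : 1 ≤ Fintype.card κ) (X : V → V → ℂ) (Ω : V → Finset κ → ℂ)
    (Λ : Finset V) (j : V) : (init2_p X Ω Λ j).coeff (Fintype.card κ - 1) =
      ∑ c, (Zf X (Function.update Ω j (dlt {c})) Λ).re := by
  simp only [init2_p, finsetSum_coeff, coeff_C_mul_X_pow]
  rw [← Finset.sum_filter]
  refine (Finset.sum_bij (fun c _ => {c}) (fun c _ => by simp)
    (fun a _ b _ h => Finset.singleton_injective h) (fun S hS => ?_) fun _ _ => rfl).symm
  have h1 := (Finset.mem_filter.1 hS).2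
  have h2 := Finset.card_le_univ S
  obtain ⟨c, rfl⟩ := Finset.card_eq_one.1 (show S.card = 1 by omega)
  exact ⟨c, Finset.mem_univ c, rfl⟩

theorem init2_cw1 (hκ : 1 ≤ Fintype.card κ) (X : V → V → ℂ) (Ω : V → Finset κ → ℂ)
    {Λ : Finset V} {j : V} (hj : j ∈ Λ) (z : ℝ) :
    (Zf X (Function.update Ω j (cw1 z fun _ => ((1 / Fintype.card κ : ℝ) : ℂ))) Λ).re =
      z * (init2_p X Ω Λ j).coeff (Fintype.card κ) +
        (init2_p X Ω Λ j).coeff (Fintype.card κ - 1) / Fintype.card κ := by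
  have : (cw1 z fun _ : κ => ((1 / Fintype.card κ : ℝ) : ℂ)) = fun S => z * dlt ∅ S +
      1 * (fun S => ∑ c, ((1 / Fintype.card κ : ℝ) : ℂ) * dlt {c} S) S := by
    funext S
    rw [one_mul, cw1]
  rw [this, Zf_update_add X Ω hj, Zf_update_sum X Ω hj, init2_top, init2_next hκ, one_mul,
    ← Finset.mul_sum, Complex.add_re, Complex.re_ofReal_mul, Complex.re_ofReal_mul, Complex.re_sum]
  ring

theorem init2_dlt_im (S T : Finset κ) : (dlt S T).im = 0 := by
  unfold dlt
  split_ifs <;> simp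

theorem init2_upd_im {Ω : V → Finset κ → ℂ} (hΩ : ∀ i S, (Ω i S).im = 0) (j : V) (S : Finset κ) :
    ∀ i T, (Function.update Ω j (dlt S) i T).im = 0 := fun i T => by
  rcases eq_or_ne i j with rfl | h
  · rw [Function.update_self, init2_dlt_im]
  · rw [Function.update_of_ne h, hΩ]

theorem init2_hyb_im (E : Finset V) (Z : V → ℝ) (b : ℝ) (t : V → ℝ) (i : V) (S : Finset κ) :
    (hyb E Z b t i S).im = 0 := by
  unfold hyb
  split_ifs
  · simp [cw1, Complex.im_sum, init2_dlt_im]
  · rw [pw1, ← Complex.ofReal_prod, Complex.ofReal_im]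

theorem init2_aeval {X : V → V → ℂ} (hX : Herm X) {Ω : V → Finset κ → ℂ}
    (hΩ : ∀ i S, (Ω i S).im = 0) {Λ : Finset V} {j : V} (hj : j ∈ Λ) {z : ℂ} (hz : z ≠ 0) :
    aeval z (init2_p X Ω Λ j) =
      z ^ Fintype.card κ * Zf X (Function.update Ω j (pw1 fun _ => z⁻¹)) Λ := by
  have : (pw1 fun _ : κ => z⁻¹) = fun T => ∑ S : Finset κ, z⁻¹ ^ S.card * dlt S T := by
    funext T
    simp [pw1, dlt]
  rw [this, Zf_update_sum X Ω hj, init2_p, map_sum, Finset.mul_sum]
  refine Finset.sum_congr rfl fun S _ => ?_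
  rw [map_mul, aeval_C, map_pow, aeval_X, Complex.coe_algebraMap, Complex.conj_eq_iff_re.1
    (Complex.conj_eq_iff_im.2 (Zf_im_eq_zero hX fun i _ => init2_upd_im hΩ j S i)),
    pow_sub₀ _ hz (Finset.card_le_univ S), inv_pow]
  ring

theorem init2_eval {X : V → V → ℂ} (hX : Herm X) {Ω : V → Finset κ → ℂ}
    (hΩ : ∀ i S, (Ω i S).im = 0) {Λ : Finset V} {j : V} (hj : j ∈ Λ) {w : ℝ} (hw : w ≠ 0) :
    (init2_p X Ω Λ j).eval w =
      w ^ Fintype.card κ * (Zf X (Function.update Ω j (pw1 fun _ => ((w⁻¹ : ℝ) : ℂ))) Λ).re := by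
  have h := init2_aeval hX hΩ hj (Complex.ofReal_ne_zero.2 hw)
  rw [← Complex.coe_algebraMap, aeval_algebraMap_apply, Complex.coe_algebraMap, coe_aeval_eq_eval,
    ← Complex.ofReal_pow, ← Complex.ofReal_inv] at h
  have := congrArg Complex.re h
  rwa [Complex.ofReal_re, Complex.re_ofReal_mul] at this

theorem init2_adm {E L : Finset V} {Z t : V → ℝ} {b : ℝ} (hb : 0 ≤ b) :
    Adm (hyb (κ := κ) E Z b t) L := fun i _ => by
  unfold hyb
  split_ifs
  · exact Or.inr ⟨Z i, fun _ => b, by simp, fun _ => hb, rfl⟩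
  · exact Or.inl ⟨_, fun _ => by simp, rfl⟩

theorem init2_hyb_free {E : Finset V} {j : V} (hj : j ∉ E) (Z : V → ℝ) (b : ℝ) (t : V → ℝ)
    (u : ℝ) : Function.update (hyb (κ := κ) E Z b t) j (pw1 fun _ => (u : ℂ)) =
      hyb E Z b (Function.update t j u) := by
  funext i
  rcases eq_or_ne i j with rfl | h
  · rw [Function.update_self, hyb, if_neg hj, Function.update_self]
  · rw [Function.update_of_ne h, hyb, hyb, Function.update_of_ne h]

theorem init2_hyb_erase {E : Finset V} {j : V} (hj : j ∈ E) (Z : V → ℝ) (b : ℝ) (t : V → ℝ) :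
    hyb (κ := κ) E Z b t =
      Function.update (hyb (E.erase j) Z b t) j (cw1 (Z j) fun _ => (b : ℂ)) := by
  funext i
  rcases eq_or_ne i j with rfl | h
  · rw [Function.update_self, hyb, if_pos hj]
  · simp only [Function.update_of_ne h, hyb, Finset.mem_erase, h, ne_eq, not_false_eq_true,
      true_and]

theorem init2_re_pos {X : V → V → ℂ} {ω ω' : V → Finset κ → ℂ} {Λ : Finset V} {s : V → ℝ}
    (hs : ∀ j ∈ Λ, 0 < s j) (h : ∀ j ∈ Λ, ∀ S, ω j S = s j * ω' j S) (hp : 0 < (Zf X ω' Λ).re) :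
    0 < (Zf X ω Λ).re := by
  rw [Zf_congr (X' := X) (ω' := fun j S => s j * ω' j S) (fun _ _ _ _ => rfl)
    (fun j hj => funext (h j hj)), Zf_smul, ← Complex.ofReal_prod, Complex.re_ofReal_mul]
  exact mul_pos (Finset.prod_pos hs) hp

/-- The barrier induction on the number of contracted sites. -/
theorem barrier {X : V → V → ℂ} (hX : Herm X) (hc : Contr X) (h0 : ∀ a, X a a = 0)
    (hκ : 1 ≤ Fintype.card κ) {w₀ : ℝ} (hw : 1 < w₀) (n : ℕ) :
    ∀ (E L : Finset V) (Z t : V → ℝ), E ⊆ L → E.card = n →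
      (∀ j ∈ L, w₀ / Fintype.card κ + 1 / (w₀ - 1) ≤ Z j) →
      (∀ j ∈ L, 0 ≤ t j ∧ t j ≤ 1 / w₀) →
      0 < (Zf X (hyb (κ := κ) E Z (1 / Fintype.card κ) t) L).re ∧
      ∀ k ∉ L, -∑ c : κ, (Zf X (Function.update (hyb E Z (1 / Fintype.card κ) t) k (dlt {c}))
          (insert k L)).re ≤
        Fintype.card κ / (w₀ - 1) * (Zf X (hyb (κ := κ) E Z (1 / Fintype.card κ) t) L).re := by
  have hr : (0 : ℝ) < Fintype.card κ := by exact_mod_cast hκ
  have hw0 : 0 < w₀ := by linarith
  have hw1 : 0 < w₀ - 1 := by linarith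
  have hb : (0 : ℝ) ≤ 1 / Fintype.card κ := by positivity
  induction n with
  | zero =>
    intro E L Z t _ hE _ ht
    obtain rfl := Finset.card_eq_zero.1 hE
    have e : hyb (κ := κ) ∅ Z (1 / Fintype.card κ) t = fun j => pw1 fun _ => (t j : ℂ) :=
      funext fun j => if_neg (Finset.notMem_empty j)
    rw [e]
    refine ⟨base_pos hX hc hw ht, fun k hk => ?_⟩
    rw [← Finset.sum_neg_distrib]
    refine (Finset.sum_le_sum fun c _ => base_self hX hc hk (h0 k) hw ht c).trans (le_of_eq ?_)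
    rw [Finset.sum_const, Finset.card_univ, nsmul_eq_mul]
    ring
  | succ n ih =>
    intro E L Z t hEL hE hZ ht
    obtain ⟨j, hj⟩ := Finset.card_pos.1 ((Nat.succ_pos n).trans_eq hE.symm)
    have hjL := hEL hj
    have hE' : (E.erase j).card = n := by rw [Finset.card_erase_of_mem hj, hE, Nat.add_sub_cancel]
    have hL : insert j (L.erase j) = L := Finset.insert_erase hjL
    have hj' := Finset.notMem_erase j L
    have hZ0 : ∀ i ∈ L, 0 < Z i := fun i hi => lt_of_lt_of_le (by positivity) (hZ i hi)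
    have hsub := Finset.erase_subset j L
    rw [init2_hyb_erase hj]
    obtain ⟨p1, p2⟩ := ih _ _ Z t (Finset.erase_subset_erase j hEL) hE'
      (fun i hi => hZ i (hsub hi)) fun i hi => ht i (hsub hi)
    have hfree : ∀ w, w₀ ≤ w → _ := fun w hw' =>
      ih _ L Z (Function.update t j w⁻¹) ((Finset.erase_subset j E).trans hEL) hE' hZ fun i hi => by
        rcases eq_or_ne i j with rfl | h
        · rw [Function.update_self, one_div]
          exact ⟨inv_nonneg.2 (by linarith), inv_anti₀ hw0 hw'⟩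
        · rw [Function.update_of_ne h]
          exact ht i hi
    simp only [← init2_hyb_free (Finset.notMem_erase j E)] at hfree
    have hneg : ∀ w : ℝ, w ≤ 0 → 0 < (Zf X (Function.update (hyb (E.erase j) Z
        (1 / Fintype.card κ) t) j (pw1 fun _ : κ => (w : ℂ))) L).re := fun w hw' => by
      have := hyb_neg_pos (E := E.erase j) hX hj' (h0 j) hb (fun i hi => hZ0 i (hsub hi))
        (fun i hi => (ht i (hsub hi)).1) (fun σ s0 s1 => ?_) (τ := fun _ : κ => w) fun _ => hw'
      · rwa [hL] at this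
      rcases s0.eq_or_lt with rfl | s0
      · refine init2_re_pos (s := fun i => if i ∈ E.erase j then Z i else 1) (fun i hi => ?_)
          (fun i _ S => ?_) (base_pos hX hc hw (t := fun _ => 0) fun _ _ => ⟨le_rfl, by positivity⟩)
        · split_ifs
          · exact hZ0 i (hsub hi)
          · exact one_pos
        · unfold hyb
          split_ifs <;> simp [cw1, pw1_zero]
      · refine init2_re_pos (s := fun i => if i ∈ E.erase j then σ else 1) (fun i hi => ?_)
          (fun i _ S => ?_) (ih _ _ (fun i => Z i / σ) (fun i => σ * t i)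
            (Finset.erase_subset_erase j hEL) hE' (fun i hi => (hZ i (hsub hi)).trans ?_)
            fun i hi => ⟨mul_nonneg s0.le (ht i (hsub hi)).1,
              (mul_le_of_le_one_left (ht i (hsub hi)).1 s1).trans (ht i (hsub hi)).2⟩).1
        · split_ifs
          · exact s0
          · exact one_pos
        · unfold hyb
          split_ifs
          · have : (σ : ℂ) ≠ 0 := Complex.ofReal_ne_zero.2 s0.ne'
            simp only [cw1, Complex.ofReal_mul, Complex.ofReal_div, mul_add, Finset.mul_sum,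
              mul_assoc]
            rw [← mul_assoc, mul_div_cancel₀ _ this]
          · simp
        · exact le_div_self (hZ0 i (hsub hi)).le s0 s1
    have him := init2_hyb_im (κ := κ) (E.erase j) Z (1 / Fintype.card κ) t
    have hadm : ∀ L, Adm (hyb (κ := κ) (E.erase j) Z (1 / Fintype.card κ) t) L :=
      fun _ => init2_adm hb
    generalize hyb (κ := κ) (E.erase j) Z (1 / Fintype.card κ) t = ω at p1 p2 hfree hneg him hadm
    have p3 := p2 j hj'
    rw [hL, ← init2_next hκ] at p3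
    have p4 : (init2_p X ω L j).coeff (Fintype.card κ) = (Zf X ω (L.erase j)).re := by
      rw [init2_top, ← Zf_insert_empty X ω hj', hL]
    have p5 : w₀ / Fintype.card κ - (init2_p X ω L j).coeff (Fintype.card κ - 1) /
        (Fintype.card κ * (Zf X ω (L.erase j)).re) ≤ Z j := by
      refine le_trans ?_ (hZ j hjL)
      rw [sub_eq_add_neg, ← neg_div]
      refine add_le_add le_rfl ((div_le_iff₀ (by positivity)).2 (p3.trans (le_of_eq ?_)))
      ring
    refine ⟨?_, fun k hk => ?_⟩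
    · rw [init2_cw1 hκ X ω hjL, p4]
      have := mul_le_mul_of_nonneg_right p5 p1.le
      rw [sub_mul, div_mul_eq_mul_div _ (_ * _), mul_div_mul_right _ _ p1.ne'] at this
      have : 0 < w₀ / Fintype.card κ * (Zf X ω (L.erase j)).re := by positivity
      linarith
    have hjk : j ≠ k := fun e => hk (e ▸ hjL)
    have hjL' : j ∈ insert k L := Finset.mem_insert_of_mem hjL
    have key := barrier_step hκ (g := init2_p X ω L j)
      (h := -∑ c : κ, init2_p X (Function.update ω k (dlt {c})) (insert k L) j)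
      (B := Fintype.card κ / (w₀ - 1)) p1 hw0 (init2_deg _ _ _ _)
      (by rw [natDegree_neg]; exact natDegree_sum_le_of_forall_le _ _ fun _ _ => init2_deg _ _ _ _)
      p4 (fun z hz => ?_) (fun z hz => ?_) (fun w hw' => ?_) (fun w hw' => ?_) ?_ p5
    · rw [init2_cw1 hκ X ω hjL, p4]
      refine le_trans (le_of_eq ?_) key
      simp only [Function.update_comm hjk, init2_cw1 hκ X _ hjL', coeff_neg, finsetSum_coeff,
        Finset.sum_add_distrib, ← Finset.mul_sum, ← Finset.sum_div]
      ring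
    · have hz0 : z ≠ 0 := fun e => by simp [e] at hz
      rw [init2_aeval hX him hjL hz0, ← hL]
      refine mul_ne_zero (pow_ne_zero _ hz0) (stab_free hX hj' (hadm _)
        (fun e => by simp [e] at p1) fun _ => Or.inr ?_)
      rw [Complex.inv_im]
      exact div_neg_of_neg_of_pos (by linarith) (Complex.normSq_pos.2 hz0)
    · have hz0 : z ≠ 0 := fun e => by simp [e] at hz
      have ha : Adm (Function.update ω j (pw1 fun _ => z⁻¹)) L := fun i hi => by
        rcases eq_or_ne i j with rfl | h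
        · rw [Function.update_self]
          refine Or.inl ⟨_, fun _ => ?_, rfl⟩
          rw [Complex.inv_im]
          exact div_nonpos_of_nonpos_of_nonneg (by linarith) (Complex.normSq_nonneg _)
        · rw [Function.update_of_ne h]
          exact hadm L i hi
      rw [init2_aeval hX him hjL hz0, map_neg, map_sum, neg_mul, Complex.neg_im, neg_nonpos,
        Finset.sum_mul, Complex.im_sum]
      refine Finset.sum_nonneg fun c _ => ?_
      rw [init2_aeval hX (init2_upd_im him k _) hjL' hz0, map_mul, mul_mul_mul_comm,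
        Complex.mul_conj, Complex.im_ofReal_mul, ← Function.update_comm hjk]
      exact mul_nonneg (Complex.normSq_nonneg _) (stabC0 hX hk ha c)
    · rw [init2_eval hX him hjL hw'.ne]
      exact mul_ne_zero (pow_ne_zero _ hw'.ne) (hneg _ (inv_nonpos.2 hw'.le)).ne'
    · rw [init2_eval hX him hjL (hw0.trans_le hw').ne']
      exact mul_ne_zero (pow_ne_zero _ (hw0.trans_le hw').ne') (hfree w hw').1.ne'
    · have := mul_le_mul_of_nonneg_left ((hfree w₀ le_rfl).2 k hk)
        (pow_pos hw0 (Fintype.card κ)).le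
      rw [init2_eval hX him hjL hw0.ne', mul_left_comm]
      refine le_trans (le_of_eq ?_) this
      simp only [eval_neg, eval_finsetSum, init2_eval hX (init2_upd_im him k _) hjL' hw0.ne',
        Function.update_comm hjk, ← Finset.mul_sum, mul_neg]

theorem init2_root {X : V → V → ℂ} (hX : Herm X) (hc : Contr X) (h0 : ∀ a, X a a = 0)
    (hκ : 1 ≤ Fintype.card κ) {s : V → ℝ} {σ : ℝ} {Λ : Finset V}
    (hs : ∀ j ∈ Λ, 0 < s j ∧ s j ≤ σ) {z : ℝ}
    (hz : (pol X (fun j (_ : κ) => s j * (1 / Fintype.card κ)) Λ).eval z = 0) :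
    z ≤ 3 / √(Fintype.card κ) * σ := by
  by_contra h
  have hr : (1 : ℝ) ≤ Fintype.card κ := by exact_mod_cast hκ
  have h1 : (1 : ℝ) ≤ √(Fintype.card κ) := Real.one_le_sqrt.2 hr
  have h2 := Real.mul_self_sqrt (zero_le_one.trans hr)
  have h3 := (barrier hX hc h0 hκ (w₀ := 1 + √(Fintype.card κ)) (by linarith) _ Λ Λ
    (fun j => z / s j) (fun _ => 0) Finset.Subset.rfl rfl (fun j hj => ?_)
    fun _ _ => ⟨le_rfl, by positivity⟩).1
  · have h4 := init2_re_pos (ω := fun j => cw1 (z : ℂ) fun _ : κ =>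
      ((s j * (1 / Fintype.card κ) : ℝ) : ℂ)) (fun j hj => (hs j hj).1) (fun j hj S => ?_) h3
    · rw [← aeval_pol hX, ← Complex.coe_algebraMap, aeval_algebraMap_apply, coe_aeval_eq_eval, hz,
        map_zero] at h4
      exact lt_irrefl _ h4
    · have : (s j : ℂ) ≠ 0 := Complex.ofReal_ne_zero.2 (hs j hj).1.ne'
      simp only [hyb, if_pos hj, cw1, Complex.ofReal_mul, Complex.ofReal_div, mul_add,
        Finset.mul_sum, mul_assoc]
      rw [← mul_assoc, mul_div_cancel₀ _ this]
  · rw [le_div_iff₀ (hs j hj).1]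
    refine le_trans (mul_le_mul ?_ (hs j hj).2 (hs j hj).1.le (by positivity)) (not_le.1 h).le
    generalize √(Fintype.card κ : ℝ) = u at h1 h2
    rw [← h2, add_sub_cancel_left, div_add_div _ _ (by positivity) (by positivity),
      div_le_div_iff₀ (by positivity) (by positivity)]
    nlinarith [mul_nonneg (mul_self_nonneg u) (sub_nonneg.2 h1)]

/-- Root bound for the undecided state. -/
theorem root_bound {X : V → V → ℂ} (hX : Herm X) (hc : Contr X) (h0 : ∀ a, X a a = 0)
    (hκ : 1 ≤ Fintype.card κ) {s : V → ℝ} {σ : ℝ} {Λ : Finset V}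
    (hs : ∀ j ∈ Λ, 0 < s j ∧ s j ≤ σ) {z : ℝ}
    (hz : (pol X (fun j (_ : κ) => s j * (1 / Fintype.card κ)) Λ).eval z = 0) :
    |z| ≤ 3 / √(Fintype.card κ) * σ := by
  refine abs_le.2 ⟨neg_le.1 (init2_root hX.neg hc.neg (fun a => by rw [h0, neg_zero]) hκ hs ?_),
    init2_root hX hc h0 hκ hs hz⟩
  rw [eval_pol_neg, neg_neg, hz, mul_zero]

end Vale.Agent.P078
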