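import Vale.Agent.P078b.LemA

open Polynomial MeasureTheory
open scoped ComplexConjugate

set_option linter.unusedSectionVars false
set_option linter.unusedVariables false

namespace Vale.Agent.P078

variable {ι : Type*} [Fintype ι] [DecidableEq ι]

/-- Markov: half of the colours satisfy six linear conditions. -/
theorem markov_half (h : ℕ) [NeZero h] (f : Fin 6 → Fin (2 * h) → ℝ) (hf : ∀ k c, 0 ≤ f k c) :
    ∃ e : ZMod h ↪ Fin (2 * h), ∀ i k, f k (e i) ≤ 12 * ((∑ c, f k c) / (2 * h)) := by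
  classical
  have hh : (0 : ℝ) < h := by exact_mod_cast Nat.pos_of_ne_zero (NeZero.ne h)
  let bad : Fin 6 → Finset (Fin (2 * h)) := fun k =>
    Finset.univ.filter fun c => 12 * ((∑ c, f k c) / (2 * h)) < f k c
  have hb : ∀ k, 6 * (bad k).card ≤ h := fun k => by
    rcases (bad k).eq_empty_or_nonempty with h0 | h0
    · simp [h0]
    have h1 : ∑ _c ∈ bad k, 12 * ((∑ c, f k c) / (2 * h)) < ∑ c ∈ bad k, f k c :=
      Finset.sum_lt_sum_of_nonempty h0 fun c hc => (Finset.mem_filter.1 hc).2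
    have h2 : ∑ c ∈ bad k, f k c ≤ ∑ c, f k c :=
      Finset.sum_le_sum_of_subset_of_nonneg (Finset.subset_univ _) fun c _ _ => hf k c
    have h3 : 0 ≤ ∑ c, f k c := Finset.sum_nonneg fun c _ => hf k c
    rw [Finset.sum_const, nsmul_eq_mul] at h1
    have h4 : ((bad k).card : ℝ) * (12 * ((∑ c, f k c) / (2 * h))) =
        (6 * (bad k).card / h) * ∑ c, f k c := by field_simp; ring
    rw [h4] at h1
    have h5 : (6 * (bad k).card / h : ℝ) ≤ 1 := by
      by_contra h6
      have := mul_le_mul_of_nonneg_right (not_le.1 h6).le h3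
      linarith
    rw [div_le_one hh] at h5
    exact_mod_cast h5
  have hU : (Finset.univ.biUnion bad).card ≤ h := by
    have h1 : (Finset.univ.biUnion bad).card ≤ ∑ k, (bad k).card := Finset.card_biUnion_le
    have h2 : ∑ k, 6 * (bad k).card ≤ ∑ _k : Fin 6, h := Finset.sum_le_sum fun k _ => hb k
    rw [← Finset.mul_sum, Finset.sum_const, Finset.card_univ, Fintype.card_fin, smul_eq_mul] at h2
    omega
  obtain ⟨e⟩ : Nonempty (ZMod h ↪ ((Finset.univ.biUnion bad)ᶜ : Finset (Fin (2 * h)))) :=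
    Function.Embedding.nonempty_of_card_le (by
      rw [ZMod.card, Fintype.card_coe, Finset.card_compl, Fintype.card_fin]; omega)
  refine ⟨e.trans (Function.Embedding.subtype _), fun i k => not_lt.1 fun hlt => ?_⟩
  exact Finset.mem_compl.1 (e i).2 (Finset.mem_biUnion.2 ⟨k, Finset.mem_univ _,
    Finset.mem_filter.2 ⟨Finset.mem_univ _, hlt⟩⟩)

theorem lemA_good {q : ℕ} (hq : 32 ≤ q) (t : ι → ℝ) (h : ℕ) [NeZero h]
    {ν : Fin (2 * h) → ι → ℝ} (hν : ∀ c i, 0 ≤ ν c i) :
    ∃ e : ZMod h ↪ Fin (2 * h), ∀ i,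
      Gp q t (fun j => ν (e i) j / 3000) + Gp q (fun j => -t j) (fun j => ν (e i) j / 3000) ≤
        Gp q t (fun j => (∑ c, ν c j) / (2 * h)) +
          Gp q (fun j => -t j) fun j => (∑ c, ν c j) / (2 * h) := by
  have hμ : ∀ j, 0 ≤ (∑ c, ν c j) / (2 * h : ℝ) := fun j =>
    div_nonneg (Finset.sum_nonneg fun c _ => hν c j) (by positivity)
  obtain ⟨l, hl, hl'⟩ := lemA_one hq t hμ
  obtain ⟨m, hm, hm'⟩ := lemA_one hq (fun j => -t j) hμ
  let L : Fin 6 → ι → ℝ := ![l 0, l 1, l 2, m 0, m 1, m 2]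
  have hL : ∀ k i, 0 ≤ L k i := fun k i => by
    fin_cases k
    exacts [hl 0 i, hl 1 i, hl 2 i, hm 0 i, hm 1 i, hm 2 i]
  obtain ⟨e, he⟩ := markov_half h (fun k c => ∑ j, L k j * ν c j) fun k c =>
    Finset.sum_nonneg fun j _ => mul_nonneg (hL k j) (hν c j)
  have key : ∀ i k, ∑ j, L k j * ν (e i) j ≤ 12 * ∑ j, L k j * ((∑ c, ν c j) / (2 * h)) :=
    fun i k => by
      refine (he i k).trans_eq ?_
      rw [Finset.sum_comm, Finset.sum_div]
      congr 1
      exact Finset.sum_congr rfl fun j _ => by rw [← Finset.mul_sum, mul_div_assoc]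
  refine ⟨e, fun i => add_le_add (hl' _ (hν _) fun k => ?_) (hm' _ (hν _) fun k => ?_)⟩
  · fin_cases k
    exacts [key i 0, key i 1, key i 2]
  · fin_cases k
    exacts [key i 3, key i 4, key i 5]

end Vale.Agent.P078
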