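import Vale.Agent.P078b.Mob
import Vale.Agent.P078b.LemB
import Vale.Agent.P078b.Init2

open Polynomial MeasureTheory
open scoped ComplexConjugate

set_option linter.unusedSectionVars false
set_option linter.unusedVariables false

namespace Vale.Agent.P078

variable {V : Type*} [DecidableEq V] {κ : Type*} [Fintype κ] [DecidableEq κ]

theorem Nq_insert_sub {X : V → V → ℂ} {β : V → κ → ℝ} {L : Finset V} {a : V}
    {t ν : Fin L.card → ℝ} (hν : ∀ i, 0 ≤ ν i) (hL : pol X β L = ∏ i, (Polynomial.X - C (t i)))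
    {β' : V → κ → ℝ} (h : pol X β' (insert a L) = arrow t ν) {q : ℕ} (hq : 2 ≤ q) (he : Even q) :
    Nq X β' q (insert a L) - Nq X β q L = Gp q t ν + Gp q (fun i => -t i) ν := by
  obtain ⟨θ, hθ, hI⟩ := exists_interl t ν hν
  rw [Nq_eq_of_pol (h.trans hθ) (by omega), Nq_eq_of_pol hL (by omega)]
  exact hI.sum_pow hq he

/-- Half of the colours do not increase the potential. -/
theorem key_choice {X : V → V → ℂ} (hX : Herm X) (h0 : ∀ a, X a a = 0) (h : ℕ) [NeZero h]
    {β : V → Fin (2 * h) → ℝ} {S : Finset V} {a : V} (ha : a ∈ S)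
    (hβ : ∀ j ∈ S, ∀ c, 0 ≤ β j c) {s : ℝ} (hs : 0 ≤ s) {q : ℕ} (hq : 32 ≤ q) (he : Even q) :
    ∃ e : ZMod h ↪ Fin (2 * h), ∀ i,
      Nq X (Function.update β a fun c => s * if e i = c then 1 / 3000 else 0) q S ≤
        Nq X (Function.update β a fun _ => s * (1 / (2 * h))) q S := by
  have haL : a ∉ S.erase a := Finset.notMem_erase a S
  obtain ⟨t, ν, hν, hL, hb⟩ := pol_insert hX haL (h0 a) fun j hj => hβ j (Finset.mem_of_mem_erase hj)
  obtain ⟨e, hE⟩ := lemA_good hq t h (ν := fun c i => s * ν c i) fun c i => mul_nonneg hs (hν c i)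
  refine ⟨e, fun i => ?_⟩
  have e1 : (fun j => ∑ c, (s * if e i = c then 1 / 3000 else 0) * ν c j) =
      fun j => s * ν (e i) j / 3000 := by
    funext j
    rw [Finset.sum_eq_single (e i) (fun c _ hc => by rw [if_neg hc.symm]; ring) (by simp), if_pos rfl]
    ring
  have e2 : (fun j => ∑ c, (s * (1 / (2 * h))) * ν c j) =
      fun j => (∑ c, s * ν c j) / (2 * h : ℝ) := by
    funext j
    rw [Finset.sum_div]
    exact Finset.sum_congr rfl fun c _ => by ring
  have h1 := hb fun c => s * if e i = c then 1 / 3000 else 0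
  have h2 := hb fun _ => s * (1 / (2 * h))
  rw [e1] at h1
  rw [e2] at h2
  have h3 := Nq_insert_sub (fun j => div_nonneg (mul_nonneg hs (hν _ j)) (by norm_num)) hL h1
    (by omega : 2 ≤ q) he
  have h4 := Nq_insert_sub (fun j => div_nonneg
    (Finset.sum_nonneg fun c _ => mul_nonneg hs (hν c j)) (by positivity)) hL h2
    (by omega : 2 ≤ q) he
  rw [Finset.insert_erase ha] at h3 h4
  have := hE i
  linarith

/-- The increment in the undecided state. -/
theorem key_init {X : V → V → ℂ} (hX : Herm X) (hc : Contr X) (h0 : ∀ a, X a a = 0)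
    (hκ : 1 ≤ Fintype.card κ) {s : V → ℝ} {σ : ℝ} {L : Finset V} {a : V} (ha : a ∉ L)
    (hs : ∀ j ∈ insert a L, 0 < s j ∧ s j ≤ σ) {q : ℕ} (hq : 2 ≤ q) (he : Even q) :
    Nq X (fun j (_ : κ) => s j * (1 / Fintype.card κ)) q (insert a L) -
      Nq X (fun j (_ : κ) => s j * (1 / Fintype.card κ)) q L ≤
      2 * (3 / √(Fintype.card κ) * σ) ^ q := by
  have hβ : ∀ j ∈ insert a L, 0 ≤ s j * (1 / Fintype.card κ : ℝ) := fun j hj =>
    mul_nonneg (hs j hj).1.le (by positivity)
  obtain ⟨t, ν, hν, hL, hb⟩ := pol_insert hX (β := fun j (_ : κ) => s j * (1 / Fintype.card κ)) ha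
    (h0 a) fun j hj _ => hβ j (Finset.mem_insert_of_mem hj)
  have h1 := hb fun _ => s a * (1 / Fintype.card κ)
  rw [Function.update_eq_self a fun j (_ : κ) => s j * (1 / Fintype.card κ : ℝ)] at h1
  have hν' : ∀ i, 0 ≤ ∑ c, s a * (1 / Fintype.card κ : ℝ) * ν c i := fun i =>
    Finset.sum_nonneg fun c _ => mul_nonneg (hβ a (Finset.mem_insert_self _ _)) (hν c i)
  rw [Nq_insert_sub hν' hL h1 hq he]
  obtain ⟨θ, hθ, hI⟩ := exists_interl t _ hν'
  have hr : ∀ j, |θ j| ≤ 3 / √(Fintype.card κ) * σ := fun j => root_bound hX hc h0 hκ hs (by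
    rw [h1, hθ, eval_prod]
    exact Finset.prod_eq_zero (Finset.mem_univ j) (by simp))
  have hR : 0 ≤ 3 / √(Fintype.card κ) * σ := (abs_nonneg _).trans (hr none)
  have h2 := hI.Gp_le hq hR fun j => (abs_le.1 (hr j)).2
  have h3 := hI.neg.Gp_le hq hR fun j => neg_le.1 (abs_le.1 (hr j)).1
  linarith

end Vale.Agent.P078
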