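import Vale.Agent.P078b.Alloc
import Vale.Agent.P078b.LocN
import Vale.Agent.P078b.Key

open Polynomial MeasureTheory
open scoped ComplexConjugate

set_option linter.unusedSectionVars false
set_option linter.unusedVariables false

namespace Vale.Agent.P078

universe u

variable {Ω : Type u} [TopologicalSpace Ω] [CompactSpace Ω] [T2Space Ω]
  [TotallyDisconnectedSpace Ω] [DecidableEq Ω] {B : Base Ω} {R : ℕ}
variable {κ : Type*} [Fintype κ] [DecidableEq κ]

theorem Chart.loc_ps_sub (ch : Chart B R) {q : ℕ} {cls : Ω → ℕ}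
    (hinj : ∀ a, Set.InjOn cls (ch.N a)) {m : ℕ} {b b' : Ω → κ → ℝ}
    (hbb : ∀ a, cls a ≠ m → b' a = b a) {a : Ω} (ha : cls a = m) :
    ch.loc (B.ps q b') a - ch.loc (B.ps q b) a =
      (Nq B.X (Function.update (B.tilt q b) a (B.tilt q b' a)) q (ch.N a) -
        Nq B.X (B.tilt q b) q (ch.N a)) / B.w a := by
  have haN := ch.self_mem_N a
  have h1 : ∀ j ∈ ch.N a, B.tilt q b' j = Function.update (B.tilt q b) a (B.tilt q b' a) j :=
    fun j hj => by
      by_cases hja : j = a
      · rw [hja, Function.update_self]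
      · rw [Function.update_of_ne hja]
        unfold Base.tilt
        rw [hbb j fun h => hja (hinj a hj haN (h.trans ha.symm))]
  have h2 : ∑ T ∈ (ch.N a).powerset with a ∈ T, B.ps q b' T a =
      ∑ T ∈ (ch.N a).powerset with a ∈ T,
        mob (Nq B.X (Function.update (B.tilt q b) a (B.tilt q b' a)) q) T :=
    Finset.sum_congr rfl fun T hT => psi_congr _ (fun j hj =>
      h1 j (Finset.mem_powerset.1 (Finset.mem_filter.1 hT).1 hj)) q
  have h3 : ∑ T ∈ (ch.N a).powerset with a ∈ T, B.ps q b T a =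
      ∑ T ∈ (ch.N a).powerset with a ∈ T, mob (Nq B.X (B.tilt q b) q) T := rfl
  have h4 : Nq B.X (Function.update (B.tilt q b) a (B.tilt q b' a)) q ((ch.N a).erase a) =
      Nq B.X (B.tilt q b) q ((ch.N a).erase a) :=
    Nq_congr (fun _ _ _ _ => rfl) (fun j hj => Function.update_of_ne (Finset.ne_of_mem_erase hj) _ _) q
  unfold Chart.loc
  rw [h2, h3, sum_mob_mem _ haN, sum_mob_mem _ haN, h4]
  ring

/-- Changing one sparse class. -/
theorem Chart.pot_step (ch : Chart B R) {q : ℕ} (hq : 1 ≤ q) (hR : q ≤ R) {cls : Ω → ℕ}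
    (hcls : IsLocallyConstant cls) (hinj : ∀ a, Set.InjOn cls (ch.N a)) {m : ℕ}
    {b b' : Ω → κ → ℝ} (hb : IsLocallyConstant b) (hb' : IsLocallyConstant b')
    (h0 : ∀ a c, 0 ≤ b a c) (h0' : ∀ a c, 0 ≤ b' a c) (hbb : ∀ a, cls a ≠ m → b' a = b a)
    {η : ℝ} (hη : 0 ≤ η)
    (h : ∀ a, cls a = m → ch.loc (B.ps q b') a - ch.loc (B.ps q b) a ≤ η) :
    ch.pot q b' ≤ ch.pot q b + η := by
  have hp := ch.locC_ps hq hb
  have hp' := ch.locC_ps hq hb'
  have hD := hp'.sub hp
  have hsD : B.Supp R fun T a => B.ps q b' T a - B.ps q b T a := fun T a ha hne => by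
    by_cases h1 : B.ps q b T a = 0
    · exact B.supp_ps h0' hR T a ha fun h2 => hne (by simp only [h1, h2, sub_zero])
    · exact B.supp_ps h0 hR T a ha h1
  have hc := ch.locS_card fun n => 1 / n
  have h2 := hD.mul (ch.locS_point (hcls.comp fun n => if n = m then (1 : ℝ) else 0).continuous)
  have key := ch.alloc (hD.mul hc) h2 (fun T a ha h => hsD T a ha (left_ne_zero_of_mul h))
    (fun T a ha h => hsD T a ha (left_ne_zero_of_mul h)) fun T => by
      rcases T.eq_empty_or_nonempty with rfl | hT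
      · rfl
      obtain ⟨a₀, ha₀⟩ := hT
      by_cases hne : B.ps q b' T a₀ - B.ps q b T a₀ = 0
      · have : ∀ a, B.ps q b' T a - B.ps q b T a = 0 := fun _ => hne
        simp only [this, zero_mul]
      have hTN := ch.subset_N (hsD T a₀ ha₀ hne) ha₀
      obtain ⟨c, hc, hcm⟩ : ∃ c ∈ T, cls c = m := by
        by_contra hn
        refine hne (sub_eq_zero.2 (psi_congr _ (fun j hj => ?_) q))
        unfold Base.tilt
        rw [hbb j fun h => hn ⟨j, hj, h⟩]
      unfold Base.ps
      simp only [Function.comp_apply]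
      rw [← Finset.mul_sum, ← Finset.mul_sum, Finset.sum_const, nsmul_eq_mul,
        mul_one_div_cancel (Nat.cast_ne_zero.2 (Finset.card_ne_zero.2 ⟨a₀, ha₀⟩)),
        Finset.sum_eq_single c (fun j hj hjc => if_neg fun h =>
          hjc (hinj a₀ (hTN hj) (hTN hc) (h.trans hcm.symm))) fun h => absurd hc h]
      exact congrArg _ (if_pos hcm).symm
  have h3 : B.I (ch.loc fun T a => (B.ps q b' T a - B.ps q b T a) *
      ((fun n => if n = m then (1 : ℝ) else 0) ∘ cls) a) ≤ η := by
    refine B.I_le_const h2.continuous_loc hη fun a => ?_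
    by_cases ha : cls a = m
    · refine le_of_eq_of_le ?_ (h a ha)
      unfold Chart.loc
      rw [← sub_div, ← Finset.sum_sub_distrib]
      simp [ha]
    · unfold Chart.loc
      simpa [ha] using hη
  have h4 : ch.pot q b' - ch.pot q b =
      B.I (ch.loc fun T a => (B.ps q b' T a - B.ps q b T a) * (1 / T.card)) := by
    unfold Chart.pot
    rw [← B.I_sub (hp'.mul hc).continuous_loc (hp.mul hc).continuous_loc]
    congr 1
    funext a
    unfold Chart.loc
    rw [← sub_div, ← Finset.sum_sub_distrib]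
    simp only [sub_mul]
  linarith

theorem gstep_bet_nonneg (h : ℕ) (o : Option (Fin (2 * h))) (c : Fin (2 * h)) : 0 ≤ bet h o c := by
  rcases o with _ | σ
  · show (0 : ℝ) ≤ 1 / (2 * h)
    positivity
  · show (0 : ℝ) ≤ if σ = c then 1 / 3000 else 0
    split_ifs <;> norm_num

/-- A locally constant choice of good colours for one state. -/
theorem Chart.exists_good (ch : Chart B R) {q : ℕ} (hq : 32 ≤ q) (he : Even q) (hR : q ≤ R)
    {cls : Ω → ℕ} (hcls : IsLocallyConstant cls) (hinj : ∀ a, Set.InjOn cls (ch.N a)) (m : ℕ)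
    (h : ℕ) [NeZero h] {st : Ω → Option (Fin (2 * h))} (hst : IsLocallyConstant st)
    (hm : ∀ a, cls a = m → st a = none) {η : ℝ} (hη : 0 < η) :
    ∃ e : Ω → (ZMod h ↪ Fin (2 * h)), IsLocallyConstant e ∧
      ∀ i : Ω → ZMod h, IsLocallyConstant i →
        ch.pot q (fun a => bet h (if cls a = m then some (e a (i a)) else st a)) ≤
          ch.pot q (fun a => bet h (st a)) + η := by
  have hq1 : 1 ≤ q := by omega
  let b : Ω → Fin (2 * h) → ℝ := fun a => bet h (st a)
  let bs : Fin (2 * h) → Ω → Fin (2 * h) → ℝ := fun σ a =>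
    bet h (if cls a = m then some σ else st a)
  have hb : IsLocallyConstant b := hst.comp (bet h)
  have hbs : ∀ σ, IsLocallyConstant (bs σ) := fun σ =>
    hcls.comp₂ hst fun n o => bet h (if n = m then some σ else o)
  have hbb : ∀ σ a, cls a ≠ m → bs σ a = b a := fun σ a ha => congrArg (bet h) (if_neg ha)
  let V : (ZMod h ↪ Fin (2 * h)) → Set Ω := fun e => {a | cls a ≠ m} ∪
    ⋂ i, {a | ch.loc (B.ps q (bs (e i))) a - ch.loc (B.ps q b) a < η}
  have hV : ∀ e, IsOpen (V e) := fun e => (hcls {n | n ≠ m}).union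
    (isOpen_iInter_of_finite fun i => isOpen_lt ((ch.locC_ps hq1 (hbs _)).continuous_loc.sub
      (ch.locC_ps hq1 hb).continuous_loc) continuous_const)
  obtain ⟨e, he1, he2⟩ := exists_lc_choice V hV fun a => by
    obtain ⟨e, hE⟩ := key_choice B.herm B.diag h (β := B.tilt q b) (ch.self_mem_N a)
      (fun j _ c => mul_nonneg (Real.rpow_nonneg (B.w_pos j).le _) (gstep_bet_nonneg h _ c))
      (Real.rpow_nonneg (B.w_pos a).le (1 / q)) hq he
    refine ⟨e, (ne_or_eq (cls a) m).imp id fun ha => Set.mem_iInter.2 fun i => ?_⟩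
    have e1 : B.tilt q (bs (e i)) a =
        fun c => B.w a ^ (1 / q : ℝ) * if e i = c then 1 / 3000 else 0 := by
      funext c
      simp only [Base.tilt, bs, if_pos ha, bet]
    have e2 : (fun _ => B.w a ^ (1 / q : ℝ) * (1 / (2 * h))) = B.tilt q b a := by
      funext c
      simp only [Base.tilt, b, hm a ha, bet]
    have h1 := hE i
    rw [e2, Function.update_eq_self] at h1
    show _ < η
    rw [ch.loc_ps_sub hinj (hbb _) ha, e1]
    exact (div_nonpos_of_nonpos_of_nonneg (sub_nonpos.2 h1) (B.w_pos a).le).trans_lt hη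
  refine ⟨e, he1, fun i hi => ?_⟩
  have hbb' : ∀ a, cls a ≠ m → bet h (if cls a = m then some (e a (i a)) else st a) = b a :=
    fun a ha => congrArg (bet h) (if_neg ha)
  refine ch.pot_step hq1 hR hcls hinj hb ((hcls.prodMk hst).comp₂ (he1.prodMk hi)
    fun x y => bet h (if x.1 = m then some (y.1 y.2) else x.2))
    (fun a c => gstep_bet_nonneg h _ c) (fun a c => gstep_bet_nonneg h _ c) hbb' hη.le
    fun a ha => ?_
  have h1 : ch.loc (B.ps q (bs (e a (i a)))) a - ch.loc (B.ps q b) a < η :=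
    Set.mem_iInter.1 ((he2 a).resolve_left fun h' => h' ha) (i a)
  rw [ch.loc_ps_sub hinj (hbb _) ha] at h1
  rw [ch.loc_ps_sub hinj hbb' ha]
  exact h1.le

end Vale.Agent.P078
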