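import Vale.Agent.P078b.GInit
import Vale.Agent.P078b.GStep
import Vale.Agent.P078b.GFin

open Polynomial MeasureTheory
open scoped ComplexConjugate

set_option linter.unusedSectionVars false
set_option linter.unusedVariables false

namespace Vale.Agent.P078

universe u

variable {Ω : Type u} [TopologicalSpace Ω] [CompactSpace Ω] [T2Space Ω]
  [TotallyDisconnectedSpace Ω] [DecidableEq Ω] {B : Base Ω} {R : ℕ}
variable {κ : Type*} [Fintype κ] [DecidableEq κ]

theorem gone_lc_pi {α : Type*} [Finite α] {β : Type*} {e : α → Ω → β}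
    (he : ∀ u, IsLocallyConstant (e u)) : IsLocallyConstant fun a u => e u a := by
  rw [IsLocallyConstant.iff_eventually_eq]
  intro a
  filter_upwards [Filter.eventually_all.2 fun u => (he u).eventually_eq a] with b hb
  exact funext hb

/-- A triangular bijection. -/
def gone_tri {J J' G : Type*} [AddCommGroup G] (π : (J → G) ≃ (J → G))
    (s : (J → G) → J' → G) : (J ⊕ J' → G) ≃ (J ⊕ J' → G) where
  toFun u := Sum.elim (π (u ∘ Sum.inl)) fun p => u (Sum.inr p) - s (u ∘ Sum.inl) p
  invFun v := Sum.elim (π.symm (v ∘ Sum.inl)) fun p => v (Sum.inr p) + s (π.symm (v ∘ Sum.inl)) p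
  left_inv u := by
    funext x
    rcases x with j | p
    · simp
    · simp
  right_inv v := by
    funext x
    rcases x with j | p
    · simp
    · simp

theorem gone_tri_inl {J J' G : Type*} [AddCommGroup G] (π : (J → G) ≃ (J → G))
    (s : (J → G) → J' → G) (u : J ⊕ J' → G) (j : J) :
    gone_tri π s u (Sum.inl j) = π (u ∘ Sum.inl) j := rfl

theorem gone_tri_inr {J J' G : Type*} [AddCommGroup G] (π : (J → G) ≃ (J → G))
    (s : (J → G) → J' → G) (u : J ⊕ J' → G) (p : J') :
    gone_tri π s u (Sum.inr p) = u (Sum.inr p) - s (u ∘ Sum.inl) p := rfl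

/-- The rounds of the colouring algorithm. -/
theorem Chart.rounds (ch : Chart B R) {q : ℕ} (hq : 32 ≤ q) (he : Even q) (hR : q ≤ R)
    {cls : Ω → ℕ} (hcls : IsLocallyConstant cls) (hinj : ∀ a, Set.InjOn cls (ch.N a))
    (h : ℕ) [NeZero h] {η : ℝ} (hη : 0 < η) {J₀ : Type} [Fintype J₀] (Q₀ : Ω → J₀)
    (hQ : IsLocallyConstant Q₀) (m : ℕ) :
    ∃ (J : Type) (_ : Fintype J) (cell : Ω → J) (f : J → J₀)
      (π : Fin (2 * h) → (J → ZMod h) ≃ (J → ZMod h))
      (st : (J → ZMod h) → Ω → Option (Fin (2 * h))),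
      IsLocallyConstant cell ∧ (∀ a, f (cell a) = Q₀ a) ∧ (∀ u, IsLocallyConstant (st u)) ∧
      (∀ u a, st u a = none ↔ m ≤ cls a) ∧ (∀ u a c, st u a = some c → π c u (cell a) = 0) ∧
      ∀ u, ch.pot q (fun a => bet h (st u a)) ≤ ch.pot q (fun _ => bet h none) + m * η := by
  classical
  induction m with
  | zero =>
    exact ⟨J₀, inferInstance, Q₀, id, fun _ => Equiv.refl _, fun _ _ => none, hQ, fun _ => rfl,
      fun _ => IsLocallyConstant.const _, by simp, by simp, by simp⟩
  | succ m ih =>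
    obtain ⟨J, _, cell, f, π, st, h1, h2, h3, h4, h5, h6⟩ := ih
    have hg := fun u : J → ZMod h => ch.exists_good hq he hR hcls hinj m h (h3 u)
      (fun a ha => (h4 u a).2 ha.ge) hη
    choose e he1 he2 using hg
    let K := (J → ZMod h) → (ZMod h ↪ Fin (2 * h))
    let k : Ω → K := fun a u => e u a
    have hk : IsLocallyConstant k := gone_lc_pi he1
    let cell' : Ω → J ⊕ (J × K) := fun a =>
      if cls a = m then Sum.inr (cell a, k a) else Sum.inl (cell a)
    have hcell' : IsLocallyConstant cell' :=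
      ((hcls.prodMk (h1.prodMk hk)).comp fun p : ℕ × J × K =>
        (if p.1 = m then Sum.inr p.2 else Sum.inl p.2.1 : J ⊕ (J × K)))
    let st' : (J ⊕ (J × K) → ZMod h) → Ω → Option (Fin (2 * h)) := fun u a =>
      if cls a = m then some (e (u ∘ Sum.inl) a (u (cell' a))) else st (u ∘ Sum.inl) a
    refine ⟨J ⊕ (J × K), inferInstance, cell', Sum.elim f fun p => f p.1,
      fun c => gone_tri (π c) fun u p => Function.invFun (p.2 u) c, st', hcell', fun a => ?_,
      fun u => ?_, fun u a => ?_, fun u a c hc => ?_, fun u => ?_⟩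
    · by_cases ha : cls a = m <;> simp [cell', ha, h2]
    · exact ((hcls.prodMk ((he1 (u ∘ Sum.inl)).prodMk (hcell'.prodMk (h3 (u ∘ Sum.inl))))).comp
        fun p : ℕ × (ZMod h ↪ Fin (2 * h)) × (J ⊕ (J × K)) × Option (Fin (2 * h)) =>
          if p.1 = m then some (p.2.1 (u p.2.2.1)) else p.2.2.2)
    · by_cases ha : cls a = m
      · simp [st', ha]
      · simp only [st', ha, if_false, h4]
        omega
    · by_cases ha : cls a = m
      · simp only [st', ha, if_true, Option.some.injEq] at hc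
        have hc' : cell' a = Sum.inr (cell a, k a) := by simp [cell', ha]
        rw [hc'] at hc ⊢
        rw [gone_tri_inr, ← hc]
        show _ - Function.invFun (e (u ∘ Sum.inl) a) _ = 0
        rw [Function.leftInverse_invFun (e (u ∘ Sum.inl) a).injective, sub_self]
      · simp only [st', ha, if_false] at hc
        have hc' : cell' a = Sum.inl (cell a) := by simp [cell', ha]
        rw [hc', gone_tri_inl]
        exact h5 _ _ _ hc
    · have := he2 (u ∘ Sum.inl) (fun a => u (cell' a)) (hcell'.comp u)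
      have h7 := h6 (u ∘ Sum.inl)
      push_cast
      simp only [st']
      linarith

/-- Paving in the abstract model, with many choices. -/
theorem model_paving (B : Base Ω) (hch : ∀ R, Nonempty (Chart B R)) (h : ℕ) [NeZero h] (k : ℕ)
    {η : ℝ} (hη : 0 < η) {J₀ : Type} [Fintype J₀] (Q₀ : Ω → J₀) (hQ : IsLocallyConstant Q₀) :
    ∃ (J : Type) (_ : Fintype J) (cell : Ω → J) (f : J → J₀)
      (π : Fin (2 * h) → (J → ZMod h) ≃ (J → ZMod h)) (col : (J → ZMod h) → Ω → Fin (2 * h)),
      IsLocallyConstant cell ∧ (∀ a, f (cell a) = Q₀ a) ∧ (∀ u, IsLocallyConstant (col u)) ∧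
      (∀ u a, π (col u a) u (cell a) = 0) ∧
      ∀ u (F : Ω → ℝ), Continuous F →
        (∀ a S, (∀ c, Near B.X (2 * k) a c → c ∈ S) →
          F a = (pwS (Xcol B.X (col u)) S (2 * k) a a).re) →
        B.I F ≤ 7 * (9000 / √(2 * h)) ^ (2 * k) + η := by
  classical
  obtain ⟨ch₁⟩ := hch 1
  obtain ⟨q₀, hq₀⟩ := moment_le (κ := Fin (2 * h)) B ch₁ (n := 2 * k) (even_two_mul k)
    (half_pos hη)
  set q := 2 * (q₀ + 16) with hqdef
  have hq32 : 32 ≤ q := by omega
  have hqe : Even q := even_two_mul _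
  obtain ⟨ch⟩ := hch (2 * q)
  obtain ⟨n, cls, hcls, hn, hinj⟩ := ch.exists_cls
  have hh : 0 < h := Nat.pos_of_ne_zero (NeZero.ne h)
  have hh' : (0 : ℝ) < 2 * h := by positivity
  set l : ℝ := 9000 / √(2 * h) with hl
  have hl0 : 0 < l := by positivity
  set co : ℝ := l ^ (2 * k) / l ^ q * 3000 ^ q with hco
  have hco0 : 0 < co := by positivity
  obtain ⟨J, _, cell, f, π, st, h1, h2, h3, h4, h5, h6⟩ := ch.rounds hq32 hqe (by omega) hcls hinj
    h (η := η / 2 / (co * (n + 1))) (by positivity) Q₀ hQ n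
  have hsome : ∀ u a, st u a = some ((st u a).getD ⟨0, by omega⟩) := by
    intro u a
    cases hs : st u a with
    | none => exact absurd ((h4 u a).1 hs) (not_le.2 (hn a))
    | some c => rfl
  refine ⟨J, inferInstance, cell, f, π, fun u a => (st u a).getD ⟨0, by omega⟩, h1, h2,
    fun u => (h3 u).comp fun o => o.getD ⟨0, by omega⟩, fun u a => h5 u a _ (hsome u a),
    fun u F hF hF' => ?_⟩
  have h7 := hq₀ q (by omega) hqe ch (fun a => (st u a).getD ⟨0, by omega⟩)
    ((h3 u).comp fun o => o.getD ⟨0, by omega⟩) l hl0 F hF hF'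
  have h8 : (fun a => bet h (st u a)) = fun a σ =>
      if (st u a).getD ⟨0, by omega⟩ = σ then (1 / 3000 : ℝ) else 0 := by
    funext a
    conv_lhs => rw [hsome u a]
    rfl
  have h9 := ch.pot_init (κ := Fin (2 * h)) (by simp; omega) (q := q) (by omega) hqe (by omega)
  have h10 : (fun _ : Ω => bet h none) =
      fun _ (_ : Fin (2 * h)) => (1 / Fintype.card (Fin (2 * h)) : ℝ) := by
    funext a c
    simp [bet]
  have h11 := h6 u
  rw [h8, h10] at h11
  have h12 : co * (6 * (3 / √(Fintype.card (Fin (2 * h)))) ^ q) = 6 * l ^ (2 * k) := by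
    have : (3000 : ℝ) ^ q * (3 / √(Fintype.card (Fin (2 * h)))) ^ q = l ^ q := by
      rw [← mul_pow, hl]
      congr 1
      simp only [Fintype.card_fin, Nat.cast_mul, Nat.cast_ofNat]
      ring
    calc _ = 6 * (l ^ (2 * k) / l ^ q * ((3000 : ℝ) ^ q *
          (3 / √(Fintype.card (Fin (2 * h)))) ^ q)) := by rw [hco]; ring
      _ = _ := by rw [this]; field_simp
  have h13 : co * (n * (η / 2 / (co * (n + 1)))) ≤ η / 2 := by
    have : co * (n * (η / 2 / (co * (n + 1)))) = η / 2 * (n / (n + 1)) := by field_simp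
    rw [this]
    refine mul_le_of_le_one_right (by positivity) ?_
    rw [div_le_one (by positivity)]
    linarith
  have h14 := mul_le_mul_of_nonneg_left (h11.trans (add_le_add_left h9 _)) hco0.le
  rw [mul_add, h12] at h14
  linarith

end Vale.Agent.P078
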