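import Vale.Agent.P078b.Ker2
import Vale.Agent.P078b.GOne

open scoped InnerProductSpace ComplexConjugate ComplexOrder
open Filter Topology

set_option linter.unusedSectionVars false
set_option linter.unusedVariables false

namespace Vale.Agent.P078

variable {H : Type*} [NormedAddCommGroup H] [InnerProductSpace ℂ H] [CompleteSpace H]
variable {M : VonNeumannAlgebra H} {A : StarSubalgebra ℂ (H →L[ℂ] H)}

namespace Ctx
variable (c : Ctx M A)

/-- The abstract model of a regular element. -/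
noncomputable def toBase {y : H →L[ℂ] H} (hy : y ∈ c.N0) (hs : IsSelfAdjoint y) (h1 : ‖y‖ ≤ 1)
    (hE : c.E y = 0) : Base (Spc c.hA) where
  X := c.K y
  w := c.wt
  I := c.I
  herm := fun a b => by rw [← c.K_star (c.mem_of_N0 hy), hs.star_eq]
  diag := fun a => by rw [c.K_diag (c.mem_of_N0 hy), hE, Spc.ev_zero]
  contr := c.contr_K hy h1
  w_pos := c.wt_pos
  I_add := fun _ _ => c.I_add
  I_smul := fun s _ => c.I_smul s
  I_nonneg := fun _ => c.I_nonneg
  I_one := c.I_one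

theorem cartan_words {y : H →L[ℂ] H} {G : Finset (H →L[ℂ] H)} (hG : ∀ v ∈ G, c.IsGb v)
    (hGy : ∀ a b, c.K y a b ≠ 0 → ∃ v ∈ G, b.Dom v ∧ tp v b = a) (R : ℕ) :
    ∃ 𝒲 : Finset (H →L[ℂ] H), (∀ u ∈ 𝒲, c.IsGb u) ∧ 1 ∈ 𝒲 ∧ (∀ u ∈ 𝒲, star u ∈ 𝒲) ∧
      ∀ a b, Near (c.K y) R a b → ∃ u ∈ 𝒲, a.Dom u ∧ tp u a = b := by
  classical
  suffices h : ∃ 𝒲 : Finset (H →L[ℂ] H), (∀ u ∈ 𝒲, c.IsGb u) ∧ 1 ∈ 𝒲 ∧
      ∀ a b, Near (c.K y) R a b → ∃ u ∈ 𝒲, a.Dom u ∧ tp u a = b by
    obtain ⟨𝒲, h1, h2, h3⟩ := h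
    refine ⟨𝒲 ∪ 𝒲.image star, fun u hu => ?_, Finset.mem_union_left _ h2, fun u hu => ?_,
      fun a b h => ?_⟩
    · rcases Finset.mem_union.1 hu with hu | hu
      · exact h1 u hu
      · obtain ⟨v, hv, rfl⟩ := Finset.mem_image.1 hu
        exact (h1 v hv).star
    · rcases Finset.mem_union.1 hu with hu | hu
      · exact Finset.mem_union_right _ (Finset.mem_image_of_mem _ hu)
      · obtain ⟨v, hv, rfl⟩ := Finset.mem_image.1 hu
        rw [star_star]
        exact Finset.mem_union_left _ hv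
    · obtain ⟨u, hu, h4⟩ := h3 a b h
      exact ⟨u, Finset.mem_union_left _ hu, h4⟩
  induction R with
  | zero =>
    refine ⟨{1}, fun u hu => ?_, Finset.mem_singleton_self _, fun a b h => ?_⟩
    · rw [Finset.mem_singleton.1 hu]; exact isGb_proj IsP.one
    · cases h
      exact ⟨1, Finset.mem_singleton_self _, a.dom_one, tp_one a⟩
  | succ R ih =>
    obtain ⟨𝒲, h1, h2, h3⟩ := ih
    refine ⟨insert 1 (Finset.image₂ (fun v u => star v * u) G 𝒲), fun u hu => ?_,
      Finset.mem_insert_self _ _, fun a b h => ?_⟩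
    · rcases Finset.mem_insert.1 hu with rfl | hu
      · exact isGb_proj IsP.one
      · obtain ⟨v, hv, w, hw, rfl⟩ := Finset.mem_image₂.1 hu
        exact (hG v hv).star.mul (h1 w hw)
    · cases h with
      | refl => exact ⟨1, Finset.mem_insert_self _ _, a.dom_one, tp_one a⟩
      | step hn hX =>
        obtain ⟨u, hu, hd, rfl⟩ := h3 _ _ hn
        obtain ⟨v, hv, hd', h4⟩ := hGy _ _ hX
        obtain ⟨h5, h6⟩ := dom_star_tp (hG v hv).1 hd'
        rw [h4] at h5 h6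
        have h7 : a.Dom (star v * u) := (dom_mul_iff (hG v hv).1.star (h1 u hu).1).2 ⟨hd, h5⟩
        exact ⟨star v * u, Finset.mem_insert_of_mem (Finset.mem_image₂_of_mem hv hu), h7,
          by rw [tp_mul (hG v hv).1.star (h1 u hu).1 h7, h6]⟩

theorem nonempty_chart {y : H →L[ℂ] H} (hy : y ∈ c.N0) (hs : IsSelfAdjoint y) (h1 : ‖y‖ ≤ 1)
    (hE : c.E y = 0) (R : ℕ) : Nonempty (Chart (c.toBase hy hs h1 hE) R) := by
  classical
  have hyM := c.mem_of_N0 hy
  obtain ⟨G, hG, hGy⟩ := c.exists_gen hy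
  obtain ⟨𝒲, h𝒲, h𝒲1, h𝒲s, h𝒲n⟩ := c.cartan_words hG hGy R
  choose θ hθ hθK using c.K_loc
  let g : (H →L[ℂ] H) → Spc c.hA → H →L[ℂ] H := fun u a => if a.Dom u then u else 1
  have hg : ∀ u ∈ 𝒲, ∀ a, c.IsGb (g u a) ∧ a.Dom (g u a) ∧ tp (g u a) a = tp u a := by
    intro u hu a
    by_cases h : a.Dom u
    · simp only [g, if_pos h]
      exact ⟨h𝒲 u hu, h, trivial⟩
    · simp only [g, if_neg h]
      exact ⟨isGb_proj IsP.one, a.dom_one, by rw [tp_one, tp_of_not_dom h]⟩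
  refine ⟨{ W := 𝒲
            t := fun u => tp u.1
            cont := fun u => continuous_tp (h𝒲 u.1 u.2).1
            e := ⟨1, h𝒲1⟩
            t_e := tp_one
            coin := fun u u' => c.isOpen_coin (h𝒲 u.1 u.2).1 (h𝒲 u'.1 u'.2).1
            inv := fun u => ⟨star u.1, h𝒲s u.1 u.2⟩
            inv_inv := fun u => Subtype.ext (star_star _)
            t_inv := fun u a h => ?_
            w_cont := fun u => c.continuous_wt (h𝒲 u.1 u.2)
            Y := fun u u' a => a.ev (c.E (star (g u.1 a) * y * g u'.1 a))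
            θ := fun a u => θ a (g u.1 a)
            Y_cont := fun u u' => ?_
            θ_norm := fun a u => hθ a _
            gauge := fun a u u' => ?_
            transport := fun u F hF => c.I_transport (h𝒲 u.1 u.2) hF
            near := fun a b h => ?_ }⟩
  · by_cases hd : a.Dom u.1
    · exact (dom_star_tp (h𝒲 u.1 u.2).1 hd).2
    · exact absurd (tp_of_not_dom hd) h
  · rw [continuous_iff_continuousAt]
    intro a₀
    have h1 : ∀ v ∈ 𝒲, ∀ᶠ a in 𝓝 a₀, g v a = g v a₀ := by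
      intro v hv
      have hc := isClopen_dom (hA := c.hA) (h𝒲 v hv).1
      by_cases h : a₀.Dom v
      · filter_upwards [hc.isOpen.mem_nhds h] with a ha
        simp only [g, if_pos h, if_pos (show a.Dom v from ha)]
      · filter_upwards [hc.compl.isOpen.mem_nhds h] with a ha
        simp only [g, if_neg h, if_neg (show ¬a.Dom v from ha)]
    refine (continuous_ev c.hA (c.E (star (g u.1 a₀) * y * g u'.1 a₀))).continuousAt.congr ?_
    filter_upwards [h1 u.1 u.2, h1 u'.1 u'.2] with a ha ha'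
    rw [ha, ha']
  · obtain ⟨h2, h3, h4⟩ := hg u.1 u.2 a
    obtain ⟨h5, h6, h7⟩ := hg u'.1 u'.2 a
    have := hθK a _ _ h2 h5 h3 h6 y hyM
    rw [h4, h7] at this
    exact this
  · obtain ⟨u, hu, -, h2⟩ := h𝒲n a b h
    exact ⟨⟨u, hu⟩, h2⟩

/-- Paving of regular elements with many choices. -/
theorem cartan_part {y : H →L[ℂ] H} (hy : y ∈ c.N0) (hs : IsSelfAdjoint y) (h1 : ‖y‖ ≤ 1)
    (hE : c.E y = 0) (h : ℕ) [NeZero h] (k : ℕ) {η : ℝ} (hη : 0 < η) (P : Part A) :
    ∃ (J : Type) (_ : Fintype J) (e : J → H →L[ℂ] H) (f : J → P.ι)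
      (π : Fin (2 * h) → (J → ZMod h) ≃ (J → ZMod h))
      (p : (J → ZMod h) → Fin (2 * h) → H →L[ℂ] H),
      IsPartition A e ∧ (∀ j, e j * P.q (f j) = e j) ∧ (∀ u, IsPartition A (p u)) ∧
      (∀ u σ, p u σ * ∑ i with π σ u i = 0, e i = p u σ) ∧
      ∀ u, (c.φ (pinch (p u) y ^ (2 * k))).re ≤ 7 * (9000 / √(2 * h)) ^ (2 * k) + η := by
  classical
  have := totallyDisconnected_spc c.hA
  obtain ⟨Q₀, hQ₀, hQ₀'⟩ := exists_index (hA := c.hA) P.hq
  obtain ⟨J, _, cell, f, π, col, h2, h3, h4, h5, h6⟩ := model_paving (c.toBase hy hs h1 hE)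
    (c.nonempty_chart hy hs h1 hE) h k hη Q₀ hQ₀
  have he := isPartition_ind h2
  refine ⟨J, inferInstance, fun j => ind c.hA {χ | cell χ = j}, f, π,
    fun u σ => ind c.hA {χ | col u χ = σ}, he, fun j => ?_, fun u => isPartition_ind (h4 u),
    fun u σ => ?_, fun u => ?_⟩
  · refine eq_of_ev c.hA (mul_mem (he.mem j) (P.hq.mem _)) (he.mem j) fun χ => ?_
    rw [χ.ev_mul (he.mem j) (P.hq.mem _)]
    by_cases hχ : cell χ = j
    · rw [← hχ, h3, hQ₀', mul_one]
    · rw [ev_ind_of_notMem (h2.isClopen_fiber j) hχ, zero_mul]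
  · have hp := isPartition_ind (h4 u)
    have hq := he.isP_sum (Finset.univ.filter fun i => π σ u i = 0)
    refine eq_of_ev c.hA (mul_mem (hp.mem σ) hq.1) (hp.mem σ) fun χ => ?_
    rw [χ.ev_mul (hp.mem σ) hq.1]
    by_cases hχ : col u χ = σ
    · rw [χ.ev_sum _ fun i _ => he.mem i, Finset.sum_eq_single (cell χ),
        ev_ind_of_mem (h2.isClopen_fiber _) rfl, mul_one]
      · intro j _ hj
        exact ev_ind_of_notMem (h2.isClopen_fiber j) (Ne.symm hj)
      · intro hn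
        exact absurd (Finset.mem_filter.2 ⟨Finset.mem_univ _, hχ ▸ h5 u χ⟩) hn
    · rw [ev_ind_of_notMem ((h4 u).isClopen_fiber σ) hχ, zero_mul]
  · have hp := isPartition_ind (h4 u)
    set Y := pinch (fun σ => ind c.hA {χ | col u χ = σ}) y with hY
    have hYN : Y ∈ c.N0 := sum_mem fun σ _ => mul_mem (mul_mem (c.mem_N0_of_mem (hp.mem σ)) hy)
      (c.mem_N0_of_mem (hp.mem σ))
    have hYM : Y ^ (2 * k) ∈ M := pow_mem (c.mem_of_N0 hYN) _
    have hK : c.K Y = Xcol (c.K y) (col u) := c.K_pinch_col (h4 u) (c.mem_of_N0 hy)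
    rw [← c.I_ev hYM ((hp.pinch_sa hs).pow _)]
    refine h6 u _ (Complex.continuous_re.comp (continuous_ev c.hA _)) fun a S hS => ?_
    rw [← c.K_diag hYM, c.K_pow hYN (2 * k) a S, hK]
    · rfl
    · intro d hd
      refine hS d (Near.of_imp (fun a b hab h0 => hab ?_) hd)
      rw [hK, Xcol]
      split_ifs
      · exact h0
      · rfl

end Ctx

end Vale.Agent.P078
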