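import Vale.Agent.P078b.DKer

open scoped InnerProductSpace ComplexConjugate ComplexOrder
open Filter Topology

set_option linter.unusedSectionVars false
set_option linter.unusedVariables false

namespace Vale.Agent.P078

variable {H : Type*} [NormedAddCommGroup H] [InnerProductSpace ℂ H] [CompleteSpace H]
variable {M : VonNeumannAlgebra H} {A : StarSubalgebra ℂ (H →L[ℂ] H)}

open Polynomial in
theorem dmain_l1 {ι : Type*} (s : Finset ι) {v : ι → ℝ} (hv : ∀ j ∈ s, |v j| ≤ 1) (N : ℕ) :
    ∑ j ∈ Finset.range N, |(∏ i ∈ s, (X - C (v i))).coeff j| ≤ 2 ^ s.card := by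
  induction s using Finset.cons_induction with
  | empty =>
    simp only [Finset.prod_empty, coeff_one, apply_ite abs, abs_one, abs_zero, Finset.sum_ite_eq']
    split_ifs <;> simp
  | cons a s ha ih =>
    have h1 := ih fun j hj => hv j (Finset.mem_cons_of_mem hj)
    have h2 := hv a (Finset.mem_cons_self _ _)
    rw [Finset.prod_cons, Finset.card_cons, pow_succ]
    generalize (∏ i ∈ s, (X - C (v i))) = Q at h1 ⊢
    have h3 : ∑ j ∈ Finset.range N, |(X * Q).coeff j| ≤ ∑ j ∈ Finset.range N, |Q.coeff j| := by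
      cases N with
      | zero => exact le_rfl
      | succ N =>
        rw [Finset.sum_range_succ', Finset.sum_range_succ]
        simp [coeff_X_mul]
    have h4 : ∑ j ∈ Finset.range N, |((X - C (v a)) * Q).coeff j| ≤
        ∑ j ∈ Finset.range N, (|(X * Q).coeff j| + |Q.coeff j|) := Finset.sum_le_sum fun j _ => by
      rw [sub_mul, coeff_sub, coeff_C_mul]
      refine (abs_sub _ _).trans ?_
      rw [abs_mul]
      linarith [mul_le_of_le_one_left (abs_nonneg (Q.coeff j)) h2]
    rw [Finset.sum_add_distrib] at h4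
    linarith

theorem dmain_fact (i m : ℕ) : ∏ j ∈ (Finset.range (i + m + 1)).erase i, |(i : ℝ) - j| =
    i.factorial * m.factorial := by
  induction m with
  | zero =>
    rw [add_zero, Finset.range_add_one, Finset.erase_insert Finset.notMem_range_self]
    induction i with
    | zero => simp
    | succ i ih =>
      rw [Finset.prod_range_succ']
      simp only [Nat.cast_add, Nat.cast_one, add_sub_add_right_eq_sub, ih, Nat.factorial_succ]
      rw [Nat.cast_zero, sub_zero, abs_of_nonneg (by positivity)]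
      push_cast
      ring
  | succ m ih =>
    rw [Finset.range_add_one, Finset.erase_insert_of_ne (by omega), Finset.prod_insert (by simp),
      ← add_assoc, ih, Nat.factorial_succ, abs_sub_comm]
    push_cast
    rw [abs_of_nonneg (by linarith [Nat.cast_nonneg (α := ℝ) m])]
    ring

open Polynomial in
theorem coeff_l1 {P : ℝ[X]} {n : ℕ} (hP : P.natDegree ≤ n)
    (h : ∀ s : ℝ, 0 ≤ s → s ≤ 1 → |P.eval s| ≤ 1) :
    ∑ j ∈ Finset.range (n + 1), |P.coeff j| ≤ 12 ^ n := by
  rcases n.eq_zero_or_pos with rfl | hn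
  · simpa [coeff_zero_eq_eval_zero] using h 0 le_rfl zero_le_one
  have hn' : (0 : ℝ) < n := Nat.cast_pos.2 hn
  have hv : ∀ j ∈ Finset.range (n + 1), (0 : ℝ) ≤ (j : ℝ) / n ∧ (j : ℝ) / n ≤ 1 := fun j hj =>
    ⟨by positivity, div_le_one_of_le₀ (Nat.cast_le.2 (Nat.lt_succ_iff.1 (Finset.mem_range.1 hj)))
      hn'.le⟩
  have h1 := Lagrange.eq_interpolate (s := Finset.range (n + 1)) (v := fun j : ℕ => (j : ℝ) / n)
    (f := P) (fun i _ j _ hij => Nat.cast_injective ((div_left_inj' hn'.ne').1 hij))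
    (by rw [Finset.card_range]; exact degree_le_natDegree.trans_lt (Nat.cast_lt.2 (by omega)))
  rw [Lagrange.interpolate_eq_sum] at h1
  have h2 : ∑ j ∈ Finset.range (n + 1), |P.coeff j| ≤
      ∑ i ∈ Finset.range (n + 1), (n.choose i : ℝ) * ((n : ℝ) ^ n / n.factorial * 2 ^ n) := by
    rw [h1]
    simp only [finsetSum_coeff, coeff_C_mul]
    refine (Finset.sum_le_sum fun j _ => Finset.abs_sum_le_sum_abs _ _).trans ?_
    rw [Finset.sum_comm]
    refine Finset.sum_le_sum fun i hi => ?_
    have hc : ((Finset.range (n + 1)).erase i).card = n := by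
      rw [Finset.card_erase_of_mem hi, Finset.card_range]; rfl
    have h3 := dmain_l1 ((Finset.range (n + 1)).erase i) (v := fun j : ℕ => (j : ℝ) / n)
      (fun j hj => by
        have := hv j (Finset.mem_of_mem_erase hj)
        exact abs_le.2 ⟨by linarith [this.1], this.2⟩) (n + 1)
    simp only [abs_mul, ← Finset.mul_sum]
    rw [hc] at h3
    rw [← mul_assoc]
    refine mul_le_mul ?_ h3 (by positivity) (by positivity)
    obtain ⟨m, rfl⟩ := Nat.exists_eq_add_of_le (Nat.lt_succ_iff.1 (Finset.mem_range.1 hi))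
    have h4 := h _ (hv i hi).1 (hv i hi).2
    rw [abs_div, Finset.abs_prod]
    simp only [abs_div, ← sub_div, abs_of_pos hn', Finset.prod_div_distrib, Finset.prod_const]
    rw [hc, dmain_fact, Nat.cast_add_choose, div_mul_div_comm, mul_comm (((i + m).factorial : ℕ) : ℝ),
      mul_div_mul_right _ _ (by positivity), div_div_eq_mul_div]
    exact div_le_div_of_nonneg_right (mul_le_of_le_one_left (by positivity) h4) (by positivity)
  rw [← Finset.sum_mul, ← Nat.cast_sum, Nat.sum_range_choose] at h2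
  have h3 : (n : ℝ) ^ n / n.factorial ≤ 3 ^ n := by
    refine (Real.pow_div_factorial_le_exp _ hn'.le n).trans ?_
    rw [← Real.exp_one_pow]
    exact pow_le_pow_left₀ (Real.exp_pos 1).le (Real.exp_one_lt_d9.le.trans (by norm_num)) n
  refine h2.trans ?_
  rw [show (12 : ℝ) = 2 * (3 * 2) by norm_num, mul_pow, mul_pow]
  push_cast
  gcongr

theorem pinch_pow_eq {J : Type} [Fintype J] [DecidableEq J] {e : J → H →L[ℂ] H}
    (he : IsPartition A e) (x : H →L[ℂ] H) (S : Finset J) (n : ℕ) :
    pinch e (((∑ i ∈ S, e i) * x * ∑ i ∈ S, e i) ^ (n + 1)) =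
      ∑ w : Fin (n + 1) → J with Finset.univ.image w ⊆ S, word e x w := by
  have hq : ∀ i ∈ S, (∑ j ∈ S, e j) * e i = e i := fun i hi => by
    rw [Finset.sum_mul, Finset.sum_eq_single_of_mem i hi fun j _ h => he.2.1 j i h, he.mul_self]
  have hq2 : (∑ j ∈ S, e j) * ∑ j ∈ S, e j = ∑ j ∈ S, e j := by
    rw [Finset.mul_sum, Finset.sum_congr rfl hq]
  have h1 : ∀ n, ((∑ i ∈ S, e i) * x * ∑ i ∈ S, e i) ^ (n + 1) =
      ((∑ i ∈ S, e i) * x) ^ (n + 1) * ∑ i ∈ S, e i := fun n => by
    induction n with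
    | zero => rw [zero_add, pow_one, pow_one]
    | succ n ih => rw [pow_succ, ih, pow_succ _ (n + 1), mul_assoc, mul_assoc _ x, ← mul_assoc _ _
        (x * _), hq2, mul_assoc, mul_assoc]
  have h2 : ((∑ i ∈ S, e i) * x) ^ (n + 1) = ∑ w ∈ Fintype.piFinset fun _ : Fin (n + 1) => S,
      (List.ofFn fun m => e (w m) * x).prod := by
    have := (MultilinearMap.mkPiAlgebraFin ℂ (n + 1) (H →L[ℂ] H)).map_sum_finset
      (fun _ j => e j * x) fun _ => S
    simp only [MultilinearMap.mkPiAlgebraFin_apply, List.ofFn_const, List.prod_replicate,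
      ← Finset.sum_mul] at this
    exact this
  rw [h1, h2, pinch]
  generalize ∑ i ∈ S, e i = q at hq ⊢
  simp only [Finset.mul_sum, Finset.sum_mul]
  rw [Finset.sum_comm]
  refine Finset.sum_congr (by ext w; simp [Finset.image_subset_iff]) fun w hw => ?_
  have h3 : w 0 ∈ S := Finset.image_subset_iff.1 (Finset.mem_filter.1 hw).2 0 (Finset.mem_univ _)
  rw [Finset.sum_eq_single_of_mem (w 0) (Finset.mem_univ _) fun j _ h => ?_]
  · rw [word, mul_assoc, mul_assoc, hq _ h3, List.ofFn_succ, List.prod_cons]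
    simp only [← mul_assoc, he.mul_self]
  · rw [List.ofFn_succ, List.prod_cons]
    simp only [← mul_assoc, he.2.1 j _ h, zero_mul]

theorem dmain_norm {J : Type} [Fintype J] [DecidableEq J] {e : J → H →L[ℂ] H}
    (he : IsPartition A e) (S : Finset J) : ‖∑ i ∈ S, e i‖ ≤ 1 := by
  have := dlinkY_norm he (N := 1) (x := fun _ => 1) (fun _ => ContinuousLinearMap.norm_id_le)
    (c := fun _ i => if i ∈ S then 1 else 0) (fun _ i => by split_ifs <;> simp) 0
  simpa [dlinkY, apply_ite Complex.ofReal] using this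

theorem dmain_bern {J : Type} [Fintype J] [DecidableEq J] (T : Finset J) (ρ : ℝ) :
    ρ ^ T.card = ∑ S : Finset J, ((∏ _i ∈ S, ρ) * ∏ _i ∈ Finset.univ \ S, (1 - ρ)) *
      if T ⊆ S then 1 else 0 := by
  have h := Finset.prod_add (fun _ : J => ρ) (fun i => if i ∈ T then 0 else 1 - ρ) Finset.univ
  rw [Finset.powerset_univ, Finset.prod_congr rfl (g := fun i => if i ∈ T then ρ else 1)
    fun i _ => by split_ifs <;> ring, Finset.prod_ite_mem, Finset.univ_inter,
    Finset.prod_const] at h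
  refine h.trans (Finset.sum_congr rfl fun S _ => ?_)
  split_ifs with h1
  · rw [mul_one]
    exact congrArg _ (Finset.prod_congr rfl fun i hi =>
      if_neg fun h2 => (Finset.mem_sdiff.1 hi).2 (h1 h2))
  · obtain ⟨i, h2, h3⟩ := Finset.not_subset.1 h1
    rw [mul_zero]
    exact mul_eq_zero_of_right _
      (Finset.prod_eq_zero (Finset.mem_sdiff.2 ⟨Finset.mem_univ i, h3⟩) (if_pos h2))

theorem dmain_count {J : Type} [Fintype J] [DecidableEq J] (T : Finset J) (h : ℕ) [NeZero h] :
    ∑ u : J → ZMod h, (if T ⊆ Finset.univ.filter fun i => u i = 0 then (1 : ℝ) else 0) =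
      Fintype.card (J → ZMod h) * (h : ℝ)⁻¹ ^ T.card := by
  have h0 : (h : ℝ) ≠ 0 := Nat.cast_ne_zero.2 (NeZero.ne h)
  have h1 : (Finset.univ.filter fun u : J → ZMod h => T ⊆ Finset.univ.filter fun i => u i = 0) =
      Fintype.piFinset fun i => if i ∈ T then {0} else Finset.univ := by
    ext u
    simp only [Finset.mem_filter, Finset.mem_univ, true_and, Finset.subset_iff,
      Fintype.mem_piFinset]
    refine forall_congr' fun i => ?_
    split_ifs with h2 <;> simp [h2]
  rw [Finset.sum_boole, h1, Fintype.card_piFinset, Fintype.card_pi, ← Finset.prod_const,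
    ← Finset.univ_inter T, ← Finset.prod_ite_mem, Finset.univ_inter]
  push_cast
  rw [← Finset.prod_mul_distrib]
  refine Finset.prod_congr rfl fun i _ => ?_
  split_ifs <;> simp [h0]

/-- Random compressions of an operator with small blocks. -/
theorem diffuse_moment {k : ℕ} (hk : 1 ≤ k) : ∃ C : ℝ, 0 ≤ C ∧
    ∀ (J : Type) [Fintype J] [DecidableEq J] (e : J → H →L[ℂ] H), IsPartition A e →
    ∀ x : H →L[ℂ] H, ‖x‖ ≤ 1 → ∀ η : ℝ, 0 ≤ η → (∀ i j, ‖e i * x * e j‖ ≤ η) →
    ∀ φ : (H →L[ℂ] H) →ₗ[ℂ] ℂ, (∀ T, ‖φ T‖ ≤ ‖T‖) → (∀ T, φ (pinch e T) = φ T) →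
    ∀ (h : ℕ) [NeZero h],
      ∑ u : J → ZMod h,
        (φ (((∑ i with u i = 0, e i) * x * ∑ i with u i = 0, e i) ^ (2 * k))).re ≤
      Fintype.card (J → ZMod h) * (C * η + 144 ^ k / h ^ (k + 1)) := by
  obtain ⟨n, hn⟩ : ∃ n, 2 * k = n + 1 := ⟨2 * k - 1, by omega⟩
  obtain ⟨C, hC, hlow⟩ := low_coeff (H := H) (A := A) n
  refine ⟨(n + 2 : ℕ) * C, by positivity, fun J _ _ e he x hx η hη hb φ hφ hp h _ => ?_⟩
  have hre : ∀ T, |(φ T).re| ≤ ‖T‖ := fun T => (Complex.abs_re_le_norm _).trans (hφ T)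
  have hS : ∀ S : Finset J, (φ (((∑ i ∈ S, e i) * x * ∑ i ∈ S, e i) ^ (n + 1))).re =
      ∑ w : Fin (n + 1) → J, (if Finset.univ.image w ⊆ S then 1 else 0) * (φ (word e x w)).re :=
    fun S => by
      rw [← hp, pinch_pow_eq he, map_sum, Complex.re_sum, Finset.sum_filter]
      simp only [ite_mul, one_mul, zero_mul]
  obtain ⟨P, hP⟩ : ∃ P : Polynomial ℝ, P = ∑ w : Fin (n + 1) → J,
    Polynomial.monomial (Finset.univ.image w).card (φ (word e x w)).re := ⟨_, rfl⟩
  have P1 : P.natDegree ≤ n + 1 := hP ▸ Polynomial.natDegree_sum_le_of_forall_le _ _ fun w _ =>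
    (Polynomial.natDegree_monomial_le _).trans (Finset.card_image_le.trans (by simp))
  have P2 : ∀ ρ, P.eval ρ =
      ∑ w : Fin (n + 1) → J, ρ ^ (Finset.univ.image w).card * (φ (word e x w)).re := fun ρ => by
    simp only [hP, Polynomial.eval_finsetSum, Polynomial.eval_monomial, mul_comm]
  have P3 : ∀ j, 2 * j ≤ n + 1 → |P.coeff j| ≤ C * η := fun j hj => by
    refine le_of_eq_of_le ?_ ((hre _).trans (hlow J e he x hx η hη hb j hj))
    simp only [hP, Polynomial.finsetSum_coeff, Polynomial.coeff_monomial, map_sum, Complex.re_sum,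
      ← Finset.sum_filter]
  have P4 := coeff_l1 P1 fun ρ h0 h1 => by
    have hW : ∀ S : Finset J, 0 ≤ (∏ _i ∈ S, ρ) * ∏ _i ∈ Finset.univ \ S, (1 - ρ) := fun S =>
      mul_nonneg (Finset.prod_nonneg fun _ _ => h0) (Finset.prod_nonneg fun _ _ => sub_nonneg.2 h1)
    rw [P2]
    simp only [dmain_bern (J := J), Finset.sum_mul, mul_assoc _ (ite _ _ _)]
    rw [Finset.sum_comm]
    simp only [← Finset.mul_sum, ← hS]
    refine (Finset.abs_sum_le_sum_abs _ _).trans ?_
    have h2 := dmain_bern (∅ : Finset J) ρ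
    rw [Finset.card_empty, pow_zero] at h2
    refine (Finset.sum_le_sum fun S _ => ?_).trans h2.ge
    rw [abs_mul, abs_of_nonneg (hW S), if_pos (Finset.empty_subset _)]
    refine mul_le_mul_of_nonneg_left ((hre _).trans ((norm_pow_le' _ n.succ_pos).trans
      (pow_le_one₀ (norm_nonneg _) ?_))) (hW S)
    exact (norm_mul_le _ _).trans (mul_le_one₀ ((norm_mul_le _ _).trans
      (mul_le_one₀ (dmain_norm he S) (norm_nonneg _) hx)) (norm_nonneg _) (dmain_norm he S))
  have hh : (1 : ℝ) ≤ h := Nat.one_le_cast.2 NeZero.one_le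
  have h1 : ∑ u : J → ZMod h, (φ (((∑ i with u i = 0, e i) * x * ∑ i with u i = 0, e i) ^
      (2 * k))).re = Fintype.card (J → ZMod h) * P.eval (h : ℝ)⁻¹ := by
    simp only [hn, hS]
    rw [Finset.sum_comm, P2, Finset.mul_sum]
    refine Finset.sum_congr rfl fun w _ => ?_
    rw [← Finset.sum_mul, dmain_count, mul_assoc]
  rw [h1]
  refine mul_le_mul_of_nonneg_left ?_ (Nat.cast_nonneg _)
  rw [Polynomial.eval_eq_sum_range' (Nat.lt_succ_of_le P1)]
  refine (Finset.sum_le_sum (g := fun j => C * η + |P.coeff j| / h ^ (k + 1)) fun j _ => ?_).trans ?_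
  · refine (mul_le_mul_of_nonneg_right (le_abs_self _) (by positivity)).trans ?_
    by_cases hj : j ≤ k
    · exact (mul_le_of_le_one_right (abs_nonneg _) (pow_le_one₀ (by positivity)
        (inv_le_one_of_one_le₀ hh))).trans ((P3 j (by omega)).trans
          (le_add_of_nonneg_right (by positivity)))
    · refine le_add_of_nonneg_of_le (by positivity) ?_
      rw [inv_pow, ← div_eq_mul_inv]
      exact div_le_div_of_nonneg_left (abs_nonneg _) (by positivity)
        (pow_le_pow_right₀ hh (by omega))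
  · rw [Finset.sum_add_distrib, Finset.sum_const, Finset.card_range, nsmul_eq_mul,
      ← Finset.sum_div, mul_assoc, show (144 : ℝ) = 12 ^ 2 by norm_num, ← pow_mul, hn]
    gcongr

end Vale.Agent.P078
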