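import Vale.Agent.P078b.VD

open scoped InnerProductSpace ComplexConjugate ComplexOrder
open Filter Topology

set_option linter.unusedSectionVars false
set_option linter.unusedVariables false

namespace Vale.Agent.P078

variable {H : Type*} [NormedAddCommGroup H] [InnerProductSpace ℂ H] [CompleteSpace H]
variable {M : VonNeumannAlgebra H} {A : StarSubalgebra ℂ (H →L[ℂ] H)}

/-- The function `1 / (1 + t²)`. -/
noncomputable def kap_g (t : ℝ) : ℝ := 1 / (1 + t ^ 2)

/-- The function `2 t / (1 + t²)`. -/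
noncomputable def kap_f (t : ℝ) : ℝ := 2 * t / (1 + t ^ 2)

theorem kap_g_cont : Continuous kap_g :=
  continuous_const.div (by fun_prop) fun t => by positivity

theorem kap_f_cont : Continuous kap_f :=
  Continuous.div (by fun_prop) (by fun_prop) fun t => by positivity

theorem kap_f_abs (t : ℝ) : |kap_f t| ≤ 1 := by
  rw [kap_f, abs_le, le_div_iff₀ (by positivity), div_le_iff₀ (by positivity)]
  constructor <;> nlinarith [sq_nonneg (t + 1), sq_nonneg (t - 1)]

theorem kap_spec {𝔄 : Type*} [CStarAlgebra 𝔄] {a : 𝔄} {t : ℝ} (ht : t ∈ spectrum ℝ a) :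
    |t| ≤ ‖a‖ := by
  rcases subsingleton_or_nontrivial 𝔄 with h | h
  · exact absurd (isUnit_of_subsingleton _) ht
  · exact spectrum.norm_le_norm_of_mem ht

theorem kap_norms {𝔄 : Type*} [CStarAlgebra 𝔄] {S : 𝔄} (hS : IsSelfAdjoint S) :
    ‖cfc kap_g S‖ ≤ 1 ∧ ‖cfc kap_g S * S‖ ≤ 2 ∧ ‖cfc kap_f S‖ ≤ 1 ∧ ‖cfc kap_f S * S‖ ≤ 2 := by
  refine ⟨norm_cfc_le zero_le_one fun t _ => ?_, ?_,
    norm_cfc_le zero_le_one fun t _ => kap_f_abs t, ?_⟩
  · rw [kap_g, Real.norm_eq_abs, abs_of_pos (by positivity), div_le_one (by positivity)]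
    nlinarith
  · nth_rewrite 2 [← cfc_id ℝ S hS]
    rw [← cfc_mul _ _ S kap_g_cont.continuousOn continuousOn_id]
    refine norm_cfc_le zero_le_two fun t _ => ?_
    rw [kap_g, Real.norm_eq_abs, id, one_div_mul_eq_div, abs_le, le_div_iff₀ (by positivity),
      div_le_iff₀ (by positivity)]
    constructor <;> nlinarith [sq_nonneg (t + 1), sq_nonneg (t - 1)]
  · nth_rewrite 2 [← cfc_id ℝ S hS]
    rw [← cfc_mul _ _ S kap_f_cont.continuousOn continuousOn_id]
    refine norm_cfc_le zero_le_two fun t _ => ?_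
    rw [kap_f, Real.norm_eq_abs, id, div_mul_eq_mul_div, abs_le, le_div_iff₀ (by positivity),
      div_le_iff₀ (by positivity)]
    constructor <;> nlinarith [sq_nonneg t]

theorem kap_basic {𝔄 : Type*} [CStarAlgebra 𝔄] {S : 𝔄} (hS : IsSelfAdjoint S) :
    cfc kap_f S = cfc kap_g S * S + cfc kap_g S * S ∧ cfc kap_g S * S = S * cfc kap_g S ∧
      cfc kap_g S * (1 + S * S) = 1 := by
  have h1 : cfc kap_g S * S = cfc (fun t => kap_g t * t) S := by
    nth_rewrite 2 [← cfc_id ℝ S hS]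
    rw [← cfc_mul _ _ S kap_g_cont.continuousOn continuousOn_id]
    rfl
  have hc : Continuous fun t => kap_g t * t := kap_g_cont.mul continuous_id
  refine ⟨?_, ((Commute.refl S).cfc_real kap_g).eq, ?_⟩
  · rw [h1, ← cfc_add S _ _ hc.continuousOn hc.continuousOn]
    refine cfc_congr fun t _ => ?_
    simp only [kap_f, kap_g]
    ring
  · rw [mul_add, mul_one, ← mul_assoc, h1]
    nth_rewrite 3 [← cfc_id ℝ S hS]
    rw [← cfc_mul _ _ S hc.continuousOn continuousOn_id,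
      ← cfc_add S _ (fun x => kap_g x * x * id x) kap_g_cont.continuousOn
        (hc.mul continuous_id).continuousOn,
      ← cfc_one ℝ S hS]
    refine cfc_congr fun t _ => ?_
    simp only [kap_g, id, Pi.one_apply]
    field_simp

theorem kap_identity {𝔄 : Type*} [CStarAlgebra 𝔄] {S T : 𝔄} (hS : IsSelfAdjoint S)
    (hT : IsSelfAdjoint T) : cfc kap_f S - cfc kap_f T =
      cfc kap_g S * (S - T) * cfc kap_g T + cfc kap_g S * (S - T) * cfc kap_g T -
        cfc kap_f S * (S - T) * (T * cfc kap_g T) := by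
  obtain ⟨h1, h2, h3⟩ := kap_basic hS
  obtain ⟨h4, h5, h6⟩ := kap_basic hT
  have h7 : (1 + T * T) * cfc kap_g T = 1 := by
    have h8 : Commute (cfc kap_g T) T := h5
    rw [← ((Commute.one_right _).add_right (h8.mul_right h8)).eq, h6]
  rw [h1, h4]
  generalize cfc kap_g S = a at *
  generalize cfc kap_g T = b at *
  have h8 : a * S = a * S * ((1 + T * T) * b) := by rw [h7, mul_one]
  have h9 : b * T = a * (1 + S * S) * (T * b) := by rw [h3, one_mul, h5]
  have h10 : a * S - b * T = a * (S - T) * b - a * S * (S - T) * (T * b) := by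
    conv_lhs => rw [h8, h9]
    noncomm_ring
  calc _ = (a * S - b * T) + (a * S - b * T) := by abel
    _ = _ := by rw [h10]; noncomm_ring

theorem kap_dense {L : Type*} [NormedAddCommGroup L] [NormedSpace ℂ L] {B : ℕ → L →L[ℂ] L}
    {C : ℝ} (hB : ∀ m, ‖B m‖ ≤ C) {D : Set L}
    (hD : ∀ η ∈ D, Tendsto (fun m => B m η) atTop (𝓝 0)) {ζ : L}
    (hζ : ∀ ε : ℝ, 0 < ε → ∃ η ∈ D, ‖ζ - η‖ < ε) : Tendsto (fun m => B m ζ) atTop (𝓝 0) := by
  have hC : 0 ≤ C := (norm_nonneg _).trans (hB 0)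
  rw [Metric.tendsto_atTop]
  intro ε hε
  obtain ⟨η, hη, h1⟩ := hζ (ε / (2 * (C + 1))) (by positivity)
  obtain ⟨m₀, hm₀⟩ := Metric.tendsto_atTop.1 (hD η hη) (ε / 2) (by positivity)
  refine ⟨m₀, fun m hm => ?_⟩
  have h2 := hm₀ m hm
  rw [dist_zero_right] at h2 ⊢
  have h3 : B m ζ = B m (ζ - η) + B m η := by simp
  have h4 : ‖B m (ζ - η)‖ ≤ C * ‖ζ - η‖ :=
    ((B m).le_opNorm _).trans (mul_le_mul_of_nonneg_right (hB m) (norm_nonneg _))
  rw [lt_div_iff₀ (by positivity)] at h1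
  rw [h3]
  refine (norm_add_le _ _).trans_lt ?_
  nlinarith [norm_nonneg (ζ - η)]

theorem kap_aeval {L : Type*} [NormedAddCommGroup L] [NormedSpace ℂ L] {U : ℕ → L →L[ℂ] L}
    {V : L →L[ℂ] L} {K : Submodule ℂ L} (hU : ∀ m, ‖U m‖ ≤ 1)
    (h : ∀ ζ ∈ K, Tendsto (fun m => U m ζ) atTop (𝓝 (V ζ))) (hV : ∀ ζ ∈ K, V ζ ∈ K)
    (p : Polynomial ℝ) : ∀ ζ ∈ K,
    Tendsto (fun m => Polynomial.aeval (U m) p ζ) atTop (𝓝 (Polynomial.aeval V p ζ)) := by
  have hpow : ∀ n : ℕ, ∀ ζ ∈ K, Tendsto (fun m => (U m ^ n) ζ) atTop (𝓝 ((V ^ n) ζ)) := by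
    intro n
    induction n with
    | zero => intro ζ _; simp
    | succ n ih =>
      intro ζ hζ
      have h1 : Tendsto (fun m => (U m ^ n) (U m ζ - V ζ)) atTop (𝓝 0) := by
        have h2 := ((h ζ hζ).sub_const (V ζ)).norm
        rw [sub_self, norm_zero] at h2
        refine squeeze_zero_norm (fun m => ((U m ^ n).le_opNorm _).trans
          (mul_le_of_le_one_left (norm_nonneg _) ?_)) h2
        rcases Nat.eq_zero_or_pos n with rfl | hn
        · exact ContinuousLinearMap.norm_id_le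
        · exact (norm_pow_le' _ hn).trans (pow_le_one₀ (norm_nonneg _) (hU m))
      have h3 := h1.add (ih _ (hV ζ hζ))
      rw [zero_add] at h3
      simpa only [pow_succ, mul_apply_eq_comp, map_sub, sub_add_cancel] using h3
  intro ζ hζ
  induction p using Polynomial.induction_on' with
  | add p q hp hq => simpa only [map_add, add_apply] using hp.add hq
  | monomial n a =>
    simp only [Polynomial.aeval_monomial, Algebra.algebraMap_eq_smul_one, smul_mul_assoc, one_mul,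
      smul_apply]
    exact (hpow n ζ hζ).const_smul a

theorem kap_mem {𝔄 : Type*} [CStarAlgebra 𝔄] (N : StarSubalgebra ℂ 𝔄) {a : 𝔄} (ha : a ∈ N)
    (p : Polynomial ℝ) : Polynomial.aeval a p ∈ N := by
  induction p using Polynomial.induction_on' with
  | add p q hp hq => rw [map_add]; exact add_mem hp hq
  | monomial n r =>
    rw [Polynomial.aeval_monomial, Algebra.algebraMap_eq_smul_one, smul_mul_assoc, one_mul,
      ← Complex.coe_smul]
    exact N.smul_mem (pow_mem ha n) _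

theorem kap_poly {ε : ℝ} (hε : 0 < ε) : ∃ p : Polynomial ℝ,
    (∀ t : ℝ, |t| ≤ 1 → |p.eval (kap_f t) - t| ≤ ε) ∧ ∀ t, |p.eval (kap_f t)| ≤ 1 + ε := by
  obtain ⟨p, hp⟩ := exists_polynomial_near_of_continuousOn (-1) 1
    (fun u => u / (1 + √(1 - u ^ 2))) (Continuous.div (by fun_prop) (by fun_prop)
      fun u => by positivity).continuousOn ε hε
  refine ⟨p, fun t ht => ?_, fun t => ?_⟩
  · have h1 := hp _ (abs_le.1 (kap_f_abs t))
    have h2 : √(1 - kap_f t ^ 2) = (1 - t ^ 2) / (1 + t ^ 2) := by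
      have h3 : 0 ≤ 1 - t ^ 2 := by nlinarith [abs_le.1 ht]
      rw [show 1 - kap_f t ^ 2 = ((1 - t ^ 2) / (1 + t ^ 2)) ^ 2 by rw [kap_f]; field_simp; ring]
      exact Real.sqrt_sq (by positivity)
    have h4 : kap_f t / (1 + √(1 - kap_f t ^ 2)) = t := by
      rw [h2, kap_f]
      field_simp
      ring
    rw [h4] at h1
    exact h1.le
  · have h1 := hp _ (abs_le.1 (kap_f_abs t))
    have h2 : |kap_f t / (1 + √(1 - kap_f t ^ 2))| ≤ 1 := by
      rw [abs_div, abs_of_pos (show 0 < 1 + √(1 - kap_f t ^ 2) by positivity),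
        div_le_one (by positivity)]
      linarith [kap_f_abs t, Real.sqrt_nonneg (1 - kap_f t ^ 2)]
    have := abs_sub_abs_le_abs_sub (p.eval (kap_f t)) (kap_f t / (1 + √(1 - kap_f t ^ 2)))
    linarith

/-- A Kaplansky type density statement. -/
theorem kaplansky {L : Type*} [NormedAddCommGroup L] [InnerProductSpace ℂ L] [CompleteSpace L]
    {𝔄 : Type*} [CStarAlgebra 𝔄] (π : 𝔄 →⋆ₐ[ℂ] (L →L[ℂ] L)) (N : StarSubalgebra ℂ 𝔄) (ξ : L)
    (K : Submodule ℂ L) [K.HasOrthogonalProjection] (hK₁ : ∀ n ∈ N, π n ξ ∈ K)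
    (hK₂ : ∀ ζ ∈ K, ∀ ε : ℝ, 0 < ε → ∃ n ∈ N, ‖ζ - π n ξ‖ < ε) {x : 𝔄} (hx : IsSelfAdjoint x)
    (hx1 : ‖x‖ ≤ 1) (s : ℕ → 𝔄) (hs : ∀ m, s m ∈ N ∧ IsSelfAdjoint (s m))
    (hlim : ∀ n ∈ N, Tendsto (fun m => π (s m * n) ξ) atTop (𝓝 (K.starProjection (π (x * n) ξ))))
    {δ : ℝ} (hδ : 0 < δ) :
    ∃ y ∈ N, IsSelfAdjoint y ∧ ‖y‖ ≤ 2 ∧ ‖π y ξ - K.starProjection (π x ξ)‖ < δ := by
  set P := K.starProjection with hPdef
  have hP : IsStarProjection P := isStarProjection_starProjection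
  have hπ : ∀ a, ‖π a‖ ≤ ‖a‖ := fun a => NonUnitalStarAlgHom.norm_apply_le π a
  have hπc : Continuous π := AddMonoidHomClass.continuous_of_bound π 1 (by simpa using hπ)
  set T : L →L[ℂ] L := P * π x * P with hT
  have hTs : IsSelfAdjoint T := by
    rw [IsSelfAdjoint, hT, star_mul, star_mul, hP.isSelfAdjoint.star_eq, ← map_star, hx.star_eq,
      mul_assoc]
  have hT1 : ‖T‖ ≤ 1 := by
    calc _ ≤ ‖P‖ * ‖π x‖ * ‖P‖ := norm_mul₃_le
      _ ≤ 1 * 1 * 1 := by
          gcongr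
          exacts [hP.norm_le, (hπ x).trans hx1, hP.norm_le]
      _ = 1 := by ring
  have hPT : Commute T P := by
    rw [Commute, SemiconjBy, hT, mul_assoc _ P P, hP.isIdempotentElem.eq, ← mul_assoc,
      ← mul_assoc, hP.isIdempotentElem.eq]
  have hKP : ∀ ζ ∈ K, P ζ = ζ := fun ζ hζ => Submodule.starProjection_eq_self_iff.2 hζ
  have hinv : ∀ U : L →L[ℂ] L, Commute U P → ∀ ζ ∈ K, U ζ ∈ K := by
    intro U hU ζ hζ
    rw [← hKP ζ hζ, ← mul_apply_eq_comp, hU.eq, mul_apply_eq_comp]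
    exact K.starProjection_apply_mem _
  have hSs : ∀ m, IsSelfAdjoint (π (s m)) := fun m => by
    rw [IsSelfAdjoint, ← map_star, (hs m).2.star_eq]
  have hD : ∀ n ∈ N, Tendsto (fun m => (π (s m) - T) (π n ξ)) atTop (𝓝 0) := by
    intro n hn
    have h1 : T (π n ξ) = P (π (x * n) ξ) := by
      rw [hT, mul_apply_eq_comp, mul_apply_eq_comp, hKP _ (hK₁ n hn), map_mul, mul_apply_eq_comp]
    have h2 := (hlim n hn).sub_const (P (π (x * n) ξ))
    rw [sub_self] at h2
    refine h2.congr fun m => ?_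
    rw [sub_apply, h1, map_mul π (s m), mul_apply_eq_comp]
  have hext : ∀ (B : ℕ → L →L[ℂ] L), (∀ m, ‖B m‖ ≤ 1) → (∀ m, ‖B m * π (s m)‖ ≤ 2) →
      ∀ ζ ∈ K, Tendsto (fun m => (B m * (π (s m) - T)) ζ) atTop (𝓝 0) := by
    intro B hB hB' ζ hζ
    refine kap_dense (C := 3) (D := {η | ∃ n ∈ N, η = π n ξ}) (fun m => ?_) ?_ fun ε hε => ?_
    · rw [mul_sub]
      refine (norm_sub_le _ _).trans ?_
      have := (norm_mul_le (B m) T).trans (mul_le_mul (hB m) hT1 (norm_nonneg _) zero_le_one)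
      linarith [hB' m]
    · rintro η ⟨n, hn, rfl⟩
      refine squeeze_zero_norm (fun m => ?_) (by simpa using (hD n hn).norm)
      rw [mul_apply_eq_comp]
      exact ((B m).le_opNorm _).trans (mul_le_of_le_one_left (norm_nonneg _) (hB m))
    · obtain ⟨n, hn, h⟩ := hK₂ ζ hζ ε hε
      exact ⟨_, ⟨n, hn, rfl⟩, h⟩
  have hf : ∀ ζ ∈ K, Tendsto (fun m => cfc kap_f (π (s m)) ζ) atTop (𝓝 (cfc kap_f T ζ)) := by
    intro ζ hζ
    have hg : cfc kap_g T ζ ∈ K := hinv _ (hPT.cfc_real _) ζ hζ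
    have h1 := hext (fun m => cfc kap_g (π (s m))) (fun m => (kap_norms (hSs m)).1)
      (fun m => (kap_norms (hSs m)).2.1) _ hg
    have h2 := hext (fun m => cfc kap_f (π (s m))) (fun m => (kap_norms (hSs m)).2.2.1)
      (fun m => (kap_norms (hSs m)).2.2.2) _ (hinv T hPT _ hg)
    have h3 := ((h1.add h1).sub h2).add_const (cfc kap_f T ζ)
    simp only [add_zero, sub_zero, zero_add] at h3
    refine h3.congr fun m => ?_
    have h4 := congrArg (fun U : L →L[ℂ] L => U ζ) (kap_identity (hSs m) hTs)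
    simp only [sub_apply, add_apply, mul_apply_eq_comp] at h4 ⊢
    rw [← h4]
    abel
  set ε : ℝ := min (δ / (3 * (‖ξ‖ + 1))) (1 / 2) with hε
  have hε0 : 0 < ε := by positivity
  have hε1 : ε ≤ 1 / 2 := min_le_right _ _
  have hε2 : ε * ‖ξ‖ < δ / 3 := by
    have h1 : ε ≤ δ / (3 * (‖ξ‖ + 1)) := min_le_left _ _
    rw [le_div_iff₀ (by positivity)] at h1
    nlinarith [norm_nonneg ξ]
  obtain ⟨p, hp1, hp2⟩ := kap_poly hε0
  have hξ : ξ ∈ K := by simpa using hK₁ 1 (one_mem _)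
  have h5 := kap_aeval (U := fun m => cfc kap_f (π (s m))) (fun m => (kap_norms (hSs m)).2.2.1)
    hf (hinv _ (hPT.cfc_real _)) p ξ hξ
  obtain ⟨m, hm⟩ := (Metric.tendsto_atTop.1 h5) (δ / 3) (by positivity)
  have h6 := hm m le_rfl
  rw [dist_eq_norm] at h6
  have hcont : Continuous fun t => p.eval (kap_f t) := p.continuous.comp kap_f_cont
  obtain ⟨p₂, hp₂⟩ := exists_polynomial_near_of_continuousOn (-‖s m‖) ‖s m‖
    (fun t => p.eval (kap_f t)) hcont.continuousOn ε hε0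
  have h7 : ‖Polynomial.aeval (s m) p₂ - cfc (fun t => p.eval (kap_f t)) (s m)‖ ≤ ε := by
    rw [← cfc_polynomial p₂ (s m) (hs m).2, ← cfc_sub _ _ (s m) p₂.continuous.continuousOn
      hcont.continuousOn]
    refine norm_cfc_le hε0.le fun t ht => (hp₂ t (abs_le.1 ?_)).le
    exact kap_spec ht
  have h8 : ‖cfc (fun t => p.eval (kap_f t)) (s m)‖ ≤ 1 + ε :=
    norm_cfc_le (by positivity) fun t _ => hp2 t
  have h9 : π (cfc (fun t => p.eval (kap_f t)) (s m)) =
      Polynomial.aeval (cfc kap_f (π (s m))) p := by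
    rw [StarAlgHom.map_cfc π _ _ hcont.continuousOn hπc (hs m).2 (hSs m),
      cfc_map_polynomial p kap_f _ (hSs m) kap_f_cont.continuousOn]
  have h10 : ‖Polynomial.aeval (cfc kap_f T) p - T‖ ≤ ε := by
    rw [← cfc_map_polynomial p kap_f _ hTs kap_f_cont.continuousOn]
    nth_rewrite 2 [← cfc_id ℝ T hTs]
    rw [← cfc_sub _ _ T hcont.continuousOn continuousOn_id]
    exact norm_cfc_le hε0.le fun t ht => hp1 t ((kap_spec ht).trans hT1)
  refine ⟨Polynomial.aeval (s m) p₂, kap_mem N (hs m).1 p₂, ?_, ?_, ?_⟩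
  · rw [← cfc_polynomial p₂ (s m) (hs m).2]
    exact cfc_predicate _ _
  · have := norm_sub_norm_le (Polynomial.aeval (s m) p₂) (cfc (fun t => p.eval (kap_f t)) (s m))
    linarith
  · have h11 : P (π x ξ) = T ξ := by
      rw [hT, mul_apply_eq_comp, mul_apply_eq_comp, hKP ξ hξ]
    have h12 : π (Polynomial.aeval (s m) p₂) ξ - P (π x ξ) =
        π (Polynomial.aeval (s m) p₂ - cfc (fun t => p.eval (kap_f t)) (s m)) ξ +
        (Polynomial.aeval (cfc kap_f (π (s m))) p ξ - Polynomial.aeval (cfc kap_f T) p ξ) +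
        (Polynomial.aeval (cfc kap_f T) p - T) ξ := by
      rw [h11, map_sub, h9]
      simp only [sub_apply]
      abel
    rw [h12]
    have h13 : ‖π (Polynomial.aeval (s m) p₂ - cfc (fun t => p.eval (kap_f t)) (s m)) ξ‖ ≤
        ε * ‖ξ‖ := (ContinuousLinearMap.le_opNorm _ _).trans
      (mul_le_mul_of_nonneg_right ((hπ _).trans h7) (norm_nonneg _))
    have h14 : ‖(Polynomial.aeval (cfc kap_f T) p - T) ξ‖ ≤ ε * ‖ξ‖ :=
      (ContinuousLinearMap.le_opNorm _ _).trans (mul_le_mul_of_nonneg_right h10 (norm_nonneg _))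
    refine (norm_add₃_le).trans_lt ?_
    linarith

end Vale.Agent.P078
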