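import Vale.Agent.P078b.RN
import Vale.Agent.P078b.Kap

open scoped InnerProductSpace ComplexConjugate ComplexOrder
open Filter Topology

set_option linter.unusedSectionVars false
set_option linter.unusedVariables false

namespace Vale.Agent.P078

variable {H : Type*} [NormedAddCommGroup H] [InnerProductSpace ℂ H] [CompleteSpace H]
variable {M : VonNeumannAlgebra H} {A : StarSubalgebra ℂ (H →L[ℂ] H)}

namespace Ctx
variable (c : Ctx M A)

theorem dec_inv_tendsto : Tendsto (fun m : ℕ => 1 / ((m : ℝ) + 1)) atTop (𝓝 0) :=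
  tendsto_one_div_add_atTop_nhds_zero_nat

theorem dec_n2_sub_sq (S T : H →L[ℂ] H) :
    c.n2 (S - T) ^ 2 = c.n2 S ^ 2 - 2 * (c.φ (star S * T)).re + c.n2 T ^ 2 := by
  rw [sub_eq_add_neg, c.n2_add_sq, c.n2_neg, mul_neg, map_neg, Complex.neg_re]
  ring

theorem dec_rsmul_sa {t : H →L[ℂ] H} (ht : IsSelfAdjoint t) (r : ℝ) :
    IsSelfAdjoint ((r : ℂ) • t) := by
  rw [IsSelfAdjoint, star_smul, ht.star_eq, Complex.star_def, Complex.conj_ofReal]

theorem dec_cauchy {u : ℕ → ℕ → ℝ} {C : ℝ} (hC : 0 < C) (h0 : ∀ m l, 0 ≤ u m l) {k : ℕ}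
    (hk : k ≠ 0) (h : ∀ m l : ℕ, u m l ^ k ≤ C * (1 / ((m : ℝ) + 1) + 1 / ((l : ℝ) + 1))) :
    ∀ ε : ℝ, 0 < ε → ∃ m₀, ∀ m ≥ m₀, ∀ l ≥ m₀, u m l < ε := by
  intro ε hε
  have h1 : 0 < ε ^ k / (2 * C) := by positivity
  obtain ⟨m₀, hm₀⟩ := eventually_atTop.1 (dec_inv_tendsto.eventually (gt_mem_nhds h1))
  refine ⟨m₀, fun m hm l hl => lt_of_pow_lt_pow_left₀ k hε.le ((h m l).trans_lt ?_)⟩
  calc C * (1 / ((m : ℝ) + 1) + 1 / ((l : ℝ) + 1)) < C * (ε ^ k / (2 * C) + ε ^ k / (2 * C)) :=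
        mul_lt_mul_of_pos_left (add_lt_add (hm₀ m hm) (hm₀ l hl)) hC
    _ = ε ^ k := by field_simp; ring

/-- From real parts on self-adjoint elements to all elements. -/
theorem dec_orth {z : ℕ → H →L[ℂ] H} (hz : ∀ m, z m ∈ M ∧ IsSelfAdjoint (z m))
    (h : ∀ t ∈ c.N0, IsSelfAdjoint t → Tendsto (fun m => (c.φ (t * z m)).re) atTop (𝓝 0)) :
    ∀ n ∈ c.N0, Tendsto (fun m => c.φ (star n * z m)) atTop (𝓝 0) := by
  have key : ∀ b ∈ A, ∀ v, c.IsGb v →
      Tendsto (fun m => (c.φ (star (b * v) * z m)).re) atTop (𝓝 0) := by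
    intro b hb v hv
    obtain ⟨k, hkA, hk⟩ := c.hA.exists_inv_one_add hv.rn_mem hv.rn_nonneg
    have haA : v * k * star v * star b ∈ A := mul_mem (hv.1.2.2.1 k hkA) (star_mem hb)
    set a' := v * k * star v * star b with ha'
    have hvv : star v * v * star v = star v := by
      simpa only [star_star] using hv.1.star.2.1
    have h1 : (1 + c.rn v) * (star v * a') = star v * star b := by
      have h2 : star v * v * k = k * (star v * v) := c.hA.2.1 _ hv.1.src.1 _ hkA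
      calc (1 + c.rn v) * (star v * a') = (1 + c.rn v) * (star v * v * k) * star v * star b := by
            simp only [ha', mul_assoc]
        _ = ((1 + c.rn v) * k) * (star v * v * star v) * star b := by
            rw [h2]
            simp only [mul_assoc]
        _ = _ := by rw [hk, hvv, one_mul]
    have ht : star a' * v + star (star a' * v) ∈ c.N0 := by
      have h3 := mul_mem (c.mem_N0_of_mem (star_mem haA)) hv.mem_N0
      exact add_mem h3 (star_mem h3)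
    refine (h _ ht (IsSelfAdjoint.add_star_self _)).congr fun m => ?_
    have h4 : conj (c.φ (star a' * v * z m)) = c.φ (c.rn v * (star v * a') * z m) := by
      rw [← c.φ_star, star_mul, star_mul, star_star, (hz m).2.star_eq, ← mul_assoc,
        ← c.φ_comm haA, ← mul_assoc,
        hv.star.φ_flip (mul_mem (c.hA.1 _ haA) (hz m).1), star_star]
      simp only [mul_assoc]
    rw [add_mul, map_add, Complex.add_re, ← Complex.conj_re (c.φ (star a' * v * z m)), h4,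
      ← Complex.add_re, ← map_add, star_mul, star_star, star_mul, ← h1]
    congr 2
    noncomm_ring
  have key2 : ∀ n ∈ c.N0, Tendsto (fun m => (c.φ (star n * z m)).re) atTop (𝓝 0) := by
    intro n hn
    obtain ⟨k, a, v, hav, rfl⟩ := c.mem_N0_iff.1 hn
    have h1 := tendsto_finsetSum Finset.univ fun i _ => key (a i) (hav i).1 (v i) (hav i).2
    rw [Finset.sum_const_zero] at h1
    refine h1.congr fun m => ?_
    rw [star_sum, Finset.sum_mul, map_sum, Complex.re_sum]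
  intro n hn
  have h1 := key2 n hn
  have h2 : Tendsto (fun m => (c.φ (star n * z m)).im) atTop (𝓝 0) := by
    refine (key2 (Complex.I • n) (SMulMemClass.smul_mem _ hn)).congr fun m => ?_
    rw [star_smul, smul_mul_assoc, map_smul]
    simp
  have h3 := ((Complex.continuous_ofReal.tendsto _).comp h1).add
    (((Complex.continuous_ofReal.tendsto _).comp h2).mul_const Complex.I)
  simp only [Complex.ofReal_zero, zero_mul, add_zero] at h3
  exact h3.congr fun m => Complex.re_add_im _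

/-- Self-adjoint minimising sequences. -/
theorem exists_min_seq {x : H →L[ℂ] H} (hxM : x ∈ M) (hx : IsSelfAdjoint x) :
    ∃ s : ℕ → H →L[ℂ] H, (∀ m, s m ∈ c.N0 ∧ IsSelfAdjoint (s m)) ∧
      (∀ ε : ℝ, 0 < ε → ∃ m₀, ∀ m ≥ m₀, ∀ l ≥ m₀, c.n2 (s m - s l) < ε) ∧
      ∀ n ∈ c.N0, Tendsto (fun m => c.φ (star n * (x - s m))) atTop (𝓝 0) := by
  set S : Set ℝ := (fun s => c.n2 (x - s) ^ 2) '' {s | s ∈ c.N0 ∧ IsSelfAdjoint s} with hS
  have hne : S.Nonempty := ⟨_, 0, ⟨zero_mem _, IsSelfAdjoint.zero _⟩, rfl⟩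
  have hbd : BddBelow S := ⟨0, by rintro _ ⟨s, _, rfl⟩; exact sq_nonneg _⟩
  have hle : ∀ s ∈ c.N0, IsSelfAdjoint s → sInf S ≤ c.n2 (x - s) ^ 2 := fun s hs hs' =>
    csInf_le hbd ⟨s, ⟨hs, hs'⟩, rfl⟩
  have hex : ∀ m : ℕ, ∃ s, (s ∈ c.N0 ∧ IsSelfAdjoint s) ∧
      c.n2 (x - s) ^ 2 < sInf S + 1 / ((m : ℝ) + 1) := fun m => by
    obtain ⟨_, ⟨s, hs, rfl⟩, h⟩ := exists_lt_of_csInf_lt hne
      (lt_add_of_pos_right (sInf S) (Nat.one_div_pos_of_nat (α := ℝ) (n := m)))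
    exact ⟨s, hs, h⟩
  choose s hs hlt using hex
  refine ⟨s, hs, ?_, ?_⟩
  · refine dec_cauchy (C := 2) two_pos (fun m l => c.n2_nonneg _) two_ne_zero fun m l => ?_
    have h1 := c.n2_add_sq (x - s l) (x - s m)
    have h2 := c.dec_n2_sub_sq (x - s l) (x - s m)
    have h3 := hle (((1 / 2 : ℝ) : ℂ) • (s l + s m))
      (SMulMemClass.smul_mem _ (add_mem (hs l).1 (hs m).1))
      (dec_rsmul_sa ((hs l).2.add (hs m).2) _)
    have h4 : x - s l + (x - s m) = (2 : ℂ) • (x - ((1 / 2 : ℝ) : ℂ) • (s l + s m)) := by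
      rw [smul_sub, smul_smul]
      norm_num
      rw [two_smul]
      abel
    rw [h4, c.n2_smul, mul_pow] at h1
    rw [sub_sub_sub_cancel_left] at h2
    have h5 : ‖(2 : ℂ)‖ ^ 2 = 4 := by norm_num
    rw [h5] at h1
    linarith [hlt m, hlt l]
  · refine c.dec_orth (fun m => ⟨sub_mem hxM (c.mem_of_N0 (hs m).1), hx.sub (hs m).2⟩) ?_
    intro t ht hsa
    have h1 : ∀ m : ℕ, (c.φ (t * (x - s m))).re ^ 2 ≤ c.n2 t ^ 2 * (1 / ((m : ℝ) + 1)) := by
      intro m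
      have h2 := discrim_le_zero (a := c.n2 t ^ 2) (b := -2 * (c.φ (t * (x - s m))).re)
        (c := 1 / ((m : ℝ) + 1)) fun r => by
          have h3 := hle (s m + (r : ℂ) • t) (add_mem (hs m).1 (SMulMemClass.smul_mem _ ht))
            ((hs m).2.add (dec_rsmul_sa hsa r))
          rw [← sub_sub, ← c.n2_neg, neg_sub, c.dec_n2_sub_sq, c.n2_smul,
            (dec_rsmul_sa hsa r).star_eq, smul_mul_assoc, map_smul, smul_eq_mul,
            Complex.re_ofReal_mul, mul_pow, Complex.norm_real, Real.norm_eq_abs, sq_abs] at h3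
          nlinarith [hlt m]
      rw [discrim] at h2
      nlinarith
    have h4 := dec_inv_tendsto.const_mul (c.n2 t ^ 2)
    rw [mul_zero] at h4
    have h5 := (squeeze_zero (fun m => sq_nonneg _) h1 h4).sqrt
    simp only [Real.sqrt_sq_eq_abs, Real.sqrt_zero] at h5
    exact tendsto_zero_iff_abs_tendsto_zero _ |>.2 h5

theorem dec_abs {L : Type*} [NormedAddCommGroup L] [InnerProductSpace ℂ L] [CompleteSpace L]
    (π : (H →L[ℂ] H) →⋆ₐ[ℂ] (L →L[ℂ] L)) (ξ : L)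
    (hπ : ∀ S T, ⟪π S ξ, π T ξ⟫_ℂ = c.φ (star S * T))
    {x : H →L[ℂ] H} (hxM : x ∈ M) (hx : IsSelfAdjoint x) (hx1 : ‖x‖ ≤ 1) :
    ∃ y : ℕ → H →L[ℂ] H, (∀ m, y m ∈ c.N0 ∧ IsSelfAdjoint (y m) ∧ ‖y m‖ ≤ 2) ∧
      (∀ ε : ℝ, 0 < ε → ∃ m₀, ∀ m ≥ m₀, ∀ l ≥ m₀, c.n2 (y m - y l) < ε) ∧
      ∀ n ∈ c.N0, Tendsto (fun m => c.φ (star n * (x - y m))) atTop (𝓝 0) := by
  have hn : ∀ S T, ‖π S ξ - π T ξ‖ = c.n2 (S - T) := fun S T => by
    rw [← sub_apply, ← map_sub, n2, ← hπ, norm_eq_sqrt_re_inner (𝕜 := ℂ)]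
    rfl
  let ι : (H →L[ℂ] H) →ₗ[ℂ] L :=
    { toFun := fun T => π T ξ
      map_add' := fun S T => by simp
      map_smul' := fun r T => by simp }
  let K₀ : Submodule ℂ L := (Subalgebra.toSubmodule c.N0.toSubalgebra).map ι
  let K : Submodule ℂ L := K₀.topologicalClosure
  have hK₁ : ∀ n ∈ c.N0, π n ξ ∈ K := fun n hn => K₀.le_topologicalClosure ⟨n, hn, rfl⟩
  have hK₂ : ∀ ζ ∈ K, ∀ ε : ℝ, 0 < ε → ∃ n ∈ c.N0, ‖ζ - π n ξ‖ < ε := fun ζ hζ ε hε => by
    obtain ⟨_, ⟨n, hn, rfl⟩, h⟩ := Metric.mem_closure_iff.1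
      (show ζ ∈ closure (K₀ : Set L) from hζ) ε hε
    exact ⟨n, hn, by rwa [dist_eq_norm] at h⟩
  obtain ⟨s, hs, hc, ho⟩ := c.exists_min_seq hxM hx
  have hlim : ∀ n ∈ c.N0,
      Tendsto (fun m => π (s m * n) ξ) atTop (𝓝 (K.starProjection (π (x * n) ξ))) := by
    intro n hnN
    obtain ⟨C, hC0, hC⟩ := c.n2_mul_N0 hnN
    obtain ⟨n', hn', hf⟩ := c.exists_flip hnN
    have h1 : CauchySeq fun m => π (s m * n) ξ := by
      refine Metric.cauchySeq_iff.2 fun ε hε => ?_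
      obtain ⟨m₀, hm₀⟩ := hc (ε / (C + 1)) (by positivity)
      refine ⟨m₀, fun m hm l hl => ?_⟩
      rw [dist_eq_norm, hn, ← sub_mul]
      have h2 := hm₀ m hm l hl
      rw [lt_div_iff₀ (by positivity)] at h2
      have h3 := hC _ (sub_mem (c.mem_of_N0 (hs m).1) (c.mem_of_N0 (hs l).1))
      nlinarith [c.n2_nonneg (s m - s l)]
    obtain ⟨η, hη⟩ := cauchySeq_tendsto_of_complete h1
    have h2 : η ∈ K := K₀.isClosed_topologicalClosure.mem_of_tendsto hη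
      (Eventually.of_forall fun m => hK₁ _ (mul_mem (hs m).1 hnN))
    have h3 : π (x * n) ξ - η ∈ Kᗮ := by
      rw [Submodule.orthogonal_closure, Submodule.mem_orthogonal]
      rintro _ ⟨n₁, hn₁, rfl⟩
      have h4 : Tendsto (fun m => ⟪π n₁ ξ, π (x * n) ξ - π (s m * n) ξ⟫_ℂ) atTop
          (𝓝 ⟪π n₁ ξ, π (x * n) ξ - η⟫_ℂ) :=
        tendsto_const_nhds.inner (tendsto_const_nhds.sub hη)
      refine tendsto_nhds_unique h4 ((ho _ (mul_mem hn₁ (star_mem hn'))).congr fun m => ?_)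
      rw [← sub_apply, ← map_sub, hπ, ← sub_mul, ← mul_assoc,
        hf _ (mul_mem (star_mem (c.mem_of_N0 hn₁)) (sub_mem hxM (c.mem_of_N0 (hs m).1))),
        star_mul, star_star, mul_assoc]
    rwa [Submodule.eq_starProjection_of_mem_orthogonal h2 h3]
  have hex := fun m : ℕ => kaplansky π c.N0 ξ K hK₁ hK₂ hx hx1 s hs hlim
    (Nat.one_div_pos_of_nat (α := ℝ) (n := m))
  choose y hy1 hy2 hy3 hy4 using hex
  refine ⟨y, fun m => ⟨hy1 m, hy2 m, hy3 m⟩, ?_, fun n hnN => ?_⟩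
  · refine dec_cauchy (C := 1) one_pos (fun m l => c.n2_nonneg _) one_ne_zero fun m l => ?_
    rw [pow_one, one_mul, ← hn]
    refine (norm_sub_le_norm_sub_add_norm_sub _ (K.starProjection (π x ξ)) _).trans ?_
    rw [norm_sub_rev (K.starProjection (π x ξ))]
    exact add_le_add (hy4 m).le (hy4 l).le
  · have h1 : Tendsto (fun m => π (y m) ξ) atTop (𝓝 (K.starProjection (π x ξ))) :=
      tendsto_iff_norm_sub_tendsto_zero.2
        (squeeze_zero (fun m => norm_nonneg _) (fun m => (hy4 m).le) dec_inv_tendsto)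
    have h4 : Tendsto (fun m => ⟪π n ξ, π x ξ - π (y m) ξ⟫_ℂ) atTop
        (𝓝 ⟪π n ξ, π x ξ - K.starProjection (π x ξ)⟫_ℂ) :=
      tendsto_const_nhds.inner (tendsto_const_nhds.sub h1)
    rw [Submodule.inner_right_of_mem_orthogonal (hK₁ n hnN)
      (K.sub_starProjection_mem_orthogonal _)] at h4
    refine h4.congr fun m => ?_
    rw [← sub_apply, ← map_sub, hπ]

/-- Bounded self-adjoint minimising sequences. -/
theorem exists_bdd_seq {x : H →L[ℂ] H} (hxM : x ∈ M) (hx : IsSelfAdjoint x) (hx1 : ‖x‖ ≤ 1) :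
    ∃ y : ℕ → H →L[ℂ] H, (∀ m, y m ∈ c.N0 ∧ IsSelfAdjoint (y m) ∧ ‖y m‖ ≤ 2) ∧
      (∀ ε : ℝ, 0 < ε → ∃ m₀, ∀ m ≥ m₀, ∀ l ≥ m₀, c.n2 (y m - y l) < ε) ∧
      ∀ n ∈ c.N0, Tendsto (fun m => c.φ (star n * (x - y m))) atTop (𝓝 0) := by
  let f : (H →L[ℂ] H) →ₚ[ℂ] ℂ := PositiveLinearMap.mk₀ c.φ fun _ h => c.φ_nonneg h
  have h1 : ∀ T, f.gnsStarAlgHom T ((f.toPreGNS 1 : f.PreGNS) : f.GNS)
      = ((f.toPreGNS T : f.PreGNS) : f.GNS) := fun T => by
    have h2 := f.gnsNonUnitalStarAlgHom_apply_coe (a := T) (b := f.toPreGNS 1)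
    refine h2.trans ?_
    simp
  refine c.dec_abs f.gnsStarAlgHom ((f.toPreGNS 1 : f.PreGNS) : f.GNS) (fun S T => ?_) hxM hx hx1
  rw [h1, h1, UniformSpace.Completion.inner_coe]
  rfl

/-- Decomposition into a regular and a singular part. -/
theorem exists_decomp {x : H →L[ℂ] H} (hxM : x ∈ M) (hx : IsSelfAdjoint x) (hx1 : ‖x‖ ≤ 1) :
    ∃ x' ∈ M, IsSelfAdjoint x' ∧ ‖x'‖ ≤ 3 ∧ (∀ v, c.IsGb v → c.E (v * x') = 0) ∧
      ∀ δ : ℝ, 0 < δ → ∃ y ∈ c.N0, IsSelfAdjoint y ∧ ‖y‖ ≤ 2 ∧ c.n2 (x - x' - y) < δ := by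
  obtain ⟨y, hy, hc, ho⟩ := c.exists_bdd_seq hxM hx hx1
  have hU : (hyperfilter ℕ : Filter ℕ) ≤ atTop := Nat.hyperfilter_le_atTop
  obtain ⟨z, hz⟩ := exists_wlim (hyperfilter ℕ) y 2 (Eventually.of_forall fun m => (hy m).2.2)
  have hyM : ∀ m, y m ∈ M := fun m => c.mem_of_N0 (hy m).1
  have hzM : z ∈ M := hz.mem (Eventually.of_forall hyM)
  have hz2 : ‖z‖ ≤ 2 := hz.norm_le zero_le_two (Eventually.of_forall fun m => (hy m).2.2)
  have hzs : IsSelfAdjoint z :=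
    (hz.star.congr' (Eventually.of_forall fun m => (hy m).2.1.star_eq)).unique hz
  have ht : ∀ a ∈ M, Tendsto (fun m => c.φ (a * y m)) (hyperfilter ℕ) (𝓝 (c.φ (a * z))) := by
    intro a ha
    simpa only [mul_one] using c.φ_tendsto hzM hz2
      (Eventually.of_forall fun m => ⟨hyM m, (hy m).2.2⟩) hz ha (one_mem M)
  refine ⟨x - z, sub_mem hxM hzM, hx.sub hzs, (norm_sub_le _ _).trans (by linarith),
    fun v hv => ?_, fun δ hδ => ?_⟩
  · have hM : v * (x - z) ∈ M := mul_mem hv.1.1 (sub_mem hxM hzM)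
    refine c.eq_of_φ (c.E_mem hM) (zero_mem A) fun d hd => ?_
    rw [zero_mul, map_zero, ← c.E_right hd, c.φ_E (mul_mem hM (c.hA.1 d hd)), ← c.φ_comm hd,
      ← mul_assoc]
    have h1 := (ho _ (star_mem (mul_mem (c.mem_N0_of_mem hd) hv.mem_N0))).mono_left hU
    have h2 := (ht _ (mul_mem (c.hA.1 d hd) hv.1.1)).const_sub (c.φ (d * v * x))
    rw [mul_sub, map_sub]
    refine tendsto_nhds_unique h2 (h1.congr fun m => ?_)
    rw [star_star, mul_sub, map_sub]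
  · obtain ⟨m₀, hm₀⟩ := hc (δ / 2) (half_pos hδ)
    refine ⟨y m₀, (hy m₀).1, (hy m₀).2.1, (hy m₀).2.2, ?_⟩
    rw [sub_sub_cancel]
    have h1 := ((ht _ (star_mem (sub_mem hzM (hyM m₀)))).sub_const
      (c.φ (star (z - y m₀) * y m₀))).norm
    have h2 : ‖c.φ (star (z - y m₀) * z) - c.φ (star (z - y m₀) * y m₀)‖
        ≤ c.n2 (z - y m₀) * (δ / 2) := by
      refine le_of_tendsto h1 (hU ?_)
      filter_upwards [eventually_ge_atTop m₀] with l hl
      rw [← map_sub, ← mul_sub]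
      exact (c.norm_φ_star_mul_le _ _).trans
        (mul_le_mul_of_nonneg_left (hm₀ l hl m₀ le_rfl).le (c.n2_nonneg _))
    rw [← map_sub, ← mul_sub] at h2
    have h3 := (c.n2_sq (z - y m₀)).le.trans ((Complex.re_le_norm _).trans h2)
    by_contra h4
    nlinarith [not_lt.1 h4]

end Ctx

end Vale.Agent.P078
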