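import Vale.Agent.P078b.Gpd

open scoped InnerProductSpace ComplexConjugate ComplexOrder
open Filter Topology

set_option linter.unusedSectionVars false
set_option linter.unusedVariables false

namespace Vale.Agent.P078

variable {H : Type*} [NormedAddCommGroup H] [InnerProductSpace ℂ H] [CompleteSpace H]
variable {M : VonNeumannAlgebra H} {A : StarSubalgebra ℂ (H →L[ℂ] H)}

theorem rn_ratio {x y : ℂ} {K : ℝ} (hK : 0 ≤ K) (h0 : 0 ≤ x) (h1 : x ≤ (K : ℂ) * y)
    (h2 : 0 ≤ y) : 0 ≤ x.re / y.re ∧ x.re / y.re ≤ K ∧ ((x.re / y.re : ℝ) : ℂ) * y = x := by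
  obtain ⟨hx, hxi⟩ := Complex.nonneg_iff.mp h0
  obtain ⟨hy, hyi⟩ := Complex.nonneg_iff.mp h2
  have h3 : x.re ≤ K * y.re := by
    have := (Complex.le_def.mp h1).1
    simpa using this
  refine ⟨div_nonneg hx hy, div_le_of_le_mul₀ hy hK h3, ?_⟩
  apply Complex.ext
  · rw [Complex.re_ofReal_mul]
    rcases hy.eq_or_lt with h | h
    · rw [← h] at h3 ⊢
      simp only [mul_zero] at h3 ⊢
      exact le_antisymm hx h3
    · field_simp
  · rw [Complex.im_ofReal_mul, ← hyi, ← hxi, mul_zero]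

theorem rn_smul_nonneg {r : ℝ} (hr : 0 ≤ r) {a : H →L[ℂ] H} (ha : 0 ≤ a) : 0 ≤ (r : ℂ) • a :=
  smul_nonneg (by exact_mod_cast hr) ha

/-- Bounded Radon-Nikodym theorem on a MASA. -/
theorem IsMASA.exists_rn (hA : IsMASA M A) {ψ χ : (H →L[ℂ] H) →ₗ[ℂ] ℂ} {C K : ℝ} (hK : 0 ≤ K)
    (hψn : ∀ b ∈ A, NormalFn M fun T => ψ (T * b))
    (hψ : ∀ a ∈ A, ‖ψ a‖ ≤ C * ‖a‖) (hχ : ∀ a ∈ A, ‖χ a‖ ≤ C * ‖a‖)
    (h : ∀ e, IsP A e → 0 ≤ χ e ∧ χ e ≤ (K : ℂ) * ψ e ∧ 0 ≤ ψ e) :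
    ∃ d ∈ A, 0 ≤ d ∧ ‖d‖ ≤ K ∧ ∀ b ∈ A, χ b = ψ (d * b) := by
  set r : (H →L[ℂ] H) → ℝ := fun e => (χ e).re / (ψ e).re with hr
  have hr' : ∀ e, IsP A e → 0 ≤ r e ∧ r e ≤ K ∧ ((r e : ℝ) : ℂ) * ψ e = χ e := fun e he =>
    rn_ratio hK (h e he).1 (h e he).2.1 (h e he).2.2
  set y : Finset (ProjIn A) → H →L[ℂ] H := fun T =>
    ∑ i, ((r ((netPart hA T).q i) : ℝ) : ℂ) • (netPart hA T).q i with hy
  have hyA : ∀ T, y T ∈ A := fun T =>
    sum_mem fun i _ => A.smul_mem ((netPart hA T).hq.mem i) _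
  have hy0 : ∀ T, 0 ≤ y T := fun T => Finset.sum_nonneg fun i _ =>
    rn_smul_nonneg (hr' _ ((netPart hA T).hq.isP i)).1 ((netPart hA T).hq.proj i).nonneg
  have hyK : ∀ T, ‖y T‖ ≤ K := by
    intro T
    have hp := (netPart hA T).hq
    have e1 : ∀ i, (netPart hA T).q i * (((r ((netPart hA T).q i) : ℝ) : ℂ) • (1 : H →L[ℂ] H)) *
        (netPart hA T).q i = ((r ((netPart hA T).q i) : ℝ) : ℂ) • (netPart hA T).q i := by
      intro i
      rw [mul_smul_comm, mul_one, smul_mul_assoc, hp.mul_self]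
    have := norm_pinch_le_of_block hp
      (T := fun i => ((r ((netPart hA T).q i) : ℝ) : ℂ) • (1 : H →L[ℂ] H)) hK (fun i => by
        rw [e1, norm_smul, Complex.norm_real, Real.norm_of_nonneg (hr' _ (hp.isP i)).1]
        calc r _ * ‖(netPart hA T).q i‖ ≤ K * 1 :=
              mul_le_mul (hr' _ (hp.isP i)).2.1 (hp.proj i).norm_le (norm_nonneg _) hK
          _ = K := mul_one K)
    simpa only [e1] using this
  obtain ⟨d, hd⟩ := exists_wlim (netU A) y K (Eventually.of_forall hyK)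
  have hdA : d ∈ A := hd.memA hA (Eventually.of_forall hyA)
  have hdK : ‖d‖ ≤ K := hd.norm_le hK (Eventually.of_forall hyK)
  refine ⟨d, hdA, hd.nonneg (Eventually.of_forall hy0), hdK, ?_⟩
  have hC : C ≤ |C| := le_abs_self C
  have hC0 : 0 ≤ |C| := abs_nonneg C
  refine hA.ext_of_proj (ψ := χ) (ψ' := ψ ∘ₗ LinearMap.mulLeft ℂ d) (C := |C| * (K + 1))
    (fun a ha => ?_) (fun a ha => ?_) (fun e he => ?_)
  · have := norm_nonneg a
    calc ‖χ a‖ ≤ C * ‖a‖ := hχ a ha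
      _ ≤ |C| * ‖a‖ := by gcongr
      _ ≤ _ := by nlinarith [_root_.mul_nonneg (_root_.mul_nonneg hC0 hK) this]
  · have := norm_nonneg a
    calc ‖ψ (d * a)‖ ≤ C * ‖d * a‖ := hψ _ (mul_mem hdA ha)
      _ ≤ |C| * ‖d * a‖ := by gcongr
      _ ≤ |C| * (K * ‖a‖) := by
          gcongr
          exact (norm_mul_le _ _).trans (by gcongr)
      _ ≤ _ := by nlinarith [_root_.mul_nonneg hC0 this]
  · have h1 := (hψn e he.1).tendsto (hA.1 d hdA) hdK
      (Eventually.of_forall fun T => ⟨hA.1 _ (hyA T), hyK T⟩) hd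
    have h2 : ∀ᶠ T in (netU A : Filter _), ψ (y T * e) = χ e := by
      filter_upwards [eventually_adapted hA he.1 he.2] with T hT
      have hp := (netPart hA T).hq
      have e2 : e = ∑ i, (netPart hA T).q i * e := by rw [← Finset.sum_mul, hp.2.2, one_mul]
      conv_rhs => rw [e2]
      rw [hy]
      simp only [Finset.sum_mul, map_sum, smul_mul_assoc, map_smul, smul_eq_mul]
      refine Finset.sum_congr rfl fun i _ => ?_
      rw [hA.2.1 _ (hp.mem i) _ he.1]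
      rcases hT i with h3 | h3
      · rw [h3]
        exact (hr' _ (hp.isP i)).2.2
      · rw [h3, map_zero, map_zero, mul_zero]
    exact tendsto_nhds_unique (tendsto_const_nhds.congr' (h2.mono fun T hT => hT.symm)) h1

/-- Positive contractions of `A`. -/
def RnU (A : StarSubalgebra ℂ (H →L[ℂ] H)) (a : H →L[ℂ] H) : Prop := a ∈ A ∧ 0 ≤ a ∧ a ≤ 1

theorem rn_U_proj {e : H →L[ℂ] H} (he : IsP A e) : RnU A e :=
  ⟨he.1, he.2.nonneg, sub_nonneg.mp he.2.one_sub.nonneg⟩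

theorem rn_U_one_sub {a : H →L[ℂ] H} (ha : RnU A a) : RnU A (1 - a) :=
  ⟨sub_mem (one_mem _) ha.1, sub_nonneg.mpr ha.2.2, sub_le_self _ ha.2.1⟩

theorem rn_U_mul_le (hA : IsMASA M A) {a b : H →L[ℂ] H} (ha : RnU A a) (hb : b ∈ A)
    (hb0 : 0 ≤ b) : a * b ≤ b := by
  have := hA.mul_nonneg (rn_U_one_sub ha).1 hb (rn_U_one_sub ha).2.1 hb0
  rwa [sub_mul, one_mul, sub_nonneg] at this

theorem rn_U_mul (hA : IsMASA M A) {a b : H →L[ℂ] H} (ha : RnU A a) (hb : RnU A b) :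
    RnU A (a * b) :=
  ⟨mul_mem ha.1 hb.1, hA.mul_nonneg ha.1 hb.1 ha.2.1 hb.2.1,
    (rn_U_mul_le hA ha hb.1 hb.2.1).trans hb.2.2⟩

theorem rn_conj_isP (hA : IsMASA M A) {v e : H →L[ℂ] H} (hv : IsG M A v) (he : IsP A e) :
    IsP A (v * e * star v) := by
  have := hv.star.conj_isP hA he
  rwa [star_star] at this

theorem rn_norm_conj_le {v a : H →L[ℂ] H} (hv : IsG M A v) : ‖v * a * star v‖ ≤ ‖a‖ := by
  have h1 := hv.norm_le
  calc ‖v * a * star v‖ ≤ ‖v‖ * ‖a‖ * ‖star v‖ :=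
        (norm_mul_le _ _).trans (by gcongr; exact norm_mul_le _ _)
    _ ≤ 1 * ‖a‖ * 1 := by
        rw [norm_star]
        gcongr
    _ = _ := by ring

theorem rn_src_mul {v : H →L[ℂ] H} (hv : IsG M A v) : v * (star v * v) = v := by
  rw [← mul_assoc, hv.2.1]

theorem rn_conj_conj (hA : IsMASA M A) {v a : H →L[ℂ] H} (hv : IsG M A v) (ha : a ∈ A) :
    star v * (v * a * star v) * v = star v * v * a := by
  have h1 := hA.2.1 _ hv.src.1 a ha
  calc star v * (v * a * star v) * v = star v * v * (a * (star v * v)) := by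
        simp only [mul_assoc]
    _ = star v * v * (star v * v) * a := by rw [← h1]; simp only [mul_assoc]
    _ = _ := by rw [hv.src.2.isIdempotentElem.eq]

theorem rn_normal_add {ψ ψ' : (H →L[ℂ] H) → ℂ} (h : NormalFn M ψ) (h' : NormalFn M ψ') :
    NormalFn M fun T => ψ T + ψ' T := fun l y0 C h0 h1 h2 h3 =>
  (h l y0 C h0 h1 h2 h3).add (h' l y0 C h0 h1 h2 h3)

/-- The functional `b ↦ φ (x b y)`. -/
noncomputable def rnFn (c : Ctx M A) (x y : H →L[ℂ] H) : (H →L[ℂ] H) →ₗ[ℂ] ℂ :=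
  c.φ ∘ₗ LinearMap.mulRight ℂ y ∘ₗ LinearMap.mulLeft ℂ x

theorem rn_fn_apply (c : Ctx M A) (x y b : H →L[ℂ] H) : rnFn c x y b = c.φ (x * b * y) := rfl

theorem rn_le_of_re {x y : ℂ} {K : ℝ} (hx : 0 ≤ x) (hy : 0 ≤ y) (h : x.re ≤ K * y.re) :
    x ≤ (K : ℂ) * y := by
  refine Complex.le_def.mpr ⟨by simpa using h, ?_⟩
  rw [Complex.im_ofReal_mul, ← (Complex.nonneg_iff.mp hx).2, ← (Complex.nonneg_iff.mp hy).2,
    mul_zero]

theorem rn_exists {c : Ctx M A} {v : H →L[ℂ] H} (hv : c.IsGb v) :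
    ∃ d ∈ A, ∀ b ∈ A, c.φ (v * b * star v) = c.φ (d * b) := by
  obtain ⟨hG, K, hK, h⟩ := hv
  obtain ⟨d, hdA, -, -, hd⟩ := c.hA.exists_rn (ψ := c.φ) (χ := rnFn c v (star v)) (C := 1)
    hK.le (fun b hb => by simpa only [one_mul] using c.φ_normal (one_mem M) (c.hA.1 b hb))
    (fun a _ => by simpa only [one_mul] using c.norm_φ_le a)
    (fun a _ => by
      rw [rn_fn_apply, one_mul]
      exact (c.norm_φ_le _).trans (rn_norm_conj_le hG))
    (fun e he => by
      have h1 : 0 ≤ c.φ (v * e * star v) := c.φ_nonneg (rn_conj_isP c.hA hG he).2.nonneg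
      have h2 : 0 ≤ c.φ e := c.φ_nonneg he.2.nonneg
      exact ⟨h1, rn_le_of_re h1 h2 (h e he).1, h2⟩)
  exact ⟨d, hdA, hd⟩

theorem rn_φ_mul_E (c : Ctx M A) {a T : H →L[ℂ] H} (ha : a ∈ A) (hT : T ∈ M) :
    c.φ (a * c.E T) = c.φ (a * T) := by
  rw [← c.E_left ha, c.φ_E (mul_mem (c.hA.1 a ha) hT)]

theorem rn_φ_conj_E (c : Ctx M A) {v T : H →L[ℂ] H} (hv : IsG M A v) (hT : T ∈ M) :
    c.φ (star v * c.E T * v) = c.φ (star v * T * v) := by
  rw [← c.E_conj hv hT, c.φ_E (mul_mem (mul_mem (star_mem hv.1) hT) hv.1)]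

theorem rn_exists_cut (hA : IsMASA M A) {h : H →L[ℂ] H} (hh : h ∈ A) (h0 : 0 ≤ h) (hne : h ≠ 0) :
    ∃ s : ℝ, 0 < s ∧ ∃ e, IsP A e ∧ (s : ℂ) • e ≤ h * e ∧ h * e ≠ 0 := by
  have hpos : 0 < ‖h‖ := norm_pos_iff.mpr hne
  obtain ⟨e, he, h1, h2⟩ := hA.exists_cut hh h0.isSelfAdjoint (‖h‖ / 2)
  refine ⟨‖h‖ / 2, by positivity, e, he, h1, fun h3 => ?_⟩
  rw [mul_sub, mul_one, h3, sub_zero] at h2
  have h4 : ‖h‖ ≤ ‖((‖h‖ / 2 : ℝ) : ℂ) • (1 - e)‖ := CStarAlgebra.norm_le_norm_of_nonneg_of_le h0 h2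
  rw [norm_smul, Complex.norm_real, Real.norm_of_nonneg (by positivity)] at h4
  have h5 := he.2.one_sub.norm_le
  nlinarith

namespace Ctx
variable {c : Ctx M A}

theorem IsGb.star {v : H →L[ℂ] H} (hv : c.IsGb v) : c.IsGb (star v) := by
  obtain ⟨hG, K, hK, h⟩ := hv
  refine ⟨hG.star, K, hK, fun e he => ?_⟩
  rw [star_star]
  exact ⟨(h e he).2, (h e he).1⟩

theorem IsGb.mul {v w : H →L[ℂ] H} (hv : c.IsGb v) (hw : c.IsGb w) : c.IsGb (v * w) := by
  obtain ⟨hG, K, hK, h⟩ := hv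
  obtain ⟨hG', K', hK', h'⟩ := hw
  refine ⟨hG.mul c.hA hG', K * K', mul_pos hK hK', fun e he => ⟨?_, ?_⟩⟩
  · have h1 := (h _ (rn_conj_isP c.hA hG' he)).1
    have h2 := (h' e he).1
    have e1 : v * w * e * Star.star (v * w) = v * (w * e * Star.star w) * Star.star v := by
      simp only [star_mul, mul_assoc]
    rw [e1]
    calc _ ≤ _ := h1
      _ ≤ K * (K' * (c.φ e).re) := by gcongr
      _ = _ := by ring
  · have h1 := (h' _ (hG.conj_isP c.hA he)).2
    have h2 := (h e he).2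
    have e1 : Star.star (v * w) * e * (v * w) = Star.star w * (Star.star v * e * v) * w := by
      simp only [star_mul, mul_assoc]
    rw [e1]
    calc _ ≤ _ := h1
      _ ≤ K' * (K * (c.φ e).re) := by gcongr
      _ = _ := by ring

theorem isGb_proj {e : H →L[ℂ] H} (he : IsP A e) : c.IsGb e := by
  refine ⟨he.isG c.hA, 1, one_pos, fun f hf => ?_⟩
  rw [he.2.isSelfAdjoint.star_eq, one_mul, and_self]
  refine c.φ_re_mono ?_
  rw [mul_assoc, c.hA.2.1 f hf.1 e he.1, ← mul_assoc, he.2.isIdempotentElem.eq]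
  exact rn_U_mul_le c.hA (rn_U_proj he) hf.1 hf.2.nonneg

theorem IsGb.rn_mem {v : H →L[ℂ] H} (hv : c.IsGb v) : c.rn v ∈ A := by
  rw [Ctx.rn, dif_pos (rn_exists hv)]
  exact (rn_exists hv).choose_spec.1

theorem rn_spec_aux {v : H →L[ℂ] H} (hv : c.IsGb v) {b : H →L[ℂ] H} (hb : b ∈ A) :
    c.φ (v * b * star v) = c.φ (c.rn v * b) := by
  rw [Ctx.rn, dif_pos (rn_exists hv)]
  exact (rn_exists hv).choose_spec.2 b hb

theorem IsGb.rn_nonneg {v : H →L[ℂ] H} (hv : c.IsGb v) : 0 ≤ c.rn v := by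
  refine c.nonneg_of_φ hv.rn_mem fun e he => ?_
  rw [← rn_spec_aux hv he.1]
  exact c.φ_nonneg (rn_conj_isP c.hA hv.1 he).2.nonneg

theorem IsGb.rn_spec {v : H →L[ℂ] H} (hv : c.IsGb v) {b : H →L[ℂ] H} (hb : b ∈ A) :
    c.φ (v * b * Star.star v) = c.φ (c.rn v * b) :=
  rn_spec_aux hv hb

theorem IsGb.rn_lower {v : H →L[ℂ] H} (hv : c.IsGb v) :
    ∃ s : ℝ, 0 < s ∧ (s : ℂ) • (Star.star v * v) ≤ c.rn v := by
  obtain ⟨K, hK, h⟩ := hv.2
  refine ⟨K⁻¹, inv_pos.mpr hK, sub_nonneg.mp ?_⟩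
  refine c.nonneg_of_φ (sub_mem hv.rn_mem (A.smul_mem hv.1.src.1 _)) fun e he => ?_
  have hq := rn_conj_isP c.hA hv.1 he
  have h1 := (h _ hq).2
  rw [rn_conj_conj c.hA hv.1 he.1] at h1
  have h2 : 0 ≤ c.φ (Star.star v * v * e) := c.φ_nonneg (hv.1.src.mul c.hA he).2.nonneg
  have h3 : 0 ≤ c.φ (v * e * Star.star v) := c.φ_nonneg hq.2.nonneg
  have h4 := rn_le_of_re h2 h3 h1
  rw [sub_mul, map_sub, ← hv.rn_spec he.1, smul_mul_assoc, map_smul, smul_eq_mul, sub_nonneg]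
  have hK' : (0 : ℂ) ≤ ((K⁻¹ : ℝ) : ℂ) := by exact_mod_cast (inv_pos.mpr hK).le
  calc _ ≤ ((K⁻¹ : ℝ) : ℂ) * ((K : ℂ) * c.φ (v * e * Star.star v)) :=
        mul_le_mul_of_nonneg_left h4 hK'
    _ = _ := by
        rw [← mul_assoc, ← Complex.ofReal_mul, inv_mul_cancel₀ hK.ne', Complex.ofReal_one, one_mul]

theorem rn_one (c : Ctx M A) : c.rn 1 = 1 := by
  have h : c.IsGb 1 := isGb_proj IsP.one
  refine c.eq_of_φ h.rn_mem (one_mem _) fun d hd => ?_
  rw [← h.rn_spec hd, star_one, mul_one]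

theorem IsGb.rn_mul {v w : H →L[ℂ] H} (hv : c.IsGb v) (hw : c.IsGb w) :
    c.rn (v * w) = c.rn w * (Star.star w * c.rn v * w) := by
  have h1 : Star.star w * c.rn v * w ∈ A := hw.1.2.2.2 _ hv.rn_mem
  refine c.eq_of_φ (hv.mul hw).rn_mem (mul_mem hw.rn_mem h1) fun d hd => ?_
  rw [← (hv.mul hw).rn_spec hd, mul_assoc (c.rn w), ← hw.rn_spec (mul_mem h1 hd)]
  have e1 : v * w * d * Star.star (v * w) = v * (w * d * Star.star w) * Star.star v := by
    simp only [star_mul, mul_assoc]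
  rw [e1, hv.rn_spec (hw.1.2.2.1 d hd)]
  congr 1
  have e2 := hw.1.eq_mul c.hA hv.rn_mem
  calc c.rn v * (w * d * Star.star w) = (c.rn v * w) * d * Star.star w := by
        simp only [mul_assoc]
    _ = _ := by
        conv_lhs => rw [e2]
        simp only [mul_assoc]

/-- Local uniqueness of the derivative. -/
theorem IsGb.rn_local {v w a : H →L[ℂ] H} (hv : c.IsGb v) (hw : c.IsGb w) (ha : a ∈ A)
    {f : H →L[ℂ] H} (hf : IsP A f) (h : v * f = w * a) (hu : Star.star a * a = f) :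
    c.rn v * f = c.rn w * f := by
  refine c.eq_of_φ (mul_mem hv.rn_mem hf.1) (mul_mem hw.rn_mem hf.1) fun d hd => ?_
  rw [mul_assoc, mul_assoc, ← hv.rn_spec (mul_mem hf.1 hd), ← hw.rn_spec (mul_mem hf.1 hd)]
  congr 1
  have e1 : f * d = f * d * Star.star f := by
    rw [hf.2.isSelfAdjoint.star_eq, mul_assoc, c.hA.2.1 d hd f hf.1, ← mul_assoc,
      hf.2.isIdempotentElem.eq]
  have e2 : f * d = a * d * Star.star a := by
    rw [c.hA.2.1 _ (mul_mem ha hd) _ (star_mem ha), ← mul_assoc, hu]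
  calc v * (f * d) * Star.star v = (v * f) * d * Star.star (v * f) := by
        conv_lhs => rw [e1]
        simp only [star_mul, mul_assoc]
    _ = w * (a * d * Star.star a) * Star.star w := by
        rw [h]
        simp only [star_mul, mul_assoc]
    _ = _ := by rw [← e2]

theorem IsGb.φ_flip {v T : H →L[ℂ] H} (hv : c.IsGb v) (hT : T ∈ M) :
    c.φ (T * v) = c.φ (c.rn (Star.star v) * v * T) := by
  have hvT : v * T ∈ M := mul_mem hv.1.1 hT
  rw [mul_assoc, ← rn_φ_mul_E c hv.star.rn_mem hvT, ← hv.star.rn_spec (c.E_mem hvT), star_star,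
    rn_φ_conj_E c hv.1 hvT]
  have e1 : Star.star v * (v * T) * v = (Star.star v * v) * (T * v) := by simp only [mul_assoc]
  rw [e1, c.φ_comm hv.1.src.1, mul_assoc, rn_src_mul hv.1]

/-- Every nonzero groupoid element has a nonzero bounded piece. -/
theorem exists_isGb (c : Ctx M A) {v : H →L[ℂ] H} (hv : IsG M A v) (h0 : v ≠ 0) :
    ∃ g, IsP A g ∧ v * g ≠ 0 ∧ c.IsGb (v * g) := by
  have hA := c.hA
  set d := star v * v with hd
  have hdP : IsP A d := hv.src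
  have hdU := rn_U_proj hdP
  have hψ1 : ∀ b ∈ A, 0 ≤ b → 0 ≤ c.φ (d * b) := fun b hb hb0 =>
    c.φ_nonneg (hA.mul_nonneg hdP.1 hb hdP.2.nonneg hb0)
  have hψ2 : ∀ b, 0 ≤ b → 0 ≤ c.φ (v * b * star v) := fun b hb0 =>
    c.φ_nonneg (star_right_conjugate_nonneg hb0 v)
  obtain ⟨r, hrA, hr0, hr1, hr⟩ := hA.exists_rn (ψ := rnFn c d 1 + rnFn c v (star v))
    (χ := rnFn c v (star v)) (C := 2) (K := 1) zero_le_one
    (fun b hb => by
      have := rn_normal_add (c.φ_normal (hA.1 d hdP.1) (hA.1 b hb))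
        (c.φ_normal hv.1 (mul_mem (hA.1 b hb) (star_mem hv.1)))
      simpa only [LinearMap.add_apply, rn_fn_apply, mul_one, mul_assoc] using this)
    (fun a _ => by
      rw [LinearMap.add_apply, rn_fn_apply, rn_fn_apply, mul_one]
      have h1 := (c.norm_φ_le _).trans (rn_norm_conj_le (a := a) hv)
      have h2 : ‖c.φ (d * a)‖ ≤ 1 * ‖a‖ :=
        (c.norm_φ_le _).trans ((norm_mul_le _ _).trans (by gcongr; exact hdP.2.norm_le))
      have := norm_add_le (c.φ (d * a)) (c.φ (v * a * star v))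
      linarith)
    (fun a _ => by
      rw [rn_fn_apply]
      have h1 := (c.norm_φ_le _).trans (rn_norm_conj_le (a := a) hv)
      have := norm_nonneg a
      linarith)
    (fun e he => by
      have h1 := hψ1 e he.1 he.2.nonneg
      have h2 := hψ2 e he.2.nonneg
      simp only [LinearMap.add_apply, rn_fn_apply, mul_one, Complex.ofReal_one, one_mul]
      exact ⟨h2, le_add_of_nonneg_left h1, add_nonneg h1 h2⟩)
  simp only [LinearMap.add_apply, rn_fn_apply, mul_one] at hr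
  have hrU : RnU A r := ⟨hrA, hr0, (CStarAlgebra.norm_le_one_iff_of_nonneg r hr0).mp hr1⟩
  have hr'U := rn_U_one_sub hrU
  -- the complementary identity
  have hr' : ∀ b ∈ A, c.φ (d * b) =
      c.φ (d * ((1 - r) * b)) + c.φ (v * ((1 - r) * b) * star v) := by
    intro b hb
    have := hr b hb
    simp only [sub_mul, one_mul, mul_sub, map_sub]
    linear_combination -this
  set h := r * ((1 - r) * d) with hh
  have hxU := rn_U_mul hA hr'U hdU
  have hhU : RnU A h := rn_U_mul hA hrU hxU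
  have hne : h ≠ 0 := by
    intro hz
    have h1 := hr _ hxU.1
    rw [← hh, hz, mul_zero, mul_zero, zero_mul, map_zero, add_zero] at h1
    have h2 : v * ((1 - r) * d) * star v = 0 :=
      c.faithA_nonneg (hv.2.2.1 _ hxU.1) (star_right_conjugate_nonneg hxU.2.1 v)
        (by rw [h1, Complex.zero_re])
    have h3 := rn_conj_conj hA hv hxU.1
    rw [h2, mul_zero, zero_mul, ← hd, hA.2.1 _ hr'U.1 _ hdP.1, ← mul_assoc,
      hdP.2.isIdempotentElem.eq, ← hA.2.1 _ hr'U.1 _ hdP.1] at h3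
    have h4 := hr' d hdP.1
    rw [← h3, mul_zero, mul_zero, zero_mul, map_zero, add_zero, hdP.2.isIdempotentElem.eq] at h4
    have h5 : d = 0 := c.faithA_nonneg hdP.1 hdP.2.nonneg (by rw [h4, Complex.zero_re])
    apply h0
    rw [← rn_src_mul hv, ← hd, h5, mul_zero]
  obtain ⟨s, hs, g, hg, hsg, hg0⟩ := rn_exists_cut hA hhU.1 hhU.2.1 hne
  have hgU := rn_U_proj hg
  -- the key estimate
  have key : ∀ t, IsP A t → s * ((c.φ (d * (g * t))).re + (c.φ (v * (g * t) * star v)).re) ≤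
      (c.φ (d * (h * (g * t)))).re + (c.φ (v * (h * (g * t)) * star v)).re := by
    intro t ht
    have hm : h * g - (s : ℂ) • g ∈ A := sub_mem (mul_mem hhU.1 hg.1) (A.smul_mem hg.1 _)
    have h1 := hA.mul_nonneg hm ht.1 (sub_nonneg.mpr hsg) ht.2.nonneg
    have h2 := (Complex.nonneg_iff.mp (hψ1 _ (mul_mem hm ht.1) h1)).1
    have h3 := (Complex.nonneg_iff.mp (hψ2 _ h1)).1
    simp only [sub_mul, mul_sub, smul_mul_assoc, mul_smul_comm, map_sub, map_smul, smul_eq_mul,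
      Complex.sub_re, Complex.re_ofReal_mul, mul_assoc] at h2 h3 ⊢
    linarith
  have hgt : ∀ t, IsP A t → g * t * star g = g * t := by
    intro t ht
    rw [hg.2.isSelfAdjoint.star_eq, mul_assoc, hA.2.1 t ht.1 g hg.1, ← mul_assoc,
      hg.2.isIdempotentElem.eq]
  refine ⟨g, hg, fun hz => hg0 ?_, hv.mul hA (hg.isG hA), s⁻¹, inv_pos.mpr hs, fun p hp => ⟨?_, ?_⟩⟩
  · rw [hh, hd]
    simp only [mul_assoc, hz, mul_zero]
  · have e1 : v * g * p * star (v * g) = v * (g * p) * star v := by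
      rw [← hgt p hp]
      simp only [star_mul, mul_assoc]
    have hgp := hg.mul hA hp
    have k1 := key p hp
    have hb : r * (d * (g * p)) ∈ A := mul_mem hrA (mul_mem hdP.1 hgp.1)
    have k2 := congrArg Complex.re (hr' _ hb)
    have e2 : (1 - r) * (r * (d * (g * p))) = h * (g * p) := by
      rw [hh, ← mul_assoc (1 - r), hA.2.1 _ hr'U.1 _ hrA]
      simp only [mul_assoc]
    rw [e2, Complex.add_re] at k2
    have k3 : (c.φ (d * (r * (d * (g * p))))).re ≤ (c.φ p).re := by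
      refine c.φ_re_mono ?_
      have := rn_U_mul_le hA (rn_U_mul hA hdU (rn_U_mul hA hrU (rn_U_mul hA hdU hgU))) hp.1
        hp.2.nonneg
      simpa only [mul_assoc] using this
    have k4 := (Complex.nonneg_iff.mp (hψ1 _ hgp.1 hgp.2.nonneg)).1
    rw [e1, inv_mul_eq_div, le_div_iff₀ hs]
    nlinarith
  · have hq := hv.conj_isP hA hp
    set q := star v * p * v with hqd
    have hdq : d * (g * q) = g * q := by
      rw [← mul_assoc, hA.2.1 _ hdP.1 _ hg.1, mul_assoc, hd, hqd]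
      congr 1
      have := hv.star.2.1
      rw [star_star] at this
      simp only [← mul_assoc, this]
    have e1 : star (v * g) * p * (v * g) = d * (g * q) := by
      rw [hdq, ← hgt q hq, hqd, star_mul, hg.2.isSelfAdjoint.star_eq]
      simp only [mul_assoc]
    have hgq := hg.mul hA hq
    have k1 := key q hq
    have hb : (1 - r) * (d * (g * q)) ∈ A := mul_mem hr'U.1 (mul_mem hdP.1 hgq.1)
    have k2 := congrArg Complex.re (hr _ hb)
    have e2 : r * ((1 - r) * (d * (g * q))) = h * (g * q) := by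
      rw [hh]
      simp only [mul_assoc]
    rw [e2, Complex.add_re] at k2
    have k3 : (c.φ (v * ((1 - r) * (d * (g * q))) * star v)).re ≤ (c.φ p).re := by
      refine c.φ_re_mono ?_
      have h1 := rn_U_mul_le hA (rn_U_mul hA hr'U (rn_U_mul hA hdU hgU)) hq.1 hq.2.nonneg
      have h2 := star_right_conjugate_le_conjugate h1 v
      have h3 := rn_conj_conj hA hv.star hp.1
      rw [star_star] at h3
      have h4 := rn_U_mul_le hA (rn_U_proj hv.rng) hp.1 hp.2.nonneg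
      rw [← h3] at h4
      simpa only [mul_assoc] using h2.trans h4
    have k4 := (Complex.nonneg_iff.mp (hψ2 _ hgq.2.nonneg)).1
    rw [e1, inv_mul_eq_div, le_div_iff₀ hs]
    nlinarith

theorem orth_isG (c : Ctx M A) {x : H →L[ℂ] H} (hx : x ∈ M)
    (h : ∀ v, c.IsGb v → c.E (v * x) = 0) {v : H →L[ℂ] H} (hv : IsG M A v) :
    c.E (v * x) = 0 := by
  have hA := c.hA
  by_contra hne
  have hb : c.E (v * x) ∈ A := c.E_mem (mul_mem hv.1 hx)
  obtain ⟨f, hf, hfb, hsupp⟩ := hA.exists_supp hb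
  have hfv : f * v ≠ 0 := by
    intro hz
    apply hne
    rw [← hfb, ← c.E_left hf.1, ← mul_assoc, hz, zero_mul, map_zero]
  obtain ⟨g, hg, hg0, hgb⟩ := c.exists_isGb ((hf.isG hA).mul hA hv) hfv
  have hα : v * g * star v ∈ A := hv.2.2.1 g hg.1
  have e1 : f * v * g = f * (v * g * star v) * v := by
    rw [mul_assoc, hv.mul_eq hA hg.1]
    simp only [mul_assoc, rn_src_mul hv]
  have h1 := h _ hgb
  rw [e1, mul_assoc, c.E_left (mul_mem hf.1 hα), hA.2.1 f hf.1 _ hα, mul_assoc, hfb,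
    hA.2.1 _ hα _ hb] at h1
  apply hg0
  rw [e1, hsupp _ h1, zero_mul]

/-- The products generating the groupoid algebra additively. -/
def rnGen (c : Ctx M A) : Set (H →L[ℂ] H) := {y | ∃ a ∈ A, ∃ v, c.IsGb v ∧ y = a * v}

theorem rn_closure_mul (c : Ctx M A) {x y : H →L[ℂ] H} (hx : x ∈ AddSubmonoid.closure c.rnGen)
    (hy : y ∈ AddSubmonoid.closure c.rnGen) : x * y ∈ AddSubmonoid.closure c.rnGen := by
  induction hx, hy using AddSubmonoid.closure_induction₂ with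
  | mem x y hx hy =>
    obtain ⟨a, ha, v, hv, rfl⟩ := hx
    obtain ⟨a', ha', v', hv', rfl⟩ := hy
    refine AddSubmonoid.subset_closure ⟨a * (v * a' * star v), mul_mem ha (hv.1.2.2.1 a' ha'),
      v * v', hv.mul hv', ?_⟩
    have := hv.1.mul_eq c.hA ha'
    calc a * v * (a' * v') = a * (v * a') * v' := by simp only [mul_assoc]
      _ = a * (v * a' * star v * v) * v' := by rw [← this]
      _ = _ := by simp only [mul_assoc]
  | zero_left x hx => rw [zero_mul]; exact zero_mem _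
  | zero_right x hx => rw [mul_zero]; exact zero_mem _
  | add_left x y z _ _ _ h1 h2 => rw [add_mul]; exact add_mem h1 h2
  | add_right x y z _ _ _ h1 h2 => rw [mul_add]; exact add_mem h1 h2

theorem rn_closure_star (c : Ctx M A) {x : H →L[ℂ] H} (hx : x ∈ AddSubmonoid.closure c.rnGen) :
    star x ∈ AddSubmonoid.closure c.rnGen := by
  induction hx using AddSubmonoid.closure_induction with
  | mem x hx =>
    obtain ⟨a, ha, v, hv, rfl⟩ := hx
    refine AddSubmonoid.subset_closure ⟨star v * star a * star (star v),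
      hv.star.1.2.2.1 _ (star_mem ha), star v, hv.star, ?_⟩
    rw [star_mul, ← hv.star.1.mul_eq c.hA (star_mem ha)]
  | zero => rw [star_zero]; exact zero_mem _
  | add x y _ _ h1 h2 => rw [star_add]; exact add_mem h1 h2

theorem rn_closure (c : Ctx M A) {y : H →L[ℂ] H} (hy : y ∈ c.N0) :
    y ∈ AddSubmonoid.closure c.rnGen := by
  have h1 : c.IsGb 1 := isGb_proj IsP.one
  induction hy using StarAlgebra.adjoin_induction with
  | mem x hx =>
    rcases hx with hx | hx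
    · exact AddSubmonoid.subset_closure ⟨x, hx, 1, h1, (mul_one x).symm⟩
    · exact AddSubmonoid.subset_closure ⟨1, one_mem _, x, hx, (one_mul x).symm⟩
  | algebraMap r =>
    exact AddSubmonoid.subset_closure ⟨_, A.algebraMap_mem r, 1, h1, (mul_one _).symm⟩
  | add x y _ _ hx hy => exact add_mem hx hy
  | mul x y _ _ hx hy => exact c.rn_closure_mul hx hy
  | star x _ hx => exact c.rn_closure_star hx

theorem rn_mem_A (c : Ctx M A) {a : H →L[ℂ] H} (ha : a ∈ A) : a ∈ c.N0 :=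
  StarAlgebra.subset_adjoin ℂ _ (Or.inl ha)

theorem rn_mem_Gb {v : H →L[ℂ] H} (hv : c.IsGb v) : v ∈ c.N0 :=
  StarAlgebra.subset_adjoin ℂ _ (Or.inr hv)

theorem mem_N0_iff (c : Ctx M A) {y : H →L[ℂ] H} : y ∈ c.N0 ↔ ∃ (n : ℕ)
    (a v : Fin n → H →L[ℂ] H), (∀ i, a i ∈ A ∧ c.IsGb (v i)) ∧ y = ∑ i, a i * v i := by
  constructor
  · intro hy
    have h := c.rn_closure hy
    clear hy
    induction h using AddSubmonoid.closure_induction with
    | mem x hx =>
      obtain ⟨a, ha, v, hv, rfl⟩ := hx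
      exact ⟨1, fun _ => a, fun _ => v, fun _ => ⟨ha, hv⟩, by simp⟩
    | zero => exact ⟨0, fun _ => 0, fun _ => 0, fun i => i.elim0, by simp⟩
    | add x y _ _ h1 h2 =>
      obtain ⟨n, a, v, h1, rfl⟩ := h1
      obtain ⟨m, a', v', h2, rfl⟩ := h2
      refine ⟨n + m, Fin.append a a', Fin.append v v', fun i => ?_, ?_⟩
      · refine Fin.addCases (fun j => ?_) (fun j => ?_) i
        · simpa only [Fin.append_left] using h1 j
        · simpa only [Fin.append_right] using h2 j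
      · simp only [Fin.sum_univ_add, Fin.append_left, Fin.append_right]
  · rintro ⟨n, a, v, h, rfl⟩
    exact sum_mem fun i _ => mul_mem (c.rn_mem_A (h i).1) (rn_mem_Gb (h i).2)

theorem mem_N0_of_mem (c : Ctx M A) {a : H →L[ℂ] H} (ha : a ∈ A) : a ∈ c.N0 :=
  c.rn_mem_A ha

theorem IsGb.mem_N0 {v : H →L[ℂ] H} (hv : c.IsGb v) : v ∈ c.N0 :=
  rn_mem_Gb hv

theorem mem_of_N0 (c : Ctx M A) {y : H →L[ℂ] H} (hy : y ∈ c.N0) : y ∈ M := by
  have : c.N0 ≤ M.toStarSubalgebra := by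
    apply StarAlgebra.adjoin_le
    rintro a (ha | ha)
    · exact c.hA.1 a ha
    · exact ha.1.1
  exact this hy

theorem exists_flip (c : Ctx M A) {y : H →L[ℂ] H} (hy : y ∈ c.N0) :
    ∃ y' ∈ c.N0, ∀ T ∈ M, c.φ (T * y) = c.φ (y' * T) := by
  have h := c.rn_closure hy
  clear hy
  induction h using AddSubmonoid.closure_induction with
  | mem x hx =>
    obtain ⟨a, ha, v, hv, rfl⟩ := hx
    refine ⟨a * (c.rn (star v) * v),
      mul_mem (c.rn_mem_A ha) (mul_mem (c.rn_mem_A hv.star.rn_mem) hv.mem_N0), fun T hT => ?_⟩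
    rw [← mul_assoc, hv.φ_flip (mul_mem hT (c.hA.1 a ha)), ← mul_assoc, ← c.φ_comm ha]
    simp only [mul_assoc]
  | zero => exact ⟨0, zero_mem _, fun T _ => by rw [mul_zero, zero_mul]⟩
  | add x y _ _ h1 h2 =>
    obtain ⟨x', hx', h1⟩ := h1
    obtain ⟨y', hy', h2⟩ := h2
    exact ⟨x' + y', add_mem hx' hy', fun T hT => by
      rw [mul_add, add_mul, map_add, map_add, h1 T hT, h2 T hT]⟩

theorem rn_n2_mul {v S : H →L[ℂ] H} (hv : c.IsGb v) (hS : S ∈ M) :
    c.n2 (S * v) ≤ √‖c.rn (star v)‖ * c.n2 S := by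
  have hA := c.hA
  have hSS : star S * S ∈ M := mul_mem (star_mem hS) hS
  have hb : c.E (star S * S) ∈ A := c.E_mem hSS
  have hb0 : 0 ≤ c.E (star S * S) := c.E_nonneg (star_mul_self_nonneg S)
  set r := c.rn (star v) with hr
  have hrA : r ∈ A := hv.star.rn_mem
  have h1 : c.φ (star (S * v) * (S * v)) = c.φ (r * c.E (star S * S)) := by
    rw [← hv.star.rn_spec hb, star_star, rn_φ_conj_E c hv.1 hSS]
    simp only [star_mul, mul_assoc]
  have h2 : r ≤ algebraMap ℝ _ ‖r‖ := IsSelfAdjoint.le_algebraMap_norm_self hv.star.rn_nonneg.isSelfAdjoint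
  rw [Algebra.algebraMap_eq_smul_one, ← Complex.coe_smul] at h2
  have h3 := hA.mul_nonneg (sub_mem (A.smul_mem (one_mem _) (‖r‖ : ℂ)) hrA) hb
    (sub_nonneg.mpr h2) hb0
  rw [sub_mul, smul_mul_assoc, one_mul, sub_nonneg] at h3
  have h4 := c.φ_re_mono h3
  rw [map_smul, smul_eq_mul, Complex.re_ofReal_mul, c.φ_E hSS, ← h1, ← c.n2_sq, ← c.n2_sq] at h4
  refine (abs_le_of_sq_le_sq' ?_ (mul_nonneg (Real.sqrt_nonneg _) (c.n2_nonneg S))).2
  rw [mul_pow, Real.sq_sqrt (norm_nonneg _)]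
  exact h4

theorem n2_mul_N0 (c : Ctx M A) {y : H →L[ℂ] H} (hy : y ∈ c.N0) :
    ∃ C : ℝ, 0 ≤ C ∧ ∀ T ∈ M, c.n2 (T * y) ≤ C * c.n2 T := by
  have h := c.rn_closure hy
  clear hy
  induction h using AddSubmonoid.closure_induction with
  | mem x hx =>
    obtain ⟨a, ha, v, hv, rfl⟩ := hx
    refine ⟨√‖c.rn (star v)‖ * ‖a‖, by positivity, fun T hT => ?_⟩
    rw [← mul_assoc, mul_assoc _ ‖a‖]
    refine (rn_n2_mul hv (mul_mem hT (c.hA.1 a ha))).trans ?_
    gcongr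
    exact c.n2_mul_right ha T
  | zero =>
    refine ⟨0, le_rfl, fun T _ => ?_⟩
    rw [mul_zero, zero_mul]
    simpa using c.n2_le_norm 0
  | add x y _ _ h1 h2 =>
    obtain ⟨C, hC, h1⟩ := h1
    obtain ⟨C', hC', h2⟩ := h2
    refine ⟨C + C', add_nonneg hC hC', fun T hT => ?_⟩
    rw [mul_add, add_mul]
    exact (c.n2_add_le _ _).trans (add_le_add (h1 T hT) (h2 T hT))

end Ctx

end Vale.Agent.P078
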