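import Vale.Agent.P078b.CtxA

open scoped InnerProductSpace ComplexConjugate ComplexOrder
open Filter Topology

set_option linter.unusedSectionVars false
set_option linter.unusedVariables false

namespace Vale.Agent.P078

variable {H : Type*} [NormedAddCommGroup H] [InnerProductSpace ℂ H] [CompleteSpace H]
variable {M : VonNeumannAlgebra H} {A : StarSubalgebra ℂ (H →L[ℂ] H)}

namespace Ctx
variable (c : Ctx M A)

theorem vone_proj {e : H →L[ℂ] H} (he : IsStarProjection e) : star e * e = e := by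
  rw [he.isSelfAdjoint.star_eq, he.isIdempotentElem.eq]

theorem φ_one_sub_cut {d q : H →L[ℂ] H} (hq : IsStarProjection q) {t : ℝ} (ht : 0 < t)
    (h : ∀ v, t * ‖(1 - q) v‖ ≤ ‖d v‖) : (c.φ (1 - q)).re ≤ c.n2 d ^ 2 / t ^ 2 := by
  have h1 : (t ^ 2 : ℝ) • (1 - q) ≤ star d * d := by
    rw [← sub_nonneg, ContinuousLinearMap.nonneg_iff_isPositive, ContinuousLinearMap.isPositive_def']
    refine ⟨(IsSelfAdjoint.star_mul_self d).sub
      ((IsSelfAdjoint.all _).smul hq.one_sub.isSelfAdjoint), fun v => ?_⟩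
    rw [ContinuousLinearMap.reApplyInnerSelf, inner_re_symm]
    show 0 ≤ (⟪v, _⟫_ℂ).re
    rw [sub_apply, inner_sub_right, Complex.sub_re, re_inner_star_mul_self, smul_apply,
      ← Complex.coe_smul, inner_smul_right, Complex.re_ofReal_mul, ← vone_proj hq.one_sub,
      re_inner_star_mul_self, ← mul_pow, sub_nonneg]
    exact pow_le_pow_left₀ (by positivity) (h v) 2
  have h2 := c.φ_re_mono h1
  rw [← Complex.coe_smul, map_smul, smul_eq_mul, Complex.re_ofReal_mul, ← c.n2_sq] at h2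
  rw [le_div_iff₀' (by positivity)]
  exact h2

theorem vone_n2_sum {ι : Type*} (s : Finset ι) (y : ι → H →L[ℂ] H) (h : ∀ i ∈ s, c.n2 (y i) = 0) :
    c.n2 (∑ i ∈ s, y i) = 0 := by
  refine Finset.sum_induction y (fun T => c.n2 T = 0) (fun a b ha hb => ?_) ?_ h
  · exact (c.n2_nonneg _).antisymm' ((c.n2_add_le a b).trans_eq (by rw [ha, hb, add_zero]))
  · simpa using c.n2_smul 0 0

theorem vone_left (a : H →L[ℂ] H) {T : H →L[ℂ] H} (h : c.n2 T = 0) : c.n2 (a * T) = 0 :=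
  (c.n2_nonneg _).antisymm' ((c.n2_mul_left a T).trans_eq (by rw [h, mul_zero]))

theorem vone_cut (s : Finset {y : H →L[ℂ] H // y ∈ M ∧ c.n2 y = 0}) :
    ∃ e ∈ M, IsStarProjection e ∧ c.n2 e = 0 ∧ ∀ y ∈ s, ‖y.1 * (1 - e)‖ ≤ 1 := by
  obtain ⟨q, hqM, hq, -, h1, h2⟩ := exists_cut_proj M (d := ∑ y ∈ s, star y.1 * y.1)
    (sum_mem fun y _ => mul_mem (star_mem y.2.1) y.2.1) one_pos
  have h3 := c.φ_one_sub_cut hq one_pos h2
  rw [c.vone_n2_sum s _ fun y _ => c.vone_left _ y.2.2] at h3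
  refine ⟨1 - q, sub_mem (one_mem _) hqM, hq.one_sub, ?_, fun y hy => ?_⟩
  · rw [Ctx.n2, vone_proj hq.one_sub]
    exact Real.sqrt_eq_zero'.2 (by simpa using h3)
  · have h4 := star_left_conjugate_le_conjugate (Finset.single_le_sum
      (f := fun y : {y : H →L[ℂ] H // y ∈ M ∧ c.n2 y = 0} => star y.1 * y.1)
      (fun y _ => star_mul_self_nonneg _) hy) q
    have h5 := CStarAlgebra.norm_le_norm_of_nonneg_of_le
      (star_left_conjugate_nonneg (star_mul_self_nonneg y.1) q) h4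
    rw [show star q * (star y.1 * y.1) * q = star (y.1 * q) * (y.1 * q) by
      simp only [star_mul, mul_assoc], CStarRing.norm_star_mul_self, mul_assoc] at h5
    have h6 := (norm_mul_le (star q) _).trans (mul_le_one₀
      (by rw [norm_star]; exact hq.norm_le) (norm_nonneg _) h1)
    rw [sub_sub_cancel]
    nlinarith [norm_nonneg (y.1 * q)]

theorem vone_lim {α : Type*} (U : Ultrafilter α) (e : α → H →L[ℂ] H) (heM : ∀ s, e s ∈ M)
    (he : ∀ s, IsStarProjection (e s)) (he0 : ∀ s, c.n2 (e s) = 0) :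
    ∃ R ∈ M, WLim U e R ∧ star R = R ∧ c.n2 R = 0 := by
  have n1 : ∀ᶠ s in (U : Filter α), ‖e s‖ ≤ 1 := Eventually.of_forall fun s => (he s).norm_le
  obtain ⟨R, hR⟩ := exists_wlim U e 1 n1
  have RM : R ∈ M := hR.mem (Eventually.of_forall heM)
  refine ⟨R, RM, hR, hR.star.unique
    (hR.congr' (Eventually.of_forall fun s => (he s).isSelfAdjoint.star_eq.symm)), ?_⟩
  have k := c.φ_tendsto RM (hR.norm_le zero_le_one n1)
    (Eventually.of_forall fun s => ⟨heM s, (he s).norm_le⟩) hR (star_mem RM) (one_mem _)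
  have k0 : ∀ s, c.φ (star R * e s * 1) = 0 := fun s => by
    have := c.norm_φ_star_mul_le R (e s)
    rwa [he0, mul_zero, norm_le_zero_iff, ← mul_one (star R * e s)] at this
  simp only [k0] at k
  rw [Ctx.n2, ← mul_one (star R * R), ← tendsto_nhds_unique tendsto_const_nhds k]
  simp

theorem vone_net {ι : Type*} (y : ι → H →L[ℂ] H) (e : Finset ι → H →L[ℂ] H) (heM : ∀ s, e s ∈ M)
    (he : ∀ s, IsStarProjection (e s)) (he0 : ∀ s, c.n2 (e s) = 0)
    (he1 : ∀ s, ∀ i ∈ s, ‖y i * (1 - e s)‖ ≤ 1) :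
    ∃ R ∈ M, star R = R ∧ c.n2 R = 0 ∧ ∀ i, ‖y i * (1 - R)‖ ≤ 1 := by
  classical
  obtain ⟨R, RM, hR, Rs, R0⟩ := c.vone_lim (Ultrafilter.of atTop) e heM he he0
  refine ⟨R, RM, Rs, R0, fun i => ?_⟩
  refine (((WLim.const 1).sub hR).mul_left (y i)).norm_le zero_le_one ?_
  refine Eventually.filter_mono (Ultrafilter.of_le _) ?_
  filter_upwards [eventually_ge_atTop {i}] with s hs
  exact he1 s _ (hs (Finset.mem_singleton_self _))

theorem vone_unit : ∃ R ∈ M, star R = R ∧ c.n2 R = 0 ∧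
    ∀ y ∈ M, c.n2 y = 0 → ‖y * (1 - R)‖ ≤ 1 := by
  choose e heM he he0 he1 using c.vone_cut
  obtain ⟨R, RM, Rs, R0, h⟩ := c.vone_net Subtype.val e heM he he0 he1
  exact ⟨R, RM, Rs, R0, fun y hy h0 => h ⟨y, hy, h0⟩⟩

theorem vone_faith {T : H →L[ℂ] H} (hT : T ∈ M) (h : c.n2 T = 0) : T = 0 := by
  obtain ⟨R, RM, Rs, R0, one⟩ := c.vone_unit
  have key : ∀ y ∈ M, c.n2 y = 0 → y * R = y := fun y hy h0 => by
    by_contra hne
    have p : 0 < ‖y * (1 - R)‖ := by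
      rw [mul_sub, mul_one, norm_pos_iff, sub_ne_zero]
      exact Ne.symm hne
    have := one (((2 / ‖y * (1 - R)‖ : ℝ) : ℂ) • y) (smul_mem_vN _ hy) (by
      rw [c.n2_smul, h0, mul_zero])
    rw [smul_mul_assoc, norm_smul, Complex.norm_real, Real.norm_of_nonneg (by positivity),
      div_mul_cancel₀ _ p.ne'] at this
    norm_num at this
  have k1 : ∀ a ∈ A, R * a * R = R * a := fun a ha => key _ (mul_mem RM (c.hA.1 a ha))
    ((c.n2_nonneg _).antisymm' ((c.n2_mul_right ha R).trans_eq (by rw [R0, mul_zero])))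
  have RA : R ∈ A := c.hA.mem_of_commute RM fun a ha => by
    have := congrArg star (k1 _ (star_mem ha))
    simp only [star_mul, star_star, Rs, ← mul_assoc] at this
    exact this.symm.trans (k1 a ha)
  rw [← key T hT h, c.faithA RA (by rw [← c.n2_sq, R0]; norm_num), mul_zero]

/-- The expectation is faithful. -/
theorem E_faithful {T : H →L[ℂ] H} (hT : T ∈ M) (h : c.E (star T * T) = 0) : T = 0 :=
  c.vone_faith hT (by rw [Ctx.n2, c.φ_apply, h]; simp)

theorem faithM {T : H →L[ℂ] H} (hT : T ∈ M) (h : (c.φ (star T * T)).re = 0) : T = 0 :=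
  c.vone_faith hT (by rw [Ctx.n2, h, Real.sqrt_zero])

/-- Uniform absolute continuity of normal functionals. -/
theorem small_of_normal {ψ : (H →L[ℂ] H) → ℂ} (hψ : NormalFn M ψ) (h0 : ψ 0 = 0) {δ : ℝ}
    (hδ : 0 < δ) : ∃ δ' : ℝ, 0 < δ' ∧ ∀ g ∈ M, 0 ≤ g → ‖g‖ ≤ 1 → (c.φ g).re < δ' → ‖ψ g‖ < δ := by
  by_contra hn
  push Not at hn
  choose g gM g0 g1 g2 g3 using fun n : ℕ => hn (1 / ((n : ℝ) + 1)) (by positivity)
  let U : Ultrafilter ℕ := Ultrafilter.of atTop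
  obtain ⟨z, hz⟩ := exists_wlim U g 1 (Eventually.of_forall g1)
  have zM : z ∈ M := hz.mem (Eventually.of_forall gM)
  have z1 := hz.norm_le zero_le_one (Eventually.of_forall g1)
  have z0 := hz.nonneg (Eventually.of_forall g0)
  have ev : ∀ᶠ n in (U : Filter ℕ), g n ∈ M ∧ ‖g n‖ ≤ 1 := Eventually.of_forall fun n => ⟨gM n, g1 n⟩
  have k := c.φ_tendsto zM z1 ev hz (one_mem _) (one_mem _)
  simp only [one_mul, mul_one] at k
  have k1 : (c.φ z).re ≤ 0 := le_of_tendsto_of_tendsto' ((Complex.continuous_re.tendsto _).comp k)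
    (tendsto_one_div_add_atTop_nhds_zero_nat.mono_left (Ultrafilter.of_le _)) fun n => (g2 n).le
  obtain ⟨b, hb⟩ := CStarAlgebra.nonneg_iff_eq_star_mul_self.1 z0
  have k2 : z = 0 := c.vone_faith zM (by
    rw [hb]
    exact c.vone_left _ (by rw [Ctx.n2, ← hb]; exact Real.sqrt_eq_zero'.2 k1))
  have k3 := (hψ.tendsto zM z1 ev hz).norm
  rw [k2, h0, norm_zero] at k3
  exact absurd (ge_of_tendsto' k3 g3) (not_le.2 hδ)

/-- From `L²` approximation to so-paving. -/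
theorem soPavable_of_approx {x : H →L[ℂ] H} (hxM : x ∈ M) (hx : IsSelfAdjoint x) {ε ε' : ℝ}
    {r : ℕ} (hε : ε' < ε * ‖x‖)
    (h : ∀ δ : ℝ, 0 < δ → ∃ p : Fin r → H →L[ℂ] H, IsPartition A p ∧ ∃ g z : H →L[ℂ] H,
      z ∈ M ∧ pinch p x - c.E x = g + z ∧ ‖g‖ ≤ ε' ∧ c.n2 z < δ) :
    SoPavable M A x ε r := by
  intro F δ hδ
  obtain ⟨δ', hδ', h1⟩ := c.small_of_normal (ψ := fun g => ∑ ζ ∈ F, ⟪ζ, g ζ⟫_ℂ)
    (fun l y0 C _ _ _ h3 => tendsto_finsetSum _ fun ζ _ => h3 ζ ζ) (by simp) (pow_pos hδ 2)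
  have ht : 0 < ε * ‖x‖ - ε' := sub_pos.2 hε
  obtain ⟨p, hp, g, z, hz, e, hg, hn⟩ := h ((ε * ‖x‖ - ε') * √δ') (by positivity)
  obtain ⟨q, hqM, hq, -, h2, h3⟩ := exists_cut_proj M hz ht
  refine ⟨p, hp, c.E x, c.E_mem hxM, by rw [IsSelfAdjoint, ← c.E_star, hx.star_eq], c.norm_E_le x,
    q, hqM, hq, fun ζ hζ => ?_, ?_⟩
  · have k := h1 (1 - q) (sub_mem (one_mem _) hqM) hq.one_sub.nonneg hq.one_sub.norm_le
      ((c.φ_one_sub_cut hq ht h3).trans_lt (by
        rw [div_lt_iff₀' (by positivity), ← Real.sq_sqrt hδ'.le, ← mul_pow]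
        exact pow_lt_pow_left₀ hn (c.n2_nonneg z) two_ne_zero))
    have k1 := (Complex.re_le_norm _).trans_lt k
    rw [Complex.re_sum, ← vone_proj hq.one_sub] at k1
    simp only [re_inner_star_mul_self] at k1
    exact lt_of_pow_lt_pow_left₀ 2 hδ.le ((Finset.single_le_sum
      (f := fun ζ => ‖(1 - q) ζ‖ ^ 2) (fun _ _ => sq_nonneg _) hζ).trans_lt k1)
  · have k : ∀ y : H →L[ℂ] H, ‖q * y‖ ≤ ‖y‖ := fun y =>
      (norm_mul_le _ _).trans (mul_le_of_le_one_left (norm_nonneg _) hq.norm_le)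
    rw [e, mul_assoc, add_mul]
    have k1 : ‖g * q‖ ≤ ‖g‖ :=
      (norm_mul_le _ _).trans (mul_le_of_le_one_right (norm_nonneg _) hq.norm_le)
    linarith [k (g * q + z * q), norm_add_le (g * q) (z * q)]

theorem vone_clip {l t : ℝ} (hl : 0 < l) {k : ℕ} (hk : 1 ≤ k) :
    (t - max (-l) (min l t)) * (t - max (-l) (min l t)) ≤ l ^ 2 / l ^ (2 * k) * t ^ (2 * k) := by
  have e : l ^ 2 / l ^ (2 * k) * t ^ (2 * k) = l ^ 2 * ((t / l) ^ 2) ^ k := by
    rw [← pow_mul, div_pow]; ring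
  have big : l ^ 2 ≤ t ^ 2 → t ^ 2 ≤ l ^ 2 * ((t / l) ^ 2) ^ k := fun h => by
    have : 1 ≤ (t / l) ^ 2 := by rw [div_pow]; exact (one_le_div (by positivity)).2 h
    calc t ^ 2 = l ^ 2 * (t / l) ^ 2 := by field_simp
      _ ≤ _ := mul_le_mul_of_nonneg_left (le_self_pow₀ this (by omega)) (by positivity)
  rw [e]
  rcases le_total l t with h | h
  · rw [min_eq_left h, max_eq_right (by linarith)]
    nlinarith [big (by nlinarith)]
  · rw [min_eq_right h]
    rcases le_total (-l) t with h' | h'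
    · rw [max_eq_right h', sub_self, mul_zero]
      positivity
    · rw [max_eq_left h']
      nlinarith [big (by nlinarith)]

/-- Clipping a self-adjoint operator with a small high moment. -/
theorem exists_clip {g : H →L[ℂ] H} (hgM : g ∈ M) (hg : IsSelfAdjoint g) {l : ℝ} (hl : 0 < l)
    {k : ℕ} (hk : 1 ≤ k) : ∃ g₁ g₂ : H →L[ℂ] H, g₂ ∈ M ∧ g = g₁ + g₂ ∧ ‖g₁‖ ≤ l ∧
      c.n2 g₂ ^ 2 ≤ l ^ 2 / l ^ (2 * k) * (c.φ (g ^ (2 * k))).re := by
  refine ⟨cfc (fun t : ℝ => max (-l) (min l t)) g, cfc (fun t : ℝ => t - max (-l) (min l t)) g,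
    cfc_mem_vN hgM _, ?_, norm_cfc_le hl.le fun t _ => ?_, ?_⟩
  · rw [← cfc_add g _ _]
    simp only [add_sub_cancel]
    exact (cfc_id' ℝ g).symm
  · exact abs_le.2 ⟨le_max_left _ _, max_le (by linarith) (min_le_left _ _)⟩
  · have h1 := cfc_mono (a := g) (f := fun t : ℝ => (t - max (-l) (min l t)) *
      (t - max (-l) (min l t))) (g := fun t : ℝ => l ^ 2 / l ^ (2 * k) * t ^ (2 * k))
      fun t _ => vone_clip hl hk
    rw [cfc_mul _ _ g, cfc_const_mul _ _ g, cfc_pow_id g] at h1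
    have h2 := c.φ_re_mono h1
    rw [← Complex.coe_smul, map_smul, smul_eq_mul, Complex.re_ofReal_mul] at h2
    rw [c.n2_sq, (IsSelfAdjoint.cfc).star_eq]
    exact h2

end Ctx

end Vale.Agent.P078
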