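import Vale.Agent.P078b.PDa
import Vale.Agent.P078b.VOne
import Vale.Agent.P078b.RN

open scoped InnerProductSpace ComplexConjugate ComplexOrder
open Filter Topology

set_option linter.unusedSectionVars false
set_option linter.unusedVariables false

namespace Vale.Agent.P078

variable {H : Type*} [NormedAddCommGroup H] [InnerProductSpace ℂ H] [CompleteSpace H]
variable {M : VonNeumannAlgebra H} {A : StarSubalgebra ℂ (H →L[ℂ] H)}

theorem pdb_norm_sq {ι : Type} [Fintype ι] {a : ι → H →L[ℂ] H} (hp : ∀ i, IsSelfAdjoint (a i))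
    (ho : ∀ i j, i ≠ j → a i * a j = 0) (w : ι → H) :
    ‖∑ i, a i (w i)‖ ^ 2 = ∑ i, ‖a i (w i)‖ ^ 2 := by
  classical
  rw [← re_inner_self, sum_inner, Complex.re_sum]
  refine Finset.sum_congr rfl fun i _ => ?_
  rw [inner_sum, Finset.sum_eq_single i, re_inner_self]
  · intro j _ hj
    rw [inner_sa (hp i), ← mul_apply_eq_comp, ho i j hj.symm]
    simp
  · simp

theorem pdb_norm_le {ι : Type} [Fintype ι] {a q : ι → H →L[ℂ] H}
    (hp : ∀ i, IsStarProjection (a i)) (ho : ∀ i j, i ≠ j → a i * a j = 0) (hq : IsPartition A q)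
    (T : H →L[ℂ] H) : ‖∑ i, a i * T * q i‖ ≤ ‖T‖ := by
  refine ContinuousLinearMap.opNorm_le_bound _ (norm_nonneg _) fun v => ?_
  refine (abs_le_of_sq_le_sq' ?_ (by positivity)).2
  have e : (∑ i, a i * T * q i) v = ∑ i, a i (T (q i v)) := by simp
  rw [e, pdb_norm_sq (fun i => (hp i).isSelfAdjoint) ho, mul_pow, ← hq.sum_norm_sq v,
    Finset.mul_sum]
  refine Finset.sum_le_sum fun i _ => ?_
  rw [← mul_pow]
  exact pow_le_pow_left₀ (norm_nonneg _) ((norm_proj_apply_le (hp i) _).trans (T.le_opNorm _)) 2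

theorem pdb_conj_mem (hA : IsMASA M A) {z : H →L[ℂ] H} (hz : z ∈ M)
    (h : ∀ g, IsP A g → ∃ g', IsP A g' ∧ z * g = g' * z) : ∀ a ∈ A, star z * a * z ∈ A := by
  intro a ha
  refine hA.mem_of_commute_proj (mul_mem (mul_mem (star_mem hz) (hA.1 a ha)) hz) fun g hg => ?_
  obtain ⟨g', h1, h2⟩ := h g hg
  have h3 : g * star z = star z * g' := by
    have := congrArg star h2
    rwa [star_mul, star_mul, hg.2.isSelfAdjoint.star_eq, h1.2.isSelfAdjoint.star_eq] at this
  calc _ = g * star z * a * z := by simp only [mul_assoc]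
    _ = star z * (g' * a) * z := by rw [h3, mul_assoc (star z)]
    _ = star z * a * (g' * z) := by rw [hA.2.1 g' h1.1 a ha]; simp only [mul_assoc]
    _ = _ := by rw [← h2]; simp only [mul_assoc]

theorem pdb_smul_zero {e : H →L[ℂ] H} (he : IsStarProjection e) {θ : ℝ} (hθ : 0 < θ)
    (h : (θ : ℂ) • e ≤ 0) : e = 0 := by
  have h1 : 0 ≤ (θ : ℂ) • e := smul_nonneg (by exact_mod_cast hθ.le) he.nonneg
  exact (smul_eq_zero.1 (le_antisymm h h1)).resolve_left (Complex.ofReal_ne_zero.2 hθ.ne')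

namespace Ctx.AtomD
variable {c : Ctx M A} {x g₀ : H →L[ℂ] H} {α : (H →L[ℂ] H) → (H →L[ℂ] H)} {θ : ℝ}

theorem pdb_zero (h : c.AtomD x α g₀ θ) : α 0 = 0 := by
  have := h.add 0 0 IsP.zero IsP.zero (mul_zero _)
  rw [add_zero] at this
  exact left_eq_add.1 this

theorem pdb_orth (h : c.AtomD x α g₀ θ) {g g' : H →L[ℂ] H} (hg : IsP A g) (hg' : IsP A g')
    (h0 : g * g' = 0) : α g * α g' = 0 := by
  have h1 := (h.isP _ (hg.add hg' h0)).2.isIdempotentElem.eq
  have h2 := (h.isP g hg).2.isIdempotentElem.eq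
  have h3 := (h.isP g' hg').2.isIdempotentElem.eq
  rw [h.add g g' hg hg' h0, add_mul, mul_add, mul_add, h2, h3,
    c.hA.2.1 _ (h.isP g' hg').1 _ (h.isP g hg).1] at h1
  have h4 : (2 : ℂ) • (α g * α g') = 0 := by
    rw [two_smul, ← sub_eq_zero.2 h1]
    abel
  exact (smul_eq_zero.1 h4).resolve_left two_ne_zero

theorem pdb_le (h : c.AtomD x α g₀ θ) {g q : H →L[ℂ] H} (hg : IsP A g) (hq : IsP A q)
    (h0 : g * q = q) : α g * α q = α q := by
  have h1 := hg.mul c.hA hq.one_sub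
  have h2 : g * (1 - q) * q = 0 := by
    rw [mul_assoc, sub_mul, one_mul, hq.2.isIdempotentElem.eq, sub_self, mul_zero]
  have h3 := h.add _ _ h1 hq h2
  rw [mul_sub, mul_one, h0, sub_add_cancel] at h3
  rw [mul_sub, mul_one, h0] at h1 h2
  rw [h3, add_mul, h.pdb_orth h1 hq h2, zero_add, (h.isP q hq).2.isIdempotentElem.eq]

theorem pdb_sum (h : c.AtomD x α g₀ θ) {ι : Type} [Fintype ι] {q : ι → H →L[ℂ] H}
    (hq : IsPartition A q) (s : Finset ι) : α (∑ i ∈ s, q i) = ∑ i ∈ s, α (q i) := by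
  classical
  induction s using Finset.induction_on with
  | empty => exact h.pdb_zero
  | insert a s ha ih =>
    rw [Finset.sum_insert ha, Finset.sum_insert ha, h.add _ _ (hq.isP a) (hq.isP_sum s), ih]
    rw [Finset.mul_sum]
    exact Finset.sum_eq_zero fun i hi => hq.2.1 a i fun k => ha (k ▸ hi)

theorem pdb_one (h : c.AtomD x α g₀ θ) : α g₀ = α 1 := by
  have h0 : (1 - g₀) * g₀ = 0 := by
    rw [sub_mul, one_mul, h.proj.2.isIdempotentElem.eq, sub_self]
  have h1 := h.le _ h.proj.one_sub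
  rw [h0, mul_zero, zero_mul, map_zero, zero_mul] at h1
  have h2 := h.add _ _ h.proj.one_sub h.proj h0
  rw [sub_add_cancel, pdb_smul_zero (h.isP _ h.proj.one_sub).2 h.pos h1, zero_add] at h2
  exact h2.symm

end Ctx.AtomD

namespace Ctx
variable (c : Ctx M A)

/-- The intertwiner attached to a Boolean homomorphism. -/
theorem exists_intertwiner {x g₀ : H →L[ℂ] H} {α : (H →L[ℂ] H) → (H →L[ℂ] H)} {θ : ℝ}
    (hx : x ∈ M) (h : c.AtomD x α g₀ θ) : ∃ z ∈ M, (∀ g, IsP A g → z * g = α g * z) ∧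
      c.E (z * star x) ≠ 0 ∧ (∀ g ∈ A, ∀ g' ∈ A, g * x = x * g' → g * z = z * g') ∧
      ∀ y ∈ M, (∀ g, IsP A g → g * y = y * α g) → c.E (y * x) = c.E (y * z) := by
  have hA := c.hA
  have hc := hA.2.1
  obtain ⟨Z, hZ⟩ : ∃ Z : Part A → H →L[ℂ] H, ∀ P, Z P = ∑ j, α (P.q j) * (x * g₀) * P.q j :=
    ⟨_, fun _ => rfl⟩
  have hα : ∀ (P : Part A) j, IsP A (α (P.q j)) := fun P j => h.isP _ (P.hq.isP j)
  have hM : ∀ P, Z P ∈ M := fun P => by
    rw [hZ]
    exact sum_mem fun j _ => mul_mem (mul_mem (hA.1 _ (hα P j).1) (mul_mem hx (hA.1 _ h.proj.1)))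
      (hA.1 _ (P.hq.mem j))
  have hN : ∀ P, ‖Z P‖ ≤ ‖x * g₀‖ := fun P => by
    rw [hZ]
    exact pdb_norm_le (fun j => (hα P j).2) (fun i j hij => h.pdb_orth (P.hq.isP i) (P.hq.isP j)
      (P.hq.2.1 i j hij)) P.hq _
  obtain ⟨z, hz⟩ := exists_wlim (netU A) (fun T => Z (netPart hA T)) _
    (Eventually.of_forall fun T => hN _)
  have hzM := hz.mem (Eventually.of_forall fun T => hM _)
  have hzN := hz.norm_le (norm_nonneg _) (Eventually.of_forall fun T => hN _)
  have hE : ∀ a ∈ M, ∀ b ∈ M, WLim (netU A : Filter _) (fun T => c.E (a * Z (netPart hA T) * b))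
      (c.E (a * z * b)) := fun a ha b hb => by
    have k : ∀ y : H →L[ℂ] H, ‖y‖ ≤ ‖x * g₀‖ → ‖a * y * b‖ ≤ ‖a‖ * ‖x * g₀‖ * ‖b‖ := fun y hy =>
      (norm_mul₃_le).trans (by gcongr)
    exact c.E_wlim (mul_mem (mul_mem ha hzM) hb) (k z hzN) (Eventually.of_forall fun T =>
      ⟨mul_mem (mul_mem ha (hM _)) hb, k _ (hN _)⟩) ((hz.mul_left a).mul_right b)
  refine ⟨z, hzM, fun g hg => ?_, fun h0 => ?_, fun g hg g' hg' e => ?_, fun y hy e => ?_⟩
  · refine ((hz.mul_right g).congr' ?_).unique (hz.mul_left (α g))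
    filter_upwards [eventually_adapted hA hg.1 hg.2] with T hT
    generalize netPart hA T = P at *
    rw [hZ, Finset.sum_mul, Finset.mul_sum]
    refine Finset.sum_congr rfl fun j _ => ?_
    rw [mul_assoc, hc _ (P.hq.mem j) g hg.1, ← mul_assoc (α g), ← mul_assoc (α g)]
    rcases hT j with k | k
    · rw [k, h.pdb_le hg (P.hq.isP j) k]
    · rw [k, h.pdb_orth hg (P.hq.isP j) k, mul_zero, zero_mul, zero_mul]
  · have k := ((hE 1 (one_mem _) _ (star_mem hx)).sub (WLim.const ((θ : ℂ) • α 1))).nonneg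
      (Eventually.of_forall fun T => ?_)
    · rw [one_mul, h0, zero_sub, neg_nonneg] at k
      exact h.ne (pdb_smul_zero (h.isP 1 IsP.one).2 h.pos k)
    · generalize netPart hA T = P
      rw [sub_nonneg, one_mul, hZ, ← P.hq.2.2, h.pdb_sum P.hq, Finset.smul_sum, Finset.sum_mul,
        map_sum]
      refine Finset.sum_le_sum fun j _ => (h.le _ (P.hq.isP j)).trans_eq ?_
      rw [← c.E_commute (hα P j).1, ← c.E_left (hα P j).1, hc _ (P.hq.mem j) _ h.proj.1]
      simp only [mul_assoc]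
  · refine ((hz.mul_left g).congr' (Eventually.of_forall fun T => ?_)).unique (hz.mul_right g')
    generalize netPart hA T = P
    rw [hZ, Finset.sum_mul, Finset.mul_sum]
    refine Finset.sum_congr rfl fun j _ => ?_
    calc _ = g * α (P.q j) * (x * (g₀ * P.q j)) := by simp only [mul_assoc]
      _ = α (P.q j) * (g * x * (g₀ * P.q j)) := by
        rw [hc g hg _ (hα P j).1]; simp only [mul_assoc]
      _ = α (P.q j) * (x * (g₀ * P.q j * g')) := by
        rw [e, mul_assoc x, hc g' hg' _ (mul_mem h.proj.1 (P.hq.mem j))]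
      _ = _ := by simp only [mul_assoc]
  · have k := hE y hy 1 (one_mem _)
    simp only [mul_one] at k
    refine (WLim.const _).unique (k.congr' (Eventually.of_forall fun T => ?_))
    generalize netPart hA T = P
    have e1 : g₀ * y = y := by rw [e g₀ h.proj, h.pdb_one, ← e 1 IsP.one, one_mul]
    rw [← e1, mul_assoc, mul_assoc, c.E_comm h.proj.1 (y * x), ← c.E_pinch P.hq (y * x * g₀),
      ← mul_assoc, e1, hZ, Finset.mul_sum, pinch]
    congr 1
    refine Finset.sum_congr rfl fun j _ => ?_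
    rw [← mul_assoc, ← mul_assoc, ← e _ (P.hq.isP j)]
    simp only [mul_assoc]

theorem not_thin_star {z : H →L[ℂ] H} (hz : z ∈ M) (h0 : z ≠ 0)
    (h : ∀ a ∈ A, star z * a * z ∈ A) : ¬c.Thin (star z) := by
  intro ht
  refine h0 (star_eq_zero.1 (c.faithM (star_mem hz) ?_))
  rw [star_star]
  have key : ∀ ε : ℝ, 0 < ε → ‖c.φ (z * star z)‖ ≤ 0 + ε := fun ε hε => by
    obtain ⟨δ, hδ, h1⟩ := c.small_of_normal (c.φ_normal hz (star_mem hz)) (by simp) (half_pos hε)
    obtain ⟨P, p, hp, h2, h3⟩ := ht _ δ (half_pos hε) hδ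
    have h4 := h1 (1 - p) (c.hA.1 _ hp.one_sub.1) hp.one_sub.2.nonneg hp.one_sub.2.norm_le h2
    have h5 : ‖c.φ (z * p * star z)‖ ≤ ε / 2 := by
      rw [← c.φ_pinch P.hq]
      refine (c.norm_φ_le _).trans (norm_pinch_le_of_block P.hq (half_pos hε).le fun j => ?_)
      have k := h3 j
      rw [star_star, c.E_of_mem (h _ (P.hq.mem j))] at k
      have e1 : P.q j * (z * p * star z) * P.q j = P.q j * z * p * star (P.q j * z * p) := by
        rw [star_mul, star_mul, hp.2.isSelfAdjoint.star_eq, (P.hq.sa j).star_eq]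
        simp only [mul_assoc]
        rw [← mul_assoc p p, hp.2.isIdempotentElem.eq]
      have e2 : star (P.q j * z * p) * (P.q j * z * p) = p * (star z * P.q j * z * p) := by
        rw [star_mul, star_mul, hp.2.isSelfAdjoint.star_eq, (P.hq.sa j).star_eq]
        simp only [mul_assoc]
        rw [← mul_assoc (P.q j) (P.q j), P.hq.mul_self]
      rw [e1, CStarRing.norm_self_mul_star, ← CStarRing.norm_star_mul_self, e2]
      exact (norm_mul_le _ _).trans ((mul_le_of_le_one_left (norm_nonneg _) hp.2.norm_le).trans k)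
    have e : z * star z = z * p * star z + z * (1 - p) * star z := by noncomm_ring
    rw [e, map_add]
    exact (norm_add_le _ _).trans (by linarith)
  rw [norm_le_zero_iff.1 (le_of_forall_pos_le_add key), Complex.zero_re]

/-- Operators orthogonal to the groupoid are thin. -/
theorem thin_of_orth {x : H →L[ℂ] H} (hx : x ∈ M) (h : ∀ v, c.IsGb v → c.E (v * x) = 0) :
    c.Thin x := by
  by_contra ht
  obtain ⟨α, g₀, θ, h1⟩ := c.atom_of_not_thin hx ht
  obtain ⟨z, hz, k1, k2, -, k4⟩ := c.exists_intertwiner hx h1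
  have h0 : z ≠ 0 := fun e => k2 (by rw [e, zero_mul, map_zero])
  obtain ⟨β, g₁, θ', h2⟩ := c.atom_of_not_thin (star_mem hz) (c.not_thin_star hz h0
    (pdb_conj_mem c.hA hz fun g hg => ⟨_, h1.isP g hg, k1 g hg⟩))
  obtain ⟨w, hw, l1, l2, l3, -⟩ := c.exists_intertwiner (star_mem hz) h2
  have st : ∀ {u g g' : H →L[ℂ] H}, IsP A g → IsP A g' → u * g = g' * u →
      g * star u = star u * g' := fun hg hg' e => by
    have := congrArg star e
    rwa [star_mul, star_mul, hg.2.isSelfAdjoint.star_eq, hg'.2.isSelfAdjoint.star_eq] at this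
  have l4 : ∀ g, IsP A g → g * w = w * α g := fun g hg =>
    l3 g hg.1 _ (h1.isP g hg).1 (st hg (h1.isP g hg) (k1 g hg))
  rw [star_star, ← k4 w hw l4] at l2
  have l5 := pdb_conj_mem c.hA (star_mem hw) fun g hg =>
    ⟨_, h1.isP g hg, (st (h1.isP g hg) hg (l4 g hg).symm).symm⟩
  rw [star_star] at l5
  obtain ⟨v, hv, h3⟩ := c.exists_isG_of_norm hw hx l5
    (pdb_conj_mem c.hA hw fun g hg => ⟨_, h2.isP g hg, l1 g hg⟩) l2
  exact h3 (c.orth_isG hx h hv)

end Ctx

end Vale.Agent.P078
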