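import Vale.Agent.P078b.VOne

open scoped InnerProductSpace ComplexConjugate ComplexOrder
open Filter Topology

set_option linter.unusedSectionVars false
set_option linter.unusedVariables false

namespace Vale.Agent.P078

variable {H : Type*} [NormedAddCommGroup H] [InnerProductSpace ℂ H] [CompleteSpace H]
variable {M : VonNeumannAlgebra H} {A : StarSubalgebra ℂ (H →L[ℂ] H)}

theorem pdc_norm_right (T : H →L[ℂ] H) {e : H →L[ℂ] H} (he : IsStarProjection e) :
    ‖T * e‖ ≤ ‖T‖ :=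
  (norm_mul_le _ _).trans (mul_le_of_le_one_right (norm_nonneg _) he.norm_le)

theorem pdc_mul_pinch {ι : Type} [Fintype ι] {p : ι → H →L[ℂ] H} (hp : IsPartition A p) (i : ι)
    (T : H →L[ℂ] H) : p i * pinch p T = p i * T * p i := by
  rw [pinch, Finset.mul_sum, Finset.sum_eq_single i]
  · rw [← mul_assoc, ← mul_assoc, hp.mul_self]
  · intro j _ hj
    rw [← mul_assoc, ← mul_assoc, hp.2.1 i j hj.symm, zero_mul, zero_mul]
  · simp

theorem pdc_cut (c : Ctx M A) {κ : Type} [Fintype κ] (T : κ → H →L[ℂ] H) (hT : ∀ j, T j ∈ M)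
    {p : H →L[ℂ] H} (hp : IsP A p) {t ε : ℝ} (ht : 0 < t) (hε : 0 < ε) :
    ∃ (P : Part A) (f : H →L[ℂ] H), f ∈ M ∧ IsStarProjection f ∧ Commute f p ∧
      (∀ i, Commute (P.q i) f) ∧ (c.φ (1 - f)).re < ε ∧
      ∀ j, ‖(pinch P.q (T j) - c.E (T j)) * f‖ ≤ t := by
  have h1 : Tendsto (fun s => ∑ j, c.n2 (pinch (netPart c.hA s).q (T j) - c.E (T j)) ^ 2)
      (netU A : Filter _) (𝓝 (∑ j : κ, (0 : ℝ) ^ 2)) :=
    tendsto_finsetSum _ fun j _ => (c.tendsto_n2_pinch (hT j)).pow 2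
  rw [zero_pow two_ne_zero, Finset.sum_const_zero] at h1
  obtain ⟨s, hs1, hs2⟩ := ((h1.eventually (gt_mem_nhds (mul_pos hε (pow_pos ht 2)))).and
    (eventually_adapted c.hA hp.1 hp.2)).exists
  set P := netPart c.hA s with hP
  set d : κ → H →L[ℂ] H := fun j => pinch P.q (T j) - c.E (T j) with hd
  have hdM : ∀ j, d j ∈ M := fun j =>
    sub_mem (P.hq.pinch_mem c.hA (hT j)) (c.hA.1 _ (c.E_mem (hT j)))
  set S : H →L[ℂ] H := ∑ j, star (d j) * d j with hS
  have hSM : S ∈ M := sum_mem fun j _ => mul_mem (star_mem (hdM j)) (hdM j)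
  have hS0 : 0 ≤ S := Finset.sum_nonneg fun j _ => star_mul_self_nonneg _
  have hc1 : ContinuousOn (fun t : ℝ => √t) (spectrum ℝ S) := Real.continuous_sqrt.continuousOn
  have hD : star (cfc (fun t : ℝ => √t) S) * cfc (fun t : ℝ => √t) S = S := by
    rw [IsSelfAdjoint.cfc.star_eq, ← cfc_mul _ _ S hc1 hc1]
    conv_rhs => rw [← cfc_id ℝ S hS0.isSelfAdjoint]
    exact cfc_congr fun x hx => Real.mul_self_sqrt (spectrum_nonneg_of_nonneg hS0 hx)
  obtain ⟨f, hfM, hf, hcomm, hn, hv⟩ := exists_cut_proj M (cfc_mem_vN hSM fun t : ℝ => √t) ht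
  rw [hD] at hcomm
  have hce : ∀ e, IsP A e → Adapted P.q e → Commute e f := by
    intro e he had
    refine hcomm e (Commute.sum_right _ _ _ fun j _ => ?_)
    have h2 : Commute e (d j) :=
      (had.commute_pinch P.hq he.2.isSelfAdjoint _).sub_right (c.E_commute he.1 _)
    refine Commute.mul_right ?_ h2
    have h3 := congrArg star h2.eq
    rw [star_mul, star_mul, he.2.isSelfAdjoint.star_eq] at h3
    exact h3.symm
  refine ⟨P, f, hfM, hf, (hce p hp hs2).symm, fun i => hce _ (P.hq.isP i) (P.hq.adapted_self i),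
    ?_, fun j => ?_⟩
  · refine (c.φ_one_sub_cut hf ht hv).trans_lt ?_
    rw [div_lt_iff₀ (pow_pos ht 2), c.n2_sq, hD, hS, map_sum, Complex.re_sum]
    simp only [← c.n2_sq]
    exact hs1
  · refine le_trans (ContinuousLinearMap.opNorm_le_bound _ (norm_nonneg _) fun v => ?_) hn
    refine le_trans ?_ ((cfc (fun t : ℝ => √t) S * f).le_opNorm v)
    refine (abs_le_of_sq_le_sq' ?_ (norm_nonneg _)).2
    rw [mul_apply_eq_comp, mul_apply_eq_comp, ← re_inner_star_mul_self, ← re_inner_star_mul_self,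
      hD, ← sub_nonneg, ← Complex.sub_re, ← inner_sub_right, ← sub_apply]
    refine re_inner_nonneg_of_nonneg (sub_nonneg.2 ?_) _
    exact Finset.single_le_sum (f := fun j => star (d j) * d j)
      (fun j _ => star_mul_self_nonneg _) (Finset.mem_univ j)

/-- A thin operator is close to an operator with small blocks. -/
theorem Ctx.exists_small_blocks (c : Ctx M A) {x : H →L[ℂ] H} (hxM : x ∈ M) (hx : IsSelfAdjoint x)
    (h : c.Thin x) {η δ : ℝ} (hη : 0 < η) (hδ : 0 < δ) :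
    ∃ x' ∈ M, IsSelfAdjoint x' ∧ ‖x'‖ ≤ ‖x‖ ∧ c.n2 (x - x') < δ ∧
      ∃ P : Part A, ∀ i j, ‖P.q i * x' * P.q j‖ ≤ η := by
  obtain ⟨δ', hδ', hsm⟩ := c.small_of_normal (c.φ_normal hxM hxM) (by simp) (δ := δ ^ 2)
    (by positivity)
  have hx1 : 0 < ‖x‖ + 1 := by positivity
  set δ₂ : ℝ := min δ' ((δ / (‖x‖ + 1)) ^ 2) with hδ₂
  have hδ₂0 : 0 < δ₂ := lt_min hδ' (by positivity)
  obtain ⟨Q, p, hp, hφp, hQ⟩ := h (η ^ 2 / 2) (δ₂ / 2) (by positivity) (by positivity)
  obtain ⟨P, f, hfM, hf, hfp, hfP, hφf, hd⟩ := pdc_cut c (fun j => x * Q.q j * star x)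
    (fun j => mul_mem (mul_mem hxM (c.hA.1 _ (Q.hq.mem j))) (star_mem hxM)) hp
    (t := η ^ 2 / 2) (ε := δ₂ / 2) (by positivity) (by positivity)
  have hg : IsStarProjection (f * p) := hf.mul hp.2 hfp
  have hgM : f * p ∈ M := mul_mem hfM (c.hA.1 _ hp.1)
  have hφg : (c.φ (1 - f * p)).re < δ₂ := by
    have h1 : 1 - f * p ≤ (1 - f) + (1 - p) := by
      rw [← sub_nonneg]
      have h2 : (1 - f) + (1 - p) - (1 - f * p) = (1 - f) * (1 - p) := by noncomm_ring
      rw [h2]
      exact (hf.one_sub.mul hp.2.one_sub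
        ((Commute.one_left _).sub_left ((Commute.one_right _).sub_right hfp))).nonneg
    have h3 := c.φ_re_mono h1
    rw [map_add, Complex.add_re] at h3
    linarith
  have hblock : ∀ i j, ‖P.q i * (f * p) * x * Q.q j‖ ≤ η := by
    intro i j
    refine (abs_le_of_sq_le_sq' ?_ hη.le).2
    have hc : P.q i * (f * p) = f * p * P.q i := by
      rw [← mul_assoc, (hfP i).eq, mul_assoc, mul_assoc, c.hA.2.1 _ (P.hq.mem i) _ hp.1]
    have h1 : P.q i * (f * p) * x * Q.q j * star (P.q i * (f * p) * x * Q.q j) =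
        f * p * P.q i * ((pinch P.q (x * Q.q j * star x) - c.E (x * Q.q j * star x)) * f * p +
          c.E (x * Q.q j * star x) * p * f) := by
      have h2 : (pinch P.q (x * Q.q j * star x) - c.E (x * Q.q j * star x)) * f * p +
          c.E (x * Q.q j * star x) * p * f = pinch P.q (x * Q.q j * star x) * (f * p) := by
        rw [mul_assoc _ p f, ← hfp.eq, mul_assoc _ f p, sub_mul, sub_add_cancel]
      rw [h2, mul_assoc (f * p) (P.q i), ← mul_assoc (P.q i) (pinch _ _), pdc_mul_pinch P.hq,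
        star_mul, star_mul, star_mul, hg.isSelfAdjoint.star_eq, (P.hq.sa i).star_eq,
        (Q.hq.sa j).star_eq, hc]
      simp only [mul_assoc]
      rw [← mul_assoc (Q.q j) (Q.q j), Q.hq.mul_self, ← mul_assoc f p (P.q i), ← hc]
    rw [sq, ← CStarRing.norm_self_mul_star, h1]
    have h3 : ‖f * p * P.q i‖ ≤ 1 :=
      (pdc_norm_right _ (P.hq.proj i)).trans hg.norm_le
    refine (norm_mul_le _ _).trans ((mul_le_of_le_one_left (norm_nonneg _) h3).trans ?_)
    refine (norm_add_le _ _).trans ?_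
    have h4 := (pdc_norm_right _ hp.2).trans (hd j)
    have h5 := (pdc_norm_right _ hf).trans (hQ j)
    linarith
  obtain ⟨R, a, b, hR⟩ := exists_refine c.hA P Q
  have hblock' : ∀ k l, ‖R.q k * (f * p * x) * R.q l‖ ≤ η := by
    intro k l
    have h1 : R.q k * (f * p * x) * R.q l =
        R.q k * (P.q (a k) * (f * p) * x * Q.q (b l)) * R.q l := by
      conv_lhs => rw [← (hR k).1, ← (hR l).2, c.hA.2.1 _ (R.hq.mem l) _ (Q.hq.mem _)]
      simp only [mul_assoc]
    rw [h1]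
    refine (pdc_norm_right _ (R.hq.proj l)).trans ((norm_mul_le _ _).trans ?_)
    exact (mul_le_of_le_one_left (norm_nonneg _) (R.hq.proj k).norm_le).trans (hblock _ _)
  have hst : star (f * p * x) = x * (f * p) := by
    rw [star_mul, hg.isSelfAdjoint.star_eq, hx.star_eq]
  have hhalf : ‖(1 / 2 : ℂ)‖ = 1 / 2 := by simp
  have hn : ‖f * p * x‖ ≤ ‖x‖ :=
    (norm_mul_le _ _).trans (mul_le_of_le_one_left (norm_nonneg _) hg.norm_le)
  refine ⟨(1 / 2 : ℂ) • (f * p * x + star (f * p * x)),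
    smul_mem_vN _ (add_mem (mul_mem hgM hxM) (star_mem (mul_mem hgM hxM))), ?_, ?_, ?_, R,
    fun k l => ?_⟩
  · rw [IsSelfAdjoint, star_smul, (IsSelfAdjoint.add_star_self _).star_eq]
    simp
  · rw [norm_smul, hhalf]
    have := norm_add_le (f * p * x) (star (f * p * x))
    rw [norm_star] at this
    linarith
  · have h1 : x - (1 / 2 : ℂ) • (f * p * x + star (f * p * x)) =
        (1 / 2 : ℂ) • ((1 - f * p) * x + x * (1 - f * p)) := by
      rw [hst, sub_mul, mul_sub, one_mul, mul_one]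
      module
    have h2 : c.n2 ((1 - f * p) * x) < δ := by
      refine lt_of_pow_lt_pow_left₀ 2 hδ.le ?_
      rw [c.n2_sq, star_mul, hg.one_sub.isSelfAdjoint.star_eq, hx.star_eq, mul_assoc,
        ← mul_assoc (1 - f * p), hg.one_sub.isIdempotentElem.eq, ← mul_assoc]
      exact (Complex.re_le_norm _).trans_lt (hsm _ (sub_mem (one_mem M) hgM) hg.one_sub.nonneg
        hg.one_sub.norm_le (hφg.trans_le (min_le_left _ _)))
    have h3 : c.n2 (1 - f * p) ≤ δ / (‖x‖ + 1) := by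
      refine (abs_le_of_sq_le_sq' ?_ (by positivity)).2
      rw [c.n2_sq, hg.one_sub.isSelfAdjoint.star_eq, hg.one_sub.isIdempotentElem.eq]
      exact hφg.le.trans (min_le_right _ _)
    have h4 : c.n2 (x * (1 - f * p)) ≤ δ := by
      refine (c.n2_mul_left _ _).trans ?_
      calc ‖x‖ * c.n2 (1 - f * p) ≤ (‖x‖ + 1) * (δ / (‖x‖ + 1)) :=
            mul_le_mul (by linarith) h3 (c.n2_nonneg _) hx1.le
        _ = δ := by field_simp
    rw [h1, c.n2_smul, hhalf]
    have := c.n2_add_le ((1 - f * p) * x) (x * (1 - f * p))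
    linarith
  · rw [mul_smul_comm, smul_mul_assoc, norm_smul, hhalf, mul_add, add_mul]
    have h1 := norm_add_le (R.q k * (f * p * x) * R.q l) (R.q k * star (f * p * x) * R.q l)
    have h2 : ‖R.q k * star (f * p * x) * R.q l‖ = ‖R.q l * (f * p * x) * R.q k‖ := by
      rw [← norm_star, star_mul, star_mul, star_star, (R.hq.sa k).star_eq, (R.hq.sa l).star_eq,
        mul_assoc (R.q l)]
    linarith [hblock' k l, hblock' l k]

end Vale.Agent.P078
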