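import Vale.Agent.P078b.Cartan
import Vale.Agent.P078b.DMain
import Vale.Agent.P078b.Dec
import Vale.Agent.P078b.PDb
import Vale.Agent.P078b.PDc

open scoped InnerProductSpace ComplexConjugate ComplexOrder
open Filter Topology

set_option linter.unusedSectionVars false
set_option linter.unusedVariables false

namespace Vale.Agent.P078

variable {H : Type*} [NormedAddCommGroup H] [InnerProductSpace ℂ H] [CompleteSpace H]
variable {M : VonNeumannAlgebra H} {A : StarSubalgebra ℂ (H →L[ℂ] H)}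

namespace Ctx
variable (c : Ctx M A)

/-- Simultaneous paving of a regular element and an element with small blocks. -/
theorem pave_pair {h : ℕ} (hh : 1 ≤ h) {δ : ℝ} (hδ : 0 < δ) : ∃ η : ℝ, 0 < η ∧
    ∀ y ∈ c.N0, IsSelfAdjoint y → ‖y‖ ≤ 1 → c.E y = 0 →
    ∀ x ∈ M, IsSelfAdjoint x → ‖x‖ ≤ 1 → ∀ P : Part A, (∀ i j, ‖P.q i * x * P.q j‖ ≤ η) →
    ∃ p : Fin (2 * h) → H →L[ℂ] H, IsPartition A p ∧ ∃ g₁ z₁ g₂ z₂ : H →L[ℂ] H,
      pinch p y = g₁ + z₁ ∧ pinch p x = g₂ + z₂ ∧ z₁ ∈ M ∧ z₂ ∈ M ∧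
      ‖g₁‖ ≤ 18000 / √h ∧ ‖g₂‖ ≤ 24 / √h ∧ c.n2 z₁ < δ ∧ c.n2 z₂ < δ := by
  classical
  have : NeZero h := ⟨by omega⟩
  have hh0 : (0 : ℝ) < h := by exact_mod_cast hh
  set l₁ : ℝ := 2 * (9000 / √(2 * h)) with hl₁
  set l₂ : ℝ := 24 / √h with hl₂
  have hl₁0 : 0 < l₁ := by positivity
  have hl₂0 : 0 < l₂ := by positivity
  obtain ⟨k, hk1, hk⟩ : ∃ k : ℕ, 1 ≤ k ∧ (1 / 4 : ℝ) ^ k < δ ^ 2 / (14 * l₁ ^ 2 + 4 * l₂ ^ 2) := by
    obtain ⟨k, hk⟩ := exists_pow_lt_of_lt_one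
      (show 0 < δ ^ 2 / (14 * l₁ ^ 2 + 4 * l₂ ^ 2) by positivity) (show (1 / 4 : ℝ) < 1 by norm_num)
    exact ⟨k + 1, by omega, lt_of_le_of_lt (pow_le_pow_of_le_one (by norm_num) (by norm_num)
      (by omega)) hk⟩
  rw [lt_div_iff₀ (by positivity)] at hk
  obtain ⟨C, hC0, hC⟩ := diffuse_moment (H := H) (A := A) hk1
  set a₁ : ℝ := l₁ ^ 2 / l₁ ^ (2 * k) with ha₁
  set a₂ : ℝ := l₂ ^ 2 / l₂ ^ (2 * k) with ha₂
  have ha₁0 : 0 < a₁ := by positivity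
  have ha₂0 : 0 < a₂ := by positivity
  refine ⟨δ ^ 2 / 2 / (a₂ * (2 * h) * (C + 1)), by positivity,
    fun y hy hys hy1 hyE x hxM hxs hx1 P hP => ?_⟩
  set η : ℝ := δ ^ 2 / 2 / (a₂ * (2 * h) * (C + 1)) with hη
  have hη0 : 0 < η := by positivity
  obtain ⟨J, _, e, f, π, p, he, hef, hp, hpq, hmom⟩ := c.cartan_part hy hys hy1 hyE h k
    (η := δ ^ 2 / 2 / a₁) (by positivity) P
  have hblock : ∀ i j, ‖e i * x * e j‖ ≤ η := by
    intro i j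
    have h1 : P.q (f j) * e j = e j := by
      rw [c.hA.2.1 _ (P.hq.mem _) _ (he.mem j), hef]
    have h2 : e i * x * e j = e i * (P.q (f i) * x * P.q (f j)) * e j := by
      conv_lhs => rw [← hef i, ← h1]
      simp only [mul_assoc]
    rw [h2]
    calc _ ≤ ‖e i‖ * ‖P.q (f i) * x * P.q (f j)‖ * ‖e j‖ := norm_mul₃_le
      _ ≤ 1 * η * 1 := by
          gcongr
          exacts [(he.proj i).norm_le, hP _ _, (he.proj j).norm_le]
      _ = η := by ring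
  have hD := hC J e he x hx1 η hη0.le hblock c.φ c.norm_φ_le (c.φ_pinch he) h
  set Q : (J → ZMod h) → H →L[ℂ] H := fun u => ∑ i with u i = 0, e i with hQ
  set G : (J → ZMod h) → ℝ := fun u => (c.φ ((Q u * x * Q u) ^ (2 * k))).re with hG
  set Bd : ℝ := C * η + 144 ^ k / h ^ (k + 1) with hBd
  obtain ⟨u, -, hu⟩ : ∃ u ∈ (Finset.univ : Finset (J → ZMod h)),
      ∑ σ, G (π σ u) ≤ 2 * h * Bd := by
    refine Finset.exists_le_of_sum_le Finset.univ_nonempty ?_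
    rw [Finset.sum_comm]
    calc ∑ σ : Fin (2 * h), ∑ u, G (π σ u) = ∑ σ : Fin (2 * h), ∑ u, G u :=
          Finset.sum_congr rfl fun σ _ => Equiv.sum_comp (π σ) G
      _ ≤ ∑ σ : Fin (2 * h), Fintype.card (J → ZMod h) * Bd := Finset.sum_le_sum fun σ _ => hD
      _ = _ := by
          simp only [Finset.sum_const, Finset.card_univ, Fintype.card_fin, nsmul_eq_mul]
          push_cast
          ring
  have hyM := c.mem_of_N0 hy
  obtain ⟨g₁, z₁, hz₁, hgz₁, hg₁, hn₁⟩ := c.exists_clip ((hp u).pinch_mem c.hA hyM)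
    ((hp u).pinch_sa hys) hl₁0 hk1
  have hQP : ∀ u, IsP A (Q u) := fun u => he.isP_sum _
  have hclip := fun σ : Fin (2 * h) => c.exists_clip (g := Q (π σ u) * x * Q (π σ u))
    (mul_mem (mul_mem (c.hA.1 _ (hQP _).1) hxM) (c.hA.1 _ (hQP _).1))
    (by rw [IsSelfAdjoint, star_mul, star_mul, (hQP _).2.isSelfAdjoint.star_eq, hxs.star_eq,
      mul_assoc]) hl₂0 hk1
  choose g₂ z₂ hz₂ hgz₂ hg₂ hn₂ using hclip
  refine ⟨p u, hp u, g₁, z₁, ∑ σ, p u σ * g₂ σ * p u σ, ∑ σ, p u σ * z₂ σ * p u σ, hgz₁, ?_, hz₁,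
    sum_mem fun σ _ => mul_mem (mul_mem (c.hA.1 _ ((hp u).mem σ)) (hz₂ σ))
      (c.hA.1 _ ((hp u).mem σ)), hg₁.trans ?_, ?_, ?_, ?_⟩
  · rw [pinch, ← Finset.sum_add_distrib]
    refine Finset.sum_congr rfl fun σ _ => ?_
    rw [← add_mul, ← mul_add, ← hgz₂]
    have h1 : p u σ * Q (π σ u) = p u σ := hpq u σ
    have h2 : Q (π σ u) * p u σ = p u σ := by
      rw [c.hA.2.1 _ (hQP _).1 _ ((hp u).mem σ), h1]
    calc p u σ * x * p u σ = (p u σ * Q (π σ u)) * x * (Q (π σ u) * p u σ) := by rw [h1, h2]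
      _ = _ := by simp only [mul_assoc]
  · rw [hl₁, show (18000 : ℝ) / √h = 2 * (9000 / √h) by ring]
    gcongr
    linarith
  · refine norm_pinch_le_of_block (hp u) hl₂0.le fun σ => ?_
    calc _ ≤ ‖p u σ‖ * ‖g₂ σ‖ * ‖p u σ‖ := norm_mul₃_le
      _ ≤ 1 * l₂ * 1 := by
          gcongr
          exacts [((hp u).proj σ).norm_le, hg₂ σ, ((hp u).proj σ).norm_le]
      _ = l₂ := by ring
  · refine lt_of_pow_lt_pow_left₀ 2 hδ.le (hn₁.trans_lt ?_)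
    have h1 := mul_le_mul_of_nonneg_left (hmom u) ha₁0.le
    have h2 : a₁ * (7 * (9000 / √(2 * h)) ^ (2 * k)) = 7 * l₁ ^ 2 * (1 / 4) ^ k := by
      have h3 : (9000 / √(2 * h) : ℝ) ^ (2 * k) = l₁ ^ (2 * k) * (1 / 4) ^ k := by
        rw [hl₁, mul_pow, pow_mul 2 2 k, mul_comm ((2 ^ 2 : ℝ) ^ k), mul_assoc, ← mul_pow]
        norm_num
      rw [h3, ha₁]
      field_simp
    have h4 : a₁ * (δ ^ 2 / 2 / a₁) = δ ^ 2 / 2 := by field_simp
    rw [mul_add, h2, h4] at h1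
    have h5 : 0 ≤ (1 / 4 : ℝ) ^ k * l₂ ^ 2 := by positivity
    nlinarith
  · refine lt_of_pow_lt_pow_left₀ 2 hδ.le ((c.n2_sum_block (hp u) z₂).trans_lt ?_)
    have h1 : ∑ σ, c.n2 (z₂ σ) ^ 2 ≤ a₂ * (2 * h * Bd) := by
      refine (Finset.sum_le_sum fun σ _ => hn₂ σ).trans ?_
      rw [← Finset.mul_sum]
      exact mul_le_mul_of_nonneg_left hu ha₂0.le
    have h2 : a₂ * (2 * h * (144 ^ k / h ^ (k + 1))) = 2 * l₂ ^ 2 * (1 / 4) ^ k := by
      have h3 : l₂ ^ (2 * k) = 144 ^ k * 4 ^ k / h ^ k := by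
        rw [pow_mul, hl₂, div_pow, Real.sq_sqrt hh0.le, div_pow, ← mul_pow]
        norm_num
      rw [ha₂, h3, one_div, inv_pow]
      field_simp
      ring
    have h4 : a₂ * (2 * h * (C * η)) ≤ δ ^ 2 / 2 := by
      have : a₂ * (2 * h * (C * η)) = δ ^ 2 / 2 * (C / (C + 1)) := by rw [hη]; field_simp
      rw [this]
      refine mul_le_of_le_one_right (by positivity) ?_
      rw [div_le_one (by positivity)]
      linarith
    rw [hBd, mul_add, mul_add, h2] at h1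
    have h5 : 0 ≤ (1 / 4 : ℝ) ^ k * l₁ ^ 2 := by positivity
    nlinarith

theorem core_approx {h : ℕ} (hh : 1 ≤ h) {x : H →L[ℂ] H} (hxM : x ∈ M) (hx : IsSelfAdjoint x)
    (hx1 : ‖x‖ ≤ 1) {δ : ℝ} (hδ : 0 < δ) :
    ∃ p : Fin (2 * h) → H →L[ℂ] H, IsPartition A p ∧ ∃ g z : H →L[ℂ] H,
      z ∈ M ∧ pinch p x - c.E x = g + z ∧ ‖g‖ ≤ 80000 / √h ∧ c.n2 z < δ := by
  obtain ⟨η, hη, hpair⟩ := c.pave_pair hh (δ := δ / 10) (by positivity)
  obtain ⟨x', hx'M, hx's, hx'3, horth, happ⟩ := c.exists_decomp hxM hx hx1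
  obtain ⟨y, hy, hys, hy2, hyn⟩ := happ (δ / 10) (by positivity)
  obtain ⟨x'', hx''M, hx''s, hx''3, hx''n, P, hP⟩ := c.exists_small_blocks hx'M hx's
    (c.thin_of_orth hx'M horth) hη (δ := δ / 10) (by positivity)
  have hyM := c.mem_of_N0 hy
  have hEy := c.E_mem hyM
  have hEx' : c.E x' = 0 := by simpa using horth 1 (isGb_proj IsP.one)
  obtain ⟨p, hp, g₁, z₁, g₂, z₂, h1, h2, hz₁, hz₂, hg₁, hg₂, hn₁, hn₂⟩ :=
    hpair ((1 / 4 : ℂ) • (y - c.E y)) (c.N0.smul_mem (sub_mem hy (c.mem_N0_of_mem hEy)) _)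
      (by rw [IsSelfAdjoint, star_smul, star_sub, ← c.E_star, hys.star_eq]; simp)
      (by
        rw [norm_smul]
        have h3 := (norm_sub_le y (c.E y)).trans (add_le_add hy2 ((c.norm_E_le y).trans hy2))
        have h4 : ‖(1 / 4 : ℂ)‖ = 1 / 4 := by simp
        rw [h4]; linarith)
      (by rw [map_smul, map_sub, c.E_of_mem hEy, sub_self, smul_zero])
      ((1 / 3 : ℂ) • x'') (smul_mem_vN _ hx''M)
      (by rw [IsSelfAdjoint, star_smul, hx''s.star_eq]; simp)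
      (by
        rw [norm_smul]
        have h4 : ‖(1 / 3 : ℂ)‖ = 1 / 3 := by simp
        rw [h4]; linarith)
      P (fun i j => by
        rw [mul_smul_comm, smul_mul_assoc, norm_smul]
        have h4 : ‖(1 / 3 : ℂ)‖ = 1 / 3 := by simp
        have := hP i j
        rw [h4]; linarith)
  have hrM : x - x' - y ∈ M := sub_mem (sub_mem hxM hx'M) hyM
  refine ⟨p, hp, (4 : ℂ) • g₁ + (3 : ℂ) • g₂, (4 : ℂ) • z₁ + (3 : ℂ) • z₂ + pinch p (x - x' - y) +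
    pinch p (x' - x'') - c.E (x - x' - y), ?_, ?_, ?_, ?_⟩
  · exact sub_mem (add_mem (add_mem (add_mem (smul_mem_vN _ hz₁) (smul_mem_vN _ hz₂))
      (hp.pinch_mem c.hA hrM)) (hp.pinch_mem c.hA (sub_mem hx'M hx''M))) (c.hA.1 _ (c.E_mem hrM))
  · have h3 : pinch p y - c.E y = (4 : ℂ) • (g₁ + z₁) := by
      rw [← h1, pinch_smul, smul_smul, pinch_sub, hp.pinch_of_mem c.hA hEy]
      norm_num
    have h4 : pinch p x'' = (3 : ℂ) • (g₂ + z₂) := by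
      rw [← h2, pinch_smul, smul_smul]
      norm_num
    simp only [pinch_sub, map_sub, hEx']
    rw [h4, sub_eq_iff_eq_add.1 h3]
    module
  · calc _ ≤ ‖(4 : ℂ) • g₁‖ + ‖(3 : ℂ) • g₂‖ := norm_add_le _ _
      _ = 4 * ‖g₁‖ + 3 * ‖g₂‖ := by simp [norm_smul]
      _ ≤ 4 * (18000 / √h) + 3 * (24 / √h) := by gcongr
      _ = 72072 / √h := by ring
      _ ≤ 80000 / √h := by gcongr; norm_num
  · have h3 := c.n2_sub_le ((4 : ℂ) • z₁ + (3 : ℂ) • z₂ + pinch p (x - x' - y) +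
      pinch p (x' - x'')) (c.E (x - x' - y))
    have h4 := c.n2_add_le ((4 : ℂ) • z₁ + (3 : ℂ) • z₂ + pinch p (x - x' - y)) (pinch p (x' - x''))
    have h5 := c.n2_add_le ((4 : ℂ) • z₁ + (3 : ℂ) • z₂) (pinch p (x - x' - y))
    have h6 := c.n2_add_le ((4 : ℂ) • z₁) ((3 : ℂ) • z₂)
    have h7 := c.n2_pinch_le hp (x - x' - y)
    have h8 := c.n2_pinch_le hp (x' - x'')
    have h9 := c.n2_E_le hrM
    rw [c.n2_smul, c.n2_smul] at h6
    simp only [Complex.norm_ofNat] at h6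
    linarith

include c in
theorem core {h : ℕ} (hh : 1 ≤ h) {ε : ℝ} (hε : 80000 / √h < ε) {x : H →L[ℂ] H} (hxM : x ∈ M)
    (hx : IsSelfAdjoint x) : SoPavable M A x ε (2 * h) := by
  by_cases h0 : x = 0
  · rw [h0]; exact soPavable_zero M A ε (by omega)
  have hn : 0 < ‖x‖ := norm_pos_iff.2 h0
  have hn' : ((‖x‖ : ℝ) : ℂ) ≠ 0 := by exact_mod_cast hn.ne'
  refine c.soPavable_of_approx hxM hx (ε' := 80000 / √h * ‖x‖) (by gcongr) fun δ hδ => ?_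
  obtain ⟨p, hp, g, z, hz, h1, h2, h3⟩ := c.core_approx hh (x := ((‖x‖ : ℝ) : ℂ)⁻¹ • x)
    (smul_mem_vN _ hxM) (by rw [IsSelfAdjoint, star_smul, hx.star_eq]; simp)
    (by rw [norm_smul, norm_inv, Complex.norm_real, norm_norm, inv_mul_cancel₀ hn.ne'])
    (δ := δ / ‖x‖) (by positivity)
  refine ⟨p, hp, ((‖x‖ : ℝ) : ℂ) • g, ((‖x‖ : ℝ) : ℂ) • z, smul_mem_vN _ hz, ?_, ?_, ?_⟩
  · rw [← smul_add, ← h1, pinch_smul, map_smul, ← smul_sub, smul_smul, mul_inv_cancel₀ hn',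
      one_smul]
  · rw [norm_smul, Complex.norm_real, norm_norm, mul_comm]
    gcongr
  · rw [c.n2_smul, Complex.norm_real, norm_norm, mul_comm]
    exact (lt_div_iff₀ hn).1 h3

end Ctx

end Vale.Agent.P078
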