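import Vale.Agent.P078b.MasA

open scoped InnerProductSpace ComplexConjugate ComplexOrder
open Filter Topology

set_option linter.unusedSectionVars false
set_option linter.unusedVariables false

namespace Vale.Agent.P078

variable {H : Type*} [NormedAddCommGroup H] [InnerProductSpace ℂ H] [CompleteSpace H]
variable {M : VonNeumannAlgebra H} {A : StarSubalgebra ℂ (H →L[ℂ] H)}

namespace Ctx
variable (c : Ctx M A)

theorem E_mem {T : H →L[ℂ] H} (hT : T ∈ M) : c.E T ∈ A :=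
  condE_mem c.hA hT

theorem E_left {a : H →L[ℂ] H} (ha : a ∈ A) (T : H →L[ℂ] H) : c.E (a * T) = a * c.E T := by
  have := condE_bimod c.hA ha (one_mem A) T
  rwa [mul_one, mul_one] at this

theorem E_right {a : H →L[ℂ] H} (ha : a ∈ A) (T : H →L[ℂ] H) : c.E (T * a) = c.E T * a := by
  have := condE_bimod c.hA (one_mem A) ha T
  rwa [one_mul, one_mul] at this

theorem E_commute {a : H →L[ℂ] H} (ha : a ∈ A) (T : H →L[ℂ] H) : a * c.E T = c.E T * a :=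
  c.hA.commute_of_proj (fun e heA he => (wlim_condE c.hA T).commute
    ((eventually_adapted c.hA heA he).mono fun s hs =>
      hs.commute_pinch (netPart c.hA s).hq he.isSelfAdjoint T)) a ha

theorem E_comm {a : H →L[ℂ] H} (ha : a ∈ A) (T : H →L[ℂ] H) : c.E (a * T) = c.E (T * a) := by
  rw [c.E_left ha, c.E_right ha, c.E_commute ha]

theorem E_of_mem {a : H →L[ℂ] H} (ha : a ∈ A) : c.E a = a :=
  condE_of_mem c.hA ha

theorem E_star (T : H →L[ℂ] H) : c.E (star T) = star (c.E T) :=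
  (condE_star c.hA T).symm

theorem E_nonneg {T : H →L[ℂ] H} (hT : 0 ≤ T) : 0 ≤ c.E T :=
  (ContinuousLinearMap.nonneg_iff_isPositive _).2
    (condE_pos c.hA ((ContinuousLinearMap.nonneg_iff_isPositive _).1 hT))

theorem E_mono {S T : H →L[ℂ] H} (h : S ≤ T) : c.E S ≤ c.E T := by
  rw [← sub_nonneg, ← map_sub]
  exact c.E_nonneg (sub_nonneg.2 h)

theorem norm_E_le (T : H →L[ℂ] H) : ‖c.E T‖ ≤ ‖T‖ :=
  norm_condE_le c.hA T

theorem E_pinch {ι : Type} [Fintype ι] {p : ι → H →L[ℂ] H} (hp : IsPartition A p)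
    (T : H →L[ℂ] H) : c.E (pinch p T) = c.E T :=
  condE_pinch c.hA hp T

theorem wlim_pinch (T : H →L[ℂ] H) :
    WLim (netU A : Filter _) (fun s => pinch (netPart c.hA s).q T) (c.E T) :=
  wlim_condE c.hA T

/-- Normality of the expectation. -/
theorem E_wlim {α : Type*} {l : Filter α} {y : α → H →L[ℂ] H} {z : H →L[ℂ] H} {C : ℝ}
    (hz : z ∈ M) (hzC : ‖z‖ ≤ C) (hy : ∀ᶠ a in l, y a ∈ M ∧ ‖y a‖ ≤ C) (h : WLim l y z) :
    WLim l (fun a => c.E (y a)) (c.E z) := by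
  intro w v
  have := (c.good.2.2 w v).tendsto hz hzC hy h
  simp only [mul_one] at this
  exact this

theorem φ_apply (T : H →L[ℂ] H) : c.φ T = ∑ i, ⟪c.ξ i, c.E T (c.ξ i)⟫_ℂ :=
  rfl

theorem φ_E {T : H →L[ℂ] H} (hT : T ∈ M) : c.φ (c.E T) = c.φ T := by
  rw [c.φ_apply, c.φ_apply, c.E_of_mem (c.E_mem hT)]

theorem φ_star (T : H →L[ℂ] H) : c.φ (star T) = conj (c.φ T) := by
  rw [c.φ_apply, c.φ_apply, c.E_star, map_sum]
  refine Finset.sum_congr rfl fun i _ => ?_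
  rw [inner_star_right, inner_conj_symm]

theorem ctxa_vec_nonneg {T : H →L[ℂ] H} (hT : 0 ≤ T) : 0 ≤ ∑ i, ⟪c.ξ i, T (c.ξ i)⟫_ℂ :=
  Finset.sum_nonneg fun i _ =>
    ((ContinuousLinearMap.nonneg_iff_isPositive _).1 hT).inner_nonneg_right _

theorem φ_nonneg {T : H →L[ℂ] H} (hT : 0 ≤ T) : 0 ≤ c.φ T :=
  c.ctxa_vec_nonneg (c.E_nonneg hT)

theorem φ_re_nonneg {T : H →L[ℂ] H} (hT : 0 ≤ T) : 0 ≤ (c.φ T).re :=
  (Complex.nonneg_iff.1 (c.φ_nonneg hT)).1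

theorem φ_re_mono {S T : H →L[ℂ] H} (h : S ≤ T) : (c.φ S).re ≤ (c.φ T).re := by
  have := c.φ_re_nonneg (sub_nonneg.2 h)
  rw [map_sub, Complex.sub_re] at this
  linarith

theorem φ_comm {a : H →L[ℂ] H} (ha : a ∈ A) (T : H →L[ℂ] H) : c.φ (a * T) = c.φ (T * a) := by
  rw [c.φ_apply, c.φ_apply, c.E_comm ha]

theorem norm_φ_le (T : H →L[ℂ] H) : ‖c.φ T‖ ≤ ‖T‖ := by
  rw [c.φ_apply]
  refine (norm_sum_le _ _).trans ?_
  calc ∑ i, ‖⟪c.ξ i, c.E T (c.ξ i)⟫_ℂ‖ ≤ ∑ i, ‖T‖ * ‖c.ξ i‖ ^ 2 := by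
        refine Finset.sum_le_sum fun i _ => ?_
        calc ‖⟪c.ξ i, c.E T (c.ξ i)⟫_ℂ‖ ≤ ‖c.ξ i‖ * ‖c.E T (c.ξ i)‖ := norm_inner_le_norm _ _
          _ ≤ ‖c.ξ i‖ * (‖c.E T‖ * ‖c.ξ i‖) := by
              gcongr
              exact (c.E T).le_opNorm _
          _ ≤ ‖c.ξ i‖ * (‖T‖ * ‖c.ξ i‖) := by
              gcongr
              exact c.norm_E_le T
          _ = ‖T‖ * ‖c.ξ i‖ ^ 2 := by ring
    _ ≤ ‖T‖ := by
        rw [← Finset.mul_sum]
        exact mul_le_of_le_one_right (norm_nonneg _) c.norm_le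

theorem φ_pinch {ι : Type} [Fintype ι] {p : ι → H →L[ℂ] H} (hp : IsPartition A p)
    (T : H →L[ℂ] H) : c.φ (pinch p T) = c.φ T := by
  rw [c.φ_apply, c.φ_apply, c.E_pinch hp]

theorem φ_normal {a b : H →L[ℂ] H} (ha : a ∈ M) (hb : b ∈ M) :
    NormalFn M fun T => c.φ (a * T * b) := by
  intro l z C hz hzC hy h
  have hC : 0 ≤ C := (norm_nonneg _).trans hzC
  have hn : ∀ y : H →L[ℂ] H, ‖y‖ ≤ C → ‖a * y * b‖ ≤ ‖a‖ * C * ‖b‖ := fun y hy =>
    (norm_mul_le _ _).trans (mul_le_mul_of_nonneg_right ((norm_mul_le _ _).trans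
      (mul_le_mul_of_nonneg_left hy (norm_nonneg _))) (norm_nonneg _))
  exact (c.E_wlim (mul_mem (mul_mem ha hz) hb) (hn z hzC)
    (hy.mono fun y hy => ⟨mul_mem (mul_mem ha hy.1) hb, hn y hy.2⟩)
    ((h.mul_left a).mul_right b)).vecFn c.ξ c.ξ

theorem φ_tendsto {α : Type*} {l : Filter α} {y : α → H →L[ℂ] H} {z : H →L[ℂ] H} {C : ℝ}
    (hz : z ∈ M) (hzC : ‖z‖ ≤ C) (hy : ∀ᶠ a in l, y a ∈ M ∧ ‖y a‖ ≤ C) (h : WLim l y z)
    {a b : H →L[ℂ] H} (ha : a ∈ M) (hb : b ∈ M) :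
    Tendsto (fun i => c.φ (a * y i * b)) l (𝓝 (c.φ (a * z * b))) :=
  (c.φ_normal ha hb).tendsto hz hzC hy h

theorem n2_nonneg (T : H →L[ℂ] H) : 0 ≤ c.n2 T :=
  Real.sqrt_nonneg _

theorem n2_sq (T : H →L[ℂ] H) : c.n2 T ^ 2 = (c.φ (star T * T)).re :=
  Real.sq_sqrt (c.φ_re_nonneg (star_mul_self_nonneg T))

theorem ctxa_add_sq (S T : H →L[ℂ] H) :
    c.n2 (S + T) ^ 2 = c.n2 S ^ 2 + 2 * (c.φ (star S * T)).re + c.n2 T ^ 2 := by
  have h1 : (c.φ (star T * S)).re = (c.φ (star S * T)).re := by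
    rw [← Complex.conj_re, ← c.φ_star, star_mul, star_star]
  rw [c.n2_sq, c.n2_sq, c.n2_sq, star_add, add_mul, mul_add, mul_add, map_add, map_add, map_add]
  simp only [Complex.add_re, h1]
  ring

theorem ctxa_smul (z : ℂ) (T : H →L[ℂ] H) : c.n2 (z • T) = ‖z‖ * c.n2 T := by
  unfold Ctx.n2
  rw [star_smul, smul_mul_smul_comm, map_smul, smul_eq_mul, Complex.star_def, Complex.conj_mul',
    ← Complex.ofReal_pow, Complex.re_ofReal_mul, Real.sqrt_mul (sq_nonneg _),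
    Real.sqrt_sq (norm_nonneg _)]

theorem ctxa_le_of_sq {T : H →L[ℂ] H} {r : ℝ} (hr : 0 ≤ r) (h : c.n2 T ^ 2 ≤ r ^ 2) :
    c.n2 T ≤ r :=
  (abs_le_of_sq_le_sq' h hr).2

theorem ctxa_rsmul (r : ℝ) (T : H →L[ℂ] H) : (c.φ (r • T)).re = r * (c.φ T).re := by
  rw [← Complex.coe_smul, map_smul, smul_eq_mul, Complex.re_ofReal_mul]

theorem norm_φ_star_mul_le (S T : H →L[ℂ] H) : ‖c.φ (star S * T)‖ ≤ c.n2 S * c.n2 T := by
  set w := c.φ (star S * T) with hw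
  have h1 : ∀ t : ℝ, 0 ≤ c.n2 S ^ 2 * (t * t) + 2 * ‖w‖ ^ 2 * t + ‖w‖ ^ 2 * c.n2 T ^ 2 := by
    intro t
    have h2 := c.ctxa_add_sq ((t : ℂ) • S) (conj w • T)
    rw [c.ctxa_smul, c.ctxa_smul, star_smul, smul_mul_smul_comm, map_smul, ← hw, smul_eq_mul,
      Complex.star_def, Complex.conj_ofReal, mul_assoc, Complex.conj_mul', ← Complex.ofReal_pow,
      ← Complex.ofReal_mul, Complex.ofReal_re, Complex.norm_conj, Complex.norm_real,
      Real.norm_eq_abs, mul_pow, mul_pow, sq_abs] at h2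
    nlinarith [sq_nonneg (c.n2 ((t : ℂ) • S + conj w • T))]
  have h3 := discrim_le_zero h1
  rw [discrim] at h3
  rcases (norm_nonneg w).eq_or_lt with h0 | h0
  · rw [← h0]
    exact mul_nonneg (c.n2_nonneg S) (c.n2_nonneg T)
  · refine (abs_le_of_sq_le_sq' ?_ (mul_nonneg (c.n2_nonneg S) (c.n2_nonneg T))).2
    have h4 : 0 < ‖w‖ ^ 2 := by positivity
    refine le_of_mul_le_mul_left ?_ h4
    nlinarith

theorem n2_add_sq (S T : H →L[ℂ] H) :
    c.n2 (S + T) ^ 2 = c.n2 S ^ 2 + 2 * (c.φ (star S * T)).re + c.n2 T ^ 2 :=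
  c.ctxa_add_sq S T

theorem n2_add_le (S T : H →L[ℂ] H) : c.n2 (S + T) ≤ c.n2 S + c.n2 T := by
  refine c.ctxa_le_of_sq (add_nonneg (c.n2_nonneg S) (c.n2_nonneg T)) ?_
  rw [c.n2_add_sq]
  have := (Complex.re_le_norm _).trans (c.norm_φ_star_mul_le S T)
  nlinarith

theorem n2_smul (z : ℂ) (T : H →L[ℂ] H) : c.n2 (z • T) = ‖z‖ * c.n2 T :=
  c.ctxa_smul z T

theorem n2_neg (T : H →L[ℂ] H) : c.n2 (-T) = c.n2 T := by
  unfold Ctx.n2
  rw [star_neg, neg_mul_neg]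

theorem n2_sub_le (S T : H →L[ℂ] H) : c.n2 (S - T) ≤ c.n2 S + c.n2 T := by
  rw [sub_eq_add_neg, ← c.n2_neg T]
  exact c.n2_add_le S (-T)

theorem n2_le_norm (T : H →L[ℂ] H) : c.n2 T ≤ ‖T‖ := by
  refine c.ctxa_le_of_sq (norm_nonneg _) ?_
  rw [c.n2_sq, sq, ← CStarRing.norm_star_mul_self]
  exact (Complex.re_le_norm _).trans (c.norm_φ_le _)

theorem n2_mul_left (a T : H →L[ℂ] H) : c.n2 (a * T) ≤ ‖a‖ * c.n2 T := by
  refine c.ctxa_le_of_sq (mul_nonneg (norm_nonneg _) (c.n2_nonneg T)) ?_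
  rw [mul_pow, c.n2_sq, c.n2_sq, sq, ← CStarRing.norm_star_mul_self, ← c.ctxa_rsmul]
  refine c.φ_re_mono ?_
  have := CStarAlgebra.star_left_conjugate_le_norm_smul (a := T) (b := star a * a)
    (IsSelfAdjoint.star_mul_self a)
  rwa [star_mul, mul_assoc, ← mul_assoc (star a), ← mul_assoc]

theorem ctxa_mul_nonneg {S d : H →L[ℂ] H} (hS : 0 ≤ S) (hd : d ∈ A) (hd0 : 0 ≤ d) :
    0 ≤ c.φ (S * d) := by
  rw [c.φ_apply, c.E_right hd]
  exact c.ctxa_vec_nonneg (Commute.mul_nonneg (c.E_nonneg hS) hd0 (c.E_commute hd S).symm)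

theorem n2_mul_right {a : H →L[ℂ] H} (ha : a ∈ A) (T : H →L[ℂ] H) :
    c.n2 (T * a) ≤ ‖a‖ * c.n2 T := by
  refine c.ctxa_le_of_sq (mul_nonneg (norm_nonneg _) (c.n2_nonneg T)) ?_
  have h1 : 0 ≤ (‖a‖ ^ 2 : ℝ) • (1 : H →L[ℂ] H) - a * star a := by
    rw [sub_nonneg, ← Algebra.algebraMap_eq_smul_one, sq, ← CStarRing.norm_self_mul_star]
    exact IsSelfAdjoint.le_algebraMap_norm_self (IsSelfAdjoint.mul_star_self a)
  have h2 := (Complex.nonneg_iff.1 (c.ctxa_mul_nonneg (star_mul_self_nonneg T)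
    (sub_mem (rsmul_mem_sub _ (one_mem A)) (mul_mem ha (star_mem ha))) h1)).1
  rw [mul_sub, mul_smul_comm, mul_one, map_sub, Complex.sub_re, c.ctxa_rsmul] at h2
  rw [mul_pow, c.n2_sq, c.n2_sq, star_mul, mul_assoc, c.φ_comm (star_mem ha)]
  simp only [mul_assoc] at h2 ⊢
  linarith

theorem ctxa_mul_E {a T : H →L[ℂ] H} (ha : a ∈ A) (hT : T ∈ M) :
    c.φ (a * c.E T) = c.φ (a * T) := by
  rw [c.φ_apply, c.φ_apply, c.E_left ha, c.E_left ha, c.E_of_mem (c.E_mem hT)]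

theorem n2_E_le {T : H →L[ℂ] H} (hT : T ∈ M) : c.n2 (c.E T) ≤ c.n2 T := by
  have h1 := (Complex.re_le_norm _).trans (c.norm_φ_star_mul_le (c.E T) T)
  rw [← c.ctxa_mul_E (star_mem (c.E_mem hT)) hT, ← c.n2_sq] at h1
  rcases (c.n2_nonneg (c.E T)).eq_or_lt with h0 | h0
  · rw [← h0]
    exact c.n2_nonneg T
  · rw [sq] at h1
    exact le_of_mul_le_mul_left h1 h0

theorem ctxa_block {ι : Type} [Fintype ι] {p : ι → H →L[ℂ] H} (hp : IsPartition A p)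
    (T : ι → H →L[ℂ] H) :
    c.n2 (∑ i, p i * T i * p i) ^ 2 = ∑ i, c.n2 (p i * T i * p i) ^ 2 := by
  simp only [c.n2_sq]
  rw [← Complex.re_sum, ← map_sum, star_sum, Finset.sum_mul]
  congr 2
  refine Finset.sum_congr rfl fun i _ => ?_
  rw [Finset.mul_sum, Finset.sum_eq_single i]
  · intro j _ hj
    rw [star_mul, star_mul, (hp.sa i).star_eq]
    simp only [mul_assoc]
    rw [← mul_assoc (p i) (p j), hp.2.1 i j hj.symm, zero_mul, mul_zero, mul_zero]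
  · simp

theorem ctxa_proj_left {e : H →L[ℂ] H} (he : IsStarProjection e) (T S : H →L[ℂ] H) :
    c.n2 (e * T * S) ≤ c.n2 (T * S) := by
  rw [mul_assoc]
  exact (c.n2_mul_left _ _).trans (mul_le_of_le_one_left (c.n2_nonneg _) he.norm_le)

theorem n2_sum_block {ι : Type} [Fintype ι] {p : ι → H →L[ℂ] H} (hp : IsPartition A p)
    (T : ι → H →L[ℂ] H) : c.n2 (∑ i, p i * T i * p i) ^ 2 ≤ ∑ i, c.n2 (T i) ^ 2 := by
  rw [c.ctxa_block hp]
  refine Finset.sum_le_sum fun i _ => pow_le_pow_left₀ (c.n2_nonneg _) ?_ 2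
  refine (c.ctxa_proj_left (hp.proj i) _ _).trans ((c.n2_mul_right (hp.mem i) _).trans ?_)
  exact mul_le_of_le_one_left (c.n2_nonneg _) (hp.proj i).norm_le

theorem n2_pinch_le {ι : Type} [Fintype ι] {p : ι → H →L[ℂ] H} (hp : IsPartition A p)
    (T : H →L[ℂ] H) : c.n2 (pinch p T) ≤ c.n2 T := by
  refine c.ctxa_le_of_sq (c.n2_nonneg T) ?_
  unfold pinch
  rw [c.ctxa_block hp fun _ => T, c.n2_sq T, ← c.φ_pinch hp, pinch, map_sum, Complex.re_sum]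
  refine Finset.sum_le_sum fun i _ => ?_
  refine (pow_le_pow_left₀ (c.n2_nonneg _) (c.ctxa_proj_left (hp.proj i) _ _) 2).trans ?_
  rw [c.n2_sq, star_mul, (hp.sa i).star_eq]
  simp only [mul_assoc, le_refl]

theorem faithA {a : H →L[ℂ] H} (ha : a ∈ A) (h : (c.φ (star a * a)).re = 0) : a = 0 := by
  rw [c.φ_apply, c.E_of_mem (mul_mem (star_mem ha) ha), Complex.re_sum] at h
  simp only [re_inner_star_mul_self] at h
  refine c.faith a ha fun i => ?_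
  have := (Finset.sum_eq_zero_iff_of_nonneg fun i _ => sq_nonneg ‖a (c.ξ i)‖).1 h i
    (Finset.mem_univ i)
  simpa using this

theorem faithA_nonneg {a : H →L[ℂ] H} (ha : a ∈ A) (h0 : 0 ≤ a) (h : (c.φ a).re = 0) :
    a = 0 := by
  have hc1 : ContinuousOn (fun t : ℝ => √t) (spectrum ℝ a) := Real.continuous_sqrt.continuousOn
  have h1 : star (cfc (fun t : ℝ => √t) a) * cfc (fun t : ℝ => √t) a = a := by
    rw [IsSelfAdjoint.cfc.star_eq, ← cfc_mul _ _ a hc1 hc1]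
    conv_rhs => rw [← cfc_id ℝ a h0.isSelfAdjoint]
    exact cfc_congr fun x hx => Real.mul_self_sqrt (spectrum_nonneg_of_nonneg h0 hx)
  have h2 := c.faithA (c.hA.cfc_mem ha fun t : ℝ => √t) (by rw [h1]; exact h)
  rw [← h1, h2, mul_zero]

theorem eq_of_φ {a b : H →L[ℂ] H} (ha : a ∈ A) (hb : b ∈ A)
    (h : ∀ d ∈ A, c.φ (a * d) = c.φ (b * d)) : a = b := by
  have h1 := star_mem (sub_mem ha hb)
  have h2 := c.faithA h1 (by rw [star_star, sub_mul, map_sub, h _ h1, sub_self, Complex.zero_re])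
  exact sub_eq_zero.1 (star_eq_zero.1 h2)

theorem nonneg_of_φ {a : H →L[ℂ] H} (ha : a ∈ A) (h : ∀ e, IsP A e → 0 ≤ c.φ (a * e)) :
    0 ≤ a := by
  have hn : ∀ b : H →L[ℂ] H, ‖b‖ ≤ ‖a‖ → ∀ d ∈ A,
      ‖(c.φ ∘ₗ LinearMap.mulLeft ℂ b) d‖ ≤ ‖a‖ * ‖d‖ := fun b hb d _ =>
    (c.norm_φ_le _).trans ((norm_mul_le _ _).trans
      (mul_le_mul_of_nonneg_right hb (norm_nonneg _)))
  have hsa : IsSelfAdjoint a := by
    refine c.eq_of_φ (star_mem ha) ha (c.hA.ext_of_proj (hn (star a) (norm_star a).le)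
      (hn a le_rfl) fun e he => ?_)
    show c.φ (star a * e) = c.φ (a * e)
    rw [← c.φ_comm he.1, ← he.2.isSelfAdjoint.star_eq, ← star_mul, c.φ_star,
      he.2.isSelfAdjoint.star_eq]
    exact Complex.conj_eq_iff_im.2 (Complex.nonneg_iff.1 (h e he)).2.symm
  obtain ⟨e, he, h1, h2⟩ := c.hA.exists_cut ha hsa 0
  rw [Complex.ofReal_zero, zero_smul] at h1 h2
  have h3 := c.faithA_nonneg (neg_mem (mul_mem ha he.one_sub.1)) (neg_nonneg.2 h2) (by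
    refine le_antisymm ?_ (c.φ_re_nonneg (neg_nonneg.2 h2))
    rw [map_neg, Complex.neg_re, neg_nonpos]
    exact (Complex.nonneg_iff.1 (h _ he.one_sub)).1)
  rw [neg_eq_zero, mul_sub, mul_one, sub_eq_zero] at h3
  rwa [← h3] at h1

/-- Pinchings converge to the expectation in `L²`. -/
theorem tendsto_n2_pinch {T : H →L[ℂ] H} (hT : T ∈ M) :
    Tendsto (fun s => c.n2 (pinch (netPart c.hA s).q T - c.E T)) (netU A : Filter _) (𝓝 0) := by
  have hE := c.E_mem hT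
  have h1 : ∀ s, c.n2 (pinch (netPart c.hA s).q T - c.E T) =
      √((c.φ (star T * pinch (netPart c.hA s).q T * 1)).re - c.n2 (c.E T) ^ 2) := by
    intro s
    have hp := (netPart c.hA s).hq
    set p := (netPart c.hA s).q
    rw [← Real.sqrt_sq (c.n2_nonneg (pinch p T - c.E T))]
    congr 1
    have h2 : c.φ (star T * pinch p T * 1) = c.φ (star (pinch p T) * pinch p T) := by
      rw [mul_one, ← c.φ_pinch hp (star T * pinch p T), hp.star_pinch]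
      congr 1
      rw [pinch, pinch.eq_1 p (star T), Finset.sum_mul]
      refine Finset.sum_congr rfl fun i _ => ?_
      have h3 := ((hp.adapted_self i).commute_pinch hp (hp.sa i) T).eq
      simp only [mul_assoc]
      rw [h3]
    have h4 : c.φ (star (-c.E T) * pinch p T) = -c.φ (star (c.E T) * c.E T) := by
      rw [star_neg, neg_mul, map_neg, ← c.ctxa_mul_E (star_mem hE) (hp.pinch_mem c.hA hT),
        c.E_pinch hp]
    rw [sub_eq_neg_add, c.n2_add_sq, h4, c.n2_neg, h2, Complex.neg_re, ← c.n2_sq, ← c.n2_sq]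
    ring
  have h5 := c.φ_tendsto (c.hA.1 _ hE) (c.norm_E_le T) (Eventually.of_forall fun s =>
    ⟨(netPart c.hA s).hq.pinch_mem c.hA hT, (netPart c.hA s).hq.norm_pinch_le T⟩)
    (c.wlim_pinch T) (star_mem hT) (one_mem M)
  have h6 : (c.φ (star T * c.E T * 1)).re = c.n2 (c.E T) ^ 2 := by
    rw [mul_one, c.n2_sq, ← c.φ_comm hE, ← c.ctxa_mul_E hE (star_mem hT), c.E_star,
      c.φ_comm hE]
  have h7 := (((Complex.continuous_re.tendsto _).comp h5).sub_const (c.n2 (c.E T) ^ 2)).sqrt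
  rw [h6, sub_self, Real.sqrt_zero] at h7
  exact h7.congr fun s => (h1 s).symm

end Ctx

end Vale.Agent.P078
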