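import Vale.Agent.P078b.DLink

open scoped InnerProductSpace ComplexConjugate ComplexOrder
open Filter Topology

set_option linter.unusedSectionVars false
set_option linter.unusedVariables false

namespace Vale.Agent.P078

variable {H : Type*} [NormedAddCommGroup H] [InnerProductSpace ℂ H] [CompleteSpace H]
variable {M : VonNeumannAlgebra H} {A : StarSubalgebra ℂ (H →L[ℂ] H)}

variable {J : Type} [Fintype J] [DecidableEq J] {e : J → H →L[ℂ] H} {n : ℕ}

/-- A closed word. -/
noncomputable def word (e : J → H →L[ℂ] H) (x : H →L[ℂ] H) (w : Fin (n + 1) → J) : H →L[ℂ] H :=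
  (List.ofFn fun m => e (w m) * x).prod * e (w 0)

/-- A closed walk with few labels has an edge that is neither a last exit nor a first entry. -/
theorem exists_good_edge {L : Type*} [DecidableEq L] {N : ℕ} (g : Fin (N + 1) → L)
    (hN : 1 ≤ N) (h0 : g 0 = g (Fin.last N)) (hg : 2 * (Finset.univ.image g).card ≤ N) :
    ∃ m m' p₁ p₃ : Fin (N + 1), m'.val = m.val + 1 ∧ p₁ ≤ m ∧ m' ≤ p₃ ∧ g m = g p₃ ∧
      g p₁ = g m' := by
  by_contra hc
  push Not at hc
  have hj : ∀ p, ((Finset.univ.image g).erase (g p)).card + 1 = (Finset.univ.image g).card :=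
    fun p => Finset.card_erase_add_one (Finset.mem_image_of_mem g (Finset.mem_univ p))
  let B1 : Finset (Fin N) := Finset.univ.filter fun k => ∀ p, k.succ ≤ p → g k.castSucc ≠ g p
  let B2 : Finset (Fin N) := Finset.univ.filter fun k => ∀ p, p ≤ k.castSucc → g p ≠ g k.succ
  have h1 : B1.card ≤ ((Finset.univ.image g).erase (g (Fin.last N))).card := by
    refine Finset.card_le_card_of_injOn (fun k => g k.castSucc) (fun k hk => Finset.mem_coe.2
      (Finset.mem_erase.2 ⟨(Finset.mem_filter.1 hk).2 _ (Fin.le_last _),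
        Finset.mem_image_of_mem g (Finset.mem_univ _)⟩)) fun k hk k' hk' h => ?_
    rcases lt_trichotomy k k' with h' | h' | h'
    · exact absurd h ((Finset.mem_filter.1 hk).2 _ (Fin.succ_le_castSucc_iff.2 h'))
    · exact h'
    · exact absurd h.symm ((Finset.mem_filter.1 hk').2 _ (Fin.succ_le_castSucc_iff.2 h'))
  have h2 : B2.card ≤ ((Finset.univ.image g).erase (g 0)).card := by
    refine Finset.card_le_card_of_injOn (fun k => g k.succ) (fun k hk => Finset.mem_coe.2
      (Finset.mem_erase.2 ⟨((Finset.mem_filter.1 hk).2 _ (Fin.zero_le _)).symm,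
        Finset.mem_image_of_mem g (Finset.mem_univ _)⟩)) fun k hk k' hk' h => ?_
    rcases lt_trichotomy k k' with h' | h' | h'
    · exact absurd h ((Finset.mem_filter.1 hk').2 _ (Fin.succ_le_castSucc_iff.2 h'))
    · exact h'
    · exact absurd h.symm ((Finset.mem_filter.1 hk).2 _ (Fin.succ_le_castSucc_iff.2 h'))
  have h3 : (Finset.univ : Finset (Fin N)) ⊆ B1 ∪ B2 := fun k _ => by
    by_cases h : k ∈ B1
    · exact Finset.mem_union_left _ h
    · obtain ⟨p, hp⟩ := not_forall.1 fun h' => h (Finset.mem_filter.2 ⟨Finset.mem_univ _, h'⟩)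
      push Not at hp
      exact Finset.mem_union_right _ (Finset.mem_filter.2 ⟨Finset.mem_univ _, fun p' hp' =>
        hc _ _ p' p (by simp) hp' hp.1 hp.2⟩)
  have h4 := (Finset.card_le_card h3).trans (Finset.card_union_le _ _)
  rw [Finset.card_univ, Fintype.card_fin] at h4
  have h5 := hj 0
  have h6 := hj (Fin.last N)
  omega

/-- The unconstrained sum over a pattern with few labels. -/
theorem norm_pattern_le (he : IsPartition A e) {x : H →L[ℂ] H} (hx : ‖x‖ ≤ 1) {η : ℝ}
    (hη : 0 ≤ η) (hb : ∀ i j, ‖e i * x * e j‖ ≤ η) {L : Type*} [DecidableEq L]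
    (g : Fin (n + 1) → L) (hg : 2 * (Finset.univ.image g).card ≤ n + 1) :
    ‖∑ w : Fin (n + 1) → J with ∀ m m', g m = g m' → w m = w m', word e x w‖ ≤ η := by
  obtain ⟨G, hG⟩ : ∃ G : Fin (n + 2) → L, G = Fin.snoc g (g 0) := ⟨_, rfl⟩
  have G1 : ∀ m : Fin (n + 1), G m.castSucc = g m := fun m => by rw [hG, Fin.snoc_castSucc]
  have G2 : G (Fin.last _) = g 0 := by rw [hG, Fin.snoc_last]
  obtain ⟨m, m', p₁, p₃, h1, h2, h3, h4, h5⟩ := exists_good_edge G (by omega)
    ((G1 0).trans G2.symm) (le_trans (Nat.mul_le_mul_left 2 (Finset.card_le_card fun l hl => by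
      obtain ⟨p, -, rfl⟩ := Finset.mem_image.1 hl
      induction p using Fin.lastCases with
      | last => rw [G2]; exact Finset.mem_image_of_mem g (Finset.mem_univ _)
      | cast p => rw [G1]; exact Finset.mem_image_of_mem g (Finset.mem_univ _))) hg)
  have h6 := lsum_le he (x := (Fin.snoc (fun _ => x) 1 : Fin (n + 2) → H →L[ℂ] H)) (fun p => by
      induction p using Fin.lastCases with
      | last => rw [Fin.snoc_last]; exact ContinuousLinearMap.norm_id_le
      | cast p => rwa [Fin.snoc_castSucc]) hη h1 h2 h3 (fun i j => by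
      induction m using Fin.lastCases with
      | last => exact absurd m'.2 (by rw [h1]; simp)
      | cast p => rw [Fin.snoc_castSucc]; exact hb i j)
    (L := Finset.univ.filter fun l => G l.1 = G l.2)
    (Finset.mem_filter.2 ⟨Finset.mem_univ _, h4⟩) (Finset.mem_filter.2 ⟨Finset.mem_univ _, h5⟩)
  refine le_of_eq_of_le (congrArg norm ?_) h6
  refine Finset.sum_nbij' (fun w => Fin.snoc w (w 0)) (fun w => Fin.init w) (fun w hw => ?_)
    (fun w hw => ?_) (fun w _ => by simp) (fun w hw => ?_) fun w _ => ?_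
  · have h := (Finset.mem_filter.1 hw).2
    refine Finset.mem_filter.2 ⟨Finset.mem_univ _, fun ⟨a, b⟩ hl => ?_⟩
    have h' := (Finset.mem_filter.1 hl).2
    induction a using Fin.lastCases <;> induction b using Fin.lastCases <;>
      simp only [G1, G2, Fin.snoc_last, Fin.snoc_castSucc] at h' ⊢ <;> exact h _ _ h'
  · exact Finset.mem_filter.2 ⟨Finset.mem_univ _, fun a b h => (Finset.mem_filter.1 hw).2
      (a.castSucc, b.castSucc) (Finset.mem_filter.2 ⟨Finset.mem_univ _, by rwa [G1, G1]⟩)⟩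
  · have := (Finset.mem_filter.1 hw).2 (Fin.castSucc 0, Fin.last _)
      (Finset.mem_filter.2 ⟨Finset.mem_univ _, by rw [G1, G2]⟩)
    exact (congrArg (Fin.snoc (Fin.init w)) this).trans (Fin.snoc_init_self w)
  · rw [lw, List.ofFn_succ_last]
    simp only [Fin.snoc_last, Fin.snoc_castSucc, Complex.ofReal_one, one_smul, mul_one,
      List.prod_append, List.prod_singleton, word]

/-- The kernel of a word. -/
def dkerK {N : ℕ} (w : Fin N → J) : Finset (Fin N × Fin N) :=
  Finset.univ.filter fun l => w l.1 = w l.2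

theorem dker_sub {N : ℕ} {g w : Fin N → J} :
    dkerK g ⊆ dkerK w ↔ ∀ m m', g m = g m' → w m = w m' := by
  simp [dkerK, Finset.subset_iff]

theorem dker_card {N : ℕ} {g w : Fin N → J} (h : dkerK g ⊆ dkerK w) :
    (Finset.univ.image w).card ≤ (Finset.univ.image g).card ∧ (dkerK w ≠ dkerK g →
      (Finset.univ.image w).card < (Finset.univ.image g).card) := by
  rcases isEmpty_or_nonempty J with hJ | hJ
  · obtain rfl : g = w := funext fun i => isEmptyElim (g i)
    exact ⟨le_rfl, fun h => absurd rfl h⟩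
  obtain ⟨f, rfl⟩ := (Function.factorsThrough_iff w).1 fun a b => dker_sub.1 h a b
  rw [← Finset.image_image]
  refine ⟨Finset.card_image_le, fun h1 => Finset.card_image_le.lt_of_ne fun h2 => h1
    (subset_antisymm (dker_sub.2 fun m m' h3 => Finset.card_image_iff.1 h2 ?_ ?_ h3) h)⟩ <;>
  exact Finset.mem_coe.2 (Finset.mem_image_of_mem g (Finset.mem_univ _))

theorem dker_fiber {N : ℕ} {F : (Fin N → J) → H →L[ℂ] H} (P : Finset (Fin N → J)) {b : ℝ}
    (hb : 0 ≤ b) (hP : ∀ w w', w ∈ P → dkerK w' = dkerK w → w' ∈ P)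
    (h : ∀ g ∈ P, ‖∑ w with dkerK w = dkerK g, F w‖ ≤ b) :
    ‖∑ w ∈ P, F w‖ ≤ Fintype.card (Finset (Fin N × Fin N)) * b := by
  rw [← Finset.sum_fiberwise P dkerK]
  refine (norm_sum_le _ _).trans ((Finset.sum_le_sum fun K _ => ?_).trans
    (by rw [Finset.sum_const, nsmul_eq_mul, Finset.card_univ]))
  rcases (P.filter fun w => dkerK w = K).eq_empty_or_nonempty with h1 | ⟨g, hg⟩
  · rwa [h1, Finset.sum_empty, norm_zero]
  · obtain ⟨h1, rfl⟩ := Finset.mem_filter.1 hg
    refine le_of_eq_of_le (congrArg norm (Finset.sum_congr ?_ fun _ _ => rfl)) (h g h1)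
    ext w
    simpa using hP g w h1

theorem dker_exact (n j : ℕ) : ∃ C : ℝ, 0 ≤ C ∧ ∀ (J : Type) [Fintype J] [DecidableEq J]
    (e : J → H →L[ℂ] H), IsPartition A e → ∀ x : H →L[ℂ] H, ‖x‖ ≤ 1 → ∀ η : ℝ, 0 ≤ η →
    (∀ i j, ‖e i * x * e j‖ ≤ η) → ∀ g : Fin (n + 1) → J, (Finset.univ.image g).card < j →
    2 * (Finset.univ.image g).card ≤ n + 1 →
    ‖∑ w with dkerK w = dkerK g, word e x w‖ ≤ C * η := by
  induction j with
  | zero => exact ⟨0, le_rfl, fun _ _ _ _ _ _ _ _ _ _ _ h => absurd h (Nat.not_lt_zero _)⟩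
  | succ j ih =>
  obtain ⟨C, hC, ih⟩ := ih
  refine ⟨1 + Fintype.card (Finset (Fin (n + 1) × Fin (n + 1))) * C, by positivity,
    fun J _ _ e he x hx η hη hb g h1 h2 => ?_⟩
  have h3 := norm_pattern_le he hx hη hb g h2
  have h4 := dker_fiber (F := word e x)
    (Finset.univ.filter fun w => dkerK g ⊆ dkerK w ∧ dkerK w ≠ dkerK g) (mul_nonneg hC hη)
    (fun w w' hw h => by
      rw [Finset.mem_filter, h]; exact ⟨Finset.mem_univ _, (Finset.mem_filter.1 hw).2⟩)
    fun w hw => by
      have := (dker_card (Finset.mem_filter.1 hw).2.1).2 (Finset.mem_filter.1 hw).2.2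
      exact ih J e he x hx η hη hb w (by omega) (by omega)
  have h5 : ∑ w with dkerK w = dkerK g, word e x w =
      ∑ w : Fin (n + 1) → J with ∀ m m', g m = g m' → w m = w m', word e x w -
        ∑ w with dkerK g ⊆ dkerK w ∧ dkerK w ≠ dkerK g, word e x w := by
    simp only [Finset.sum_filter, ← dker_sub, ← Finset.sum_sub_distrib]
    refine Finset.sum_congr rfl fun w _ => ?_
    by_cases h : dkerK w = dkerK g <;> simp [h]
  rw [h5]
  refine (norm_sub_le _ _).trans ?_
  linarith

/-- The low order coefficients are small. -/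
theorem low_coeff (n : ℕ) : ∃ C : ℝ, 0 ≤ C ∧ ∀ (J : Type) [Fintype J] [DecidableEq J]
    (e : J → H →L[ℂ] H), IsPartition A e → ∀ x : H →L[ℂ] H, ‖x‖ ≤ 1 → ∀ η : ℝ, 0 ≤ η →
    (∀ i j, ‖e i * x * e j‖ ≤ η) → ∀ j : ℕ, 2 * j ≤ n + 1 →
    ‖∑ w : Fin (n + 1) → J with (Finset.univ.image w).card = j, word e x w‖ ≤ C * η := by
  obtain ⟨C, hC, h⟩ := dker_exact (H := H) (A := A) n (n + 1)
  refine ⟨Fintype.card (Finset (Fin (n + 1) × Fin (n + 1))) * C, by positivity,
    fun J _ _ e he x hx η hη hb j hj => ?_⟩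
  rw [mul_assoc]
  refine dker_fiber _ (by positivity) (fun w w' hw h1 => Finset.mem_filter.2 ⟨Finset.mem_univ _,
    (le_antisymm (dker_card h1.ge).1 (dker_card h1.le).1).trans (Finset.mem_filter.1 hw).2⟩)
    fun w hw => h J e he x hx η hη hb w ?_ ?_ <;> rw [(Finset.mem_filter.1 hw).2] <;> omega

end Vale.Agent.P078
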