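import Vale.Agent.P078.Pinch

open scoped InnerProductSpace ComplexConjugate ComplexOrder
open Filter Topology

set_option linter.unusedSectionVars false
set_option linter.unusedVariables false

namespace Vale.Agent.P078

variable {H : Type*} [NormedAddCommGroup H] [InnerProductSpace ℂ H] [CompleteSpace H]
variable {M : VonNeumannAlgebra H} {A : StarSubalgebra ℂ (H →L[ℂ] H)}

variable {J : Type} [Fintype J] [DecidableEq J] {e : J → H →L[ℂ] H} {N : ℕ}

/-- A weighted word. -/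
noncomputable def lw (e : J → H →L[ℂ] H) (x : Fin N → H →L[ℂ] H) (c : Fin N → J → ℝ)
    (w : Fin N → J) : H →L[ℂ] H :=
  (List.ofFn fun m => ((c m (w m) : ℂ) • e (w m)) * x m).prod

/-- The sum of the weighted words satisfying a set of equality constraints. -/
noncomputable def lsum (e : J → H →L[ℂ] H) (x : Fin N → H →L[ℂ] H) (c : Fin N → J → ℝ)
    (L : Finset (Fin N × Fin N)) : H →L[ℂ] H :=
  ∑ w : Fin N → J with ∀ l ∈ L, w l.1 = w l.2, lw e x c w

theorem dlink_lw_eq (x : Fin N → H →L[ℂ] H) (c : Fin N → J → ℝ) (w : Fin N → J) :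
    lw e x c w = MultilinearMap.mkPiAlgebraFin ℂ N (H →L[ℂ] H)
      fun m => ((c m (w m) : ℂ) • e (w m)) * x m := rfl

theorem dlink_lw_mul (x : Fin N → H →L[ℂ] H) (c d : Fin N → J → ℝ) (w : Fin N → J) :
    lw e x (fun m j => d m j * c m j) w = ((∏ m, d m (w m) : ℝ) : ℂ) • lw e x c w := by
  rw [dlink_lw_eq, dlink_lw_eq, Complex.ofReal_prod, ← MultilinearMap.map_smul_univ]
  congr 1
  funext m
  rw [Complex.ofReal_mul, mul_smul, smul_mul_assoc]

theorem dlink_sign (i i' : J) : ∑ ζ : J → ℤˣ, ((ζ i : ℤ) : ℝ) * ((ζ i' : ℤ) : ℝ) =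
    if i = i' then (Fintype.card (J → ℤˣ) : ℝ) else 0 := by
  split_ifs with h
  · subst h
    have : ∀ u : ℤˣ, ((u : ℤ) : ℝ) * ((u : ℤ) : ℝ) = 1 := fun u => by
      rw [← Int.cast_mul, ← Units.val_mul, Int.units_mul_self, Units.val_one, Int.cast_one]
    simp [this]
  · have h1 := Equiv.sum_comp (Equiv.mulRight (Pi.mulSingle i (-1) : J → ℤˣ))
      fun ζ : J → ℤˣ => ((ζ i : ℤ) : ℝ) * ((ζ i' : ℤ) : ℝ)
    simp only [Equiv.coe_mulRight, Pi.mul_apply, Pi.mulSingle_eq_same,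
      Pi.mulSingle_eq_of_ne (Ne.symm h), mul_one, mul_neg, Units.val_neg, Int.cast_neg, neg_mul,
      Finset.sum_neg_distrib] at h1
    linarith

/-- Adding a constraint is an average over random signs. -/
theorem lsum_insert {x : Fin N → H →L[ℂ] H} {L : Finset (Fin N × Fin N)} {η : ℝ}
    (h : ∀ c : Fin N → J → ℝ, (∀ m i, |c m i| ≤ 1) → ‖lsum e x c L‖ ≤ η) (l : Fin N × Fin N) :
    ∀ c : Fin N → J → ℝ, (∀ m i, |c m i| ≤ 1) → ‖lsum e x c (insert l L)‖ ≤ η := by
  intro c hc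
  have hpos : (0 : ℝ) < Fintype.card (J → ℤˣ) := by exact_mod_cast Fintype.card_pos
  let d : (J → ℤˣ) → Fin N → J → ℝ := fun ζ m j =>
    (if m = l.1 then ((ζ j : ℤ) : ℝ) else 1) * if m = l.2 then ((ζ j : ℤ) : ℝ) else 1
  have hd : ∀ ζ m j, |d ζ m j| = 1 := fun ζ m j => by
    have : |((ζ j : ℤ) : ℝ)| = 1 := by rcases Int.units_eq_one_or (ζ j) with h | h <;> simp [h]
    simp only [d, abs_mul]
    split_ifs <;> simp [this]
  have key : ((Fintype.card (J → ℤˣ) : ℝ) : ℂ) • lsum e x c (insert l L) =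
      ∑ ζ : J → ℤˣ, lsum e x (fun m j => d ζ m j * c m j) L := by
    simp only [lsum, dlink_lw_mul, d, Finset.prod_mul_distrib, Finset.prod_ite_eq',
      Finset.mem_univ, if_true]
    rw [Finset.sum_comm]
    simp only [← Finset.sum_smul, ← Complex.ofReal_sum, dlink_sign, Finset.forall_mem_insert]
    rw [Finset.smul_sum, Finset.sum_filter, Finset.sum_filter]
    refine Finset.sum_congr rfl fun w _ => ?_
    by_cases h1 : w l.1 = w l.2 <;> by_cases h2 : ∀ l ∈ L, w l.1 = w l.2 <;> simp [h1, h2]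
  have h1 := congrArg norm key
  rw [norm_smul, Complex.norm_real, Real.norm_of_nonneg hpos.le] at h1
  refine le_of_mul_le_mul_left (h1.trans_le ((norm_sum_le _ _).trans ?_)) hpos
  refine (Finset.sum_le_sum fun ζ _ => h _ fun m j => ?_).trans (by simp)
  rw [abs_mul, hd, one_mul]
  exact hc m j

/-- Ordered product of `y s, …, y (s + n - 1)`. -/
def dlinkP {R : Type*} [Monoid R] (y : ℕ → R) (s : ℕ) : ℕ → R
  | 0 => 1
  | n + 1 => dlinkP y s n * y (s + n)

theorem dlinkP_add {R : Type*} [Monoid R] (y : ℕ → R) (s n n' : ℕ) :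
    dlinkP y s (n + n') = dlinkP y s n * dlinkP y (s + n) n' := by
  induction n' with
  | zero => rw [Nat.add_zero, dlinkP, mul_one]
  | succ n' ih => rw [← Nat.add_assoc, dlinkP, dlinkP, ih, mul_assoc, Nat.add_assoc]

theorem dlinkP_split {R : Type*} [Monoid R] (y : ℕ → R) {s n p : ℕ} (h1 : s ≤ p)
    (h2 : p < s + n) :
    dlinkP y s n = dlinkP y s (p - s) * y p * dlinkP y (p + 1) (s + n - (p + 1)) := by
  obtain ⟨a, rfl⟩ := Nat.exists_eq_add_of_le h1
  obtain ⟨b, rfl⟩ : ∃ b, n = a + 1 + b := ⟨n - (a + 1), by omega⟩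
  rw [dlinkP_add, dlinkP, Nat.add_sub_cancel_left, Nat.add_assoc s a 1]
  congr 2
  omega

theorem dlinkP_ofFn {R : Type*} [Monoid R] (y : ℕ → R) (n : ℕ) :
    (List.ofFn fun k : Fin n => y k).prod = dlinkP y 0 n := by
  induction n with
  | zero => rfl
  | succ n ih => simp [List.ofFn_succ_last, dlinkP, ← ih, -List.ofFn_succ]

theorem dlinkP_norm {y : ℕ → H →L[ℂ] H} (hy : ∀ k, ‖y k‖ ≤ 1) (s n : ℕ) : ‖dlinkP y s n‖ ≤ 1 := by
  induction n with
  | zero => exact ContinuousLinearMap.norm_id_le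
  | succ n ih => exact (norm_mul_le _ _).trans (mul_le_one₀ ih (norm_nonneg _) (hy _))

/-- The factors of a word with restricted letters. -/
noncomputable def dlinkY (e : J → H →L[ℂ] H) (x : Fin N → H →L[ℂ] H) (c : Fin N → J → ℝ)
    (B : Fin N → Finset J) (k : ℕ) : H →L[ℂ] H :=
  if h : k < N then (∑ j ∈ B ⟨k, h⟩, (c ⟨k, h⟩ j : ℂ) • e j) * x ⟨k, h⟩ else 1

theorem dlinkY_single (x : Fin N → H →L[ℂ] H) (c : Fin N → J → ℝ) {B : Fin N → Finset J}
    {k : Fin N} {i : J} (h : B k = {i}) : dlinkY e x c B k = (c k i : ℂ) • (e i * x k) := by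
  rw [dlinkY, dif_pos k.2, Fin.eta, h, Finset.sum_singleton, smul_mul_assoc]

theorem dlink_sum (x : Fin N → H →L[ℂ] H) (c : Fin N → J → ℝ) (B : Fin N → Finset J) :
    ∑ w ∈ Fintype.piFinset B, lw e x c w = dlinkP (dlinkY e x c B) 0 N := by
  simp only [dlink_lw_eq]
  rw [← dlinkP_ofFn, ← MultilinearMap.map_sum_finset _
    (fun m j => ((c m j : ℂ) • e j) * x m) B, MultilinearMap.mkPiAlgebraFin_apply]
  congr 2
  funext k
  rw [dlinkY, dif_pos k.2, Finset.sum_mul]

theorem dlinkP_free (x : Fin N → H →L[ℂ] H) (c : Fin N → J → ℝ) {B : Fin N → Finset J} {s n : ℕ}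
    (h : ∀ k : Fin N, s ≤ k → (k : ℕ) < s + n → B k = Finset.univ) :
    dlinkP (dlinkY e x c B) s n = dlinkP (dlinkY e x c fun _ => Finset.univ) s n := by
  induction n with
  | zero => rfl
  | succ n ih =>
    rw [dlinkP, dlinkP, ih fun k h1 h2 => h k h1 (by omega)]
    congr 1
    unfold dlinkY
    split_ifs with h1
    · rw [h ⟨_, h1⟩ (Nat.le_add_right _ _) (Nat.lt_succ_self _)]
    · rfl

theorem dlinkY_norm (he : IsPartition A e) {x : Fin N → H →L[ℂ] H} (hx : ∀ m, ‖x m‖ ≤ 1)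
    {c : Fin N → J → ℝ} (hc : ∀ m i, |c m i| ≤ 1) (k : ℕ) :
    ‖dlinkY e x c (fun _ => Finset.univ) k‖ ≤ 1 := by
  unfold dlinkY
  split_ifs with h
  · refine (norm_mul_le _ _).trans (mul_le_one₀ ?_ (norm_nonneg _) (hx _))
    refine ContinuousLinearMap.opNorm_le_bound _ zero_le_one fun v => ?_
    rw [one_mul]
    refine le_of_sq_le_sq ?_ (norm_nonneg _)
    simp only [ContinuousLinearMap.sum_apply, ContinuousLinearMap.smul_apply, ← map_smul]
    rw [he.norm_sq_sum, ← he.sum_norm_sq v]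
    refine Finset.sum_le_sum fun i _ => ?_
    rw [map_smul, norm_smul, Complex.norm_real, Real.norm_eq_abs]
    exact pow_le_pow_left₀ (by positivity) (mul_le_of_le_one_left (norm_nonneg _) (hc _ _)) 2
  · exact ContinuousLinearMap.norm_id_le

theorem dlink_cs {K : Type*} [Fintype K] {P Y Q : K → H →L[ℂ] H} {η : ℝ} (hη : 0 ≤ η)
    (hY : ∀ k, ‖Y k‖ ≤ η) (hP : ∀ v, ∑ k, ‖star (P k) v‖ ^ 2 ≤ ‖v‖ ^ 2)
    (hQ : ∀ v, ∑ k, ‖Q k v‖ ^ 2 ≤ ‖v‖ ^ 2) : ‖∑ k, P k * Y k * Q k‖ ≤ η := by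
  refine ContinuousLinearMap.opNorm_le_bound _ hη fun v => ?_
  set u := (∑ k, P k * Y k * Q k) v with hu
  have h1 : ‖u‖ ^ 2 ≤ η * ∑ k, ‖star (P k) u‖ * ‖Q k v‖ := by
    have : (‖u‖ : ℂ) ^ 2 = ∑ k, ⟪star (P k) u, Y k (Q k v)⟫_ℂ := by
      rw [← Complex.coe_algebraMap, ← inner_self_eq_norm_sq_to_K]
      nth_rewrite 2 [hu]
      rw [ContinuousLinearMap.sum_apply, inner_sum]
      refine Finset.sum_congr rfl fun k _ => ?_
      rw [ContinuousLinearMap.star_eq_adjoint, ContinuousLinearMap.adjoint_inner_left]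
      rfl
    have h2 := congrArg norm this
    rw [norm_pow, Complex.norm_real, norm_norm] at h2
    rw [h2, Finset.mul_sum]
    refine (norm_sum_le _ _).trans (Finset.sum_le_sum fun k _ => ?_)
    refine (norm_inner_le_norm _ _).trans ?_
    rw [mul_left_comm]
    exact mul_le_mul_of_nonneg_left ((Y k).le_of_opNorm_le (hY k) _) (norm_nonneg _)
  have h3 : ∑ k, ‖star (P k) u‖ * ‖Q k v‖ ≤ ‖u‖ * ‖v‖ := by
    refine le_of_sq_le_sq ?_ (by positivity)
    refine (Finset.sum_mul_sq_le_sq_mul_sq _ _ _).trans ?_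
    rw [mul_pow]
    exact mul_le_mul (hP u) (hQ v) (by positivity) (by positivity)
  rcases (norm_nonneg u).eq_or_lt with h | h
  · rw [← h]
    positivity
  · refine le_of_mul_le_mul_left ?_ h
    nlinarith [mul_le_mul_of_nonneg_left h3 hη]

theorem dlink_sq_le {U : H →L[ℂ] H} (hU : ‖U‖ ≤ 1) (v : H) : ‖U v‖ ^ 2 ≤ ‖v‖ ^ 2 :=
  pow_le_pow_left₀ (norm_nonneg _) (by simpa using U.le_of_opNorm_le hU v) 2

theorem dlink_one_sum (he : IsPartition A e) {U : H →L[ℂ] H} (hU : ‖U‖ ≤ 1) (v : H) :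
    ∑ i, ‖(e i * U) v‖ ^ 2 ≤ ‖v‖ ^ 2 :=
  (he.sum_norm_sq (U v)).le.trans (dlink_sq_le hU v)

theorem dlink_two_sum (he : IsPartition A e) {U U' : H →L[ℂ] H} (hU : ‖U‖ ≤ 1) (hU' : ‖U'‖ ≤ 1)
    (v : H) : ∑ i, ∑ j, ‖(e j * U * e i * U') v‖ ^ 2 ≤ ‖v‖ ^ 2 :=
  (Finset.sum_le_sum fun i _ => dlink_one_sum he hU (e i (U' v))).trans (dlink_one_sum he hU' v)

theorem dlink_core (he : IsPartition A e) {η : ℝ} (hη : 0 ≤ η) {U₁ U₂ U₃ U₄ : H →L[ℂ] H}
    (h₁ : ‖U₁‖ ≤ 1) (h₂ : ‖U₂‖ ≤ 1) (h₃ : ‖U₃‖ ≤ 1) (h₄ : ‖U₄‖ ≤ 1) {Y : J × J → H →L[ℂ] H}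
    (hY : ∀ i, ‖Y i‖ ≤ η) :
    ‖∑ i : J × J, (U₁ * e i.2 * U₂ * e i.1) * Y i * (e i.2 * U₃ * e i.1 * U₄)‖ ≤ η := by
  refine dlink_cs hη hY (fun v => ?_) fun v => ?_
  · simp only [star_mul, (he.sa _).star_eq, ← mul_assoc]
    rw [Fintype.sum_prod_type_right]
    exact dlink_two_sum he ((norm_star _).trans_le h₂) ((norm_star _).trans_le h₁) v
  · rw [Fintype.sum_prod_type]
    exact dlink_two_sum he h₃ h₄ v

theorem dlink_smul_le {c η : ℝ} (hc : |c| ≤ 1) {Y : H →L[ℂ] H} (hY : ‖Y‖ ≤ η) :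
    ‖(c : ℂ) • Y‖ ≤ η := by
  rw [norm_smul, Complex.norm_real, Real.norm_eq_abs]
  exact (mul_le_of_le_one_left (norm_nonneg _) hc).trans hY

theorem lsum_one (he : IsPartition A e) {x : Fin N → H →L[ℂ] H} (hx : ∀ m, ‖x m‖ ≤ 1) {η : ℝ}
    (hη : 0 ≤ η) {m m' : Fin N} (hm : m'.val = m.val + 1) (hb : ∀ i j, ‖e i * x m * e j‖ ≤ η)
    (c : Fin N → J → ℝ) (hc : ∀ m i, |c m i| ≤ 1) : ‖lsum e x c {(m, m')}‖ ≤ η := by
  have hY := dlinkP_norm (dlinkY_norm he hx hc)
  have hm' := m'.2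
  have key : lsum e x c {(m, m')} = ∑ i : J,
      (dlinkP (dlinkY e x c fun _ => Finset.univ) 0 m * e i) *
        ((c m i : ℂ) • (c m' i : ℂ) • (e i * x m * e i)) * (e i * (x m' *
          dlinkP (dlinkY e x c fun _ => Finset.univ) (m' + 1) (N - (m' + 1)))) := by
    rw [lsum, ← Finset.sum_fiberwise _ fun w => w m]
    refine Finset.sum_congr rfl fun i _ => ?_
    let B : Fin N → Finset J := fun k => if k = m ∨ k = m' then {i} else Finset.univ
    have hB : ∀ k : Fin N, (k : ℕ) ≠ m → (k : ℕ) ≠ m' → B k = Finset.univ := fun k h1 h2 =>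
      if_neg (by rintro (rfl | rfl) <;> contradiction)
    rw [Finset.sum_congr (s₂ := Fintype.piFinset B) ?_ fun _ _ => rfl, dlink_sum,
      dlinkP_split _ (Nat.zero_le m') (by omega), Nat.sub_zero, hm, dlinkP, Nat.zero_add,
      Nat.zero_add, ← hm, dlinkY_single x c (if_pos (Or.inl rfl)),
      dlinkY_single x c (if_pos (Or.inr rfl)),
      dlinkP_free x c fun k _ _ => hB k (by omega) (by omega),
      dlinkP_free x c fun k _ _ => hB k (by omega) (by omega)]
    · simp only [mul_smul_comm, smul_mul_assoc, mul_assoc]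
      simp only [← mul_assoc _ (e i), he.mul_self, mul_assoc (e i) (e i)]
      rw [smul_comm]
    · ext w
      simp only [Finset.mem_filter, Finset.mem_univ, Finset.mem_singleton, forall_eq, true_and,
        Fintype.mem_piFinset, B]
      constructor
      · rintro ⟨h1, h2⟩ k
        split_ifs with h
        · rcases h with rfl | rfl <;> simp [← h1, h2]
        · exact Finset.mem_univ _
      · intro h
        have h1 := h m
        have h2 := h m'
        simp only [true_or, or_true, if_true, Finset.mem_singleton] at h1 h2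
        exact ⟨h1.trans h2.symm, h1⟩
  rw [key]
  refine dlink_cs hη (fun i => dlink_smul_le (hc _ _) (dlink_smul_le (hc _ _) (hb i i)))
    (fun v => ?_) (dlink_one_sum he
      ((norm_mul_le _ _).trans (mul_le_one₀ (hx _) (norm_nonneg _) (hY _ _))))
  simp only [star_mul, (he.sa _).star_eq]
  exact dlink_one_sum he (by rw [norm_star]; exact hY _ _) v

theorem lsum_two (he : IsPartition A e) {x : Fin N → H →L[ℂ] H} (hx : ∀ m, ‖x m‖ ≤ 1) {η : ℝ}
    (hη : 0 ≤ η) {m m' p₁ p₃ : Fin N} (hm : m'.val = m.val + 1) (h₁ : p₁ < m) (h₃ : m' < p₃)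
    (hb : ∀ i j, ‖e i * x m * e j‖ ≤ η) (c : Fin N → J → ℝ) (hc : ∀ m i, |c m i| ≤ 1) :
    ‖lsum e x c {(m, p₃), (p₁, m')}‖ ≤ η := by
  have hY := dlinkP_norm (dlinkY_norm he hx hc)
  have hxY : ∀ k s n, ‖x k * dlinkP (dlinkY e x c fun _ => Finset.univ) s n‖ ≤ 1 := fun k s n =>
    (norm_mul_le _ _).trans (mul_le_one₀ (hx _) (norm_nonneg _) (hY _ _))
  have hp := p₃.2
  have h₁' : (p₁ : ℕ) < m := h₁
  have h₃' : (m' : ℕ) < p₃ := h₃
  have key : lsum e x c {(m, p₃), (p₁, m')} = ∑ i : J × J,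
      (dlinkP (dlinkY e x c fun _ => Finset.univ) 0 p₁ * e i.2 *
        (x p₁ * dlinkP (dlinkY e x c fun _ => Finset.univ) (p₁ + 1) (m - (p₁ + 1))) * e i.1) *
        ((c p₁ i.2 : ℂ) • (c m i.1 : ℂ) • (c m' i.2 : ℂ) • (c p₃ i.1 : ℂ) •
          (e i.1 * x m * e i.2)) *
        (e i.2 * (x m' * dlinkP (dlinkY e x c fun _ => Finset.univ) (m' + 1) (p₃ - (m' + 1))) *
          e i.1 * (x p₃ * dlinkP (dlinkY e x c fun _ => Finset.univ) (p₃ + 1) (N - (p₃ + 1)))) := by
    rw [lsum, ← Finset.sum_fiberwise _ fun w => (w m, w m')]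
    refine Finset.sum_congr rfl fun i _ => ?_
    let B : Fin N → Finset J := fun k =>
      if k = m ∨ k = p₃ then {i.1} else if k = p₁ ∨ k = m' then {i.2} else Finset.univ
    have hB : ∀ k : Fin N, (k : ℕ) ≠ m → (k : ℕ) ≠ m' → (k : ℕ) ≠ p₁ → (k : ℕ) ≠ p₃ →
        B k = Finset.univ := fun k h1 h2 h3 h4 =>
      (if_neg (by rintro (rfl | rfl) <;> contradiction)).trans
        (if_neg (by rintro (rfl | rfl) <;> contradiction))
    have b1 : B m = {i.1} := if_pos (Or.inl rfl)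
    have b2 : B p₃ = {i.1} := if_pos (Or.inr rfl)
    have b3 : B p₁ = {i.2} :=
      (if_neg (by rintro (rfl | rfl) <;> omega)).trans (if_pos (Or.inl rfl))
    have b4 : B m' = {i.2} :=
      (if_neg (by rintro (rfl | rfl) <;> omega)).trans (if_pos (Or.inr rfl))
    rw [Finset.sum_congr (s₂ := Fintype.piFinset B) ?_ fun _ _ => rfl, dlink_sum,
      dlinkP_split _ (Nat.zero_le p₃) (by omega), Nat.sub_zero,
      dlinkP_split _ (n := p₃) (Nat.zero_le m') (by omega), Nat.sub_zero, hm, dlinkP,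
      dlinkP_split _ (n := m) (Nat.zero_le p₁) (by omega), Nat.sub_zero, Nat.zero_add,
      Nat.zero_add, Nat.zero_add, ← hm, dlinkY_single x c b1, dlinkY_single x c b2,
      dlinkY_single x c b3, dlinkY_single x c b4,
      dlinkP_free x c fun k _ _ => hB k (by omega) (by omega) (by omega) (by omega),
      dlinkP_free x c fun k _ _ => hB k (by omega) (by omega) (by omega) (by omega),
      dlinkP_free x c fun k _ _ => hB k (by omega) (by omega) (by omega) (by omega),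
      dlinkP_free x c fun k _ _ => hB k (by omega) (by omega) (by omega) (by omega)]
    · have e1 : ∀ (j : J) (T : H →L[ℂ] H), e j * (e j * T) = e j * T := fun j T => by
        rw [← mul_assoc, he.mul_self]
      simp only [mul_smul_comm, smul_mul_assoc, mul_assoc, e1, smul_smul]
      congr 1
      ring
    · ext w
      simp only [Finset.mem_filter, Finset.mem_univ, Finset.forall_mem_insert,
        Finset.mem_singleton, forall_eq, true_and, Fintype.mem_piFinset]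
      rw [Prod.ext_iff]
      constructor
      · rintro ⟨⟨h1, h2⟩, h3, h4⟩ k
        simp only [B]
        split_ifs with h h'
        · rcases h with rfl | rfl
          · exact Finset.mem_singleton.2 h3
          · exact Finset.mem_singleton.2 (h1.symm.trans h3)
        · rcases h' with rfl | rfl
          · exact Finset.mem_singleton.2 (h2.trans h4)
          · exact Finset.mem_singleton.2 h4
        · exact Finset.mem_univ _
      · intro h
        have k1 := h m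
        have k2 := h p₃
        have k3 := h p₁
        have k4 := h m'
        rw [b1, Finset.mem_singleton] at k1
        rw [b2, Finset.mem_singleton] at k2
        rw [b3, Finset.mem_singleton] at k3
        rw [b4, Finset.mem_singleton] at k4
        exact ⟨⟨k1.trans k2.symm, k3.trans k4.symm⟩, k1, k4⟩
  rw [key]
  exact dlink_core he hη (hY _ _) (hxY _ _ _) (hxY _ _ _) (hxY _ _ _) fun i =>
    dlink_smul_le (hc _ _) (dlink_smul_le (hc _ _)
      (dlink_smul_le (hc _ _) (dlink_smul_le (hc _ _) (hb _ _))))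

theorem lsum_le (he : IsPartition A e) {x : Fin N → H →L[ℂ] H} (hx : ∀ m, ‖x m‖ ≤ 1) {η : ℝ}
    (hη : 0 ≤ η) {m m' p₁ p₃ : Fin N} (hm : m'.val = m.val + 1) (h₁ : p₁ ≤ m) (h₃ : m' ≤ p₃)
    (hb : ∀ i j, ‖e i * x m * e j‖ ≤ η) {L : Finset (Fin N × Fin N)} (hL₁ : (m, p₃) ∈ L)
    (hL₂ : (p₁, m') ∈ L) : ‖lsum e x (fun _ _ => 1) L‖ ≤ η := by
  have ext : ∀ L₀ ⊆ L, (∀ c : Fin N → J → ℝ, (∀ m i, |c m i| ≤ 1) → ‖lsum e x c L₀‖ ≤ η) →
      ‖lsum e x (fun _ _ => 1) L‖ ≤ η := by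
    intro L₀ h1 h2
    have : ∀ K : Finset (Fin N × Fin N),
        ∀ c : Fin N → J → ℝ, (∀ m i, |c m i| ≤ 1) → ‖lsum e x c (K ∪ L₀)‖ ≤ η := by
      intro K
      induction K using Finset.induction with
      | empty => rwa [Finset.empty_union]
      | insert l K _ ih =>
        rw [Finset.insert_union]
        exact lsum_insert ih l
    have h3 := this L (fun _ _ => 1) fun _ _ => abs_one.le
    rwa [Finset.union_eq_left.2 h1] at h3
  rcases h₁.eq_or_lt with rfl | h₁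
  · exact ext _ (Finset.singleton_subset_iff.2 hL₂) (lsum_one he hx hη hm hb)
  rcases h₃.eq_or_lt with rfl | h₃
  · exact ext _ (Finset.singleton_subset_iff.2 hL₁) (lsum_one he hx hη hm hb)
  exact ext _ (Finset.insert_subset hL₁ (Finset.singleton_subset_iff.2 hL₂))
    (lsum_two he hx hη hm h₁ h₃ hb)

end Vale.Agent.P078
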