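import Vale.Agent.P078b.Arrow

open Polynomial MeasureTheory
open scoped ComplexConjugate

set_option linter.unusedSectionVars false
set_option linter.unusedVariables false

namespace Vale.Agent.P078

variable {ι : Type*} [Fintype ι] [DecidableEq ι]

theorem del_ind {f g F : ℝ → ℝ} {a : ℝ} (ha : 0 ≤ a) (hg : Continuous g)
    (hF : ∀ y, HasDerivAt F (g y) y) (h1 : ∀ y, 0 < y → y < a → f y = g y)
    (h2 : ∀ y, a ≤ y → f y = 0) :
    IntegrableOn f (Set.Ioi 0) ∧ ∫ y in Set.Ioi (0 : ℝ), f y = F a - F 0 := by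
  have e : Set.EqOn f ((Set.Ioo 0 a).indicator g) (Set.Ioi 0) := fun y hy => by
    by_cases h : y < a
    · rw [Set.indicator_of_mem (show y ∈ Set.Ioo 0 a from ⟨hy, h⟩), h1 y hy h]
    · rw [Set.indicator_of_notMem (fun h' => h h'.2), h2 y (not_lt.1 h)]
  refine ⟨(integrableOn_congr_fun e measurableSet_Ioi).2 (Integrable.integrableOn
    ((integrable_indicator_iff measurableSet_Ioo).2
      (hg.integrableOn_Icc.mono_set Set.Ioo_subset_Icc_self))), ?_⟩
  rw [setIntegral_congr_fun measurableSet_Ioi e, setIntegral_indicator measurableSet_Ioo,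
    Set.inter_eq_right.2 Set.Ioo_subset_Ioi_self, ← integral_Ioc_eq_integral_Ioo,
    ← intervalIntegral.integral_of_le ha,
    intervalIntegral.integral_eq_sub_of_hasDerivAt (fun y _ => hF y) (hg.intervalIntegrable _ _)]

theorem integral_pos_part {q : ℕ} (hq : 2 ≤ q) (x : ℝ) :
    IntegrableOn (fun y : ℝ => (q : ℝ) * (q - 1) * y ^ (q - 2) * max (x - y) 0) (Set.Ioi 0) ∧
    ∫ y in Set.Ioi (0 : ℝ), (q : ℝ) * (q - 1) * y ^ (q - 2) * max (x - y) 0 = max x 0 ^ q := by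
  obtain ⟨n, rfl⟩ := Nat.exists_eq_add_of_le' hq
  have h := del_ind (f := fun y : ℝ => ((n + 2 : ℕ) : ℝ) * ((n + 2 : ℕ) - 1) * y ^ (n + 2 - 2) *
    max (x - y) 0) (g := fun y => (n + 2) * (n + 1) * y ^ n * (max x 0 - y))
    (F := fun y => (n + 2) * max x 0 * y ^ (n + 1) - (n + 1) * y ^ (n + 2)) (le_max_right x 0)
    (by fun_prop) (fun y => by
      refine (((hasDerivAt_pow (n + 1) y).const_mul _).fun_sub
        ((hasDerivAt_pow (n + 2) y).const_mul _)).congr_deriv ?_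
      simp only [Nat.add_sub_cancel, show n + 2 - 1 = n + 1 from rfl]
      push_cast
      ring)
    (fun y h1 h2 => by
      have h3 : y < x := (lt_max_iff.1 h2).resolve_right h1.not_gt
      simp only [Nat.add_sub_cancel, max_eq_left (sub_pos.2 h3).le, max_eq_left (h1.trans h3).le]
      push_cast
      ring)
    fun y h => by rw [max_eq_right (sub_nonpos.2 ((le_max_left _ _).trans h)), mul_zero]
  refine ⟨h.1, h.2.trans ?_⟩
  simp
  ring

theorem integral_step {q : ℕ} (hq : 2 ≤ q) (x : ℝ) :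
    IntegrableOn (fun y : ℝ => (q : ℝ) * (q - 1) * y ^ (q - 2) * if y < x then 1 else 0)
      (Set.Ioi 0) ∧
    ∫ y in Set.Ioi (0 : ℝ), (q : ℝ) * (q - 1) * y ^ (q - 2) * (if y < x then 1 else 0) =
      q * max x 0 ^ (q - 1) := by
  obtain ⟨n, rfl⟩ := Nat.exists_eq_add_of_le' hq
  have h := del_ind (f := fun y : ℝ => ((n + 2 : ℕ) : ℝ) * ((n + 2 : ℕ) - 1) * y ^ (n + 2 - 2) *
    if y < x then 1 else 0) (g := fun y => (n + 2) * (n + 1) * y ^ n)
    (F := fun y => (n + 2) * y ^ (n + 1)) (le_max_right x 0)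
    (by fun_prop) (fun y => by
      refine ((hasDerivAt_pow (n + 1) y).const_mul _).congr_deriv ?_
      simp only [Nat.add_sub_cancel]
      push_cast
      ring)
    (fun y h1 h2 => by
      have h3 : y < x := (lt_max_iff.1 h2).resolve_right h1.not_gt
      simp only [Nat.add_sub_cancel, if_pos h3]
      push_cast
      ring)
    fun y h => by rw [if_neg ((le_max_left _ _).trans h).not_gt, mul_zero]
  refine ⟨h.1, h.2.trans ?_⟩
  simp

/-- The weighted integral of `f` exists and equals `v`. -/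
def DelI (q : ℕ) (f : ℝ → ℝ) (v : ℝ) : Prop :=
  IntegrableOn (fun y : ℝ => (q : ℝ) * (q - 1) * y ^ (q - 2) * f y) (Set.Ioi 0) ∧
    ∫ y in Set.Ioi (0 : ℝ), (q : ℝ) * (q - 1) * y ^ (q - 2) * f y = v

theorem del_w {q : ℕ} (hq : 2 ≤ q) {y : ℝ} (hy : 0 < y) : 0 ≤ (q : ℝ) * (q - 1) * y ^ (q - 2) := by
  have : (2 : ℝ) ≤ q := by exact_mod_cast hq
  exact mul_nonneg (mul_nonneg (by linarith) (by linarith)) (pow_nonneg hy.le _)

theorem DelI.le {q : ℕ} {f g : ℝ → ℝ} {v w : ℝ} (hf : DelI q f v) (hq : 2 ≤ q) (hg : DelI q g w)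
    (h : ∀ y, 0 < y → f y ≤ g y) : v ≤ w := by
  rw [← hf.2, ← hg.2]
  exact setIntegral_mono_on hf.1 hg.1 measurableSet_Ioi fun y hy =>
    mul_le_mul_of_nonneg_left (h y hy) (del_w hq hy)

theorem DelI.add {q : ℕ} {f g : ℝ → ℝ} {v w : ℝ} (hf : DelI q f v) (hg : DelI q g w) :
    DelI q (fun y => f y + g y) (v + w) := by
  simp only [DelI, mul_add]
  exact ⟨hf.1.add hg.1, by rw [integral_add hf.1 hg.1, hf.2, hg.2]⟩

theorem DelI.sub {q : ℕ} {f g : ℝ → ℝ} {v w : ℝ} (hf : DelI q f v) (hg : DelI q g w) :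
    DelI q (fun y => f y - g y) (v - w) := by
  unfold DelI
  simp only [mul_sub _ (f _)]
  exact ⟨hf.1.sub hg.1, by rw [integral_sub hf.1 hg.1, hf.2, hg.2]⟩

theorem DelI.smul {q : ℕ} {f : ℝ → ℝ} {v : ℝ} (c : ℝ) (hf : DelI q f v) :
    DelI q (fun y => c * f y) (c * v) := by
  unfold DelI
  simp only [mul_left_comm _ c]
  exact ⟨Integrable.const_mul hf.1 c, by rw [integral_const_mul, hf.2]⟩

theorem DelI.sum {q : ℕ} {α : Type*} {f : α → ℝ → ℝ} {v : α → ℝ} (s : Finset α)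
    (hf : ∀ i ∈ s, DelI q (f i) (v i)) : DelI q (fun y => ∑ i ∈ s, f i y) (∑ i ∈ s, v i) := by
  simp only [DelI, Finset.mul_sum]
  exact ⟨integrable_finsetSum _ fun i hi => (hf i hi).1, by
    rw [integral_finsetSum _ fun i hi => (hf i hi).1]
    exact Finset.sum_congr rfl fun i hi => (hf i hi).2⟩

theorem del_Gp {t ν : ι → ℝ} {θ : Option ι → ℝ} (h : Interl t ν θ) {q : ℕ} (hq : 2 ≤ q) :
    DelI q (dl t ν) (∑ j, max (θ j) 0 ^ q - ∑ i, max (t i) 0 ^ q) := by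
  rw [funext h.dl_eq]
  exact (DelI.sum _ fun j _ => integral_pos_part hq (θ j)).sub
    (DelI.sum _ fun j _ => integral_pos_part hq (t j))

theorem del_Gp' {t ν : ι → ℝ} {θ : Option ι → ℝ} (h : Interl t ν θ) {q : ℕ} (hq : 2 ≤ q) :
    DelI q (dl t ν) (Gp q t ν) := ⟨(del_Gp h hq).1, rfl⟩

theorem integrableOn_Gp {q : ℕ} (hq : 2 ≤ q) (t : ι → ℝ) {ν : ι → ℝ} (hν : ∀ i, 0 ≤ ν i) :
    IntegrableOn (fun y : ℝ => (q : ℝ) * (q - 1) * y ^ (q - 2) * dl t ν y) (Set.Ioi 0) := by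
  obtain ⟨θ, -, h⟩ := exists_interl t ν hν
  exact (del_Gp h hq).1

theorem del_Gp0 {q : ℕ} (hq : 2 ≤ q) (t : ι → ℝ) {ν : ι → ℝ} (hν : ∀ i, 0 ≤ ν i) :
    DelI q (dl t ν) (Gp q t ν) := ⟨integrableOn_Gp hq t hν, rfl⟩

theorem Gp_nonneg {q : ℕ} (hq : 2 ≤ q) (t ν : ι → ℝ) : 0 ≤ Gp q t ν := by
  exact setIntegral_nonneg measurableSet_Ioi fun y hy =>
    mul_nonneg (del_w hq hy) ENNReal.toReal_nonneg

theorem Gp_zero (q : ℕ) (t : ι → ℝ) : Gp q t (fun _ => 0) = 0 := by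
  refine setIntegral_eq_zero_of_forall_eq_zero fun y hy => ?_
  have : {s : ℝ | y < s ∧ s < Mf t (fun _ => 0) s} = ∅ :=
    Set.eq_empty_of_forall_notMem fun s hs => by
      have h1 : s < 0 := by simpa [Mf] using hs.2
      exact absurd (h1.trans (lt_trans hy hs.1)) (lt_irrefl s)
  simp [dl, this]

theorem Interl.sum_pow {t ν : ι → ℝ} {θ : Option ι → ℝ} (h : Interl t ν θ) {q : ℕ} (hq : 2 ≤ q)
    (he : Even q) : ∑ j, θ j ^ q - ∑ i, t i ^ q = Gp q t ν + Gp q (fun i => -t i) ν := by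
  have e : ∀ x : ℝ, x ^ q = max x 0 ^ q + max (-x) 0 ^ q := fun x => by
    have h0 : q ≠ 0 := by omega
    rcases le_total x 0 with hx | hx
    · rw [max_eq_right hx, max_eq_left (neg_nonneg.2 hx), zero_pow h0, zero_add, he.neg_pow]
    · rw [max_eq_left hx, max_eq_right (neg_nonpos.2 hx), zero_pow h0, add_zero]
  rw [Gp, Gp, (del_Gp h hq).2, (del_Gp h.neg hq).2, Finset.sum_congr rfl fun j _ => e (θ j),
    Finset.sum_congr rfl fun j _ => e (t j), Finset.sum_add_distrib, Finset.sum_add_distrib]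
  ring

theorem Interl.Gp_le {t ν : ι → ℝ} {θ : Option ι → ℝ} (h : Interl t ν θ) {q : ℕ} (hq : 2 ≤ q)
    {R : ℝ} (hR : 0 ≤ R) (hθ : ∀ j, θ j ≤ R) : Gp q t ν ≤ R ^ q := by
  have h1 := (del_Gp' h hq).le hq (integral_pos_part hq R) fun y _ => ?_
  · rwa [max_eq_left hR] at h1
  rw [← ENNReal.toReal_ofReal', ← Real.volume_Ioo]
  refine ENNReal.toReal_mono (by simp) (measure_mono_ae ?_)
  filter_upwards [(Set.finite_range t).countable.ae_notMem volume] with s hs h1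
  have h2 := (h.2 s fun i e => hs ⟨i, e.symm⟩).1
  rw [if_pos h1.2] at h2
  obtain ⟨j, hj⟩ := Finset.card_pos.1 ((Nat.succ_pos _).trans_eq h2.symm)
  exact ⟨h1.1, (Finset.mem_filter.1 hj).2.trans_le (hθ j)⟩

theorem dl_mono (t : ι → ℝ) {ν ν' : ι → ℝ} (h0 : ∀ i, 0 ≤ ν' i) (h : ∀ i, ν' i ≤ ν i) (y : ℝ) :
    dl t ν' y ≤ dl t ν y := by
  obtain ⟨θ, -, h1⟩ := exists_interl t ν fun i => (h0 i).trans (h i)
  obtain ⟨θ', -, h2⟩ := exists_interl t ν' h0
  obtain ⟨θ1, -, h3⟩ := exists_interl t (fun i => if y ≤ t i then ν i else ν' i) fun i => by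
    split_ifs
    exacts [(h0 i).trans (h i), h0 i]
  refine le_trans (b := dl t (fun i => if y ≤ t i then ν i else ν' i) y) ?_ ?_
  · rw [h2.dl_eq', h3.dl_eq']
    refine sub_le_sub_right (ENNReal.toReal_mono (h3.vol_ne_top' y) (measure_mono fun s hs =>
      ⟨hs.1, lt_of_le_of_lt (Finset.sum_le_sum fun i _ => ?_) hs.2⟩)) _
    dsimp only
    split_ifs with hi
    · exact div_le_div_of_nonpos_of_le (sub_nonpos.2 (hs.1.le.trans hi)) (h i)
    · exact le_rfl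
  · refine ENNReal.toReal_mono (h1.vol_ne_top y) (measure_mono fun s hs =>
      ⟨hs.1, lt_of_lt_of_le hs.2 (Finset.sum_le_sum fun i _ => ?_)⟩)
    dsimp only
    split_ifs with hi
    · exact le_rfl
    · exact div_le_div_of_nonneg_right (h i) (sub_nonneg.2 ((not_le.1 hi).trans hs.1).le)

theorem Gp_mono {q : ℕ} (hq : 2 ≤ q) (t : ι → ℝ) {ν ν' : ι → ℝ} (h0 : ∀ i, 0 ≤ ν' i)
    (h : ∀ i, ν' i ≤ ν i) : Gp q t ν' ≤ Gp q t ν := by
  exact (del_Gp0 hq t h0).le hq (del_Gp0 hq t fun i => (h0 i).trans (h i))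
    fun y _ => dl_mono t h0 h y

/-- Weak type bound for masses on the positive axis. -/
theorem dl_le_sum (t : ι → ℝ) {ν : ι → ℝ} (h0 : ∀ i, 0 ≤ ν i) (ht : ∀ i, ν i ≠ 0 → 0 < t i) :
    dl t ν 0 ≤ ∑ i, ν i / t i := by
  obtain ⟨θ, -, h1⟩ := exists_interl t ν h0
  have hA : 0 ≤ ∑ i, ν i / t i := Finset.sum_nonneg fun i _ => by
    by_cases hi : ν i = 0
    · simp [hi]
    · exact div_nonneg (h0 i) (ht i hi).le
  rw [h1.dl_eq', sub_zero, ← ENNReal.toReal_ofReal hA, ← neg_neg (∑ i, ν i / t i),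
    ← zero_sub, ← Real.volume_Ioo]
  refine ENNReal.toReal_mono (by simp) (measure_mono fun s hs =>
    ⟨lt_of_le_of_lt ?_ hs.2, hs.1⟩)
  rw [← Finset.sum_neg_distrib]
  refine Finset.sum_le_sum fun i _ => ?_
  by_cases hi : ν i = 0
  · simp [hi]
  · rw [← neg_sub, div_neg]
    exact neg_le_neg (div_le_div_of_nonneg_left (h0 i) (ht i hi) (by linarith [hs.1]))

/-- Lower bound through small masses. -/
theorem Gp_ge_mass {q : ℕ} (hq : 2 ≤ q) (t : ι → ℝ) {ν ν' : ι → ℝ} (h0 : ∀ i, 0 ≤ ν' i)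
    (h : ∀ i, ν' i ≤ ν i) {y : ℝ} (hy : 0 ≤ y) (ht : ∀ i, ν' i ≠ 0 → 0 < t i ∧ y ≤ t i)
    (hm : ∑ i, ν' i ≤ y ^ 2) : (q : ℝ) / 2 * ∑ i, ν' i * t i ^ (q - 2) ≤ Gp q t ν := by
  rcases hy.eq_or_lt with rfl | hy0
  · have h1 := (Finset.sum_eq_zero_iff_of_nonneg fun i _ => h0 i).1
      (le_antisymm (by simpa using hm) (Finset.sum_nonneg fun i _ => h0 i))
    rw [Finset.sum_eq_zero fun i hi => by rw [h1 i hi, zero_mul], mul_zero]
    exact Gp_nonneg hq t ν
  have h1 := (DelI.sum Finset.univ fun i _ => DelI.smul (ν' i / (2 * t i))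
    (integral_step hq (t i))).le hq (del_Gp0 hq t fun i => (h0 i).trans (h i)) fun y' hy' => ?_
  · refine le_of_eq_of_le ?_ h1
    rw [Finset.mul_sum]
    refine Finset.sum_congr rfl fun i _ => ?_
    by_cases hi : ν' i = 0
    · simp [hi]
    · obtain ⟨n, rfl⟩ := Nat.exists_eq_add_of_le' hq
      have := (ht i hi).1
      rw [max_eq_left this.le, Nat.add_sub_cancel, show n + 2 - 1 = n + 1 from rfl]
      field_simp
      ring
  obtain ⟨μ, hμ⟩ : ∃ μ : ι → ℝ, ∀ i, μ i = if y' < t i then ν' i else 0 := ⟨_, fun _ => rfl⟩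
  have m0 : ∀ i, 0 ≤ μ i := fun i => by
    rw [hμ]
    split_ifs
    exacts [h0 i, le_rfl]
  have m1 : ∀ i, μ i ≤ ν' i := fun i => by
    rw [hμ]
    split_ifs
    exacts [le_rfl, h0 i]
  have m2 : ∀ i, μ i ≠ 0 → y' < t i ∧ y ≤ t i := fun i hi => by
    rw [hμ] at hi
    split_ifs at hi with h2
    exacts [⟨h2, (ht i hi).2⟩, absurd rfl hi]
  obtain ⟨θ, -, h2⟩ := exists_interl t μ m0
  obtain ⟨a, ha⟩ : ∃ a, a = ∑ i, μ i / (2 * t i) := ⟨_, rfl⟩
  have a0 : 0 ≤ a := ha ▸ Finset.sum_nonneg fun i _ => by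
    by_cases hi : μ i = 0
    · simp [hi]
    · exact div_nonneg (m0 i) (by linarith [(m2 i hi).2])
  have a1 : a ≤ y := by
    have : a ≤ ∑ i, ν' i / y := ha ▸ Finset.sum_le_sum fun i _ => by
      by_cases hi : μ i = 0
      · rw [hi, zero_div]; exact div_nonneg (h0 i) hy
      · exact div_le_div₀ (h0 i) (m1 i) hy0 (by linarith [(m2 i hi).2])
    rw [← Finset.sum_div, le_div_iff₀ hy0] at this
    exact le_of_mul_le_mul_right (by linarith) hy0
  refine le_trans ?_ (dl_mono t m0 (fun i => (m1 i).trans (h i)) y')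
  have a2 : ∑ i, ν' i / (2 * t i) * (if y' < t i then 1 else 0) = a :=
    ha ▸ Finset.sum_congr rfl fun i _ => by
      rw [hμ]
      split_ifs <;> simp
  rw [a2, h2.dl_eq', le_sub_iff_add_le, ← ENNReal.toReal_ofReal (add_nonneg a0 hy'.le),
    add_comm, ← sub_neg_eq_add, ← Real.volume_Ioo]
  refine ENNReal.toReal_mono (h2.vol_ne_top' _) (measure_mono_ae ?_)
  filter_upwards [(Set.countable_singleton (0 : ℝ)).ae_notMem volume] with s hs h3
  refine ⟨h3.2, ?_⟩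
  rcases lt_or_gt_of_ne hs with h4 | h4
  · refine lt_of_le_of_lt ?_ h3.1
    rw [ha, ← Finset.sum_neg_distrib]
    refine Finset.sum_le_sum fun i _ => ?_
    by_cases hi : μ i = 0
    · simp [hi]
    · rw [← neg_sub, div_neg]
      exact neg_le_neg (div_le_div_of_nonneg_left (m0 i) (by linarith [(m2 i hi).2])
        (by linarith [(m2 i hi).2, h3.1]))
  · refine lt_of_le_of_lt (Finset.sum_nonpos fun i _ => ?_) h4
    by_cases hi : μ i = 0
    · simp [hi]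
    · exact div_nonpos_of_nonneg_of_nonpos (m0 i) (by linarith [(m2 i hi).1, h3.2])

/-- Lower bound through an interval of bad points. -/
theorem Gp_ge_interval {q : ℕ} (hq : 2 ≤ q) (t : ι → ℝ) {ν : ι → ℝ} (h0 : ∀ i, 0 ≤ ν i)
    {y s : ℝ} (hy : 0 ≤ y) (hys : y ≤ s) (h : ∀ u, y < u → u < s → u < Mf t ν u) :
    s ^ q - y ^ q ≤ Gp q t ν := by
  obtain ⟨θ, -, h1⟩ := exists_interl t ν h0
  have h2 := (DelI.sub (integral_pos_part hq s) (integral_pos_part hq y)).le hq (del_Gp' h1 hq)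
    fun y' _ => ?_
  · rwa [max_eq_left hy, max_eq_left (hy.trans hys)] at h2
  refine le_trans (b := (volume (Set.Ioo (max y y') s)).toReal) ?_
    (ENNReal.toReal_mono (h1.vol_ne_top _) (measure_mono fun u hu =>
      ⟨(max_lt_iff.1 hu.1).2, h u (max_lt_iff.1 hu.1).1 hu.2⟩))
  rw [Real.volume_Ioo, ENNReal.toReal_ofReal']
  rcases le_total y y' with h3 | h3
  · rw [max_eq_right h3]; linarith [le_max_right (y - y') 0]
  · rw [max_eq_left h3, max_eq_left (sub_nonneg.2 h3), max_eq_left (sub_nonneg.2 (h3.trans hys)),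
      max_eq_left (sub_nonneg.2 hys)]
    linarith

/-- Upper bound from a bound on the distribution function. -/
theorem Gp_le_of_dl {q : ℕ} (hq : 2 ≤ q) (t : ι → ℝ) {ν : ι → ℝ} (h0 : ∀ i, 0 ≤ ν i)
    {y₂ : ℝ} (hy : 0 ≤ y₂) (m τ : ι → ℝ) (hm : ∀ i, 0 ≤ m i)
    (h : ∀ y, y₂ ≤ y → dl t ν y ≤ ∑ i, if y < τ i then m i else 0) :
    Gp q t ν ≤ y₂ ^ q + q * ∑ i, m i * max (τ i) 0 ^ (q - 1) := by
  obtain ⟨θ, -, h1⟩ := exists_interl t ν h0
  have h2 := (del_Gp' h1 hq).le hq (DelI.add (integral_pos_part hq y₂) (DelI.sum Finset.univ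
    fun i _ => DelI.smul (m i) (integral_step hq (τ i)))) fun y _ => ?_
  · rw [max_eq_left hy] at h2
    refine h2.trans_eq (congrArg _ ?_)
    rw [Finset.mul_sum]
    exact Finset.sum_congr rfl fun i _ => by ring
  simp only [mul_ite, mul_one, mul_zero]
  rcases le_total y₂ y with h3 | h3
  · linarith [h y h3, le_max_right (y₂ - y) 0]
  · have h4 : dl t ν y ≤ dl t ν y₂ + (y₂ - y) := by
      have := ENNReal.toReal_mono (h1.vol_ne_top' y₂) (measure_mono
        (s := {s : ℝ | s < y ∧ Mf t ν s < s}) fun s hs => ⟨hs.1.trans_le h3, hs.2⟩)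
      rw [h1.dl_eq', h1.dl_eq']
      linarith
    have h5 : ∑ i, (if y₂ < τ i then m i else 0) ≤ ∑ i, if y < τ i then m i else 0 :=
      Finset.sum_le_sum fun i _ => by
        split_ifs with h6 h7
        exacts [le_rfl, absurd (h3.trans_lt h6) h7, hm i, le_rfl]
    linarith [h y₂ le_rfl, le_max_left (y₂ - y) 0]

end Vale.Agent.P078
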