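import Mathlib

/-! Definitions for the finite-dimensional part of the paving proof. -/

open Polynomial MeasureTheory
open scoped ComplexConjugate

namespace Vale.Agent.P078

section fd
variable {V : Type*} [DecidableEq V] {κ : Type*} [Fintype κ] [DecidableEq κ]

/-- Hermitian kernel. -/
def Herm (X : V → V → ℂ) : Prop := ∀ a b, X b a = conj (X a b)

/-- All finite sections of the kernel are contractions of `ℓ²`. -/
def Contr (X : V → V → ℂ) : Prop :=
  ∀ (S : Finset V) (v : V → ℂ), ∑ a ∈ S, ‖∑ b ∈ S, X a b * v b‖ ^ 2 ≤ ∑ b ∈ S, ‖v b‖ ^ 2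

/-- The principal minor `det (-X_S)`. -/
noncomputable def mu (X : V → V → ℂ) (S : Finset V) : ℂ :=
  (Matrix.of fun i j : S => -X i j).det

/-- The partition function: one subset of `Λ` per colour, site weights `ω`. -/
noncomputable def Zf (X : V → V → ℂ) (ω : V → Finset κ → ℂ) (Λ : Finset V) : ℂ :=
  ∑ O ∈ Fintype.piFinset (fun _ : κ => Λ.powerset),
    (∏ j ∈ Λ, ω j (Finset.univ.filter fun c => j ∈ O c)) * ∏ c, mu X (O c)

/-- Point mass weight. -/
def dlt (S : Finset κ) (T : Finset κ) : ℂ := if T = S then 1 else 0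

/-- Product weight. -/
def pw1 (t : κ → ℂ) (S : Finset κ) : ℂ := ∏ c ∈ S, t c

/-- Coefficient of `t c₀` in the product weight. -/
def pwd (t : κ → ℂ) (c₀ : κ) (S : Finset κ) : ℂ := if c₀ ∈ S then ∏ c ∈ S.erase c₀, t c else 0

/-- Contracted weight. -/
def cw1 (z : ℂ) (b : κ → ℂ) (S : Finset κ) : ℂ :=
  z * dlt ∅ S + ∑ c, b c * dlt {c} S

/-- Weights in the open stability region. -/
def AdmO (ω : V → Finset κ → ℂ) (L : Finset V) : Prop :=
  ∀ j ∈ L, (∃ t : κ → ℂ, (∀ c, t c = 0 ∨ (t c).im < 0) ∧ ω j = pw1 t) ∨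
    ∃ (z : ℂ) (b : κ → ℝ), 0 < z.im ∧ (∀ c, 0 ≤ b c) ∧ ω j = cw1 z fun c => (b c : ℂ)

/-- Weights in the closed stability region. -/
def Adm (ω : V → Finset κ → ℂ) (L : Finset V) : Prop :=
  ∀ j ∈ L, (∃ t : κ → ℂ, (∀ c, (t c).im ≤ 0) ∧ ω j = pw1 t) ∨
    ∃ (z : ℂ) (b : κ → ℝ), 0 ≤ z.im ∧ (∀ c, 0 ≤ b c) ∧ ω j = cw1 z fun c => (b c : ℂ)

/-- Hybrid weights: contracted on `E`, free elsewhere. -/
noncomputable def hyb (E : Finset V) (Z : V → ℝ) (b : ℝ) (t : V → ℝ) (j : V) : Finset κ → ℂ :=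
  if j ∈ E then cw1 (Z j : ℂ) fun _ => (b : ℂ) else pw1 fun _ => (t j : ℂ)

/-- The coefficient attached to a set of occupied sites. -/
noncomputable def kap (X : V → V → ℂ) (β : V → κ → ℝ) (S : Finset V) : ℝ :=
  (Zf X (fun j => cw1 0 fun c => (β j c : ℂ)) S).re

/-- The mixed characteristic polynomial. -/
noncomputable def pol (X : V → V → ℂ) (β : V → κ → ℝ) (Λ : Finset V) : ℝ[X] :=
  ∑ S ∈ Λ.powerset, C (kap X β S) * Polynomial.X ^ (Λ.card - S.card)

/-- Newton recursion: power sums from coefficients. -/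
noncomputable def newt (a : ℕ → ℝ) : ℕ → ℝ
  | 0 => 0
  | n + 1 => -((n + 1 : ℝ) * a (n + 1)) - ∑ i : Fin n, a (i + 1) * newt a (n - i)
decreasing_by omega

/-- The `q`-th power sum of the roots of `pol`. -/
noncomputable def Nq (X : V → V → ℂ) (β : V → κ → ℝ) (q : ℕ) (Λ : Finset V) : ℝ :=
  newt (fun i => ∑ S ∈ Λ.powersetCard i, kap X β S) q

/-- Moebius transform on finite sets. -/
noncomputable def mob (F : Finset V → ℝ) (T : Finset V) : ℝ :=
  ∑ S ∈ T.powerset, (-1) ^ (T.card - S.card) * F S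

/-- The cluster weight. -/
noncomputable def psi (X : V → V → ℂ) (β : V → κ → ℝ) (q : ℕ) (T : Finset V) : ℝ :=
  mob (Nq X β q) T

/-- `b` is within `n` steps of `a` in the graph of `X`. -/
inductive Near (X : V → V → ℂ) : ℕ → V → V → Prop
  | refl (n : ℕ) (a : V) : Near X n a a
  | step {n : ℕ} {a b c : V} : Near X n a b → X b c ≠ 0 → Near X (n + 1) a c

/-- A set of diameter at most `R`. -/
def Small (X : V → V → ℂ) (R : ℕ) (T : Finset V) : Prop := ∀ a ∈ T, ∀ b ∈ T, Near X R a b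

/-- Entries of the powers of the section of `X` on `S`. -/
noncomputable def pwS (X : V → V → ℂ) (S : Finset V) : ℕ → V → V → ℂ
  | 0 => fun a b => if a = b then 1 else 0
  | n + 1 => fun a b => ∑ c ∈ S, pwS X S n a c * X c b

/-- Diagonal entries of the powers of the section of `X` on `S`. -/
noncomputable def dg (X : V → V → ℂ) (n : ℕ) (S : Finset V) (a : V) : ℝ :=
  if a ∈ S then (pwS X S n a a).re else 0

/-- The kernel pinched by a colouring. -/
def Xcol (X : V → V → ℂ) (col : V → κ) (a b : V) : ℂ := if col a = col b then X a b else 0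

/-- The kernel conjugated by real weights. -/
def Xsc (s : V → ℝ) (X : V → V → ℂ) (a b : V) : ℂ := (s a : ℂ) * (s b : ℂ) * X a b

end fd

section arrow
variable {ι : Type*} [Fintype ι] [DecidableEq ι]

/-- The characteristic polynomial of an arrowhead matrix. -/
noncomputable def arrow (t ν : ι → ℝ) : ℝ[X] :=
  Polynomial.X * ∏ i, (Polynomial.X - C (t i)) -
    ∑ i, C (ν i) * ∏ j ∈ Finset.univ.erase i, (Polynomial.X - C (t j))

/-- Cauchy transform. -/
noncomputable def Mf (t ν : ι → ℝ) (s : ℝ) : ℝ := ∑ i, ν i / (s - t i)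

/-- `θ` are the roots of the arrowhead polynomial, with the two counting identities. -/
def Interl (t ν : ι → ℝ) (θ : Option ι → ℝ) : Prop :=
  ∑ j, θ j = ∑ i, t i ∧ ∀ s, (∀ i, s ≠ t i) →
    ((Finset.univ.filter fun j => s < θ j).card =
      (Finset.univ.filter fun i => s < t i).card + if s < Mf t ν s then 1 else 0) ∧
    ((Finset.univ.filter fun j => θ j < s).card =
      (Finset.univ.filter fun i => t i < s).card + if Mf t ν s < s then 1 else 0)

/-- Measure of the bad set above `y`. -/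
noncomputable def dl (t ν : ι → ℝ) (y : ℝ) : ℝ :=
  (volume {s : ℝ | y < s ∧ s < Mf t ν s}).toReal

/-- The positive part of the power sum increment. -/
noncomputable def Gp (q : ℕ) (t ν : ι → ℝ) : ℝ :=
  ∫ y in Set.Ioi (0 : ℝ), (q : ℝ) * (q - 1) * y ^ (q - 2) * dl t ν y

end arrow

end Vale.Agent.P078
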