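import Vale.Agent.P078b.Alloc
import Vale.Agent.P078b.LocN
import Vale.Agent.P078b.Key

open Polynomial MeasureTheory
open scoped ComplexConjugate

set_option linter.unusedSectionVars false
set_option linter.unusedVariables false

namespace Vale.Agent.P078

universe u

variable {Ω : Type u} [TopologicalSpace Ω] [CompactSpace Ω] [T2Space Ω]
  [TotallyDisconnectedSpace Ω] [DecidableEq Ω] {B : Base Ω} {R : ℕ}
variable {κ : Type*} [Fintype κ] [DecidableEq κ]

theorem ginit_sum_mem {V : Type*} [DecidableEq V] (G : Finset V → ℝ) {L : Finset V} {a : V}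
    (ha : a ∉ L) : ∑ T ∈ (insert a L).powerset with a ∈ T, G T = ∑ T ∈ L.powerset, G (insert a T) := by
  rw [Finset.sum_filter, Finset.sum_powerset_insert ha, Finset.sum_eq_zero, zero_add]
  · exact Finset.sum_congr rfl fun T _ => if_pos (Finset.mem_insert_self a T)
  · exact fun T hT => if_neg fun h => ha (Finset.mem_powerset.1 hT h)

theorem ginit_weight {V : Type*} [DecidableEq V] {M T : Finset V} (hT : T ⊆ M) (p : V → ℝ) :
    ∑ L ∈ M.powerset, (if T ⊆ L then (∏ j ∈ L, p j) * ∏ j ∈ M \ L, (1 - p j) else 0) =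
      ∏ j ∈ T, p j := by
  have h1 := Finset.prod_add p (fun j => if j ∈ T then 0 else 1 - p j) M
  have h2 : ∏ j ∈ M, (p j + if j ∈ T then 0 else 1 - p j) = ∏ j ∈ T, p j := by
    rw [← Finset.inter_eq_right.2 hT, ← Finset.prod_ite_mem, Finset.inter_eq_right.2 hT]
    refine Finset.prod_congr rfl fun j _ => ?_
    split_ifs <;> ring
  rw [← h2, h1]
  refine Finset.sum_congr rfl fun L _ => ?_
  split_ifs with h
  · congr 1
    exact Finset.prod_congr rfl fun j hj => (if_neg fun h' => (Finset.mem_sdiff.1 hj).2 (h h')).symm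
  · obtain ⟨j, hj, hj'⟩ := Finset.not_subset.1 h
    rw [Finset.prod_eq_zero (f := fun j => if j ∈ T then (0 : ℝ) else 1 - p j)
      (Finset.mem_sdiff.2 ⟨hT hj, hj'⟩) (if_pos hj), mul_zero]

/-- The Bernoulli expansion of a Moebius sum. -/
theorem sum_mob_bernoulli {V : Type*} [DecidableEq V] (F : Finset V → ℝ) {N : Finset V} {a : V}
    (ha : a ∈ N) (p : V → ℝ) :
    ∑ T ∈ N.powerset with a ∈ T, mob F T * ∏ j ∈ T.erase a, p j =
      ∑ L ∈ (N.erase a).powerset, (∏ j ∈ L, p j) * (∏ j ∈ N.erase a \ L, (1 - p j)) *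
        (F (insert a L) - F L) := by
  have haM : a ∉ N.erase a := Finset.notMem_erase a N
  set M := N.erase a with hM
  have hN : N = insert a M := (Finset.insert_erase ha).symm
  have h1 : ∀ L ∈ M.powerset, F (insert a L) - F L =
      ∑ T ∈ M.powerset, if T ⊆ L then mob F (insert a T) else 0 := fun L hL => by
    have haL : a ∉ L := fun h => haM (Finset.mem_powerset.1 hL h)
    have := sum_mob_mem F (Finset.mem_insert_self a L)
    rw [Finset.erase_insert haL, ginit_sum_mem _ haL] at this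
    rw [← this, ← Finset.sum_filter]
    refine Finset.sum_congr (Finset.ext fun T => ?_) fun _ _ => rfl
    simp only [Finset.mem_powerset, Finset.mem_filter]
    exact ⟨fun h => ⟨h.trans (Finset.mem_powerset.1 hL), h⟩, fun h => h.2⟩
  refine Eq.trans ?_ (Finset.sum_congr rfl fun L hL => by rw [h1 L hL, Finset.mul_sum]).symm
  rw [Finset.sum_comm]
  conv_lhs => rw [hN]
  rw [ginit_sum_mem _ haM]
  refine Finset.sum_congr rfl fun T hT => ?_
  rw [Finset.erase_insert fun h => haM (Finset.mem_powerset.1 hT h),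
    ← ginit_weight (Finset.mem_powerset.1 hT) p, Finset.mul_sum]
  refine Finset.sum_congr rfl fun L _ => ?_
  split_ifs <;> ring

theorem ginit_integral {r : ℝ} (hr : 0 ≤ r) : ∫ x in (0 : ℝ)..1, x ^ r = 1 / (r + 1) := by
  rw [integral_rpow (Or.inl (by linarith)), Real.one_rpow, Real.zero_rpow (by linarith), sub_zero]

theorem ginit_point {V : Type*} [DecidableEq V] (F : Finset V → ℝ) {N : Finset V} {a : V}
    (ha : a ∈ N) {w : V → ℝ} (hw : ∀ j, 0 < w j) {K : ℝ} (hK : 0 ≤ K)
    (hF : ∀ L ⊆ N.erase a, ∀ σ : ℝ, (∀ j ∈ insert a L, w j ≤ σ) → F (insert a L) - F L ≤ K * σ)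
    {p : V → ℝ} (hp : ∀ j, 0 ≤ p j ∧ p j ≤ 1) :
    ∑ T ∈ N.powerset with a ∈ T, mob F T * ∏ j ∈ T.erase a, p j ≤
      K * (2 * w a + ∑ j ∈ N.erase a with 2 * w a < w j, w j * p j) := by
  rw [sum_mob_bernoulli F ha]
  set M := N.erase a
  have h1 : ∀ L ∈ M.powerset, F (insert a L) - F L ≤
      K * (2 * w a + ∑ j ∈ M with 2 * w a < w j, if {j} ⊆ L then w j else 0) := fun L hL => by
    have h0 : ∀ j ∈ M.filter fun j => 2 * w a < w j, 0 ≤ if {j} ⊆ L then w j else 0 :=
      fun j _ => by
        split_ifs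
        · exact (hw j).le
        · exact le_rfl
    refine hF L (Finset.mem_powerset.1 hL) _ fun j hj => ?_
    by_cases h2 : 2 * w a < w j
    · have hj' : j ∈ L := (Finset.mem_insert.1 hj).resolve_left fun h => by
        rw [h] at h2; linarith [hw a]
      have := Finset.single_le_sum h0 (Finset.mem_filter.2 ⟨Finset.mem_powerset.1 hL hj', h2⟩)
      rw [if_pos (Finset.singleton_subset_iff.2 hj')] at this
      linarith [hw a]
    · linarith [Finset.sum_nonneg h0]
  refine (Finset.sum_le_sum fun L hL => mul_le_mul_of_nonneg_left (h1 L hL) (mul_nonneg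
    (Finset.prod_nonneg fun j _ => (hp j).1)
    (Finset.prod_nonneg fun j _ => sub_nonneg.2 (hp j).2))).trans_eq ?_
  have h2 := ginit_weight (Finset.empty_subset M) p
  simp only [Finset.empty_subset, if_true, Finset.prod_empty] at h2
  have h3 : ∀ j ∈ M.filter fun j => 2 * w a < w j, w j * p j = ∑ L ∈ M.powerset,
      (∏ j ∈ L, p j) * (∏ j ∈ M \ L, (1 - p j)) * if {j} ⊆ L then w j else 0 := fun j hj => by
    have := ginit_weight (Finset.singleton_subset_iff.2 (Finset.mem_filter.1 hj).1) p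
    rw [Finset.prod_singleton] at this
    rw [← this, Finset.mul_sum]
    refine Finset.sum_congr rfl fun L _ => ?_
    split_ifs <;> ring
  have h4 : ∀ S : ℝ, K * (2 * w a + S) = K * ((∑ L ∈ M.powerset,
      (∏ j ∈ L, p j) * (∏ j ∈ M \ L, (1 - p j))) * (2 * w a) + S) := fun S => by rw [h2, one_mul]
  rw [Finset.sum_congr rfl h3, Finset.sum_comm, h4, Finset.sum_mul,
    ← Finset.sum_add_distrib, Finset.mul_sum]
  refine Finset.sum_congr rfl fun L _ => ?_
  rw [← Finset.mul_sum]
  ring

/-- The Plackett-Luce allocation. -/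
theorem pl_bound {V : Type*} [DecidableEq V] (F : Finset V → ℝ) {N : Finset V} {a : V}
    (ha : a ∈ N) {w : V → ℝ} (hw : ∀ j, 0 < w j) {K : ℝ} (hK : 0 ≤ K) {m : ℕ} (hm1 : 1 ≤ m)
    (hm : N.card ≤ 2 ^ (m - 1))
    (hF : ∀ L ⊆ N.erase a, ∀ σ : ℝ, (∀ j ∈ insert a L, w j ≤ σ) → F (insert a L) - F L ≤ K * σ) :
    ∑ T ∈ N.powerset with a ∈ T, mob F T * (w a ^ m / ∑ j ∈ T, w j ^ m) ≤ 3 * K * w a := by
  let ρ : V → ℝ := fun j => (w j / w a) ^ m
  have hρ : ∀ j, 0 < ρ j := fun j => pow_pos (div_pos (hw j) (hw a)) m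
  have hρs : ∀ T : Finset V, 0 ≤ ∑ j ∈ T, ρ j := fun T => Finset.sum_nonneg fun j _ => (hρ j).le
  have c1 : ∀ T : Finset V, Continuous fun x : ℝ => mob F T * x ^ ∑ j ∈ T.erase a, ρ j := fun T =>
    continuous_const.mul (Real.continuous_rpow_const (hρs _))
  have c2 : ∀ j, Continuous fun x : ℝ => w j * x ^ ρ j := fun j =>
    continuous_const.mul (Real.continuous_rpow_const (hρ j).le)
  have key := intervalIntegral.integral_mono_on (μ := volume) zero_le_one
    (f := fun x : ℝ => ∑ T ∈ N.powerset with a ∈ T, mob F T * x ^ ∑ j ∈ T.erase a, ρ j)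
    (g := fun x : ℝ => K * (2 * w a + ∑ j ∈ N.erase a with 2 * w a < w j, w j * x ^ ρ j))
    ((continuous_finsetSum _ fun T _ => c1 T).intervalIntegrable _ _)
    ((continuous_const.mul (continuous_const.add
      (continuous_finsetSum _ fun j _ => c2 j))).intervalIntegrable _ _) fun x hx => by
      have := ginit_point F ha hw hK hF (p := fun j => x ^ ρ j) fun j =>
        ⟨Real.rpow_nonneg hx.1 _, Real.rpow_le_one hx.1 hx.2 (hρ j).le⟩
      refine le_of_eq_of_le (Finset.sum_congr rfl fun T _ => ?_) this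
      rw [Real.rpow_sum_of_nonneg hx.1 fun j _ => (hρ j).le]
  rw [intervalIntegral.integral_finsetSum fun T _ => (c1 T).intervalIntegrable _ _,
    intervalIntegral.integral_const_mul, intervalIntegral.integral_add intervalIntegrable_const
      ((continuous_finsetSum _ fun j _ => c2 j).intervalIntegrable _ _),
    intervalIntegral.integral_finsetSum fun j _ => (c2 j).intervalIntegrable _ _,
    intervalIntegral.integral_const] at key
  simp only [intervalIntegral.integral_const_mul, ginit_integral (hρs _),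
    ginit_integral (hρ _).le, sub_zero, one_smul] at key
  have hwa := hw a
  refine le_of_eq_of_le (Finset.sum_congr rfl fun T hT => ?_) (key.trans ?_)
  · have haT := (Finset.mem_filter.1 hT).2
    have h1 : 0 < w a ^ m := pow_pos hwa m
    rw [← Finset.add_sum_erase _ _ haT]
    simp only [ρ, div_pow]
    rw [← Finset.sum_div]
    have h2 : 0 ≤ ∑ j ∈ T.erase a, w j ^ m := Finset.sum_nonneg fun j _ => (pow_pos (hw j) m).le
    congr 1
    field_simp
    ring
  · obtain ⟨k, rfl⟩ : ∃ k, m = k + 1 := ⟨m - 1, by omega⟩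
    have h1 : ∀ j ∈ (N.erase a).filter fun j => 2 * w a < w j,
        w j * (1 / (ρ j + 1)) ≤ w a / 2 ^ k := fun j hj => by
      have h2 : 2 ≤ w j / w a := (le_div_iff₀ hwa).2 (Finset.mem_filter.1 hj).2.le
      have h3 : (2 : ℝ) ^ k ≤ (w j / w a) ^ k := pow_le_pow_left₀ zero_le_two h2 k
      have h4 : ρ j * w a = (w j / w a) ^ k * w j := by
        simp only [ρ, pow_succ]; field_simp
      have h5 := mul_le_mul_of_nonneg_right h3 (hw j).le
      rw [mul_one_div, div_le_div_iff₀ (by linarith [hρ j]) (by positivity)]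
      nlinarith
    have h2 := Finset.sum_le_card_nsmul _ _ _ h1
    have h3 : (((N.erase a).filter fun j => 2 * w a < w j).card : ℝ) ≤ 2 ^ k := by
      exact_mod_cast ((Finset.card_filter_le _ _).trans Finset.card_erase_le).trans hm
    have h4 : (((N.erase a).filter fun j => 2 * w a < w j).card : ℝ) * (w a / 2 ^ k) ≤ w a := by
      refine (mul_le_mul_of_nonneg_right h3 (by positivity)).trans_eq ?_
      field_simp
    rw [nsmul_eq_mul] at h2
    nlinarith

/-- The potential of the undecided state. -/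
theorem Chart.pot_init (ch : Chart B R) (hκ : 1 ≤ Fintype.card κ) {q : ℕ} (hq : 2 ≤ q)
    (he : Even q) (hR : q ≤ R) :
    ch.pot q (fun _ (_ : κ) => 1 / Fintype.card κ) ≤ 6 * (3 / √(Fintype.card κ)) ^ q := by
  have hb : IsLocallyConstant fun (_ : Ω) (_ : κ) => (1 / Fintype.card κ : ℝ) :=
    IsLocallyConstant.const _
  have hps := ch.locC_ps (by omega : 1 ≤ q) hb
  have hs := B.supp_ps (b := fun (_ : Ω) (_ : κ) => (1 / Fintype.card κ : ℝ))
    (fun _ _ => by positivity) hR
  have h2 := hps.mul (ch.locS_pl (Fintype.card ch.W + 1))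
  unfold Chart.pot
  rw [ch.alloc (hps.mul (ch.locS_card fun n => 1 / n)) h2
    (fun T a ha h => hs T a ha (left_ne_zero_of_mul h))
    (fun T a ha h => hs T a ha (left_ne_zero_of_mul h)) fun T => ?_]
  · refine B.I_le_const h2.continuous_loc (by positivity) fun a => ?_
    have key := pl_bound (Nq B.X (B.tilt q fun _ (_ : κ) => 1 / Fintype.card κ) q)
      (ch.self_mem_N a) B.w_pos (K := 2 * (3 / √(Fintype.card κ)) ^ q) (by positivity)
      (m := Fintype.card ch.W + 1) (by omega)
      (Finset.card_image_le.trans Nat.lt_two_pow_self.le) fun L hL σ hσ => by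
        have hσ0 : 0 ≤ σ := (B.w_pos a).le.trans (hσ a (Finset.mem_insert_self _ _))
        refine (key_init B.herm B.contr B.diag hκ (s := fun j => B.w j ^ (1 / q : ℝ))
          (σ := σ ^ (1 / q : ℝ)) (fun h => Finset.notMem_erase a _ (hL h)) (fun j hj =>
            ⟨Real.rpow_pos_of_pos (B.w_pos j) _,
              Real.rpow_le_rpow (B.w_pos j).le (hσ j hj) (by positivity)⟩) hq he).trans_eq ?_
        rw [mul_pow, one_div, Real.rpow_inv_natCast_pow hσ0 (by omega), mul_assoc]
    unfold Chart.loc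
    rw [div_le_iff₀ (B.w_pos a)]
    refine le_of_eq_of_le (Finset.sum_congr rfl fun T hT => ?_) (key.trans_eq (by ring))
    beta_reduce
    rw [if_pos (Finset.mem_filter.1 hT).2]
    rfl
  · rcases T.eq_empty_or_nonempty with rfl | hT
    · rfl
    unfold Base.ps
    rw [← Finset.mul_sum, ← Finset.mul_sum, Finset.sum_const, nsmul_eq_mul,
      Finset.sum_congr rfl fun a ha => if_pos ha, ← Finset.sum_div,
      div_self (Finset.sum_pos (fun j _ => pow_pos (B.w_pos j) _) hT).ne',
      mul_one_div_cancel (Nat.cast_ne_zero.2 hT.card_pos.ne')]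

end Vale.Agent.P078
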