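import Vale.Agent.P078b.MasA

open scoped InnerProductSpace ComplexConjugate ComplexOrder
open Filter Topology

set_option linter.unusedSectionVars false
set_option linter.unusedVariables false

namespace Vale.Agent.P078

variable {H : Type*} [NormedAddCommGroup H] [InnerProductSpace ℂ H] [CompleteSpace H]
variable {M : VonNeumannAlgebra H} {A : StarSubalgebra ℂ (H →L[ℂ] H)}

variable {hA : IsMASA M A}

/-- An operator of the MASA as an element of the algebra. -/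
def gel_mk (hA : IsMASA M A) (a : H →L[ℂ] H) (ha : a ∈ A) : Alg hA := ⟨a, ha⟩

theorem gel_ev (χ : Spc hA) {a : H →L[ℂ] H} (ha : a ∈ A) : χ.ev a = χ.ch (gel_mk hA a ha) :=
  dif_pos ha

theorem gel_norm {B : Type*} [CommCStarAlgebra B] (x : B) :
    ‖WeakDual.gelfandTransform ℂ B x‖ = ‖x‖ :=
  (gelfandTransform_isometry B).norm_map_of_map_zero (map_zero _) x

theorem gel_norm_apply {B : Type*} [CommCStarAlgebra B] (x : B) (χ : WeakDual.characterSpace ℂ B) :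
    ‖χ x‖ ≤ ‖x‖ :=
  ((WeakDual.gelfandTransform ℂ B x).norm_coe_le_norm χ).trans (gel_norm _).le

theorem gel_norm_le {B : Type*} [CommCStarAlgebra B] (x : B) {C : ℝ} (hC : 0 ≤ C)
    (h : ∀ χ : WeakDual.characterSpace ℂ B, ‖χ x‖ ≤ C) : ‖x‖ ≤ C :=
  (gel_norm x).symm.trans_le ((ContinuousMap.norm_le _ hC).2 h)

theorem gel_one {B : Type*} [CommCStarAlgebra B] (χ : WeakDual.characterSpace ℂ B) : χ 1 = 1 :=
  map_one χ

theorem gel_surj {f : Spc hA → ℂ} (hf : Continuous f) : ∃ a ∈ A, ∀ χ : Spc hA, χ.ev a = f χ := by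
  obtain ⟨x, hx⟩ := (gelfandTransform_bijective (Alg hA)).2 ⟨f, hf⟩
  refine ⟨x.1, x.2, fun χ => ?_⟩
  rw [gel_ev χ x.2]
  exact DFunLike.congr_fun hx χ

theorem gel_sqrt (hA : IsMASA M A) {a : H →L[ℂ] H} (ha : a ∈ A) (h0 : 0 ≤ a) :
    ∃ b ∈ A, star b * b = a := by
  have hc1 : ContinuousOn (fun t : ℝ => √t) (spectrum ℝ a) := Real.continuous_sqrt.continuousOn
  refine ⟨cfc (fun t : ℝ => √t) a, hA.cfc_mem ha _, ?_⟩
  rw [IsSelfAdjoint.cfc.star_eq, ← cfc_mul _ _ a hc1 hc1]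
  conv_rhs => rw [← cfc_id ℝ a h0.isSelfAdjoint]
  exact cfc_congr fun x hx => Real.mul_self_sqrt (spectrum_nonneg_of_nonneg h0 hx)

namespace Spc
variable (χ : Spc hA)

theorem ev_add {a b : H →L[ℂ] H} (ha : a ∈ A) (hb : b ∈ A) :
    χ.ev (a + b) = χ.ev a + χ.ev b := by
  rw [gel_ev χ ha, gel_ev χ hb, gel_ev χ (add_mem ha hb), ← map_add]
  rfl

theorem ev_sub {a b : H →L[ℂ] H} (ha : a ∈ A) (hb : b ∈ A) :
    χ.ev (a - b) = χ.ev a - χ.ev b := by
  rw [gel_ev χ ha, gel_ev χ hb, gel_ev χ (sub_mem ha hb), ← map_sub]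
  rfl

theorem ev_mul {a b : H →L[ℂ] H} (ha : a ∈ A) (hb : b ∈ A) :
    χ.ev (a * b) = χ.ev a * χ.ev b := by
  rw [gel_ev χ ha, gel_ev χ hb, gel_ev χ (mul_mem ha hb), ← map_mul]
  rfl

theorem ev_smul (z : ℂ) {a : H →L[ℂ] H} (ha : a ∈ A) : χ.ev (z • a) = z * χ.ev a := by
  rw [gel_ev χ ha, gel_ev χ (A.smul_mem ha z), ← smul_eq_mul, ← map_smul]
  rfl

theorem ev_star {a : H →L[ℂ] H} (ha : a ∈ A) : χ.ev (star a) = conj (χ.ev a) := by
  rw [gel_ev χ ha, gel_ev χ (star_mem ha), ← Complex.star_def, ← map_star]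
  rfl

theorem ev_one : χ.ev 1 = 1 := by
  rw [gel_ev χ (one_mem A)]
  exact gel_one χ.ch

theorem ev_zero : χ.ev 0 = 0 := by
  rw [gel_ev χ (zero_mem A)]
  exact map_zero χ.ch

theorem ev_sum {ι : Type*} (s : Finset ι) {a : ι → H →L[ℂ] H} (ha : ∀ i ∈ s, a i ∈ A) :
    χ.ev (∑ i ∈ s, a i) = ∑ i ∈ s, χ.ev (a i) := by
  classical
  induction s using Finset.induction_on with
  | empty => simpa using χ.ev_zero
  | insert i s hi ih =>
    have h1 : ∀ j ∈ s, a j ∈ A := fun j hj => ha j (Finset.mem_insert_of_mem hj)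
    rw [Finset.sum_insert hi, Finset.sum_insert hi,
      χ.ev_add (ha i (Finset.mem_insert_self i s)) (sum_mem h1), ih h1]

theorem norm_ev_le (a : H →L[ℂ] H) : ‖χ.ev a‖ ≤ ‖a‖ := by
  by_cases ha : a ∈ A
  · rw [gel_ev χ ha]
    exact gel_norm_apply (gel_mk hA a ha) χ.ch
  · rw [Spc.ev, dif_neg ha, norm_zero]
    exact norm_nonneg _

theorem ev_nonneg {a : H →L[ℂ] H} (ha : a ∈ A) (h0 : 0 ≤ a) : 0 ≤ χ.ev a := by
  obtain ⟨b, hb, rfl⟩ := gel_sqrt hA ha h0
  rw [χ.ev_mul (star_mem hb) hb, χ.ev_star hb]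
  exact star_mul_self_nonneg (χ.ev b)

theorem ev_mono {a b : H →L[ℂ] H} (ha : a ∈ A) (hb : b ∈ A) (h : a ≤ b) : χ.ev a ≤ χ.ev b := by
  rw [← sub_nonneg, ← χ.ev_sub hb ha]
  exact χ.ev_nonneg (sub_mem hb ha) (sub_nonneg.2 h)

theorem ev_proj {e : H →L[ℂ] H} (he : IsP A e) : χ.ev e = 0 ∨ χ.ev e = 1 := by
  refine IsIdempotentElem.iff_eq_zero_or_one.1 ?_
  rw [IsIdempotentElem, ← χ.ev_mul he.1 he.1, he.2.isIdempotentElem.eq]

theorem ext_ev {χ χ' : Spc hA} (h : ∀ a ∈ A, χ.ev a = χ'.ev a) : χ = χ' := by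
  refine WeakDual.CharacterSpace.ext (φ := χ.ch) (ψ := χ'.ch) fun x => ?_
  have := h x.1 x.2
  rw [gel_ev χ x.2, gel_ev χ' x.2] at this
  exact this

end Spc

theorem continuous_ev (hA : IsMASA M A) (a : H →L[ℂ] H) : Continuous fun χ : Spc hA => χ.ev a := by
  by_cases ha : a ∈ A
  · simp only [gel_ev _ ha]
    exact (WeakDual.gelfandTransform ℂ (Alg hA) (gel_mk hA a ha)).continuous
  · simp only [Spc.ev, dif_neg ha]
    exact continuous_const

theorem continuous_spc {X : Type*} [TopologicalSpace X] {g : X → Spc hA}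
    (h : ∀ a ∈ A, Continuous fun x => (g x).ev a) : Continuous g := by
  refine continuous_induced_rng.2 (WeakDual.continuous_of_continuous_eval fun x => ?_)
  have := h x.1 x.2
  simp only [gel_ev _ x.2] at this
  exact this

theorem exists_char {f : (H →L[ℂ] H) → ℂ} (h1 : f 1 = 1)
    (hadd : ∀ a ∈ A, ∀ b ∈ A, f (a + b) = f a + f b) (hmul : ∀ a ∈ A, ∀ b ∈ A, f (a * b) = f a * f b)
    (hsmul : ∀ (z : ℂ), ∀ a ∈ A, f (z • a) = z * f a) : ∃ χ : Spc hA, ∀ a ∈ A, χ.ev a = f a := by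
  let ψ : Alg hA →ₐ[ℂ] ℂ :=
    { toFun := fun x => f x.1
      map_one' := h1
      map_mul' := fun x y => hmul _ x.2 _ y.2
      map_zero' := by
        have := hsmul 0 1 (one_mem A)
        rw [zero_smul, zero_mul] at this
        exact this
      map_add' := fun x y => hadd _ x.2 _ y.2
      commutes' := fun z => by
        have := hsmul z 1 (one_mem A)
        rw [h1, mul_one] at this
        rw [Algebra.algebraMap_eq_smul_one]
        exact this }
  exact ⟨WeakDual.CharacterSpace.equivAlgHom.symm ψ, fun a ha => gel_ev _ ha⟩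

theorem eq_of_ev (hA : IsMASA M A) {a b : H →L[ℂ] H} (ha : a ∈ A) (hb : b ∈ A)
    (h : ∀ χ : Spc hA, χ.ev a = χ.ev b) : a = b := by
  have : gel_mk hA a ha = gel_mk hA b hb := by
    refine (gelfandTransform_bijective (Alg hA)).1 (ContinuousMap.ext fun χ => ?_)
    exact (gel_ev (hA := hA) χ ha).symm.trans ((h χ).trans (gel_ev (hA := hA) χ hb))
  exact congrArg Subtype.val this

theorem norm_le_of_ev (hA : IsMASA M A) {a : H →L[ℂ] H} (ha : a ∈ A) {C : ℝ} (hC : 0 ≤ C)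
    (h : ∀ χ : Spc hA, ‖χ.ev a‖ ≤ C) : ‖a‖ ≤ C := by
  refine gel_norm_le (gel_mk hA a ha) hC fun χ => ?_
  exact (congrArg norm (gel_ev (hA := hA) χ ha)).symm.trans_le (h χ)

theorem nonneg_of_ev (hA : IsMASA M A) {a : H →L[ℂ] H} (ha : a ∈ A)
    (h : ∀ χ : Spc hA, 0 ≤ χ.ev a) : 0 ≤ a := by
  obtain ⟨b, hb, hbe⟩ := gel_surj (hA := hA) (f := fun χ => ((√(χ.ev a).re : ℝ) : ℂ))
    (Complex.continuous_ofReal.comp (Complex.continuous_re.comp (continuous_ev hA a)).sqrt)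
  have : a = star b * b := by
    refine eq_of_ev hA ha (mul_mem (star_mem hb) hb) fun χ => ?_
    obtain ⟨h1, h2⟩ := Complex.nonneg_iff.1 (h χ)
    rw [χ.ev_mul (star_mem hb) hb, χ.ev_star hb, hbe, Complex.conj_ofReal, ← Complex.ofReal_mul,
      Real.mul_self_sqrt h1]
    exact Complex.ext rfl h2.symm
  rw [this]
  exact star_mul_self_nonneg b

theorem le_of_ev (hA : IsMASA M A) {a b : H →L[ℂ] H} (ha : a ∈ A) (hb : b ∈ A)
    (h : ∀ χ : Spc hA, χ.ev a ≤ χ.ev b) : a ≤ b := by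
  rw [← sub_nonneg]
  refine nonneg_of_ev hA (sub_mem hb ha) fun χ => ?_
  rw [χ.ev_sub hb ha]
  exact sub_nonneg.2 (h χ)

theorem lft_mem (f : Spc hA → ℂ) : lft hA f ∈ A := by
  unfold lft
  split_ifs with h
  · exact h.choose_spec.1
  · exact zero_mem A

theorem ev_lft {f : Spc hA → ℂ} (hf : Continuous f) (χ : Spc hA) : χ.ev (lft hA f) = f χ := by
  unfold lft
  rw [dif_pos (gel_surj hf)]
  exact (gel_surj hf).choose_spec.2 χ

theorem lft_eq {f : Spc hA → ℂ} {a : H →L[ℂ] H} (ha : a ∈ A) (h : ∀ χ : Spc hA, χ.ev a = f χ) :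
    lft hA f = a := by
  have h1 : ∃ a ∈ A, ∀ χ : Spc hA, χ.ev a = f χ := ⟨a, ha, h⟩
  unfold lft
  rw [dif_pos h1]
  exact eq_of_ev hA h1.choose_spec.1 ha fun χ => (h1.choose_spec.2 χ).trans (h χ).symm

theorem isClopen_ev {e : H →L[ℂ] H} (he : IsP A e) : IsClopen {χ : Spc hA | χ.ev e = 1} := by
  refine ⟨isClosed_eq (continuous_ev hA e) continuous_const, ?_⟩
  have : {χ : Spc hA | χ.ev e = 1} = {χ : Spc hA | χ.ev e = 0}ᶜ := by
    ext χ
    rcases χ.ev_proj he with h | h <;> simp [h]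
  rw [this]
  exact (isClosed_eq (continuous_ev hA e) continuous_const).isOpen_compl

open Classical in
theorem gel_ev_ind {S : Set (Spc hA)} (hS : IsClopen S) (χ : Spc hA) :
    χ.ev (ind hA S) = if χ ∈ S then 1 else 0 := by
  refine ev_lft (f := fun χ => if χ ∈ S then 1 else 0) ?_ χ
  refine Continuous.if (fun x hx => ?_) continuous_const continuous_const
  rw [Set.ofPred_mem_eq, hS.frontier_eq] at hx
  exact hx.elim

theorem ind_isP {S : Set (Spc hA)} (hS : IsClopen S) : IsP A (ind hA S) := by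
  have h1 : ind hA S ∈ A := lft_mem _
  refine ⟨h1, ?_, ?_⟩
  · refine eq_of_ev hA (mul_mem h1 h1) h1 fun χ => ?_
    rw [χ.ev_mul h1 h1, gel_ev_ind hS]
    split_ifs <;> simp
  · refine eq_of_ev hA (star_mem h1) h1 fun χ => ?_
    rw [χ.ev_star h1, gel_ev_ind hS]
    split_ifs <;> simp

theorem ev_ind_of_mem {S : Set (Spc hA)} (hS : IsClopen S) {χ : Spc hA} (h : χ ∈ S) :
    χ.ev (ind hA S) = 1 := by
  rw [gel_ev_ind hS, if_pos h]

theorem ev_ind_of_notMem {S : Set (Spc hA)} (hS : IsClopen S) {χ : Spc hA} (h : χ ∉ S) :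
    χ.ev (ind hA S) = 0 := by
  rw [gel_ev_ind hS, if_neg h]

theorem gel_ext_proj {χ χ' : Spc hA} (h : ∀ e, IsP A e → χ.ev e = χ'.ev e) : χ = χ' := by
  refine Spc.ext_ev fun a ha => ?_
  have h3 : ∀ b ∈ Submodule.span ℂ {e | IsP A e}, b ∈ A ∧ χ.ev b = χ'.ev b := by
    intro b hb
    induction hb using Submodule.span_induction with
    | mem x hx => exact ⟨hx.1, h x hx⟩
    | zero => exact ⟨zero_mem _, by rw [Spc.ev_zero, Spc.ev_zero]⟩
    | add x y _ _ hx hy =>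
      exact ⟨add_mem hx.1 hy.1, by rw [χ.ev_add hx.1 hy.1, χ'.ev_add hx.1 hy.1, hx.2, hy.2]⟩
    | smul z x _ hx =>
      exact ⟨A.smul_mem hx.1 z, by rw [χ.ev_smul z hx.1, χ'.ev_smul z hx.1, hx.2]⟩
  rw [← sub_eq_zero, ← norm_le_zero_iff]
  refine le_of_forall_pos_le_add fun ε hε => ?_
  obtain ⟨b, hb, hab⟩ := hA.exists_simple ha (ε := ε / 2) (by positivity)
  obtain ⟨hbA, hψ⟩ := h3 b hb
  have h4 : χ.ev a - χ'.ev a = χ.ev (a - b) - χ'.ev (a - b) := by
    rw [χ.ev_sub ha hbA, χ'.ev_sub ha hbA, hψ]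
    ring
  rw [h4]
  have := norm_sub_le (χ.ev (a - b)) (χ'.ev (a - b))
  linarith [χ.norm_ev_le (a - b), χ'.norm_ev_le (a - b)]

theorem totallyDisconnected_spc (hA : IsMASA M A) : TotallyDisconnectedSpace (Spc hA) := by
  have : TotallySeparatedSpace (Spc hA) := by
    refine totallySeparatedSpace_iff_exists_isClopen.2 fun χ χ' hne => ?_
    obtain ⟨e, he, h⟩ : ∃ e, IsP A e ∧ χ.ev e ≠ χ'.ev e := by
      by_contra h
      push Not at h
      exact hne (gel_ext_proj h)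
    rcases χ.ev_proj he with h1 | h1
    · refine ⟨_, (isClopen_ev (hA := hA) he).compl, by simp [h1], ?_⟩
      rcases χ'.ev_proj he with h2 | h2
      · exact absurd (h1.trans h2.symm) h
      · simpa using h2
    · exact ⟨_, isClopen_ev he, h1, fun h2 => h (h1.trans (Eq.symm h2))⟩
  infer_instance

theorem exists_proj_nhds {U : Set (Spc hA)} (hU : IsOpen U) {χ₀ : Spc hA} (h : χ₀ ∈ U) :
    ∃ p, IsP A p ∧ χ₀.ev p = 1 ∧ ∀ χ : Spc hA, χ.ev p = 1 → χ ∈ U := by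
  have := totallyDisconnected_spc hA
  obtain ⟨V, hV, h1, h2⟩ := compact_exists_isClopen_in_isOpen hU h
  refine ⟨ind hA V, ind_isP hV, ev_ind_of_mem hV h1, fun χ hχ => h2 ?_⟩
  by_contra h3
  rw [ev_ind_of_notMem hV h3] at hχ
  exact zero_ne_one hχ

theorem isPartition_ind {ι : Type} [Fintype ι] {g : Spc hA → ι} (hg : IsLocallyConstant g) :
    IsPartition A fun i => ind hA {χ | g χ = i} := by
  classical
  have hc : ∀ i, IsClopen {χ | g χ = i} := fun i => hg.isClopen_fiber i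
  have hm : ∀ i, ind hA {χ | g χ = i} ∈ A := fun i => (ind_isP (hc i)).1
  refine ⟨fun i => ind_isP (hc i), fun i j hij => ?_, ?_⟩
  · refine eq_of_ev hA (mul_mem (hm i) (hm j)) (zero_mem A) fun χ => ?_
    rw [χ.ev_mul (hm i) (hm j), χ.ev_zero]
    by_cases h : g χ = i
    · rw [ev_ind_of_notMem (hc j) fun h' => hij (h.symm.trans h'), mul_zero]
    · rw [ev_ind_of_notMem (hc i) h, zero_mul]
  · refine eq_of_ev hA (sum_mem fun i _ => hm i) (one_mem A) fun χ => ?_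
    rw [χ.ev_sum _ fun i _ => hm i, χ.ev_one, Finset.sum_eq_single (g χ)]
    · exact ev_ind_of_mem (hc _) rfl
    · exact fun j _ hj => ev_ind_of_notMem (hc j) fun h => hj (Eq.symm h)
    · simp

theorem exists_index {ι : Type} [Fintype ι] {p : ι → H →L[ℂ] H} (hp : IsPartition A p) :
    ∃ g : Spc hA → ι, IsLocallyConstant g ∧ ∀ χ : Spc hA, χ.ev (p (g χ)) = 1 := by
  have h1 : ∀ χ : Spc hA, ∃ i, χ.ev (p i) = 1 := by
    intro χ
    by_contra h
    push Not at h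
    have h2 := χ.ev_sum Finset.univ fun i _ => hp.mem i
    rw [hp.2.2, χ.ev_one, Finset.sum_eq_zero fun i _ =>
      (χ.ev_proj (hp.isP i)).resolve_right (h i)] at h2
    exact one_ne_zero h2
  choose g hg using h1
  refine ⟨g, IsLocallyConstant.iff_isOpen_fiber_apply.2 fun χ₀ => ?_, hg⟩
  have : g ⁻¹' {g χ₀} = {χ : Spc hA | χ.ev (p (g χ₀)) = 1} := by
    ext χ
    simp only [Set.mem_preimage, Set.mem_singleton_iff, Set.mem_ofPred_eq]
    constructor
    · intro h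
      rw [← h]
      exact hg χ
    · intro h
      by_contra h2
      have h3 := χ.ev_mul (hp.mem (g χ)) (hp.mem (g χ₀))
      rw [hp.2.1 _ _ h2, χ.ev_zero, hg χ, h, mul_one] at h3
      exact zero_ne_one h3
  rw [this]
  exact (isClopen_ev (hp.isP _)).isOpen

end Vale.Agent.P078
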