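import Vale.Agent.P078b.CtxA

open scoped InnerProductSpace ComplexConjugate ComplexOrder
open Filter Topology

set_option linter.unusedSectionVars false
set_option linter.unusedVariables false

namespace Vale.Agent.P078

variable {H : Type*} [NormedAddCommGroup H] [InnerProductSpace ℂ H] [CompleteSpace H]
variable {M : VonNeumannAlgebra H} {A : StarSubalgebra ℂ (H →L[ℂ] H)}

theorem IsG.star {v : H →L[ℂ] H} (hv : IsG M A v) : IsG M A (star v) := by
  refine ⟨star_mem hv.1, ?_, fun a ha => ?_, fun a ha => ?_⟩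
  · simpa only [star_mul, star_star, mul_assoc] using congrArg Star.star hv.2.1
  · rw [star_star]; exact hv.2.2.2 a ha
  · rw [star_star]; exact hv.2.2.1 a ha

theorem IsG.src {v : H →L[ℂ] H} (hv : IsG M A v) : IsP A (Star.star v * v) := by
  refine ⟨by simpa using hv.2.2.2 1 (one_mem _), ?_, IsSelfAdjoint.star_mul_self v⟩
  rw [IsIdempotentElem, mul_assoc, ← mul_assoc v, hv.2.1]

theorem IsG.rng {v : H →L[ℂ] H} (hv : IsG M A v) : IsP A (v * Star.star v) := by
  simpa only [star_star] using hv.star.src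

theorem IsG.mul (hA : IsMASA M A) {v w : H →L[ℂ] H} (hv : IsG M A v) (hw : IsG M A w) :
    IsG M A (v * w) := by
  refine ⟨mul_mem hv.1 hw.1, ?_, fun a ha => ?_, fun a ha => ?_⟩
  · calc _ = v * (w * Star.star w * (Star.star v * v)) * w := by
          simp only [star_mul, mul_assoc]
      _ = v * Star.star v * v * (w * Star.star w * w) := by
          rw [hA.2.1 _ hw.rng.1 _ hv.src.1]; simp only [mul_assoc]
      _ = _ := by rw [hv.2.1, hw.2.1]
  · simpa only [star_mul, mul_assoc] using hv.2.2.1 _ (hw.2.2.1 a ha)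
  · simpa only [star_mul, mul_assoc] using hw.2.2.2 _ (hv.2.2.2 a ha)

theorem IsP.isG (hA : IsMASA M A) {e : H →L[ℂ] H} (he : IsP A e) : IsG M A e := by
  have h1 := he.2.isSelfAdjoint.star_eq
  refine ⟨hA.1 _ he.1, ?_, fun a ha => ?_, fun a ha => ?_⟩
  · rw [h1, he.2.isIdempotentElem.eq, he.2.isIdempotentElem.eq]
  · rw [h1]; exact mul_mem (mul_mem he.1 ha) he.1
  · rw [h1]; exact mul_mem (mul_mem he.1 ha) he.1

theorem IsG.norm_le {v : H →L[ℂ] H} (hv : IsG M A v) : ‖v‖ ≤ 1 := by
  have h1 := hv.src.2.norm_le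
  rw [CStarRing.norm_star_mul_self] at h1
  nlinarith [norm_nonneg v]

theorem IsG.mul_eq (hA : IsMASA M A) {v a : H →L[ℂ] H} (hv : IsG M A v) (ha : a ∈ A) :
    v * a = v * a * Star.star v * v := by
  rw [mul_assoc (v * a), mul_assoc v a, hA.2.1 _ ha _ hv.src.1, ← mul_assoc, ← mul_assoc, hv.2.1]

theorem IsG.eq_mul (hA : IsMASA M A) {v a : H →L[ℂ] H} (hv : IsG M A v) (ha : a ∈ A) :
    a * v = v * (Star.star v * a * v) := by
  rw [← mul_assoc, ← mul_assoc, ← hA.2.1 _ ha _ hv.rng.1, mul_assoc a, hv.2.1]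

theorem IsG.conj_mul (hA : IsMASA M A) {v a : H →L[ℂ] H} (hv : IsG M A v) (ha : a ∈ A)
    (b : H →L[ℂ] H) :
    Star.star v * (a * b) * v = Star.star v * a * v * (Star.star v * b * v) := by
  have h1 := hv.star.mul_eq hA ha
  rw [star_star] at h1
  calc _ = Star.star v * a * b * v := by simp only [mul_assoc]
    _ = Star.star v * a * v * Star.star v * b * v := by rw [← h1]
    _ = _ := by simp only [mul_assoc]

theorem IsG.conj_isP (hA : IsMASA M A) {v e : H →L[ℂ] H} (hv : IsG M A v) (he : IsP A e) :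
    IsP A (Star.star v * e * v) := by
  refine ⟨hv.2.2.2 e he.1, ?_, ?_⟩
  · rw [IsIdempotentElem, ← hv.conj_mul hA he.1, he.2.isIdempotentElem.eq]
  · rw [IsSelfAdjoint, star_mul, star_mul, star_star, he.2.isSelfAdjoint.star_eq, mul_assoc]

namespace Ctx
variable (c : Ctx M A)

theorem E_conj {v T : H →L[ℂ] H} (hv : IsG M A v) (hT : T ∈ M) :
    c.E (star v * T * v) = star v * c.E T * v := by
  have hA := c.hA
  have h2 : star v * v * star v = star v := by simpa only [star_star] using hv.star.2.1
  have key : ∀ P : Part A, c.E (star v * pinch P.q T * v) = c.E (star v * T * v) := by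
    intro P
    let p' : Option P.ι → H →L[ℂ] H := fun o => o.elim (1 - star v * v) fun i => star v * P.q i * v
    have h3 : ∀ i, (1 - star v * v) * (star v * P.q i * v) = 0 := fun i => by
      rw [sub_mul, one_mul, ← mul_assoc, ← mul_assoc, h2, sub_self]
    have hp' : IsPartition A p' := by
      refine ⟨fun o => ?_, fun o o' h => ?_, ?_⟩
      · cases o with
        | none => exact hv.src.one_sub
        | some i => exact hv.conj_isP hA (P.hq.isP i)
      · cases o with
        | none =>
          cases o' with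
          | none => exact absurd rfl h
          | some j => exact h3 j
        | some i =>
          cases o' with
          | none =>
            exact (hA.2.1 _ (hv.conj_isP hA (P.hq.isP i)).1 _ hv.src.one_sub.1).trans (h3 i)
          | some j =>
            show star v * P.q i * v * (star v * P.q j * v) = 0
            rw [← hv.conj_mul hA (P.hq.mem i), P.hq.2.1 i j fun h' => h (by rw [h']), mul_zero,
              zero_mul]
      · rw [Fintype.sum_option]
        show 1 - star v * v + ∑ i, star v * P.q i * v = 1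
        rw [← Finset.sum_mul, ← Finset.mul_sum, P.hq.2.2, mul_one, sub_add_cancel]
    rw [← c.E_pinch hp' (star v * T * v)]
    congr 1
    rw [pinch, pinch, Fintype.sum_option, Finset.mul_sum, Finset.sum_mul]
    have h4 : p' none * (star v * T * v) * p' none = 0 := by
      show (1 - star v * v) * (star v * T * v) * _ = 0
      rw [sub_mul, one_mul, ← mul_assoc, ← mul_assoc, h2, sub_self, zero_mul]
    rw [h4, zero_add]
    refine Finset.sum_congr rfl fun i _ => ?_
    show _ = star v * P.q i * v * (star v * T * v) * (star v * P.q i * v)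
    rw [← hv.conj_mul hA (P.hq.mem i), mul_assoc (star v * (P.q i * T)), ← hv.eq_mul hA (P.hq.mem i)]
    simp only [mul_assoc]
  have hn : ∀ S : H →L[ℂ] H, ‖S‖ ≤ ‖T‖ → ‖star v * S * v‖ ≤ ‖T‖ := fun S hS => by
    calc _ ≤ ‖star v‖ * ‖S‖ * ‖v‖ := norm_mul₃_le
      _ ≤ 1 * ‖T‖ * 1 := by
          gcongr
          exacts [hv.star.norm_le, hv.norm_le]
      _ = _ := by ring
  have hE := hv.2.2.2 _ (c.E_mem hT)
  have h5 := c.E_wlim (hA.1 _ hE) (hn _ (c.norm_E_le T)) (Eventually.of_forall fun s =>
    ⟨mul_mem (mul_mem (star_mem hv.1) ((netPart hA s).hq.pinch_mem hA hT)) hv.1,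
      hn _ ((netPart hA s).hq.norm_pinch_le T)⟩) (((c.wlim_pinch T).mul_left (star v)).mul_right v)
  rw [c.E_of_mem hE] at h5
  exact ((WLim.const _).congr' (Eventually.of_forall fun s => (key _).symm)).unique h5

/-- The expectation of a groupoid element is a piece of it. -/
theorem E_G {v : H →L[ℂ] H} (hv : IsG M A v) : ∃ f, IsP A f ∧ c.E v = f * v ∧ f * v = v * f ∧
    f * (star v * v) = f ∧ f * (v * star v) = f := by
  have hA := c.hA
  set a := c.E v with ha
  have haA : a ∈ A := c.E_mem hv.1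
  have hsA : star a ∈ A := star_mem haA
  have h1 : ∀ b ∈ A, star a * (v * b * star v) = star a * b := by
    intro b hb
    have hα := hv.2.2.1 b hb
    have h2 : a * b = a * (v * b * star v) := by
      calc a * b = c.E (v * b) := (c.E_right hb v).symm
        _ = c.E (v * b * star v * v) := congrArg c.E (hv.mul_eq hA hb)
        _ = _ := by rw [c.E_left hα, hA.2.1 _ hα _ haA]
    have h3 : a * (v * b * star v - b) = 0 := by rw [mul_sub, ← h2, sub_self]
    rw [← sub_eq_zero, ← mul_sub]
    generalize v * b * star v - b = d at h3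
    rw [← CStarRing.star_mul_self_eq_zero_iff, star_mul, star_star,
      mul_assoc, ← mul_assoc a, hA.2.1 _ haA _ hsA, mul_assoc, h3, mul_zero, mul_zero]
  have h4 : star a * v ∈ A := hA.mem_of_commute (mul_mem (hA.1 _ hsA) hv.1) fun b hb => by
    rw [Commute, SemiconjBy, ← mul_assoc, hA.2.1 _ hb _ hsA, mul_assoc _ v b, hv.mul_eq hA hb,
      ← mul_assoc, h1 b hb]
  have h5 : star a * (v - a) = 0 := by
    rw [mul_sub, ← c.E_of_mem h4, c.E_left hsA, sub_self]
  obtain ⟨f, hf, hf1, hf2⟩ := hA.exists_supp hsA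
  have hfa : f * a = a := by
    rw [hA.2.1 _ hf.1 _ haA]
    simpa only [star_mul, star_star, hf.2.isSelfAdjoint.star_eq] using congrArg star hf1
  have h6 : a = f * v := by
    have := hf2 _ h5
    rw [mul_sub, hfa, sub_eq_zero] at this
    exact this.symm
  have h7 : ∀ d, IsP A d → a * d = a → f * d = f := by
    intro d hd h
    have h8 : star a * (1 - d) = 0 := by
      have h9 : star a * d = star a := by
        rw [hA.2.1 _ hsA _ hd.1]
        simpa only [star_mul, hd.2.isSelfAdjoint.star_eq] using congrArg star h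
      rw [mul_sub, mul_one, h9, sub_self]
    have := hf2 _ h8
    rw [mul_sub, mul_one, sub_eq_zero] at this
    exact this.symm
  have h8 : f * (star v * v) = f := h7 _ hv.src (by
    rw [ha, ← c.E_right hv.src.1, ← mul_assoc, hv.2.1])
  have h9 : f * (v * star v) = f := h7 _ hv.rng (by
    rw [hA.2.1 _ haA _ hv.rng.1, ha, ← c.E_left hv.rng.1, hv.2.1])
  have h10 : star v * f * v = f := by
    have h11 := hA.2.1 _ hsA _ haA
    rw [h6, star_mul, hf.2.isSelfAdjoint.star_eq] at h11
    calc star v * f * v = star v * f * (f * v) := by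
          rw [← mul_assoc, mul_assoc (star v) f f, hf.2.isIdempotentElem.eq]
      _ = f * (v * star v) * f := by rw [h11]; simp only [mul_assoc]
      _ = f := by rw [h9, hf.2.isIdempotentElem.eq]
  exact ⟨f, hf, h6, by rw [hv.eq_mul hA hf.1, h10], h8, h9⟩

/-- Exact freeness. -/
theorem exists_free {v : H →L[ℂ] H} (hv : IsG M A v) (h : c.E v = 0) : ∃ p, IsP A p ∧
    p * (v * p * star v) = 0 ∧
    star v * v * (1 - p) * (1 - v * p * star v) * (1 - star v * p * v) = 0 := by
  classical
  have hA := c.hA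
  obtain ⟨p, hp, hmax⟩ := zorn_le₀ {p : H →L[ℂ] H | IsP A p ∧ p * (v * p * star v) = 0} (by
    intro ch hch hchain
    have hS : ∀ e ∈ insert 0 ch, IsP A e ∧ e * (v * e * star v) = 0 := by
      rintro e (rfl | he)
      · exact ⟨IsP.zero, zero_mul _⟩
      · exact hch he
    obtain ⟨z, hzA, hz, hze, happ⟩ := exists_sup_proj hA (insert 0 ch) (fun e he => (hS e he).1)
      (Set.mem_insert _ _) (by
        rintro e (rfl | he) e' he'
        · simpa using he'
        · rcases he' with rfl | he'
          · simpa using Or.inr he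
          · rcases hchain.total he he' with h | h
            · rw [((hch he).1.2.le_iff_mul_eq_left (hch he').1.2).1 h, add_sub_cancel_left]
              exact Or.inr he'
            · rw [((hch he').1.2.le_iff_mul_eq_right (hch he).1.2).1 h, add_sub_cancel_right]
              exact Or.inr he)
    refine ⟨z, ⟨⟨hzA, hz⟩, ?_⟩, fun e he => ((hch he).1.2.le_iff_mul_eq_right hz).2
      (hze e (Or.inr he))⟩
    ext ζ
    refine norm_le_zero_iff.1 (le_of_forall_pos_le_add fun ε hε => ?_)
    obtain ⟨e, he, h1⟩ := happ {star v ζ, v (z (star v ζ))} (ε / 2) (by positivity)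
    have h2 := congrArg (fun T : H →L[ℂ] H => T ζ) (hS e he).2
    simp only [mul_apply_eq_comp, zero_apply] at h2 ⊢
    have h3 : z (v (z (star v ζ))) = (z (v (z (star v ζ))) - e (v (z (star v ζ)))) +
        e (v (z (star v ζ) - e (star v ζ))) := by
      rw [map_sub, map_sub, h2]; abel
    have h4 := h1 (star v ζ) (by simp)
    have h5 := h1 (v (z (star v ζ))) (by simp)
    have h6 : ‖e (v (z (star v ζ) - e (star v ζ)))‖ ≤ ‖z (star v ζ) - e (star v ζ)‖ :=
      (norm_proj_apply_le (hS e he).1.2 _).trans ((v.le_opNorm _).trans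
        (mul_le_of_le_one_left (norm_nonneg _) hv.norm_le))
    rw [h3]
    refine (norm_add_le _ _).trans ?_
    linarith)
  refine ⟨p, hp.1, hp.2, ?_⟩
  by_contra hd0
  have hα : IsP A (v * p * star v) := by simpa only [star_star] using hv.star.conj_isP hA hp.1
  have hβ := hv.conj_isP hA hp.1
  set d := star v * v * (1 - p) * (1 - v * p * star v) * (1 - star v * p * v) with hd
  have hdP : IsP A d := ((hv.src.mul hA hp.1.one_sub).mul hA hα.one_sub).mul hA hβ.one_sub
  have hvd : star v * v * d = d := by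
    rw [hd, ← mul_assoc, ← mul_assoc, ← mul_assoc, hv.src.2.isIdempotentElem.eq]
  have hdβ : d * (star v * p * v) = 0 := by
    rw [hd, mul_assoc, hβ.2.one_sub_mul_self, mul_zero]
  have hdα : d * (v * p * star v) = 0 := by
    rw [hd, mul_assoc, hA.2.1 _ hβ.one_sub.1 _ hα.1, ← mul_assoc, mul_assoc _ _ (v * p * star v),
      hα.2.one_sub_mul_self, mul_zero, zero_mul]
  have hdp : d * p = 0 := by
    rw [hd, mul_assoc _ (1 - v * p * star v), mul_assoc,
      hA.2.1 _ (mul_mem hα.one_sub.1 hβ.one_sub.1) _ hp.1.1, ← mul_assoc, mul_assoc _ _ p,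
      hp.1.2.one_sub_mul_self, mul_zero, zero_mul]
  have hw : v * d ∉ A := fun hw => hd0 (by
    have h1 : v * d = 0 := by rw [← c.E_of_mem hw, c.E_right hdP.1, h, zero_mul]
    rw [← hvd, mul_assoc, h1, mul_zero])
  have key : ∀ e, IsP A e → (1 - e) * (v * d) * e = 0 := by
    intro e he
    have hβe := hv.conj_isP hA he.one_sub
    set g := d * (star v * (1 - e) * v) * e with hg
    have hgP : IsP A g := (hdP.mul hA hβe).mul hA he
    have hvg : v * g = (1 - e) * (v * d) * e := by
      rw [hg, hA.2.1 _ hdP.1 _ hβe.1, ← mul_assoc, ← mul_assoc, ← hv.eq_mul hA he.one_sub.1]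
      simp only [mul_assoc]
    have hgd : g * d = g := by
      rw [hA.2.1 _ hgP.1 _ hdP.1, hg, ← mul_assoc, ← mul_assoc, hdP.2.isIdempotentElem.eq]
    have hge : g * e = g := by rw [hg, mul_assoc, he.2.isIdempotentElem.eq]
    have hgp : g * p = 0 := by rw [← hgd, mul_assoc, hdp, mul_zero]
    have hpg : p * g = 0 := by rw [hA.2.1 _ hp.1.1 _ hgP.1, hgp]
    have h1 : g * (v * p * star v) = 0 := by rw [← hgd, mul_assoc, hdα, mul_zero]
    have h2 : p * (v * g * star v) = 0 := by
      rw [← mul_assoc, ← mul_assoc, hv.eq_mul hA hp.1.1, mul_assoc v, hA.2.1 _ hβ.1 _ hgP.1, ← hgd,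
        mul_assoc g, hdβ, mul_zero, mul_zero, zero_mul]
    have h3 : g * (v * g * star v) = 0 := by
      rw [hvg]
      nth_rewrite 1 [← hge]
      simp only [mul_assoc]
      rw [← mul_assoc e, he.2.mul_one_sub_self, zero_mul, mul_zero]
    have h4 := hmax (y := p + g) ⟨hp.1.add hgP hpg, by
      rw [mul_add v, add_mul (v * p), add_mul, mul_add, mul_add, hp.2, h1, h2, h3]; simp⟩
      (le_add_of_nonneg_right hgP.2.nonneg)
    have h5 : g = 0 := le_antisymm (by simpa using h4) hgP.2.nonneg
    rw [← hvg, h5, mul_zero]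
  refine hw (hA.mem_of_commute_proj (mul_mem hv.1 (hA.1 _ hdP.1)) fun e he => ?_)
  have h1 := key e he
  have h2 := key _ he.one_sub
  rw [sub_sub_cancel, mul_sub, mul_one, sub_eq_zero] at h2
  rw [sub_mul, one_mul, sub_mul, sub_eq_zero] at h1
  rw [h1, ← h2]

/-- Polar decomposition of a two-sided normaliser. -/
theorem exists_isG_of_norm {w x : H →L[ℂ] H} (hw : w ∈ M) (hx : x ∈ M)
    (h1 : ∀ a ∈ A, w * a * star w ∈ A) (h2 : ∀ a ∈ A, star w * a * w ∈ A)
    (h : c.E (w * x) ≠ 0) : ∃ v, IsG M A v ∧ c.E (v * x) ≠ 0 := by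
  have hA := c.hA
  by_contra hcon
  push Not at hcon
  have ha : w * star w ∈ A := by simpa using h1 1 (one_mem _)
  refine h (norm_le_zero_iff.1 (le_of_forall_pos_le_add fun ε hε => ?_))
  obtain ⟨e, k, m, he, hk, hm, hks, h3, h4, h5, h6⟩ := hA.exists_inv_sqrt ha
    (mul_star_self_nonneg w) (s := (ε / (‖x‖ + 1)) ^ 2) (by positivity)
  have h7 : c.E (k * w * x) = 0 := by
    refine hcon _ ⟨mul_mem (hA.1 _ hk) hw, ?_, fun a ha => ?_, fun a ha => ?_⟩
    · calc _ = k * (w * star w) * k * k * w := by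
            rw [star_mul, hks.star_eq]; simp only [mul_assoc]
        _ = _ := by rw [h3, h4]
    · rw [star_mul, hks.star_eq]
      simpa only [mul_assoc] using mul_mem (mul_mem hk (h1 a ha)) hk
    · rw [star_mul, hks.star_eq]
      simpa only [mul_assoc] using h2 _ (mul_mem (mul_mem hk ha) hk)
  have h8 : c.E (w * x) = c.E ((1 - e) * w * x) := by
    rw [mul_assoc, c.E_left he.one_sub.1, sub_mul, one_mul, ← h5, mul_assoc, ← c.E_left hk,
      ← mul_assoc k, h7, mul_zero, sub_zero]
  have h9 : ‖(1 - e) * w‖ ≤ ε / (‖x‖ + 1) := by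
    refine le_of_sq_le_sq ?_ (by positivity)
    rw [sq, ← CStarRing.norm_self_mul_star, star_mul, he.one_sub.2.isSelfAdjoint.star_eq]
    simpa only [mul_assoc] using h6
  rw [h8, zero_add]
  calc _ ≤ ‖(1 - e) * w‖ * ‖x‖ := (c.norm_E_le _).trans (norm_mul_le _ _)
    _ ≤ ε / (‖x‖ + 1) * (‖x‖ + 1) := by gcongr; linarith
    _ = ε := by field_simp

end Ctx

end Vale.Agent.P078
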