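import Vale.Agent.P078b.Pt
import Vale.Agent.P078b.FD

open scoped InnerProductSpace ComplexConjugate ComplexOrder
open Filter Topology

set_option linter.unusedSectionVars false
set_option linter.unusedVariables false

namespace Vale.Agent.P078

variable {H : Type*} [NormedAddCommGroup H] [InnerProductSpace ℂ H] [CompleteSpace H]
variable {M : VonNeumannAlgebra H} {A : StarSubalgebra ℂ (H →L[ℂ] H)}

namespace Ctx
variable (c : Ctx M A)

theorem ker_phase {V U : H →L[ℂ] H} (hV : IsG M A V) (hU : IsG M A U) {χ : Spc c.hA}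
    (h1 : χ.Dom V) (h2 : χ.Dom U) (h : tp V χ = tp U χ) : ∃ z : ℂ, ‖z‖ = 1 ∧
      ∀ T ∈ M, χ.ev (c.E (T * V)) = χ.ev (c.E (T * U)) * z := by
  obtain ⟨f, a, hf, ha, hf1, haa, hVU⟩ := c.exists_phase hV hU h1 h2 h
  refine ⟨χ.ev a, ?_, fun T hT => ?_⟩
  · have h3 : conj (χ.ev a) * χ.ev a = 1 := by
      rw [← χ.ev_star ha, ← χ.ev_mul (star_mem ha) ha, haa, hf1]
    rw [Complex.conj_mul'] at h3
    have h4 : ‖χ.ev a‖ ^ 2 = 1 := by exact_mod_cast h3
    exact (pow_eq_one_iff_of_nonneg (norm_nonneg _) two_ne_zero).1 h4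
  · rw [← χ.ev_mul (c.E_mem (mul_mem hT hU.1)) ha, ← c.E_right ha, mul_assoc, ← hVU, ← mul_assoc,
      c.E_right hf.1, χ.ev_mul (c.E_mem (mul_mem hT hV.1)) hf.1, hf1, mul_one]

theorem ker_star {T : H →L[ℂ] H} (hT : T ∈ M) (χ : Spc c.hA) :
    χ.ev (c.E (star T)) = conj (χ.ev (c.E T)) := by
  rw [c.E_star, χ.ev_star (c.E_mem hT)]

theorem ker_conj {u S : H →L[ℂ] H} (hu : IsG M A u) {o : Spc c.hA} (h : o.Dom u) (hS : S ∈ M) :
    o.ev (c.E (star u * S * u)) = (tp u o).ev (c.E S) := by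
  rw [c.E_conj hu hS, ev_tp hu h (c.E_mem hS)]

theorem ker_base {v : H →L[ℂ] H} (hv : c.IsGb v) {χ : Spc c.hA} (h : χ.Dom v) :
    c.base (tp v χ) = c.base χ :=
  (c.base_eq_iff.2 ⟨v, hv, h, rfl⟩).symm

theorem ker_dom {v : H →L[ℂ] H} (hv : IsG M A v) (χ : Spc c.hA) :
    (c.base χ).Dom (v * c.uu χ) ↔ χ.Dom v := by
  obtain ⟨h1, h2, h3⟩ := c.uu_spec χ
  rw [dom_mul_iff hv h1.1, h3, and_iff_right h2]

theorem ker_tp {v : H →L[ℂ] H} (hv : IsG M A v) {χ : Spc c.hA} (h : χ.Dom v) :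
    tp (v * c.uu χ) (c.base χ) = tp v χ := by
  obtain ⟨h1, h2, h3⟩ := c.uu_spec χ
  rw [tp_mul hv h1.1 ((c.ker_dom hv χ).2 h), h3]

theorem ker_rep {v : H →L[ℂ] H} (hv : c.IsGb v) {χ : Spc c.hA} (h : χ.Dom v) :
    ∃ z : ℂ, ‖z‖ = 1 ∧ ∀ T ∈ M, (c.base χ).ev (c.E (T * c.uu (tp v χ))) =
      (c.base χ).ev (c.E (T * (v * c.uu χ))) * z := by
  obtain ⟨h1, h2, h3⟩ := c.uu_spec (tp v χ)
  rw [c.ker_base hv h] at h2 h3
  exact c.ker_phase h1.1 (hv.1.mul c.hA (c.uu_spec χ).1.1) h2 ((c.ker_dom hv.1 χ).2 h)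
    (h3.trans (c.ker_tp hv.1 h).symm)

theorem ker_uu (a : Spc c.hA) : c.uu a ∈ M := (c.uu_spec a).1.1.1

theorem ker_mem {T : H →L[ℂ] H} (hT : T ∈ M) (a b : Spc c.hA) :
    star (c.uu a) * T * c.uu b ∈ M :=
  mul_mem (mul_mem (star_mem (c.ker_uu a)) hT) (c.ker_uu b)

/-- The kernel in a local chart. -/
theorem K_loc (χ : Spc c.hA) : ∃ θ : (H →L[ℂ] H) → ℂ, (∀ v, ‖θ v‖ = 1) ∧
    ∀ v w, c.IsGb v → c.IsGb w → χ.Dom v → χ.Dom w → ∀ T ∈ M,
      c.K T (tp v χ) (tp w χ) = conj (θ v) * θ w * χ.ev (c.E (star v * T * w)) := by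
  have hz : ∀ v, ∃ z : ℂ, ‖z‖ = 1 ∧ (c.IsGb v → χ.Dom v → ∀ T ∈ M,
      (c.base χ).ev (c.E (T * c.uu (tp v χ))) = (c.base χ).ev (c.E (T * (v * c.uu χ))) * z) :=
    fun v => by
      by_cases h : c.IsGb v ∧ χ.Dom v
      · obtain ⟨z, h1, h2⟩ := c.ker_rep h.1 h.2
        exact ⟨z, h1, fun _ _ => h2⟩
      · exact ⟨1, norm_one, fun h1 h2 => absurd ⟨h1, h2⟩ h⟩
  choose θ h1 h2 using hz
  refine ⟨θ, h1, fun v w hv hw hdv hdw T hT => ?_⟩
  obtain ⟨h3, h4, h5⟩ := c.uu_spec χ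
  have hW : w * c.uu χ ∈ M := mul_mem hw.1.1 (c.ker_uu χ)
  have hS : star (T * (w * c.uu χ)) ∈ M := star_mem (mul_mem hT hW)
  have e1 := congrArg conj (h2 v hv hdv _ hS)
  rw [map_mul conj, ← c.ker_star (mul_mem hS (c.ker_uu _)),
    ← c.ker_star (mul_mem hS (mul_mem hv.1.1 (c.ker_uu _))), star_mul, star_star,
    star_mul (star _), star_star, star_mul v] at e1
  have e2 := c.ker_conj h3.1 h4 (mul_mem (mul_mem (star_mem hv.1.1) hT) hw.1.1)
  rw [h5] at e2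
  unfold K
  rw [if_pos ((c.ker_base hv hdv).trans (c.ker_base hw hdw).symm), c.ker_base hv hdv,
    h2 w hw hdw _ (mul_mem (star_mem (c.ker_uu _)) hT), mul_assoc (star (c.uu (tp v χ))) T, e1,
    ← e2]
  simp only [mul_assoc]
  ring

theorem K_diag {T : H →L[ℂ] H} (hT : T ∈ M) (a : Spc c.hA) : c.K T a a = a.ev (c.E T) := by
  obtain ⟨h1, h2, h3⟩ := c.uu_spec a
  unfold K
  rw [if_pos rfl, c.ker_conj h1.1 h2 hT, h3]

theorem wt_pos (a : Spc c.hA) : 0 < c.wt a := by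
  obtain ⟨h1, h2, -⟩ := c.uu_spec a
  obtain ⟨s, hs, h⟩ := h1.rn_lower
  have h3 := (c.base a).ev_mono (A.smul_mem h1.1.src.1 _) h1.rn_mem h
  rw [(c.base a).ev_smul _ h1.1.src.1, show (c.base a).ev (star (c.uu a) * c.uu a) = 1 from h2,
    mul_one] at h3
  exact hs.trans_le (Complex.le_def.1 h3).1

theorem wt_tp {v : H →L[ℂ] H} (hv : c.IsGb v) {χ : Spc c.hA} (h : χ.Dom v) :
    c.wt (tp v χ) = (χ.ev (c.rn v)).re * c.wt χ := by
  obtain ⟨h1, h2, h3⟩ := c.uu_spec (tp v χ)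
  obtain ⟨h4, h5, h6⟩ := c.uu_spec χ
  rw [c.ker_base hv h] at h2 h3
  obtain ⟨f, a, hf, ha, hf1, haa, hVU⟩ := c.exists_phase h1.1 (hv.mul h4).1 h2
    ((c.ker_dom hv.1 χ).2 h) (h3.trans (c.ker_tp hv.1 h).symm)
  have e := congrArg (c.base χ).ev (h1.rn_local (hv.mul h4) ha hf hVU haa)
  rw [Spc.ev_mul _ h1.rn_mem hf.1, Spc.ev_mul _ (hv.mul h4).rn_mem hf.1, hf1, mul_one, mul_one,
    hv.rn_mul h4, Spc.ev_mul _ h4.rn_mem (h4.1.2.2.2 _ hv.rn_mem), ← ev_tp h4.1 h5 hv.rn_mem,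
    h6] at e
  unfold wt
  rw [c.ker_base hv h, e, Complex.mul_re,
    ← (Complex.le_def.1 (χ.ev_nonneg hv.rn_mem hv.rn_nonneg)).2]
  simp [mul_comm]

theorem K_add {S T : H →L[ℂ] H} (hS : S ∈ M) (hT : T ∈ M) (a b : Spc c.hA) :
    c.K (S + T) a b = c.K S a b + c.K T a b := by
  unfold K
  split_ifs
  · rw [mul_add, add_mul, map_add, Spc.ev_add _ (c.E_mem (c.ker_mem hS a b))
      (c.E_mem (c.ker_mem hT a b))]
  · rw [add_zero]

theorem K_sum {ι : Type*} (s : Finset ι) {T : ι → H →L[ℂ] H} (hT : ∀ i ∈ s, T i ∈ M)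
    (a b : Spc c.hA) : c.K (∑ i ∈ s, T i) a b = ∑ i ∈ s, c.K (T i) a b := by
  unfold K
  split_ifs
  · rw [Finset.mul_sum, Finset.sum_mul, map_sum,
      Spc.ev_sum _ _ fun i hi => c.E_mem (c.ker_mem (hT i hi) a b)]
  · rw [Finset.sum_const_zero]

theorem K_smul (z : ℂ) {T : H →L[ℂ] H} (hT : T ∈ M) (a b : Spc c.hA) :
    c.K (z • T) a b = z * c.K T a b := by
  unfold K
  split_ifs
  · rw [mul_smul_comm, smul_mul_assoc, map_smul, Spc.ev_smul _ _ (c.E_mem (c.ker_mem hT a b))]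
  · rw [mul_zero]

theorem K_star {T : H →L[ℂ] H} (hT : T ∈ M) (a b : Spc c.hA) :
    c.K (star T) b a = conj (c.K T a b) := by
  unfold K
  by_cases h : c.base a = c.base b
  · rw [if_pos h, if_pos h.symm, ← c.ker_star (c.ker_mem hT a b), star_mul, star_mul, star_star,
      mul_assoc, h]
  · rw [if_neg h, if_neg (Ne.symm h), map_zero]

theorem K_bimod {T p q : H →L[ℂ] H} (hT : T ∈ M) (hp : p ∈ A) (hq : q ∈ A) (a b : Spc c.hA) :
    c.K (p * T * q) a b = a.ev p * c.K T a b * b.ev q := by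
  unfold K
  split_ifs with h
  · obtain ⟨h1, h2, h3⟩ := c.uu_spec a
    obtain ⟨h4, h5, h6⟩ := c.uu_spec b
    rw [← h] at h5 h6
    have hp' := h1.1.2.2.2 p hp
    have hq' := h4.1.2.2.2 q hq
    have e1 : star (c.uu a) * p = star (c.uu a) * p * c.uu a * star (c.uu a) := by
      simpa only [star_star] using h1.1.star.mul_eq c.hA hp
    have e2 : star (c.uu a) * (p * T * q) * c.uu b = star (c.uu a) * p * c.uu a *
        (star (c.uu a) * T * c.uu b * (star (c.uu b) * q * c.uu b)) := by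
      calc star (c.uu a) * (p * T * q) * c.uu b = star (c.uu a) * p * (T * (q * c.uu b)) := by
            simp only [mul_assoc]
        _ = _ := by
            conv_lhs => rw [e1, h4.1.eq_mul c.hA hq]
            simp only [mul_assoc]
    rw [e2, c.E_left hp', c.E_right hq', Spc.ev_mul _ hp' (mul_mem (c.E_mem (c.ker_mem hT a b)) hq'),
      Spc.ev_mul _ (c.E_mem (c.ker_mem hT a b)) hq', ← ev_tp h1.1 h2 hp, ← ev_tp h4.1 h5 hq, h3, h6]
    exact (mul_assoc _ _ _).symm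
  · simp

theorem K_one (a b : Spc c.hA) : c.K 1 a b = if a = b then 1 else 0 := by
  split_ifs with h
  · rw [h, c.K_diag (one_mem M), c.E_of_mem (one_mem A), Spc.ev_one]
  · unfold K
    split_ifs with h'
    · obtain ⟨h1, h2, h3⟩ := c.uu_spec a
      obtain ⟨h4, h5, h6⟩ := c.uu_spec b
      rw [← h'] at h5 h6
      rw [mul_one]
      by_contra hne
      exact h (h3.symm.trans (((c.coin_iff h1.1 h4.1 h2 h5).2 hne).trans h6))
    · rfl

theorem K_psd {T : H →L[ℂ] H} (hT : T ∈ M) (h0 : 0 ≤ T) (S : Finset (Spc c.hA))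
    (v : Spc c.hA → ℂ) : 0 ≤ (∑ a ∈ S, ∑ b ∈ S, conj (v a) * c.K T a b * v b).re := by
  rw [← Finset.sum_fiberwise_of_maps_to (g := c.base) (t := S.image c.base)
    fun a ha => Finset.mem_image_of_mem _ ha, Complex.re_sum]
  refine Finset.sum_nonneg fun o _ => ?_
  set F := S.filter fun a => c.base a = o with hF
  have h1 := o.ev_nonneg (c.E_mem (mul_mem (mul_mem (star_mem (sum_mem fun b (_ : b ∈ F) =>
    smul_mem_vN (v b) (c.ker_uu b))) hT) (sum_mem fun b (_ : b ∈ F) =>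
    smul_mem_vN (v b) (c.ker_uu b)))) (c.E_nonneg (star_left_conjugate_nonneg h0 _))
  refine (Complex.le_def.1 h1).1.trans_eq (congrArg Complex.re ?_)
  rw [star_sum, Finset.sum_mul, Finset.sum_mul_sum, map_sum, Spc.ev_sum _ _ fun a _ =>
    c.E_mem (sum_mem fun b _ => mul_mem (mul_mem (star_mem (smul_mem_vN _ (c.ker_uu a))) hT)
      (smul_mem_vN _ (c.ker_uu b)))]
  refine Finset.sum_congr rfl fun a ha => ?_
  have ha' : c.base a = o := (Finset.mem_filter.1 ha).2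
  rw [map_sum, Spc.ev_sum _ _ fun b _ => c.E_mem (mul_mem
    (mul_mem (star_mem (smul_mem_vN _ (c.ker_uu a))) hT) (smul_mem_vN _ (c.ker_uu b))), hF,
    Finset.sum_filter]
  refine Finset.sum_congr rfl fun b _ => ?_
  unfold K
  rw [ha']
  by_cases hb : c.base b = o
  · rw [if_pos hb, if_pos hb.symm, star_smul, smul_mul_assoc, smul_mul_assoc, mul_smul_comm,
      map_smul, map_smul, Spc.ev_smul _ _ (A.smul_mem (c.E_mem (c.ker_mem hT a b)) _),
      Spc.ev_smul _ _ (c.E_mem (c.ker_mem hT a b)), Complex.star_def]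
    ring
  · rw [if_neg hb, if_neg (Ne.symm hb), mul_zero, zero_mul]

theorem K_gb_ne_zero {v : H →L[ℂ] H} (hv : c.IsGb v) {a b : Spc c.hA} (h : c.K v a b ≠ 0) :
    b.Dom v ∧ tp v b = a := by
  unfold K at h
  split_ifs at h with h'
  · obtain ⟨h1, h2, h3⟩ := c.uu_spec a
    have h4 := hv.1.mul c.hA (c.uu_spec b).1.1
    rw [mul_assoc] at h
    have h5 : (c.base a).Dom (v * c.uu b) := by_contra fun hn =>
      h (c.ev_E_of_not_dom h4 (star_mem (c.ker_uu a)) hn)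
    have h6 := (c.coin_iff h1.1 h4 h2 h5).2 h
    rw [h'] at h5
    have h7 := (c.ker_dom hv.1 b).1 h5
    rw [h3, h', c.ker_tp hv.1 h7] at h6
    exact ⟨h7, h6.symm⟩
  · exact absurd rfl h

theorem K_mul_gb {T v : H →L[ℂ] H} (hT : T ∈ M) (hv : c.IsGb v) (a b : Spc c.hA) :
    c.K (T * v) a b = c.K T a (tp v b) * c.K v (tp v b) b := by
  by_cases hd : b.Dom v
  · obtain ⟨z, -, hz⟩ := c.ker_rep hv hd
    obtain ⟨h1, h2, -⟩ := c.uu_spec (tp v b)
    have hb := c.ker_base hv hd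
    have e1 := hz _ (star_mem (c.ker_uu (tp v b)))
    rw [hb] at h2
    rw [c.E_of_mem h1.1.src.1, show (c.base b).ev (star (c.uu (tp v b)) * c.uu (tp v b)) = 1 from h2]
      at e1
    unfold K
    rw [hb, if_pos rfl]
    split_ifs with h
    · rw [h, hz _ (mul_mem (star_mem (c.ker_uu a)) hT)]
      simp only [mul_assoc] at e1 ⊢
      rw [mul_comm z, ← e1, mul_one]
    · rw [zero_mul]
  · have h1 : c.K v (tp v b) b = 0 := by_contra fun h => hd (c.K_gb_ne_zero hv h).1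
    rw [h1, mul_zero]
    unfold K
    split_ifs with h
    · have := c.ev_E_of_not_dom (hv.1.mul c.hA (c.uu_spec b).1.1)
        (mul_mem (star_mem (c.ker_uu a)) hT) (fun h' => hd ((c.ker_dom hv.1 b).1 h'))
      rw [h]
      simpa only [mul_assoc] using this
    · rfl

end Ctx

end Vale.Agent.P078
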