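import Vale.Agent.P078b.Ker
import Vale.Agent.P078b.Pw

open scoped InnerProductSpace ComplexConjugate ComplexOrder
open Filter Topology

set_option linter.unusedSectionVars false
set_option linter.unusedVariables false

namespace Vale.Agent.P078

variable {H : Type*} [NormedAddCommGroup H] [InnerProductSpace ℂ H] [CompleteSpace H]
variable {M : VonNeumannAlgebra H} {A : StarSubalgebra ℂ (H →L[ℂ] H)}

namespace Ctx
variable (c : Ctx M A)

theorem ker2_left {T p : H →L[ℂ] H} (hT : T ∈ M) (hp : p ∈ A) (a b : Spc c.hA) :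
    c.K (p * T) a b = a.ev p * c.K T a b := by
  have := c.K_bimod hT hp (one_mem A) a b
  rwa [mul_one, Spc.ev_one, mul_one] at this

theorem ker2_right {T q : H →L[ℂ] H} (hT : T ∈ M) (hq : q ∈ A) (a b : Spc c.hA) :
    c.K (T * q) a b = c.K T a b * b.ev q := by
  have := c.K_bimod hT (one_mem A) hq a b
  rwa [one_mul, Spc.ev_one, one_mul] at this

theorem ker2_sum {n : ℕ} {p v : Fin n → H →L[ℂ] H} (h : ∀ i, p i ∈ A ∧ c.IsGb (v i))
    (a b : Spc c.hA) : c.K (∑ i, p i * v i) a b = ∑ i, a.ev (p i) * c.K (v i) a b := by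
  rw [c.K_sum _ fun i _ => mul_mem (c.hA.1 _ (h i).1) (h i).2.1.1]
  exact Finset.sum_congr rfl fun i _ => c.ker2_left (h i).2.1.1 (h i).1 a b

/-- Finite propagation. -/
theorem exists_gen {y : H →L[ℂ] H} (hy : y ∈ c.N0) : ∃ G : Finset (H →L[ℂ] H),
    (∀ v ∈ G, c.IsGb v) ∧ ∀ a b, c.K y a b ≠ 0 → ∃ v ∈ G, b.Dom v ∧ tp v b = a := by
  classical
  obtain ⟨n, p, v, h, rfl⟩ := c.mem_N0_iff.1 hy
  refine ⟨Finset.univ.image v, fun w hw => ?_, fun a b hab => ?_⟩
  · obtain ⟨i, -, rfl⟩ := Finset.mem_image.1 hw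
    exact (h i).2
  · rw [c.ker2_sum h] at hab
    obtain ⟨i, -, hi⟩ := Finset.exists_ne_zero_of_sum_ne_zero hab
    exact ⟨v i, Finset.mem_image_of_mem _ (Finset.mem_univ i),
      c.K_gb_ne_zero (h i).2 (right_ne_zero_of_mul hi)⟩

theorem K_mul {T y : H →L[ℂ] H} (hT : T ∈ M) (hy : y ∈ c.N0) (a b : Spc c.hA)
    (S : Finset (Spc c.hA)) (hS : ∀ d, c.K T a d ≠ 0 → c.K y d b ≠ 0 → d ∈ S) :
    c.K (T * y) a b = ∑ d ∈ S, c.K T a d * c.K y d b := by
  rw [Finset.sum_subset (s₂ := S ∪ (c.exists_gen hy).choose.image fun v => tp v b)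
    Finset.subset_union_left fun d _ hd => by_contra fun h0 =>
      hd (hS d (left_ne_zero_of_mul h0) (right_ne_zero_of_mul h0))]
  have hG := (c.exists_gen hy).choose_spec.2
  generalize (c.exists_gen hy).choose = G at hG
  obtain ⟨n, p, v, h, rfl⟩ := c.mem_N0_iff.1 hy
  rw [Finset.sum_subset (s₂ := (S ∪ G.image fun v => tp v b) ∪ Finset.univ.image fun i => tp (v i) b)
    Finset.subset_union_left fun d _ hd => by_contra fun h0 => by
      obtain ⟨w, hw, -, rfl⟩ := hG d b (right_ne_zero_of_mul h0)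
      exact hd (Finset.mem_union_right _ (Finset.mem_image_of_mem _ hw))]
  simp only [c.ker2_sum h, Finset.mul_sum]
  rw [c.K_sum _ fun i _ => mul_mem hT (mul_mem (c.hA.1 _ (h i).1) (h i).2.1.1), Finset.sum_comm]
  refine Finset.sum_congr rfl fun i _ => ?_
  rw [← mul_assoc, c.K_mul_gb (mul_mem hT (c.hA.1 _ (h i).1)) (h i).2, c.ker2_right hT (h i).1,
    Finset.sum_eq_single (tp (v i) b), mul_assoc]
  · intro d _ hd
    have : c.K (v i) d b = 0 := by_contra fun h0 => hd (c.K_gb_ne_zero (h i).2 h0).2.symm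
    rw [this, mul_zero, mul_zero]
  · exact fun h0 => absurd (Finset.mem_union_right _
      (Finset.mem_image_of_mem (fun i => tp (v i) b) (Finset.mem_univ i))) h0

theorem contr_K {y : H →L[ℂ] H} (hy : y ∈ c.N0) (h1 : ‖y‖ ≤ 1) : Contr (c.K y) := by
  intro S v
  have hyM := c.mem_of_N0 hy
  have hyy : star y * y ∈ M := mul_mem (star_mem hyM) hyM
  obtain ⟨G, -, hG⟩ := c.exists_gen hy
  set S' := S ∪ S.biUnion fun b => G.image fun g => tp g b
  have h2 : star y * y ≤ 1 := (CStarAlgebra.norm_le_one_iff_of_nonneg _ (star_mul_self_nonneg y)).1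
    (by rw [CStarRing.norm_star_mul_self]; exact mul_le_one₀ h1 (norm_nonneg _) h1)
  have h3 := c.K_psd (sub_mem (one_mem M) hyy) (sub_nonneg.2 h2) S v
  have h4 : ∀ b' b, c.K (1 - star y * y) b' b = (if b' = b then 1 else 0) - c.K (star y * y) b' b :=
    fun b' b => by
      rw [← c.K_one, eq_sub_iff_add_eq, ← c.K_add (sub_mem (one_mem M) hyy) hyy, sub_add_cancel]
  have h5 : ∀ b' ∈ S, ∀ b ∈ S, c.K (star y * y) b' b = ∑ a ∈ S', conj (c.K y a b') * c.K y a b :=
    fun b' _ b hb => by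
      rw [c.K_mul (star_mem hyM) hy b' b S' fun d _ hd => by
        obtain ⟨g, hg, -, rfl⟩ := hG d b hd
        exact Finset.mem_union_right _ (Finset.mem_biUnion.2 ⟨b, hb, Finset.mem_image_of_mem _ hg⟩)]
      exact Finset.sum_congr rfl fun a _ => by rw [c.K_star hyM]
  have h6 : ∑ a ∈ S, ∑ b ∈ S, conj (v a) * c.K (1 - star y * y) a b * v b =
      ((∑ b ∈ S, ‖v b‖ ^ 2 - ∑ a ∈ S', ‖∑ b ∈ S, c.K y a b * v b‖ ^ 2 : ℝ) : ℂ) := by
    push_cast
    simp only [← Complex.conj_mul', map_sum, map_mul, Finset.sum_mul_sum]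
    rw [Finset.sum_comm (s := S'), ← Finset.sum_sub_distrib]
    refine Finset.sum_congr rfl fun b' hb' => ?_
    simp only [h4, mul_sub, sub_mul, Finset.sum_sub_distrib]
    congr 1
    · simp [hb']
    · rw [Finset.sum_comm]
      refine Finset.sum_congr rfl fun b hb => ?_
      rw [h5 b' hb' b hb, Finset.mul_sum, Finset.sum_mul]
      exact Finset.sum_congr rfl fun a _ => by ring
  rw [h6, Complex.ofReal_re, sub_nonneg] at h3
  exact (Finset.sum_le_sum_of_subset_of_nonneg Finset.subset_union_left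
    fun _ _ _ => sq_nonneg _).trans h3

theorem K_pow {y : H →L[ℂ] H} (hy : y ∈ c.N0) (n : ℕ) (a : Spc c.hA) (S : Finset (Spc c.hA))
    (hS : ∀ d, Near (c.K y) n a d → d ∈ S) (b : Spc c.hA) :
    c.K (y ^ n) a b = pwS (c.K y) S n a b := by
  induction n generalizing b with
  | zero => rw [pow_zero, c.K_one]; rfl
  | succ n ih =>
    have ih' := ih fun d hd => hS d (hd.mono n.le_succ)
    rw [pow_succ, c.K_mul (pow_mem (c.mem_of_N0 hy) n) hy a b S fun d hd _ =>
      hS d ((pwS_near (ih' d ▸ hd)).mono n.le_succ)]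
    exact Finset.sum_congr rfl fun d _ => by rw [ih' d]

theorem K_pinch_col {κ : Type} [Fintype κ] [DecidableEq κ] {col : Spc c.hA → κ}
    (hcol : IsLocallyConstant col) {y : H →L[ℂ] H} (hy : y ∈ M) :
    c.K (pinch (fun i => ind c.hA {χ | col χ = i}) y) = Xcol (c.K y) col := by
  funext a b
  have hP : ∀ i, ind c.hA {χ | col χ = i} ∈ A := fun i => (ind_isP (hcol.isClopen_fiber i)).1
  unfold pinch Xcol
  rw [c.K_sum _ fun i _ => mul_mem (mul_mem (c.hA.1 _ (hP i)) hy) (c.hA.1 _ (hP i)),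
    Finset.sum_eq_single (col a) (fun i _ hi => by
      rw [c.K_bimod hy (hP i) (hP i), ev_ind_of_notMem (hcol.isClopen_fiber i) (χ := a) hi.symm,
        zero_mul, zero_mul]) (fun h => absurd (Finset.mem_univ _) h),
    c.K_bimod hy (hP _) (hP _), ev_ind_of_mem (hcol.isClopen_fiber _) (χ := a) rfl, one_mul]
  split_ifs with h
  · rw [ev_ind_of_mem (hcol.isClopen_fiber _) (χ := b) h.symm, mul_one]
  · rw [ev_ind_of_notMem (hcol.isClopen_fiber _) (χ := b) (Ne.symm h), mul_zero]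

theorem ker2_I {f : Spc c.hA → ℝ} {a : H →L[ℂ] H} (ha : a ∈ A) (h : ∀ χ : Spc c.hA, χ.ev a = f χ) :
    c.I f = (c.φ a).re := by
  unfold I
  rw [lft_eq ha h]

theorem ker2_ev {f : Spc c.hA → ℝ} (hf : Continuous f) (χ : Spc c.hA) :
    χ.ev (lft c.hA fun χ => (f χ : ℂ)) = f χ :=
  ev_lft (Complex.continuous_ofReal.comp hf) χ

theorem I_add {f g : Spc c.hA → ℝ} (hf : Continuous f) (hg : Continuous g) :
    c.I (fun a => f a + g a) = c.I f + c.I g := by
  rw [c.ker2_I (add_mem (lft_mem fun χ => (f χ : ℂ)) (lft_mem fun χ => (g χ : ℂ))) fun χ => by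
    rw [χ.ev_add (lft_mem _) (lft_mem _), c.ker2_ev hf, c.ker2_ev hg, Complex.ofReal_add],
    map_add, Complex.add_re]
  rfl

theorem I_smul (s : ℝ) {f : Spc c.hA → ℝ} (hf : Continuous f) :
    c.I (fun a => s * f a) = s * c.I f := by
  rw [c.ker2_I (A.smul_mem (lft_mem fun χ => (f χ : ℂ)) (s : ℂ)) fun χ => by
    rw [χ.ev_smul _ (lft_mem _), c.ker2_ev hf, Complex.ofReal_mul],
    map_smul, smul_eq_mul, Complex.re_ofReal_mul]
  rfl

theorem I_nonneg {f : Spc c.hA → ℝ} (hf : Continuous f) (h : ∀ a, 0 ≤ f a) : 0 ≤ c.I f := by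
  exact c.φ_re_nonneg (nonneg_of_ev c.hA (lft_mem _) fun χ => by
    rw [c.ker2_ev hf]; exact Complex.zero_le_real.2 (h χ))

theorem I_one : c.I (fun _ => 1) ≤ 1 := by
  rw [c.ker2_I (one_mem A) fun χ => by rw [χ.ev_one, Complex.ofReal_one]]
  exact (Complex.re_le_norm _).trans ((c.norm_φ_le 1).trans ContinuousLinearMap.norm_id_le)

theorem I_ev {T : H →L[ℂ] H} (hT : T ∈ M) (hs : IsSelfAdjoint T) :
    c.I (fun a => (a.ev (c.E T)).re) = (c.φ T).re := by
  rw [c.ker2_I (c.E_mem hT) fun χ => (Complex.conj_eq_iff_re.1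
    (by rw [← c.ker_star hT, hs.star_eq])).symm, c.φ_E hT]

theorem ker2_rn {v : H →L[ℂ] H} (hv : c.IsGb v) (χ : Spc c.hA) :
    (((χ.ev (c.rn v)).re : ℝ) : ℂ) = χ.ev (c.rn v) :=
  Complex.ext rfl (Complex.le_def.1 (χ.ev_nonneg hv.rn_mem hv.rn_nonneg)).2

theorem ker2_diff (c : Ctx M A) {e f : H →L[ℂ] H} (he : IsP A e) (hf : IsP A f) (h : f * e = f) :
    IsP A (e - f) := by
  have := IsP.mul c.hA hf.one_sub he
  rwa [sub_mul, one_mul, h] at this

theorem I_transport {v : H →L[ℂ] H} (hv : c.IsGb v) {F : Spc c.hA → ℝ} (hF : Continuous F) :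
    c.I (fun a => if tp v a = a then 0 else c.wt (tp v a) / c.wt a * F (tp v a)) =
      c.I fun b => if tp (star v) b = b then 0 else F b := by
  obtain ⟨f, hf, -, h2, h3, h4, h5, h6⟩ := c.exists_fix_proj hv.1
  obtain ⟨f', -, -, -, h3', -, -, h6'⟩ := c.exists_fix_proj hv.1.star
  have hEv := c.E_mem hv.1.1
  have hff : f' = f := by
    rw [← h3', ← h3, c.E_star, star_star]
    exact c.hA.2.1 _ hEv _ (star_mem hEv)
  rw [hff, star_star] at h6'
  have hd := c.ker2_diff hv.1.src hf h4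
  have hd' := c.ker2_diff hv.1.rng hf h5
  set G := lft c.hA fun χ => (F χ : ℂ)
  have hG : G ∈ A := lft_mem _
  have hb := hv.1.2.2.2 G hG
  have e1 := c.ker2_I (f := fun a => if tp v a = a then 0 else c.wt (tp v a) / c.wt a * F (tp v a))
    (mul_mem hv.rn_mem (mul_mem hb hd.1)) fun χ => by
      rw [χ.ev_mul hv.rn_mem (mul_mem hb hd.1), χ.ev_mul hb hd.1]
      split_ifs with h
      · rw [(χ.ev_proj hd).resolve_right fun h' => (h6 χ).2 h' h]
        simp
      · have hD : χ.Dom v := by_contra fun h' => h (tp_of_not_dom h')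
        rw [(h6 χ).1 h, ← ev_tp hv.1 hD hG, c.ker2_ev hF, c.wt_tp hv hD,
          mul_div_cancel_right₀ _ (c.wt_pos χ).ne', Complex.ofReal_mul, c.ker2_rn hv, mul_one]
  have e2 := c.ker2_I (f := fun b => if tp (star v) b = b then 0 else F b)
    (mul_mem hG hd'.1) fun χ => by
      rw [χ.ev_mul hG hd'.1, c.ker2_ev hF]
      split_ifs with h
      · rw [(χ.ev_proj hd').resolve_right fun h' => (h6' χ).2 h' h]
        simp
      · rw [(h6' χ).1 h, mul_one]
  rw [e1, e2, ← hv.rn_spec (mul_mem hb hd.1)]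
  congr 2
  have h7 : v * (star v * v - f) * star v = v * star v - f := by
    rw [mul_sub, sub_mul, ← mul_assoc, hv.1.2.1, ← h2, mul_assoc f, h5]
  have h8 : v * star v * (v * star v - f) = v * star v - f := by
    rw [mul_sub, ← mul_assoc, hv.1.2.1, c.hA.2.1 _ hv.1.rng.1 _ hf.1, h5]
  calc v * (star v * G * v * (star v * v - f)) * star v
      = v * star v * G * (v * (star v * v - f) * star v) := by simp only [mul_assoc]
    _ = G * (v * star v - f) := by
      rw [h7, c.hA.2.1 _ hv.1.rng.1 _ hG, mul_assoc, h8]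

theorem continuous_wt {v : H →L[ℂ] H} (hv : c.IsGb v) :
    Continuous fun a => c.wt (tp v a) / c.wt a := by
  refine (Complex.continuous_re.comp
    (continuous_ev c.hA (c.rn v * (star v * v) + (1 - star v * v)))).congr fun χ => ?_
  have hs := hv.1.src
  show (χ.ev _).re = _
  rw [χ.ev_add (mul_mem hv.rn_mem hs.1) hs.one_sub.1, χ.ev_mul hv.rn_mem hs.1,
    χ.ev_sub (one_mem A) hs.1, χ.ev_one]
  by_cases hD : χ.Dom v
  · rw [show χ.ev (star v * v) = 1 from hD, c.wt_tp hv hD, mul_div_cancel_right₀ _ (c.wt_pos χ).ne']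
    simp
  · rw [(χ.ev_proj hs).resolve_right hD, tp_of_not_dom hD, div_self (c.wt_pos χ).ne']
    simp

end Ctx

end Vale.Agent.P078
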