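import Vale.Agent.P078b.Del

open Polynomial MeasureTheory
open scoped ComplexConjugate

set_option linter.unusedSectionVars false
set_option linter.unusedVariables false

namespace Vale.Agent.P078

variable {ι : Type*} [Fintype ι] [DecidableEq ι]

theorem lemA_level (t : ι → ℝ) {μ : ι → ℝ} (hμ : ∀ i, 0 ≤ μ i) {c : ℝ} (hc : 0 < c) :
    ∃ y₀, 0 ≤ y₀ ∧ (∑ i, if y₀ < t i then μ i else 0) ≤ c * y₀ ^ 2 ∧
      c * y₀ ^ 2 ≤ ∑ i, if y₀ ≤ t i then μ i else 0 := by
  let S := {y : ℝ | 0 ≤ y ∧ (∑ i, if y < t i then μ i else 0) ≤ c * y ^ 2}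
  have hne : S.Nonempty := by
    refine ⟨∑ i, |t i|, by positivity, ?_⟩
    rw [Finset.sum_eq_zero fun i _ => if_neg (not_lt.2 ((le_abs_self _).trans
      (Finset.single_le_sum (fun j _ => abs_nonneg (t j)) (Finset.mem_univ i))))]
    positivity
  have hbd : BddBelow S := ⟨0, fun y hy => hy.1⟩
  have h0 : 0 ≤ sInf S := le_csInf hne fun y hy => hy.1
  have hcont : Continuous fun y : ℝ => c * y ^ 2 := by fun_prop
  refine ⟨sInf S, h0, ?_, ?_⟩
  · refine ge_of_tendsto (x := nhdsWithin (sInf S) (Set.Ioi (sInf S)))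
      (hcont.continuousAt.tendsto.mono_left nhdsWithin_le_nhds) ?_
    have h1 : ∀ᶠ y in nhdsWithin (sInf S) (Set.Ioi (sInf S)), ∀ i, sInf S < t i → y < t i :=
      Filter.eventually_all.2 fun i => by
        by_cases h : sInf S < t i
        · exact ((gt_mem_nhds h).filter_mono nhdsWithin_le_nhds).mono fun y hy _ => hy
        · exact Filter.Eventually.of_forall fun y h' => (h h').elim
    filter_upwards [h1, self_mem_nhdsWithin] with y h2 h3
    obtain ⟨u, hu, huy⟩ := exists_lt_of_csInf_lt hne h3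
    refine le_trans (Finset.sum_le_sum fun i _ => ?_) (hu.2.trans
      (mul_le_mul_of_nonneg_left (pow_le_pow_left₀ hu.1 huy.le 2) hc.le))
    split_ifs with h4 h5
    · exact le_rfl
    · exact (h5 (huy.trans (h2 i h4))).elim
    · exact hμ i
    · exact le_rfl
  · rcases h0.eq_or_lt with h | h
    · rw [← h]
      simpa using Finset.sum_nonneg fun i _ => by split_ifs <;> simp [hμ i]
    refine le_of_tendsto (x := nhdsWithin (sInf S) (Set.Iio (sInf S)))
      (hcont.continuousAt.tendsto.mono_left nhdsWithin_le_nhds) ?_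
    have h1 : ∀ᶠ y in nhdsWithin (sInf S) (Set.Iio (sInf S)), ∀ i, t i < sInf S → t i < y :=
      Filter.eventually_all.2 fun i => by
        by_cases h : t i < sInf S
        · exact ((lt_mem_nhds h).filter_mono nhdsWithin_le_nhds).mono fun y hy _ => hy
        · exact Filter.Eventually.of_forall fun y h' => (h h').elim
    filter_upwards [h1, self_mem_nhdsWithin,
      (lt_mem_nhds h).filter_mono nhdsWithin_le_nhds] with y h2 h3 h4
    have h5 : y ∉ S := notMem_of_lt_csInf h3 hbd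
    refine le_trans (not_le.1 fun h6 => h5 ⟨h4.le, h6⟩).le (Finset.sum_le_sum fun i _ => ?_)
    split_ifs with h6 h7
    · exact le_rfl
    · exact (h6.not_gt (h2 i (not_le.1 h7))).elim
    · exact hμ i
    · exact le_rfl

theorem lemA_mass {q : ℕ} (hq : 32 ≤ q) (t : ι → ℝ) {μ : ι → ℝ} (hμ : ∀ i, 0 ≤ μ i) {y₀ : ℝ}
    (h0 : 0 ≤ y₀) (h : 32 / q * y₀ ^ 2 ≤ ∑ i, if y₀ ≤ t i then μ i else 0) :
    16 * y₀ ^ q ≤ Gp q t μ := by
  have hq' : (32 : ℝ) ≤ q := by exact_mod_cast hq
  rcases h0.eq_or_lt with h1 | h1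
  · rw [← h1, zero_pow (by omega), mul_zero]
    exact Gp_nonneg (by omega) _ _
  set m := ∑ i, if y₀ ≤ t i then μ i else 0 with hm
  have h2 : 0 < 32 / q * y₀ ^ 2 := by positivity
  have h3 : 0 < m := h2.trans_le h
  have h4 : ∑ i, (32 / q * y₀ ^ 2 / m) * (if y₀ ≤ t i then μ i else 0) = 32 / q * y₀ ^ 2 := by
    rw [← Finset.mul_sum, div_mul_cancel₀ _ h3.ne']
  have h5 : ∀ i, 0 ≤ if y₀ ≤ t i then μ i else 0 := fun i => by split_ifs <;> simp [hμ i]
  have h6 := Gp_ge_mass (q := q) (by omega) t (ν := μ)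
    (ν' := fun i => (32 / q * y₀ ^ 2 / m) * if y₀ ≤ t i then μ i else 0)
    (fun i => mul_nonneg (by positivity) (h5 i))
    (fun i => (mul_le_of_le_one_left (h5 i) ((div_le_one h3).2 h)).trans
      (by split_ifs <;> simp [hμ i])) h0
    (fun i hi => by
      have : y₀ ≤ t i := by
        by_contra h7
        exact hi (by simp [h7])
      exact ⟨h1.trans_le this, this⟩)
    (h4.le.trans (mul_le_of_le_one_left (by positivity) ((div_le_one (by positivity)).2 hq')))
  refine le_trans ?_ h6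
  have h7 : 32 / q * y₀ ^ 2 * y₀ ^ (q - 2) ≤
      ∑ i, (32 / q * y₀ ^ 2 / m * if y₀ ≤ t i then μ i else 0) * t i ^ (q - 2) := by
    nth_rewrite 1 [← h4]
    rw [Finset.sum_mul]
    refine Finset.sum_le_sum fun i _ => ?_
    split_ifs with h8
    · exact mul_le_mul_of_nonneg_left (pow_le_pow_left₀ h0 h8 _)
        (mul_nonneg (by positivity) (hμ i))
    · simp
  refine le_trans (le_of_eq ?_) (mul_le_mul_of_nonneg_left h7 (by positivity))
  rw [mul_assoc (32 / (q : ℝ)), ← pow_add, Nat.add_sub_cancel' (by omega)]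
  field_simp
  norm_num

theorem lemA_zero {q : ℕ} (hq : 2 ≤ q) (t : ι → ℝ) {μ : ι → ℝ} (hμ : ∀ i, 0 ≤ μ i)
    (h : ∀ i, 0 < t i → μ i = 0) (hG : Gp q t μ ≤ 0) (i : ι) : μ i = 0 := by
  by_contra h1
  have h2 : t i ≤ 0 := not_lt.1 fun h2 => h1 (h i h2)
  have h3 : 0 < μ i / (1 - t i) := div_pos ((hμ i).lt_of_ne' h1) (by linarith)
  have h4 := Gp_ge_interval hq t hμ le_rfl (lt_min one_pos h3).le fun u h4 h5 => by
    refine ((h5.trans_le (min_le_right _ _)).trans_le ?_).trans_le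
      (Finset.single_le_sum (f := fun j => μ j / (u - t j)) (fun j _ => ?_) (Finset.mem_univ i))
    · exact div_le_div_of_nonneg_left (hμ i) (by linarith)
        (by linarith [h5.trans_le (min_le_left _ _)])
    · by_cases h6 : 0 < t j
      · simp [h j h6]
      · exact div_nonneg (hμ j) (by linarith)
  have := pow_pos (lt_min one_pos h3) q
  rw [zero_pow (by omega), sub_zero] at h4
  linarith

theorem lemA_dl {q : ℝ} (hq : 32 ≤ q) (t : ι → ℝ) {ν : ι → ℝ} (hν : ∀ i, 0 ≤ ν i) {y₀ s₃ y : ℝ}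
    (h0 : 0 ≤ y₀) (h3 : y₀ < s₃)
    (hA₀ : ∑ i, (if t i ≤ y₀ then 1 / (s₃ - t i) else 0) * ν i ≤ 12 * s₃)
    (hA₁ : ∑ i, (if y₀ < t i then 1 else 0) * ν i ≤ 12 * (32 / q * y₀ ^ 2))
    (h1 : y₀ + (s₃ - y₀) / 12 ≤ y) (h2 : y₀ * (1 + q⁻¹) ≤ y) :
    dl t (fun i => ν i / 3000) y ≤ ∑ i, if y < t i * (1 + q⁻¹) then
      (if y₀ < t i then ν i / (876 * t i) else 0) else 0 := by
  have hq0 : 0 < q := by linarith
  have hρ : 0 < 1 + q⁻¹ := by positivity
  have ht : ∀ i, y < t i * (1 + q⁻¹) → y₀ < t i := fun i h =>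
    lt_of_mul_lt_mul_right (h2.trans_lt h) hρ.le
  let ν' : ι → ℝ := fun i => if y < t i * (1 + q⁻¹) then ν i / 876 else 0
  have hν' : ∀ i, 0 ≤ ν' i := fun i => by
    have := hν i
    simp only [ν']
    split_ifs <;> positivity
  obtain ⟨θ, -, hθ⟩ := exists_interl t ν' hν'
  have h4 := dl_le_sum t hν' fun i hi => h0.trans_lt (ht i (by
    by_contra h
    exact hi (if_neg h)))
  refine le_trans (ENNReal.toReal_mono (hθ.vol_ne_top 0) (measure_mono fun s hs => ?_))
    (h4.trans (le_of_eq (Finset.sum_congr rfl fun i _ => ?_)))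
  · obtain ⟨k1, k2⟩ := hs
    have s0 : y₀ < s := by linarith
    have s1 : 0 < s := h0.trans_lt s0
    refine ⟨s1, ?_⟩
    have k3 : Mf t (fun i => ν i / 3000) s * 3000 ≤
        12 * ∑ i, (if t i ≤ y₀ then 1 / (s₃ - t i) else 0) * ν i +
        (q + 1) / s * ∑ i, (if y₀ < t i then 1 else 0) * ν i + 876 * Mf t ν' s := by
      simp only [Mf, Finset.mul_sum, Finset.sum_mul, ← Finset.sum_add_distrib]
      refine Finset.sum_le_sum fun i _ => ?_
      have e : ν i / 3000 / (s - t i) * 3000 = ν i / (s - t i) := by ring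
      have hi := hν i
      rw [e]
      by_cases c1 : t i ≤ y₀
      · have c2 : ¬ y < t i * (1 + q⁻¹) := fun h => (ht i h).not_ge c1
        simp only [ν', if_pos c1, if_neg c1.not_gt, if_neg c2, zero_mul, mul_zero, zero_div,
          add_zero]
        rw [show 12 * (1 / (s₃ - t i) * ν i) = ν i / ((s₃ - t i) / 12) by
          rw [div_div_eq_mul_div]; ring]
        exact div_le_div_of_nonneg_left hi (by linarith) (by linarith)
      · simp only [ν', if_neg c1, if_pos (not_le.1 c1), zero_mul, mul_zero, zero_add, one_mul]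
        split_ifs with c2
        · have : 0 ≤ (q + 1) / s * ν i := by positivity
          have e' : 876 * (ν i / 876 / (s - t i)) = ν i / (s - t i) := by ring
          linarith
        · have c3 : t i * (q + 1) ≤ s * q := by
            have := mul_le_mul_of_nonneg_right ((not_lt.1 c2).trans k1.le) hq0.le
            rwa [mul_assoc, add_mul, one_mul, inv_mul_cancel₀ hq0.ne'] at this
          rw [zero_div, mul_zero, add_zero, show (q + 1) / s * ν i = ν i / (s / (q + 1)) by
            rw [div_div_eq_mul_div]; ring]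
          refine div_le_div_of_nonneg_left hi (by positivity) ?_
          rw [div_le_iff₀ (by positivity)]
          nlinarith
    have k4 : (q + 1) / s * ∑ i, (if y₀ < t i then 1 else 0) * ν i ≤ 396 * s := by
      refine (mul_le_mul_of_nonneg_left hA₁ (by positivity)).trans ?_
      rw [show (q + 1) / s * (12 * (32 / q * y₀ ^ 2)) = 384 * (q + 1) * y₀ ^ 2 / (q * s) by
        field_simp; ring, div_le_iff₀ (by positivity)]
      have := pow_le_pow_left₀ h0 s0.le 2
      nlinarith [mul_le_mul_of_nonneg_left this (show 0 ≤ 384 * (q + 1) by positivity),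
        mul_nonneg (show 0 ≤ 12 * q - 384 by linarith) (sq_nonneg s)]
    linarith
  · simp only [ν']
    split_ifs with c1 c2
    · rw [div_div]
    · exact (c2 (ht i c1)).elim
    · exact zero_div _

/-- One-sided comparison under three linear conditions. -/
theorem lemA_one {q : ℕ} (hq : 32 ≤ q) (t : ι → ℝ) {μ : ι → ℝ} (hμ : ∀ i, 0 ≤ μ i) :
    ∃ l : Fin 3 → ι → ℝ, (∀ k i, 0 ≤ l k i) ∧ ∀ ν : ι → ℝ, (∀ i, 0 ≤ ν i) →
      (∀ k, ∑ i, l k i * ν i ≤ 12 * ∑ i, l k i * μ i) →
      Gp q t (fun i => ν i / 3000) ≤ Gp q t μ := by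
  have hq' : (32 : ℝ) ≤ q := by exact_mod_cast hq
  have hq2 : 2 ≤ q := by omega
  obtain ⟨y₀, h0, m1, m2⟩ := lemA_level t hμ (c := 32 / q) (by positivity)
  have g1 := lemA_mass hq t hμ h0 m2
  have hi : ∀ {p : Prop} [Decidable p] (i : ι), (0 ≤ if p then μ i else 0) ∧
      (if p then μ i else 0) ≤ μ i := fun i => by split_ifs <;> simp [hμ i]
  have g2 := Gp_ge_mass hq2 t (ν := μ) (ν' := fun i => if y₀ < t i then μ i else 0)
    (fun i => (hi i).1) (fun i => (hi i).2) h0
    (fun i hi => by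
      have : y₀ < t i := by
        by_contra h7
        exact hi (if_neg h7)
      exact ⟨h0.trans_lt this, this.le⟩)
    (m1.trans (mul_le_of_le_one_left (by positivity) ((div_le_one (by positivity)).2 hq')))
  set G := Gp q t μ with hG
  rcases le_or_gt G 0 with hG0 | hG0
  · have y0 : y₀ = 0 := pow_eq_zero_iff (n := q) (by omega) |>.1
      (le_antisymm (by linarith) (by positivity))
    subst y0
    have hz := lemA_zero hq2 t hμ (fun i h => le_antisymm (by
      have := Finset.single_le_sum (f := fun i => if 0 < t i then μ i else 0)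
        (fun i _ => (hi i).1) (Finset.mem_univ i)
      simp only [if_pos h] at this
      linarith) (hμ i)) hG0
    refine ⟨fun _ _ => 1, fun _ _ => zero_le_one, fun ν hν h => ?_⟩
    have h1 := h 0
    simp only [one_mul, hz, Finset.sum_const_zero, mul_zero] at h1
    have h2 : ∀ i, ν i = 0 := fun i =>
      (Finset.sum_eq_zero_iff_of_nonneg fun i _ => hν i).1
        (le_antisymm h1 (Finset.sum_nonneg fun i _ => hν i)) i (Finset.mem_univ i)
    simp only [h2, zero_div, Gp_zero]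
    exact Gp_nonneg hq2 _ _
  obtain ⟨s₃, s0, s1⟩ : ∃ s₃ : ℝ, 0 ≤ s₃ ∧ s₃ ^ q = 3 * G :=
    ⟨(3 * G) ^ ((q : ℝ)⁻¹), by positivity, Real.rpow_inv_natCast_pow (by positivity) (by omega)⟩
  have s2 : y₀ < s₃ := lt_of_pow_lt_pow_left₀ q s0 (by linarith)
  have s3 : ∑ i, (if t i ≤ y₀ then 1 / (s₃ - t i) else 0) * μ i ≤ s₃ := by
    by_contra h
    have h1 := (Gp_ge_interval hq2 t (ν := fun i => if t i ≤ y₀ then μ i else 0)
      (fun i => (hi i).1) h0 s2.le fun u h1 h2 => (h2.trans (not_le.1 h)).trans_le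
        (Finset.sum_le_sum fun i _ => by
          by_cases h3 : t i ≤ y₀
          · simp only [if_pos h3]
            rw [one_div, ← div_eq_inv_mul]
            exact div_le_div_of_nonneg_left (hμ i) (by linarith) (by linarith)
          · simp [h3])).trans (Gp_mono hq2 t (fun i => (hi i).1) fun i => (hi i).2)
    linarith
  refine ⟨![fun i => if t i ≤ y₀ then 1 / (s₃ - t i) else 0, fun i => if y₀ < t i then 1 else 0,
    fun i => if y₀ < t i then t i ^ (q - 2) else 0], fun k i => ?_, fun ν hν h => ?_⟩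
  · fin_cases k <;> simp only [Fin.zero_eta, Fin.mk_one, Fin.reduceFinMk, Matrix.cons_val] <;>
      split_ifs with h
    · exact one_div_nonneg.2 (by linarith)
    · exact le_rfl
    · exact zero_le_one
    · exact le_rfl
    · exact pow_nonneg (by linarith) _
    · exact le_rfl
  have a0 : ∑ i, (if t i ≤ y₀ then 1 / (s₃ - t i) else 0) * ν i ≤ 12 * s₃ :=
    (h 0).trans (mul_le_mul_of_nonneg_left s3 (by norm_num))
  have a1 : ∑ i, (if y₀ < t i then 1 else 0) * ν i ≤ 12 * (32 / q * y₀ ^ 2) :=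
    (h 1).trans (mul_le_mul_of_nonneg_left (by simpa using m1) (by norm_num))
  have a2 : (q : ℝ) * ∑ i, (if y₀ < t i then t i ^ (q - 2) else 0) * ν i ≤ 24 * G := by
    have h1 : ∑ i, (if y₀ < t i then t i ^ (q - 2) else 0) * ν i ≤
        12 * ∑ i, (if y₀ < t i then t i ^ (q - 2) else 0) * μ i := h 2
    have h2 : ∑ i, (if y₀ < t i then t i ^ (q - 2) else 0) * μ i =
        ∑ i, (if y₀ < t i then μ i else 0) * t i ^ (q - 2) :=
      Finset.sum_congr rfl fun i _ => by split_ifs <;> ring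
    have := mul_le_mul_of_nonneg_left h1 (show (0 : ℝ) ≤ q by positivity)
    rw [h2] at this
    linarith
  have r1 : (1 : ℝ) ≤ 1 + (q : ℝ)⁻¹ := le_add_of_nonneg_right (by positivity)
  have r2 : (1 + (q : ℝ)⁻¹) ^ q ≤ 3 :=
    Real.one_add_inv_pow_le_exp.trans (Real.exp_one_lt_d9.le.trans (by norm_num))
  have r3 : (1 + (q : ℝ)⁻¹) ^ (q - 1) ≤ 3 := (pow_le_pow_right₀ r1 (Nat.sub_le _ _)).trans r2
  have y1 : 0 ≤ y₀ + (s₃ - y₀) / 12 := by linarith
  have b1 := Gp_le_of_dl hq2 t (ν := fun i => ν i / 3000) (fun i => div_nonneg (hν i) (by norm_num))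
    (y₂ := max (y₀ + (s₃ - y₀) / 12) (y₀ * (1 + (q : ℝ)⁻¹))) (le_max_of_le_left y1)
    (fun i => if y₀ < t i then ν i / (876 * t i) else 0) (fun i => t i * (1 + (q : ℝ)⁻¹))
    (fun i => by
      split_ifs with h1
      · exact div_nonneg (hν i) (by linarith)
      · exact le_rfl)
    fun y hy => lemA_dl hq' t hν h0 s2 a0 a1 (le_of_max_le_left hy) (le_of_max_le_right hy)
  have b2 : ∑ i, (if y₀ < t i then ν i / (876 * t i) else 0) *
      max (t i * (1 + (q : ℝ)⁻¹)) 0 ^ (q - 1) ≤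
      3 / 876 * ∑ i, (if y₀ < t i then t i ^ (q - 2) else 0) * ν i := by
    rw [Finset.mul_sum]
    refine Finset.sum_le_sum fun i _ => ?_
    split_ifs with h1
    · have h2 : 0 < t i := h0.trans_lt h1
      have h3 := hν i
      rw [max_eq_left (by positivity), mul_pow, show q - 1 = q - 2 + 1 by omega, pow_succ (t i),
        show q - 2 + 1 = q - 1 by omega]
      calc _ = (1 + (q : ℝ)⁻¹) ^ (q - 1) * (t i ^ (q - 2) * ν i / 876) := by field_simp
        _ ≤ 3 * (t i ^ (q - 2) * ν i / 876) := mul_le_mul_of_nonneg_right r3 (by positivity)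
        _ = _ := by ring
    · simp
  have b3 : (y₀ + (s₃ - y₀) / 12) ^ q ≤ 11 / 12 * y₀ ^ q + 1 / 12 * s₃ ^ q := by
    have := (convexOn_pow (𝕜 := ℝ) q).2 h0 s0 (show (0 : ℝ) ≤ 11 / 12 by norm_num)
      (show (0 : ℝ) ≤ 1 / 12 by norm_num) (by norm_num)
    simp only [smul_eq_mul] at this
    rwa [show y₀ + (s₃ - y₀) / 12 = 11 / 12 * y₀ + 1 / 12 * s₃ by ring]
  have b4 : (y₀ * (1 + (q : ℝ)⁻¹)) ^ q ≤ y₀ ^ q * 3 := by
    rw [mul_pow]
    exact mul_le_mul_of_nonneg_left r2 (by positivity)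
  have b5 : max (y₀ + (s₃ - y₀) / 12) (y₀ * (1 + (q : ℝ)⁻¹)) ^ q ≤
      (y₀ + (s₃ - y₀) / 12) ^ q + (y₀ * (1 + (q : ℝ)⁻¹)) ^ q := by
    rcases max_choice (y₀ + (s₃ - y₀) / 12) (y₀ * (1 + (q : ℝ)⁻¹)) with h1 | h1 <;> rw [h1]
    · exact le_add_of_nonneg_right (by positivity)
    · exact le_add_of_nonneg_left (by positivity)
  have b6 := mul_le_mul_of_nonneg_left b2 (show (0 : ℝ) ≤ q by positivity)
  rw [mul_left_comm] at b6
  linarith

end Vale.Agent.P078
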