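import Vale.Agent.P078b.VD

open scoped InnerProductSpace ComplexConjugate ComplexOrder
open Filter Topology

set_option linter.unusedSectionVars false
set_option linter.unusedVariables false

namespace Vale.Agent.P078

variable {H : Type*} [NormedAddCommGroup H] [InnerProductSpace ℂ H] [CompleteSpace H]
variable {M : VonNeumannAlgebra H} {A : StarSubalgebra ℂ (H →L[ℂ] H)}

theorem IsP.zero : IsP A 0 :=
  ⟨zero_mem _, IsStarProjection.zero _⟩

theorem IsP.one : IsP A 1 :=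
  ⟨one_mem _, IsStarProjection.one _⟩

theorem IsP.one_sub {e : H →L[ℂ] H} (he : IsP A e) : IsP A (1 - e) :=
  ⟨sub_mem (one_mem _) he.1, he.2.one_sub⟩

theorem IsP.mul (hA : IsMASA M A) {e f : H →L[ℂ] H} (he : IsP A e) (hf : IsP A f) :
    IsP A (e * f) :=
  ⟨mul_mem he.1 hf.1, he.2.mul hf.2 (hA.2.1 _ he.1 _ hf.1)⟩

theorem IsP.add {e f : H →L[ℂ] H} (he : IsP A e) (hf : IsP A f) (h : e * f = 0) :
    IsP A (e + f) :=
  ⟨add_mem he.1 hf.1, he.2.add hf.2 h⟩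

theorem IsPartition.isP {ι : Type} [Fintype ι] {p : ι → H →L[ℂ] H} (hp : IsPartition A p)
    (i : ι) : IsP A (p i) :=
  hp.1 i

theorem IsPartition.isP_sum {ι : Type} [Fintype ι] {p : ι → H →L[ℂ] H} (hp : IsPartition A p)
    (s : Finset ι) : IsP A (∑ i ∈ s, p i) := by
  classical
  induction s using Finset.induction_on with
  | empty => simpa using IsP.zero
  | insert i s hi ih =>
    rw [Finset.sum_insert hi]
    refine (hp.isP i).add ih ?_
    rw [Finset.mul_sum]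
    exact Finset.sum_eq_zero fun j hj => hp.2.1 i j fun h => hi (h ▸ hj)

theorem IsMASA.mem_of_commute_proj (hA : IsMASA M A) {y : H →L[ℂ] H} (hy : y ∈ M)
    (h : ∀ e, IsP A e → e * y = y * e) : y ∈ A :=
  hA.mem_of_commute hy (hA.commute_of_proj fun e heA he => h e ⟨heA, he⟩)

theorem WLim.memA (hA : IsMASA M A) {α : Type*} {l : Filter α} [l.NeBot] {y : α → H →L[ℂ] H}
    {z : H →L[ℂ] H} (h : WLim l y z) (hy : ∀ᶠ a in l, y a ∈ A) : z ∈ A :=
  hA.mem_of_commute (h.mem (hy.mono fun _ ha => hA.1 _ ha)) fun b hb =>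
    h.commute (hy.mono fun _ ha => hA.2.1 _ hb _ ha)

theorem WLim.nonneg {α : Type*} {l : Filter α} [l.NeBot] {y : α → H →L[ℂ] H}
    {z : H →L[ℂ] H} (h : WLim l y z) (hy : ∀ᶠ a in l, 0 ≤ y a) : 0 ≤ z :=
  (ContinuousLinearMap.nonneg_iff_isPositive z).2 (h.isPositive
    (hy.mono fun a ha => (ContinuousLinearMap.nonneg_iff_isPositive (y a)).1 ha))

theorem masa_cfc_mem {a : H →L[ℂ] H} (ha : a ∈ M) (f : ℝ → ℝ) : cfc f a ∈ M :=
  mem_of_commute_commutant M _ fun _ hy =>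
    (Commute.cfc_real (commute_of_mem_commutant hy ha).symm f).symm

theorem IsMASA.cfc_mem (hA : IsMASA M A) {a : H →L[ℂ] H} (ha : a ∈ A) (f : ℝ → ℝ) :
    cfc f a ∈ A :=
  hA.mem_of_commute (masa_cfc_mem (hA.1 a ha) f) fun b hb =>
    (Commute.cfc_real (hA.2.1 a ha b hb) f).symm

theorem cfc_mem_vN {a : H →L[ℂ] H} (ha : a ∈ M) (f : ℝ → ℝ) : cfc f a ∈ M :=
  masa_cfc_mem ha f

theorem IsMASA.mul_nonneg (hA : IsMASA M A) {a b : H →L[ℂ] H} (ha : a ∈ A) (hb : b ∈ A)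
    (ha0 : 0 ≤ a) (hb0 : 0 ≤ b) : 0 ≤ a * b :=
  Commute.mul_nonneg ha0 hb0 (hA.2.1 a ha b hb)

/-- Support projections. -/
theorem IsMASA.exists_supp (hA : IsMASA M A) {a : H →L[ℂ] H} (ha : a ∈ A) :
    ∃ f, IsP A f ∧ f * a = a ∧ ∀ T : H →L[ℂ] H, a * T = 0 → f * T = 0 := by
  set U : Submodule ℂ H := a.ker with hU
  have : CompleteSpace U := ContinuousLinearMap.completeSpace_ker _
  have hk : IsStarProjection U.starProjection := isStarProjection_starProjection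
  have hinv : ∀ y : H →L[ℂ] H, Commute y a → ∀ v ∈ U, y v ∈ U := by
    intro y hy v hv
    have hv' : a v = 0 := hv
    have := congrArg (fun T : H →L[ℂ] H => T v) hy.eq
    simp only [mul_apply_eq_comp, hv', map_zero] at this
    exact this.symm
  have h1 : a * U.starProjection = 0 := by
    ext v
    exact U.starProjection_apply_mem v
  have h2 : U.starProjection * a = 0 := by
    rw [← CStarRing.mul_star_self_eq_zero_iff, star_mul, hk.isSelfAdjoint.star_eq, mul_assoc,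
      ← mul_assoc a, hA.2.1 a ha _ (star_mem ha), mul_assoc, h1, mul_zero, mul_zero]
  refine ⟨1 - U.starProjection, IsP.one_sub ⟨?_, hk⟩, by rw [sub_mul, h2, one_mul, sub_zero],
    fun T hT => ?_⟩
  · refine hA.mem_of_commute (mem_of_commute_commutant M _ fun y hy => ?_) fun b hb => ?_
    · exact commute_starProjection_of_invt U y
        (hinv y (commute_of_mem_commutant hy (hA.1 a ha)))
        (hinv _ (commute_of_mem_commutant (star_mem hy) (hA.1 a ha)))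
    · exact commute_starProjection_of_invt U b (hinv b (hA.2.1 b hb a ha))
        (hinv _ (hA.2.1 _ (star_mem hb) a ha))
  · rw [sub_mul, one_mul, sub_eq_zero]
    ext v
    refine (Submodule.starProjection_eq_self_iff.mpr ?_).symm
    exact congrArg (fun S : H →L[ℂ] H => S v) hT

theorem masa_sa_sub {a : H →L[ℂ] H} (hsa : IsSelfAdjoint a) (s : ℝ) :
    IsSelfAdjoint (a - (s : ℂ) • (1 : H →L[ℂ] H)) := by
  refine hsa.sub ?_
  rw [IsSelfAdjoint, star_smul, star_one, Complex.star_def, Complex.conj_ofReal]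

theorem masa_cut (hA : IsMASA M A) {a : H →L[ℂ] H} (ha : a ∈ A) (hsa : IsSelfAdjoint a) (s : ℝ) :
    ∃ e, IsP A e ∧ e * (a - (s : ℂ) • (1 : H →L[ℂ] H)) = (a - (s : ℂ) • (1 : H →L[ℂ] H))⁺ ∧
      (1 - e) * (a - (s : ℂ) • (1 : H →L[ℂ] H)) = -(a - (s : ℂ) • (1 : H →L[ℂ] H))⁻ := by
  obtain ⟨e, heA, he, h1, h2⟩ :=
    hA.exists_sign_proj (sub_mem ha (A.smul_mem (one_mem A) (s : ℂ))) (masa_sa_sub hsa s)
  exact ⟨e, ⟨heA, he⟩, h1, h2⟩

/-- Spectral cut inside the MASA. -/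
theorem IsMASA.exists_cut (hA : IsMASA M A) {a : H →L[ℂ] H} (ha : a ∈ A) (hsa : IsSelfAdjoint a)
    (s : ℝ) : ∃ e, IsP A e ∧ (s : ℂ) • e ≤ a * e ∧ a * (1 - e) ≤ (s : ℂ) • (1 - e) := by
  obtain ⟨e, he, h1, h2⟩ := masa_cut hA ha hsa s
  have hc : e * a = a * e := hA.2.1 _ he.1 _ ha
  refine ⟨e, he, ?_, ?_⟩
  · rw [← sub_nonneg]
    have h3 := CFC.posPart_nonneg (a - (s : ℂ) • (1 : H →L[ℂ] H))
    rwa [← h1, mul_sub, mul_smul_comm, mul_one, hc] at h3
  · rw [← sub_nonneg]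
    have h3 := CFC.negPart_nonneg (a - (s : ℂ) • (1 : H →L[ℂ] H))
    rw [← neg_neg (a - (s : ℂ) • (1 : H →L[ℂ] H))⁻, ← h2, mul_sub, mul_smul_comm, mul_one,
      neg_sub, hA.2.1 _ he.one_sub.1 _ ha] at h3
    exact h3

/-- Inverse square root on a spectral cut. -/
theorem IsMASA.exists_inv_sqrt (hA : IsMASA M A) {a : H →L[ℂ] H} (ha : a ∈ A) (h0 : 0 ≤ a)
    {s : ℝ} (hs : 0 < s) : ∃ e k m, IsP A e ∧ k ∈ A ∧ m ∈ A ∧ IsSelfAdjoint k ∧ k * a * k = e ∧
      e * k = k ∧ m * k = e ∧ ‖(1 - e) * a * (1 - e)‖ ≤ s := by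
  obtain ⟨e, he, h1, h2⟩ := hA.exists_cut ha h0.isSelfAdjoint s
  have hee := he.2.isIdempotentElem.eq
  set a' : H →L[ℂ] H := a * e + (s : ℂ) • (1 - e) with ha'
  have ha'A : a' ∈ A := add_mem (mul_mem ha he.1) (A.smul_mem he.one_sub.1 _)
  have hle : algebraMap ℝ (H →L[ℂ] H) s ≤ a' := by
    rw [Algebra.algebraMap_eq_smul_one, ← Complex.coe_smul, ← sub_nonneg, ha']
    have : a * e + (s : ℂ) • (1 - e) - (s : ℂ) • (1 : H →L[ℂ] H) = a * e - (s : ℂ) • e := by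
      rw [smul_sub]
      abel
    rw [this]
    exact sub_nonneg.2 h1
  have hsa : IsSelfAdjoint a' := by
    refine IsSelfAdjoint.of_nonneg (le_trans ?_ hle)
    rw [Algebra.algebraMap_eq_smul_one]
    exact smul_nonneg hs.le zero_le_one
  have hsp : ∀ x ∈ spectrum ℝ a', 0 < x := fun x hx =>
    hs.trans_le ((algebraMap_le_iff_le_spectrum hsa).1 hle x hx)
  have hc1 : ContinuousOn (fun t : ℝ => √t) (spectrum ℝ a') := Real.continuous_sqrt.continuousOn
  have hc2 : ContinuousOn (fun t : ℝ => (√t)⁻¹) (spectrum ℝ a') :=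
    hc1.inv₀ fun x hx => (Real.sqrt_pos.2 (hsp x hx)).ne'
  set k : H →L[ℂ] H := cfc (fun t : ℝ => (√t)⁻¹) a' with hk
  set m : H →L[ℂ] H := cfc (fun t : ℝ => √t) a' with hm
  have hkA : k ∈ A := hA.cfc_mem ha'A _
  have hmA : m ∈ A := hA.cfc_mem ha'A _
  have hmk : m * k = 1 := by
    rw [hm, hk, ← cfc_mul _ _ a' hc1 hc2, ← cfc_one ℝ a' hsa]
    exact cfc_congr fun x hx => mul_inv_cancel₀ (Real.sqrt_pos.2 (hsp x hx)).ne'
  have hmm : m * m = a' := by
    rw [hm, ← cfc_mul _ _ a' hc1 hc1]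
    conv_rhs => rw [← cfc_id ℝ a' hsa]
    exact cfc_congr fun x hx => Real.mul_self_sqrt (hsp x hx).le
  have hke : k * e = e * k := hA.2.1 _ hkA _ he.1
  have hea : e * a * e = a' * e := by
    rw [ha', add_mul, smul_mul_assoc, he.2.one_sub_mul_self, smul_zero, add_zero,
      hA.2.1 _ he.1 _ ha]
  refine ⟨e, k * e, m, he, mul_mem hkA he.1, hmA, ?_, ?_, ?_, ?_, ?_⟩
  · rw [IsSelfAdjoint, star_mul, he.2.isSelfAdjoint.star_eq, hke, hk, IsSelfAdjoint.cfc.star_eq]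
  · calc k * e * a * (k * e) = k * (e * a * e) * k := by
          rw [hke]
          simp only [mul_assoc]
          rw [← mul_assoc k e, hke, mul_assoc]
      _ = (k * m) * e * (m * k) := by
          rw [hea, ← hmm, mul_assoc m m e, hA.2.1 _ hmA _ he.1]
          simp only [mul_assoc]
      _ = e := by rw [hA.2.1 _ hkA _ hmA, hmk, one_mul, mul_one]
  · rw [← mul_assoc, ← hke, mul_assoc, hee]
  · rw [← mul_assoc, hmk, one_mul]
  · have h3 : (1 - e) * a * (1 - e) = a * (1 - e) := by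
      rw [hA.2.1 _ he.one_sub.1 _ ha, mul_assoc, he.2.one_sub.isIdempotentElem.eq]
    rw [h3]
    refine (CStarAlgebra.norm_le_norm_of_nonneg_of_le
      (hA.mul_nonneg ha he.one_sub.1 h0 he.2.one_sub.nonneg) h2).trans ?_
    rw [norm_smul, Complex.norm_real, Real.norm_of_nonneg hs.le]
    exact mul_le_of_le_one_right hs.le he.2.one_sub.norm_le

theorem IsMASA.exists_inv_one_add (hA : IsMASA M A) {a : H →L[ℂ] H} (ha : a ∈ A) (h0 : 0 ≤ a) :
    ∃ b ∈ A, (1 + a) * b = 1 := by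
  have hsa := h0.isSelfAdjoint
  have hc1 : ContinuousOn (fun t : ℝ => 1 + t) (spectrum ℝ a) := by fun_prop
  have hne : ∀ x ∈ spectrum ℝ a, 1 + x ≠ 0 := fun x hx => by
    have := spectrum_nonneg_of_nonneg h0 hx
    linarith
  refine ⟨cfc (fun t : ℝ => (1 + t)⁻¹) a, hA.cfc_mem ha _, ?_⟩
  have h1 : cfc (fun t : ℝ => 1 + t) a = 1 + a := by
    rw [cfc_const_add 1 (fun t : ℝ => t) a continuousOn_id hsa, cfc_id' ℝ a hsa, map_one]
  have hc2 : ContinuousOn (fun t : ℝ => (1 + t)⁻¹) (spectrum ℝ a) := hc1.inv₀ hne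
  rw [← h1, ← cfc_mul _ _ a hc1 hc2, ← cfc_one ℝ a hsa]
  exact cfc_congr fun x hx => mul_inv_cancel₀ (hne x hx)

theorem masa_half (hA : IsMASA M A) (n : ℕ) : ∀ a ∈ A, 0 ≤ a → ∀ c : ℝ, ‖a‖ ≤ c →
    ∃ b ∈ Submodule.span ℂ {e | IsP A e}, ‖a - b‖ ≤ c / 2 ^ n := by
  induction n with
  | zero => exact fun a _ _ c hc => ⟨0, zero_mem _, by simpa using hc⟩
  | succ n ih =>
    intro a ha h0 c hc
    have hc0 : 0 ≤ c := (norm_nonneg _).trans hc
    obtain ⟨e, he, h1, h2⟩ := hA.exists_cut ha h0.isSelfAdjoint (c / 2)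
    have h3 : 0 ≤ a * (1 - e) := hA.mul_nonneg ha he.one_sub.1 h0 he.2.one_sub.nonneg
    have h4 : 0 ≤ (algebraMap ℝ (H →L[ℂ] H) c - a) * e := by
      refine hA.mul_nonneg (sub_mem ?_ ha) he.1 ?_ he.2.nonneg
      · rw [Algebra.algebraMap_eq_smul_one]
        exact rsmul_mem_sub _ (one_mem A)
      · exact sub_nonneg.2 ((CStarAlgebra.norm_le_iff_le_algebraMap a hc0 h0).1 hc)
    rw [Algebra.algebraMap_eq_smul_one, ← Complex.coe_smul, sub_mul, smul_mul_assoc,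
      one_mul] at h4
    have h5 : 0 ≤ a - ((c / 2 : ℝ) : ℂ) • e := by
      have : a - ((c / 2 : ℝ) : ℂ) • e = (a * e - ((c / 2 : ℝ) : ℂ) • e) + a * (1 - e) := by
        rw [mul_sub, mul_one]
        abel
      rw [this]
      exact add_nonneg (sub_nonneg.2 h1) h3
    have h6 : ‖a - ((c / 2 : ℝ) : ℂ) • e‖ ≤ c / 2 := by
      rw [CStarAlgebra.norm_le_iff_le_algebraMap _ (by positivity) h5,
        Algebra.algebraMap_eq_smul_one, ← Complex.coe_smul, ← sub_nonneg]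
      have : ((c / 2 : ℝ) : ℂ) • (1 : H →L[ℂ] H) - (a - ((c / 2 : ℝ) : ℂ) • e) =
          ((c : ℂ) • e - a * e) + (((c / 2 : ℝ) : ℂ) • (1 - e) - a * (1 - e)) := by
        rw [mul_sub, mul_one]
        push_cast
        module
      rw [this]
      exact add_nonneg h4 (sub_nonneg.2 h2)
    obtain ⟨b, hb, hab⟩ := ih _ (sub_mem ha (A.smul_mem he.1 _)) h5 _ h6
    refine ⟨((c / 2 : ℝ) : ℂ) • e + b,
      add_mem (Submodule.smul_mem _ _ (Submodule.subset_span he)) hb, ?_⟩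
    rw [← sub_sub, pow_succ', ← div_div]
    exact hab

/-- Elements of the MASA are uniform limits of simple functions. -/
theorem IsMASA.exists_simple (hA : IsMASA M A) {a : H →L[ℂ] H} (ha : a ∈ A) {ε : ℝ}
    (hε : 0 < ε) : ∃ b ∈ Submodule.span ℂ {e | IsP A e}, ‖a - b‖ ≤ ε := by
  set S := (Submodule.span ℂ {e | IsP A e}).topologicalClosure with hS
  have h1 : ∀ a ∈ A, 0 ≤ a → a ∈ S := by
    intro a ha h0
    refine Metric.mem_closure_iff.2 fun δ hδ => ?_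
    obtain ⟨n, hn⟩ := ((tendsto_const_nhds (x := ‖a‖)).div_atTop
      (tendsto_pow_atTop_atTop_of_one_lt (one_lt_two (α := ℝ)))).eventually
      (gt_mem_nhds hδ) |>.exists
    obtain ⟨b, hb, hab⟩ := masa_half hA n a ha h0 ‖a‖ le_rfl
    exact ⟨b, hb, by rw [dist_eq_norm]; exact hab.trans_lt hn⟩
  have h2 : ∀ a ∈ A, IsSelfAdjoint a → a ∈ S := by
    intro a ha hsa
    obtain ⟨e, he, h3, h4⟩ := hA.exists_cut ha hsa 0
    rw [Complex.ofReal_zero, zero_smul] at h3 h4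
    have h5 : a = a * e - -(a * (1 - e)) := by
      rw [mul_sub, mul_one]
      abel
    rw [h5]
    exact S.sub_mem (h1 _ (mul_mem ha he.1) h3)
      (h1 _ (neg_mem (mul_mem ha he.one_sub.1)) (neg_nonneg.2 h4))
  have h3 : a ∈ S := by
    have hr := h2 _ (add_mem ha (star_mem ha)) (IsSelfAdjoint.add_star_self a)
    have hi : Complex.I • (a - star a) ∈ S := by
      refine h2 _ (A.smul_mem (sub_mem ha (star_mem ha)) _) ?_
      rw [IsSelfAdjoint, star_smul, star_sub, star_star]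
      simp [smul_sub]
      abel
    have : a = (1 / 2 : ℂ) • ((a + star a) - Complex.I • (Complex.I • (a - star a))) := by
      rw [smul_smul, Complex.I_mul_I]
      module
    rw [this]
    exact S.smul_mem _ (S.sub_mem hr (S.smul_mem _ hi))
  obtain ⟨b, hb, hab⟩ := Metric.mem_closure_iff.1 h3 ε hε
  exact ⟨b, hb, by rw [← dist_eq_norm]; exact hab.le⟩

theorem IsMASA.ext_of_proj (hA : IsMASA M A) {ψ ψ' : (H →L[ℂ] H) →ₗ[ℂ] ℂ} {C : ℝ}
    (h1 : ∀ a ∈ A, ‖ψ a‖ ≤ C * ‖a‖) (h2 : ∀ a ∈ A, ‖ψ' a‖ ≤ C * ‖a‖)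
    (h : ∀ e, IsP A e → ψ e = ψ' e) : ∀ a ∈ A, ψ a = ψ' a := by
  intro a ha
  have h3 : ∀ b ∈ Submodule.span ℂ {e | IsP A e}, b ∈ A ∧ ψ b = ψ' b := by
    intro b hb
    induction hb using Submodule.span_induction with
    | mem x hx => exact ⟨hx.1, h x hx⟩
    | zero => exact ⟨zero_mem _, by simp⟩
    | add x y _ _ hx hy => exact ⟨add_mem hx.1 hy.1, by rw [map_add, map_add, hx.2, hy.2]⟩
    | smul z x _ hx => exact ⟨A.smul_mem hx.1 z, by rw [map_smul, map_smul, hx.2]⟩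
  rw [← sub_eq_zero, ← norm_le_zero_iff]
  refine le_of_forall_pos_le_add fun ε hε => ?_
  obtain ⟨b, hb, hab⟩ := hA.exists_simple ha (ε := ε / (2 * (|C| + 1))) (by positivity)
  obtain ⟨hbA, hψ⟩ := h3 b hb
  have h4 : ψ a - ψ' a = ψ (a - b) - ψ' (a - b) := by
    rw [map_sub, map_sub, hψ]
    ring
  have h5 : C * ‖a - b‖ ≤ ε / 2 := by
    calc C * ‖a - b‖ ≤ (|C| + 1) * (ε / (2 * (|C| + 1))) :=
          mul_le_mul (by linarith [le_abs_self C]) hab (norm_nonneg _) (by positivity)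
      _ = ε / 2 := by field_simp
  rw [h4]
  have := norm_sub_le (ψ (a - b)) (ψ' (a - b))
  linarith [h1 _ (sub_mem ha hbA), h2 _ (sub_mem ha hbA)]

/-- Common refinement of two partitions. -/
theorem exists_refine (hA : IsMASA M A) (P Q : Part A) : ∃ (R : Part A) (f : R.ι → P.ι)
    (g : R.ι → Q.ι), ∀ i, R.q i * P.q (f i) = R.q i ∧ R.q i * Q.q (g i) = R.q i := by
  have hc : ∀ i j, P.q i * Q.q j = Q.q j * P.q i := fun i j =>
    hA.2.1 _ (P.hq.mem i) _ (Q.hq.mem j)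
  refine ⟨⟨P.ι × Q.ι, fun k => P.q k.1 * Q.q k.2,
    fun k => (P.hq.isP k.1).mul hA (Q.hq.isP k.2), ?_, ?_⟩, Prod.fst, Prod.snd, fun k => ⟨?_, ?_⟩⟩
  · rintro ⟨i, j⟩ ⟨i', j'⟩ hne
    have h1 : P.q i * Q.q j * (P.q i' * Q.q j') = (P.q i * P.q i') * (Q.q j * Q.q j') := by
      rw [mul_assoc, ← mul_assoc (Q.q j), ← hc i' j]
      simp only [mul_assoc]
    simp only [h1]
    by_cases h : i = i'
    · rw [Q.hq.2.1 j j' fun h' => hne (by rw [h, h']), mul_zero]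
    · rw [P.hq.2.1 i i' h, zero_mul]
  · rw [Fintype.sum_prod_type]
    simp only [← Finset.mul_sum, Q.hq.2.2, mul_one, P.hq.2.2]
  · show P.q k.1 * Q.q k.2 * P.q k.1 = P.q k.1 * Q.q k.2
    rw [mul_assoc, ← hc, ← mul_assoc, P.hq.mul_self]
  · show P.q k.1 * Q.q k.2 * Q.q k.2 = P.q k.1 * Q.q k.2
    rw [mul_assoc, Q.hq.mul_self]

theorem norm_pinch_le_of_block {ι : Type} [Fintype ι] {p : ι → H →L[ℂ] H} (hp : IsPartition A p)
    {T : ι → H →L[ℂ] H} {C : ℝ} (hC : 0 ≤ C) (h : ∀ i, ‖p i * T i * p i‖ ≤ C) :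
    ‖∑ i, p i * T i * p i‖ ≤ C := by
  refine ContinuousLinearMap.opNorm_le_bound _ hC fun v => ?_
  apply abs_le_of_sq_le_sq' _ (by positivity) |>.2
  have h1 : (∑ i, p i * T i * p i) v = ∑ i, p i (T i (p i v)) := by
    rw [sum_apply]
    rfl
  rw [h1, hp.norm_sq_sum, mul_pow, ← hp.sum_norm_sq v, Finset.mul_sum]
  refine Finset.sum_le_sum fun i _ => ?_
  rw [← mul_pow]
  refine pow_le_pow_left₀ (norm_nonneg _) ?_ 2
  have h2 : p i (T i (p i v)) = (p i * T i * p i) (p i v) := by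
    simp only [mul_apply_eq_comp, proj_apply_apply (hp.proj i)]
  rw [h2]
  exact ((p i * T i * p i).le_opNorm _).trans (mul_le_mul_of_nonneg_right (h i) (norm_nonneg _))

end Vale.Agent.P078
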