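import Vale.Agent.P078b.ZfA

open Polynomial MeasureTheory
open scoped ComplexConjugate

set_option linter.unusedSectionVars false
set_option linter.unusedVariables false

namespace Vale.Agent.P078

variable {V : Type*} [DecidableEq V] {κ : Type*} [Fintype κ] [DecidableEq κ]

theorem det_one_sub_ne_zero {n : Type*} [Fintype n] [DecidableEq n] (Y : Matrix n n ℂ)
    (hY : Y.IsHermitian) (t : n → ℂ) (ht : ∀ i, t i = 0 ∨ (t i).im < 0) :
    (1 - Matrix.of fun i j => t i * Y i j).det ≠ 0 := by
  intro h0
  obtain ⟨v, hv, hv0⟩ := Matrix.exists_mulVec_eq_zero_iff.2 h0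
  have h1 : ∀ i, v i = t i * (Y.mulVec v) i := by
    intro i
    have := congrFun hv0 i
    rw [Matrix.sub_mulVec, Matrix.one_mulVec, Pi.sub_apply, Pi.zero_apply, sub_eq_zero] at this
    rw [this]
    simp only [Matrix.mulVec, dotProduct, Matrix.of_apply, Finset.mul_sum, mul_assoc]
  have h2 : (star v ⬝ᵥ Y.mulVec v).im = 0 := hY.im_star_dotProduct_mulVec_self v
  have h3 : (star v ⬝ᵥ Y.mulVec v).im = ∑ i, -(t i).im * Complex.normSq (Y.mulVec v i) := by
    rw [dotProduct, Complex.im_sum]
    refine Finset.sum_congr rfl fun i _ => ?_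
    rw [Pi.star_apply]
    nth_rewrite 1 [h1 i]
    simp only [Complex.star_def, map_mul, Complex.mul_im, Complex.mul_re, Complex.conj_re,
      Complex.conj_im, Complex.normSq_apply]
    ring
  rw [h3] at h2
  have h4 := (Finset.sum_eq_zero_iff_of_nonneg (fun i _ => by
    refine mul_nonneg ?_ (Complex.normSq_nonneg _)
    rcases ht i with h | h
    · simp [h]
    · linarith)).1 h2
  apply hv
  funext i
  rw [h1 i, Pi.zero_apply]
  rcases ht i with h | h
  · rw [h, zero_mul]
  · rcases mul_eq_zero.1 (h4 i (Finset.mem_univ i)) with h5 | h5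
    · linarith
    · rw [Complex.normSq_eq_zero.1 h5, mul_zero]

/-- If `P + τ Q` has no zero in the open lower half plane then `Im (Q / P) ≥ 0`. -/
theorem im_mul_conj_nonneg {P Q : ℂ} (hP : P ≠ 0) (h : ∀ τ : ℂ, τ.im < 0 → P + τ * Q ≠ 0) :
    0 ≤ (Q * conj P).im := by
  by_contra h0
  have h1 : (Q * conj P).im < 0 := not_le.1 h0
  have hQ : Q ≠ 0 := by
    rintro rfl
    simp at h1
  refine h (-P / Q) ?_ (by field_simp; ring)
  have h2 : 0 < Complex.normSq Q := Complex.normSq_pos.2 hQ
  have h3 : (-P / Q).im = (Q * conj P).im / Complex.normSq Q := by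
    rw [Complex.div_im]
    simp only [Complex.neg_im, Complex.neg_re, Complex.mul_im, Complex.conj_re, Complex.conj_im]
    ring
  rw [h3]
  exact div_neg_of_neg_of_pos h1 h2

theorem add_mul_ne_zero {P Q τ : ℂ} (hP : P ≠ 0) (h : 0 ≤ (Q * conj P).im) (hτ : τ.im < 0) :
    P + τ * Q ≠ 0 := by
  intro h0
  have h1 : P = -(τ * Q) := by linear_combination h0
  have hQ : Q ≠ 0 := by
    rintro rfl
    simp at h1
    exact hP h1
  have h2 : 0 < Complex.normSq Q := Complex.normSq_pos.2 hQ
  have h3 : (Q * conj P).im = τ.im * Complex.normSq Q := by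
    rw [h1]
    simp only [map_neg, map_mul, Complex.mul_im, Complex.mul_re, Complex.neg_im, Complex.neg_re,
      Complex.conj_re, Complex.conj_im, Complex.normSq_apply]
    ring
  rw [h3] at h
  nlinarith

theorem mul_add_sum_ne_zero {P z : ℂ} {Q : κ → ℂ} {b : κ → ℝ} (hP : P ≠ 0)
    (h : ∀ c, 0 ≤ (Q c * conj P).im) (hz : 0 < z.im) (hb : ∀ c, 0 ≤ b c) :
    z * P + ∑ c, (b c : ℂ) * Q c ≠ 0 := by
  intro h0
  have h1 : ((z * P + ∑ c, (b c : ℂ) * Q c) * conj P).im =
      z.im * Complex.normSq P + ∑ c, b c * (Q c * conj P).im := by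
    rw [add_mul, Complex.add_im, Finset.sum_mul, Complex.im_sum, mul_assoc, Complex.mul_conj]
    congr 1
    · simp
    · refine Finset.sum_congr rfl fun c _ => ?_
      rw [mul_assoc, Complex.im_ofReal_mul]
  rw [h0, zero_mul, Complex.zero_im] at h1
  have h2 : 0 < Complex.normSq P := Complex.normSq_pos.2 hP
  have h3 : 0 ≤ ∑ c, b c * (Q c * conj P).im :=
    Finset.sum_nonneg fun c _ => mul_nonneg (hb c) (h c)
  nlinarith [mul_pos hz h2]

theorem stab_split (X : V → V → ℂ) (ω : V → Finset κ → ℂ) {Λ : Finset V} {a : V} (ha : a ∈ Λ)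
    (t : κ → ℂ) (c₀ : κ) (τ : ℂ) :
    Zf X (Function.update ω a (pw1 (Function.update t c₀ τ))) Λ =
      Zf X (Function.update ω a (pw1 (Function.update t c₀ 0))) Λ +
        τ * Zf X (Function.update ω a (pwd t c₀)) Λ := by
  have h1 : pw1 (Function.update t c₀ τ) =
      fun S => 1 * pw1 (Function.update t c₀ 0) S + τ * pwd t c₀ S := by
    funext S
    rw [pw1_update, one_mul]
  rw [h1, Zf_update_add X ω ha, one_mul]

theorem stab_split0 (X : V → V → ℂ) (ω : V → Finset κ → ℂ) {L : Finset V} {a : V} (ha : a ∉ L)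
    (c₀ : κ) (τ : ℂ) :
    Zf X (Function.update ω a (pw1 (Function.update (fun _ => 0) c₀ τ))) (insert a L) =
      Zf X ω L + τ * Zf X (Function.update ω a (dlt {c₀})) (insert a L) := by
  rw [stab_split X ω (Finset.mem_insert_self a L), Function.update_eq_self c₀ (fun _ => (0 : ℂ)),
    pw1_zero, pwd_zero, Zf_insert_empty X ω ha]

theorem stab_herm {X : V → V → ℂ} (hX : Herm X) (Λ : Finset V) :
    (Matrix.of fun i j : Λ => X i j).IsHermitian := by
  ext i j
  simp only [Matrix.conjTranspose_apply, Matrix.of_apply, Complex.star_def]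
  exact (hX j i).symm

theorem stab_aux {X : V → V → ℂ} (hX : Herm X) (E : Finset V) :
    ∀ (ω : V → Finset κ → ℂ) (Λ : Finset V), AdmO ω Λ →
      (∀ j ∈ Λ, j ∉ E → ∃ t : κ → ℂ, (∀ c, t c = 0 ∨ (t c).im < 0) ∧ ω j = pw1 t) →
      Zf X ω Λ ≠ 0 := by
  induction E using Finset.induction_on with
  | empty =>
    intro ω Λ _ h
    have h' : ∀ j, ∃ t : κ → ℂ, (∀ c, t c = 0 ∨ (t c).im < 0) ∧ (j ∈ Λ → ω j = pw1 t) := by
      intro j
      by_cases hj : j ∈ Λ
      · obtain ⟨t, ht, hω⟩ := h j hj (Finset.notMem_empty j)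
        exact ⟨t, ht, fun _ => hω⟩
      · exact ⟨fun _ => 0, fun _ => Or.inl rfl, fun h => absurd h hj⟩
    choose t ht hω using h'
    rw [Zf_congr (X' := X) (ω' := fun j => pw1 (t j)) (fun _ _ _ _ => rfl) hω, Zf_pw1]
    refine Finset.prod_ne_zero_iff.2 fun c _ => ?_
    exact det_one_sub_ne_zero (Matrix.of fun i j : Λ => X i j) (stab_herm hX Λ)
      (fun i => t i c) fun i => ht i c
  | insert a E haE ih =>
    intro ω Λ hω h
    by_cases ha : a ∈ Λ
    swap
    · refine ih ω Λ hω fun j hj hjE => h j hj ?_
      rw [Finset.mem_insert, not_or]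
      exact ⟨fun h1 => ha (h1 ▸ hj), hjE⟩
    have hupd : ∀ t : κ → ℂ, (∀ c, t c = 0 ∨ (t c).im < 0) →
        Zf X (Function.update ω a (pw1 t)) Λ ≠ 0 := by
      intro t ht
      refine ih _ Λ ?_ ?_
      · intro j hj
        by_cases hja : j = a
        · subst hja
          exact Or.inl ⟨t, ht, Function.update_self _ _ _⟩
        · rw [Function.update_of_ne hja]
          exact hω j hj
      · intro j hj hjE
        by_cases hja : j = a
        · subst hja
          exact ⟨t, ht, Function.update_self _ _ _⟩
        · rw [Function.update_of_ne hja]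
          refine h j hj ?_
          rw [Finset.mem_insert, not_or]
          exact ⟨hja, hjE⟩
    rcases hω a ha with ⟨t, ht, hta⟩ | ⟨z, b, hz, hb, hzb⟩
    · have := hupd t ht
      rwa [← hta, Function.update_eq_self] at this
    · obtain ⟨L, haL, rfl⟩ : ∃ L, a ∉ L ∧ Λ = insert a L :=
        ⟨Λ.erase a, Finset.notMem_erase a Λ, (Finset.insert_erase ha).symm⟩
      have hP : Zf X ω L ≠ 0 := by
        have := hupd (fun _ => 0) fun _ => Or.inl rfl
        rwa [pw1_zero, Zf_insert_empty X ω haL] at this
      have h1 := Zf_insert_cw1 X ω haL z fun c => (b c : ℂ)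
      rw [← hzb, Function.update_eq_self] at h1
      rw [h1]
      refine mul_add_sum_ne_zero hP (fun c => im_mul_conj_nonneg hP fun τ hτ => ?_) hz hb
      rw [← stab_split0 X ω haL]
      refine hupd _ fun c' => ?_
      by_cases hc : c' = c
      · subst hc
        rw [Function.update_self]
        exact Or.inr hτ
      · rw [Function.update_of_ne hc]
        exact Or.inl rfl

/-- Stability in the open region. -/
theorem stabO {X : V → V → ℂ} (hX : Herm X) {ω : V → Finset κ → ℂ} {Λ : Finset V}
    (hω : AdmO ω Λ) : Zf X ω Λ ≠ 0 :=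
  stab_aux hX Λ ω Λ hω fun j hj hj' => absurd hj hj'

/-- The sign inequality in the closed region. -/
theorem stabC {X : V → V → ℂ} (hX : Herm X) {ω : V → Finset κ → ℂ} {L : Finset V} {a : V}
    (ha : a ∉ L) (hω : Adm ω L) {t : κ → ℂ} (ht : ∀ c, (t c).im ≤ 0) (c₀ : κ) :
    0 ≤ (Zf X (Function.update ω a (pwd t c₀)) (insert a L) *
      conj (Zf X (Function.update ω a (pw1 (Function.update t c₀ 0))) (insert a L))).im := by
  have hW : ∀ j, ∃ W : ℝ → Finset κ → ℂ, (∀ S, Continuous fun ε => W ε S) ∧ (j ∈ L → W 0 = ω j) ∧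
      ∀ ε, 0 < ε → ((∃ t : κ → ℂ, (∀ c, t c = 0 ∨ (t c).im < 0) ∧ W ε = pw1 t) ∨
        ∃ (z : ℂ) (b : κ → ℝ), 0 < z.im ∧ (∀ c, 0 ≤ b c) ∧ W ε = cw1 z fun c => (b c : ℂ)) := by
    intro j
    by_cases hj : j ∈ L
    · rcases hω j hj with ⟨s, hs, hsj⟩ | ⟨z, b, hz, hb, hzb⟩
      · refine ⟨fun ε => pw1 fun c => s c - ε * Complex.I, fun S => ?_, fun _ => ?_,
          fun ε hε => Or.inl ⟨_, fun c => Or.inr ?_, rfl⟩⟩
        · unfold pw1
          fun_prop
        · simp [hsj]
        · have := hs c
          simp
          linarith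
      · refine ⟨fun ε => cw1 (z + ε * Complex.I) fun c => (b c : ℂ), fun S => ?_, fun _ => ?_,
          fun ε hε => Or.inr ⟨_, b, ?_, hb, rfl⟩⟩
        · unfold cw1
          fun_prop
        · simp [hzb]
        · simp
          linarith
    · exact ⟨fun _ => pw1 fun _ => 0, fun S => continuous_const, fun h => absurd h hj,
        fun ε _ => Or.inl ⟨_, fun _ => Or.inl rfl, rfl⟩⟩
  choose W hWc hW0 hWp using hW
  let tε : ℝ → κ → ℂ := fun ε c => t c - ε * Complex.I
  have htc : ∀ c, Continuous fun ε => tε ε c := fun c => by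
    simp only [tε]
    fun_prop
  have ht0 : tε 0 = t := by
    funext c
    simp [tε]
  have hcont : ∀ g : ℝ → Finset κ → ℂ, (∀ S, Continuous fun ε => g ε S) →
      Continuous fun ε => Zf X (Function.update (fun j => W j ε) a (g ε)) (insert a L) := by
    intro g hg
    refine continuous_Zf (X := fun _ : ℝ => X)
      (ω := fun ε => Function.update (fun j => W j ε) a (g ε))
      (fun _ _ => continuous_const) (fun j S => ?_) _
    by_cases hja : j = a
    · subst hja
      simp only [Function.update_self]
      exact hg S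
    · simp only [Function.update_of_ne hja]
      exact hWc j S
  have h0 : ∀ g : Finset κ → ℂ, Zf X (Function.update (fun j => W j 0) a g) (insert a L) =
      Zf X (Function.update ω a g) (insert a L) := by
    intro g
    refine Zf_congr (fun _ _ _ _ => rfl) fun j hj => ?_
    by_cases hja : j = a
    · subst hja
      simp only [Function.update_self]
    · simp only [Function.update_of_ne hja]
      exact hW0 j ((Finset.mem_insert.1 hj).resolve_left hja)
  have hQ := hcont (fun ε => pwd (tε ε) c₀) fun S => by
    unfold pwd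
    split_ifs
    · exact continuous_finsetProd _ fun c _ => htc c
    · exact continuous_const
  have hP := hcont (fun ε => pw1 (Function.update (tε ε) c₀ 0)) fun S => by
    unfold pw1
    refine continuous_finsetProd _ fun c _ => ?_
    by_cases hc : c = c₀
    · subst hc
      simp only [Function.update_self]
      exact continuous_const
    · simp only [Function.update_of_ne hc]
      exact htc c
  have hF := (Complex.continuous_im.comp (hQ.mul (Complex.continuous_conj.comp hP))).tendsto 0
  have hlim := hF.mono_left (nhdsWithin_le_nhds (s := Set.Ioi (0 : ℝ)))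
  have hge := ge_of_tendsto hlim (b := 0) (by
    filter_upwards [self_mem_nhdsWithin] with ε hε
    have hne : ∀ τ : ℂ, τ = 0 ∨ τ.im < 0 → Zf X (Function.update (fun j => W j ε) a
        (pw1 (Function.update (tε ε) c₀ τ))) (insert a L) ≠ 0 := by
      intro τ hτ
      refine stabO hX fun j hj => ?_
      by_cases hja : j = a
      · subst hja
        refine Or.inl ⟨_, fun c => ?_, Function.update_self _ _ _⟩
        by_cases hc : c = c₀
        · subst hc
          rw [Function.update_self]
          exact hτ
        · rw [Function.update_of_ne hc]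
          refine Or.inr ?_
          have := ht c
          have hε' : (0 : ℝ) < ε := hε
          simp [tε]
          linarith
      · rw [Function.update_of_ne hja]
        exact hWp j ε hε
    refine im_mul_conj_nonneg (hne 0 (Or.inl rfl)) fun τ hτ => ?_
    rw [← stab_split X _ (Finset.mem_insert_self a L)]
    exact hne τ (Or.inr hτ))
  simp only [Function.comp_apply, Pi.mul_apply, ht0, h0] at hge
  exact hge

theorem stabC0 {X : V → V → ℂ} (hX : Herm X) {ω : V → Finset κ → ℂ} {L : Finset V} {a : V}
    (ha : a ∉ L) (hω : Adm ω L) (c₀ : κ) :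
    0 ≤ (Zf X (Function.update ω a (dlt {c₀})) (insert a L) * conj (Zf X ω L)).im := by
  have := stabC hX ha hω (t := fun _ => 0) (fun _ => le_rfl) c₀
  rwa [Function.update_eq_self c₀ (fun _ => (0 : ℂ)), pw1_zero, pwd_zero,
    Zf_insert_empty X ω ha] at this

/-- One free site in the open lower half plane over a nonvanishing closed configuration. -/
theorem stab_free {X : V → V → ℂ} (hX : Herm X) {ω : V → Finset κ → ℂ} {L : Finset V} {a : V}
    (ha : a ∉ L) (hω : Adm ω L) (h0 : Zf X ω L ≠ 0) {t : κ → ℂ}
    (ht : ∀ c, t c = 0 ∨ (t c).im < 0) :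
    Zf X (Function.update ω a (pw1 t)) (insert a L) ≠ 0 := by
  have key : ∀ D : Finset κ, Zf X (Function.update ω a
      (pw1 fun c => if c ∈ D then t c else 0)) (insert a L) ≠ 0 := by
    intro D
    induction D using Finset.induction_on with
    | empty =>
      simp only [Finset.notMem_empty, if_false]
      rwa [pw1_zero, Zf_insert_empty X ω ha]
    | insert c D hc ih =>
      have h1 : (fun c' => if c' ∈ insert c D then t c' else 0) =
          Function.update (fun c' => if c' ∈ D then t c' else 0) c (t c) := by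
        funext c'
        by_cases h : c' = c
        · subst h
          simp
        · simp [h]
      have h2 : Function.update (fun c' => if c' ∈ D then t c' else 0) c 0 =
          fun c' => if c' ∈ D then t c' else 0 := by
        funext c'
        by_cases h : c' = c
        · subst h
          simp [hc]
        · simp [h]
      rw [h1]
      rcases ht c with h | h
      · rw [h, h2]
        exact ih
      · rw [stab_split X ω (Finset.mem_insert_self a L)]
        refine add_mul_ne_zero (by rw [h2]; exact ih) (stabC hX ha hω (fun c' => ?_) c) h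
        split_ifs
        · rcases ht c' with h' | h'
          · simp [h']
          · exact h'.le
        · exact le_rfl
  simpa using key Finset.univ

end Vale.Agent.P078
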