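import Vale.Agent.P078b.ZfB
import Vale.Agent.P078b.Stab
import Vale.Agent.P078b.PF

open Polynomial MeasureTheory
open scoped ComplexConjugate

set_option linter.unusedSectionVars false
set_option linter.unusedVariables false

namespace Vale.Agent.P078

variable {V : Type*} [DecidableEq V] {κ : Type*} [Fintype κ] [DecidableEq κ]

theorem pol_real_rooted {X : V → V → ℂ} (hX : Herm X) {β : V → κ → ℝ} {Λ : Finset V}
    (hβ : ∀ j ∈ Λ, ∀ c, 0 ≤ β j c) :
    ∃ θ : Fin Λ.card → ℝ, pol X β Λ = ∏ i, (Polynomial.X - C (θ i)) := by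
  have := real_rooted (pol_monic X β Λ) fun z hz => by
    rw [aeval_pol hX]
    exact stabO hX fun j hj => Or.inr ⟨z, β j, hz, hβ j hj, rfl⟩
  rwa [natDegree_pol] at this

theorem struct_kap_single {X : V → V → ℂ} (β : V → κ → ℝ) {a : V} (h0 : X a a = 0) :
    kap X β {a} = 0 := by
  unfold kap Zf
  rw [Finset.sum_eq_zero, Complex.zero_re]
  intro O hO
  by_cases h : ∃ c, a ∈ O c
  · obtain ⟨c, hc⟩ := h
    have h1 : O c = {a} := Finset.eq_singleton_iff_unique_mem.2 ⟨hc, fun x hx =>
      Finset.mem_singleton.1 (Finset.mem_powerset.1 (Fintype.mem_piFinset.1 hO c) hx)⟩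
    rw [Finset.prod_eq_zero (Finset.mem_univ c) (by rw [h1, mu_singleton, h0, neg_zero]), mul_zero]
  · have h1 : (Finset.univ.filter fun c => a ∈ O c) = ∅ :=
      Finset.filter_eq_empty_iff.2 fun c _ hc => h ⟨c, hc⟩
    rw [Finset.prod_singleton, h1]
    simp [cw1, dlt, (Finset.singleton_ne_empty _).symm]

theorem struct_pol_insert (X : V → V → ℂ) (β : V → κ → ℝ) {L : Finset V} {a : V} (ha : a ∉ L)
    (b : κ → ℝ) : pol X (Function.update β a b) (insert a L) = Polynomial.X * pol X β L +
      ∑ S ∈ L.powerset, C (kap X (Function.update β a b) (insert a S)) *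
        Polynomial.X ^ (L.card - S.card) := by
  unfold pol
  rw [Finset.sum_powerset_insert ha, Finset.mul_sum, Finset.card_insert_of_notMem ha]
  congr 1
  · refine Finset.sum_congr rfl fun S hS => ?_
    have hS' := Finset.mem_powerset.1 hS
    have e : kap X (Function.update β a b) S = kap X β S := by
      unfold kap
      rw [Zf_congr (fun _ _ _ _ => rfl) fun j hj => by
        rw [Function.update_of_ne (ne_of_mem_of_not_mem (hS' hj) ha)]]
    rw [e, Nat.succ_sub (Finset.card_le_card hS'), pow_succ]; ring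
  · refine Finset.sum_congr rfl fun S hS => ?_
    rw [Finset.card_insert_of_notMem fun h => ha (Finset.mem_powerset.1 hS h),
      Nat.add_sub_add_right]

theorem struct_aeval_insert {X : V → V → ℂ} (hX : Herm X) (β : V → κ → ℝ) {L : Finset V} {a : V}
    (ha : a ∉ L) (b : κ → ℝ) (z : ℂ) :
    aeval z (pol X (Function.update β a b) (insert a L)) = z * aeval z (pol X β L) +
      ∑ c, (b c : ℂ) * Zf X (Function.update (fun j => cw1 z fun c => (β j c : ℂ)) a (dlt {c}))
        (insert a L) := by
  rw [aeval_pol hX, aeval_pol hX, ← Zf_insert_cw1 X _ ha]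
  congr 1
  funext j
  by_cases hj : j = a
  · subst hj; simp
  · simp [Function.update_of_ne hj]

/-- Adding a site produces an arrowhead polynomial, linearly in the weight of the site. -/
theorem pol_insert {X : V → V → ℂ} (hX : Herm X) {β : V → κ → ℝ} {L : Finset V} {a : V}
    (ha : a ∉ L) (h0 : X a a = 0) (hβ : ∀ j ∈ L, ∀ c, 0 ≤ β j c) :
    ∃ (t : Fin L.card → ℝ) (ν : κ → Fin L.card → ℝ), (∀ c i, 0 ≤ ν c i) ∧
      pol X β L = ∏ i, (Polynomial.X - C (t i)) ∧
      ∀ b : κ → ℝ, pol X (Function.update β a b) (insert a L) =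
        arrow t fun i => ∑ c, b c * ν c i := by
  obtain ⟨t, ht⟩ := pol_real_rooted hX hβ
  let A : κ → ℝ[X] := fun c => Polynomial.X * pol X β L -
    pol X (Function.update β a (Pi.single c 1)) (insert a L)
  have hA : ∀ c (z : ℂ), aeval z (A c) =
      -Zf X (Function.update (fun j => cw1 z fun c => (β j c : ℂ)) a (dlt {c})) (insert a L) :=
    fun c z => by
      simp only [A, map_sub, map_mul, aeval_X, struct_aeval_insert hX β ha]
      rw [Finset.sum_eq_single c (fun c' _ hc' => by simp [Pi.single_eq_of_ne hc']) (by simp)]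
      simp
  have hA' : ∀ c, A c = -∑ S ∈ L.powerset,
      C (kap X (Function.update β a (Pi.single c 1)) (insert a S)) *
        Polynomial.X ^ (L.card - S.card) := fun c => by
    simp only [A, struct_pol_insert X β ha]; ring
  have hν : ∀ c, ∃ ν : Fin L.card → ℝ, (∀ i, 0 ≤ ν i) ∧
      A c = ∑ i, C (ν i) * ∏ j ∈ Finset.univ.erase i, (Polynomial.X - C (t j)) := fun c => by
    obtain ⟨α, ν, h1, h2⟩ := partial_fractions Finset.univ t (A c) (by
      rw [hA', natDegree_neg, Finset.card_univ, Fintype.card_fin]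
      exact natDegree_sum_le_of_forall_le _ _ fun S _ =>
        (natDegree_C_mul_X_pow_le _ _).trans (Nat.sub_le _ _)) (fun z hz => by
      rw [← ht, hA, aeval_pol hX, neg_mul, Complex.neg_im, neg_nonpos]
      exact stabC0 hX ha (fun j hj => Or.inr ⟨z, β j, hz.le, hβ j hj, rfl⟩) c)
    refine ⟨ν, h1, ?_⟩
    have h3 : (A c).coeff L.card = 0 := by
      rw [hA', coeff_neg, finsetSum_coeff, neg_eq_zero]
      refine Finset.sum_eq_zero fun S hS => ?_
      rw [coeff_C_mul_X_pow]
      split_ifs with h
      · have h4 : S = ∅ := by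
          have := Finset.card_le_card (Finset.mem_powerset.1 hS)
          rw [← Finset.card_eq_zero]; omega
        rw [h4]
        exact struct_kap_single _ h0
      · rfl
    have h4 : α = 0 := by
      have h5 : (pol X β L).coeff L.card = 1 := by
        rw [← natDegree_pol X β L]; exact pol_monic X β L
      rw [h2, coeff_add, coeff_C_mul, ← ht, h5, mul_one, finsetSum_coeff,
        Finset.sum_eq_zero, add_zero] at h3
      · exact h3
      intro i _
      rw [coeff_C_mul, coeff_eq_zero_of_natDegree_lt, mul_zero]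
      rw [natDegree_prod_of_monic _ _ fun j _ => monic_X_sub_C _]
      have := i.pos
      simp only [natDegree_X_sub_C, Finset.sum_const, smul_eq_mul, mul_one,
        Finset.card_erase_of_mem (Finset.mem_univ i), Finset.card_univ, Fintype.card_fin]
      omega
    rw [h2, h4, C_0, zero_mul, zero_add]
  choose ν hν0 hν using hν
  refine ⟨t, ν, hν0, ht, fun b => ?_⟩
  have e : arrow t (fun i => ∑ c, b c * ν c i) =
      Polynomial.X * pol X β L - ∑ c, C (b c) * A c := by
    unfold arrow
    rw [← ht]
    congr 1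
    simp only [hν, Finset.mul_sum, map_sum, Finset.sum_mul, map_mul]
    rw [Finset.sum_comm]
    exact Finset.sum_congr rfl fun c _ => Finset.sum_congr rfl fun i _ => mul_assoc _ _ _
  rw [e]
  refine Polynomial.map_injective (algebraMap ℝ ℂ) (algebraMap ℝ ℂ).injective
    (Polynomial.funext fun z => ?_)
  rw [eval_map_algebraMap, eval_map_algebraMap, struct_aeval_insert hX β ha]
  simp only [map_sub, map_mul, aeval_X, map_sum, aeval_C, hA, mul_neg, Finset.sum_neg_distrib,
    sub_neg_eq_add, Complex.coe_algebraMap]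

end Vale.Agent.P078
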