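import Vale.Agent.P078b.Newt
import Vale.Agent.P078b.Struct

open Polynomial MeasureTheory
open scoped ComplexConjugate

set_option linter.unusedSectionVars false
set_option linter.unusedVariables false

namespace Vale.Agent.P078

variable {V : Type*} [DecidableEq V] {κ : Type*} [Fintype κ] [DecidableEq κ]

theorem mob_insert (F : Finset V → ℝ) {T : Finset V} {a : V} (ha : a ∉ T) :
    mob F (insert a T) = mob (fun S => F (insert a S)) T - mob F T := by
  unfold mob
  rw [Finset.sum_powerset_insert ha, ← Finset.sum_add_distrib, ← Finset.sum_sub_distrib]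
  refine Finset.sum_congr rfl fun S hS => ?_
  have hS' := Finset.mem_powerset.1 hS
  have hle := Finset.card_le_card hS'
  rw [Finset.card_insert_of_notMem ha, Finset.card_insert_of_notMem fun h => ha (hS' h),
    Nat.add_sub_add_right, Nat.sub_add_comm hle, pow_succ]
  ring

theorem sum_mob (F : Finset V → ℝ) (Λ : Finset V) : ∑ T ∈ Λ.powerset, mob F T = F Λ := by
  induction Λ using Finset.induction_on generalizing F with
  | empty => simp [mob]
  | insert a Λ ha ih =>
    rw [Finset.sum_powerset_insert ha, ← Finset.sum_add_distrib, ← ih fun S => F (insert a S)]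
    refine Finset.sum_congr rfl fun T hT => ?_
    rw [mob_insert F fun h => ha (Finset.mem_powerset.1 hT h)]
    ring

theorem mob_unique {F ψ : Finset V → ℝ} {T : Finset V}
    (h : ∀ S ⊆ T, F S = ∑ U ∈ S.powerset, ψ U) : mob F T = ψ T := by
  induction T using Finset.strongInduction with
  | H T ih =>
    have h1 := sum_mob F T
    rw [h T subset_rfl, ← Finset.add_sum_erase _ _ (Finset.mem_powerset_self T),
      ← Finset.add_sum_erase _ _ (Finset.mem_powerset_self T)] at h1
    have h2 : ∑ U ∈ T.powerset.erase T, mob F U = ∑ U ∈ T.powerset.erase T, ψ U := by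
      refine Finset.sum_congr rfl fun U hU => ?_
      rw [Finset.mem_erase, Finset.mem_powerset] at hU
      exact ih U (Finset.ssubset_iff_subset_ne.2 ⟨hU.2, hU.1⟩) fun S hS => h S (hS.trans hU.2)
    linarith

theorem mob_congr {F F' : Finset V → ℝ} {T : Finset V} (h : ∀ S ⊆ T, F S = F' S) :
    mob F T = mob F' T := by
  unfold mob
  exact Finset.sum_congr rfl fun S hS => by rw [h S (Finset.mem_powerset.1 hS)]

theorem mob_sum {α : Type*} (s : Finset α) (F : α → Finset V → ℝ) (T : Finset V) :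
    mob (fun S => ∑ i ∈ s, F i S) T = ∑ i ∈ s, mob (F i) T := by
  unfold mob
  simp only [Finset.mul_sum]
  exact Finset.sum_comm

theorem mob_eq_zero_of_erase {F : Finset V → ℝ} {T : Finset V} {c : V} (hc : c ∈ T)
    (h : ∀ S ⊆ T, F S = F (S.erase c)) : mob F T = 0 := by
  obtain ⟨U, hU, rfl⟩ : ∃ U, c ∉ U ∧ T = insert c U :=
    ⟨T.erase c, Finset.notMem_erase c T, (Finset.insert_erase hc).symm⟩
  rw [mob_insert F hU, sub_eq_zero]
  refine mob_congr fun S hS => ?_
  rw [h _ (Finset.insert_subset_insert c hS), Finset.erase_insert fun h' => hU (hS h')]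

theorem sum_mob_mem (F : Finset V → ℝ) {Λ : Finset V} {a : V} (ha : a ∈ Λ) :
    ∑ T ∈ Λ.powerset with a ∈ T, mob F T = F Λ - F (Λ.erase a) := by
  have h1 := Finset.sum_filter_add_sum_filter_not Λ.powerset (fun T => a ∈ T) (mob F)
  have h2 : Λ.powerset.filter (fun T => ¬a ∈ T) = (Λ.erase a).powerset := by
    ext T
    simp only [Finset.mem_filter, Finset.mem_powerset, Finset.subset_erase]
  rw [h2, sum_mob, sum_mob] at h1
  linarith

theorem Near.mono {X : V → V → ℂ} {n m : ℕ} {a b : V} (h : Near X n a b) (hnm : n ≤ m) :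
    Near X m a b := by
  induction h generalizing m with
  | refl n a => exact Near.refl m a
  | step h hbc ih =>
    obtain ⟨m', rfl⟩ : ∃ m', m = m' + 1 := ⟨m - 1, by omega⟩
    exact Near.step (ih (by omega)) hbc

theorem Near.trans {X : V → V → ℂ} {n m : ℕ} {a b c : V} (h : Near X n a b) (h' : Near X m b c) :
    Near X (n + m) a c := by
  induction h' with
  | refl m b => exact h.mono (Nat.le_add_right _ _)
  | step h' hbc ih => exact Near.step (ih h) hbc

theorem Near.symm {X : V → V → ℂ} (hX : Herm X) {n : ℕ} {a b : V} (h : Near X n a b) :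
    Near X n b a := by
  induction h with
  | refl n a => exact Near.refl n a
  | @step n a b c h hbc ih =>
    have h1 : X c b ≠ 0 := by
      rw [hX b c]
      simpa using hbc
    have h2 := (Near.step (Near.refl 0 c) h1).trans ih
    exact h2.mono (by omega)

theorem Near.of_imp {X Y : V → V → ℂ} (hXY : ∀ a b, Y a b ≠ 0 → X a b ≠ 0) {n : ℕ} {a b : V}
    (h : Near Y n a b) : Near X n a b := by
  induction h with
  | refl n a => exact Near.refl n a
  | step h hbc ih => exact Near.step ih (hXY _ _ hbc)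

theorem Small.mono {X : V → V → ℂ} {n m : ℕ} {T : Finset V} (h : Small X n T) (hnm : n ≤ m) :
    Small X m T :=
  fun a ha b hb => (h a ha b hb).mono hnm

theorem Nq_union {X : V → V → ℂ} (hX : Herm X) {β : V → κ → ℝ} {Λ₁ Λ₂ : Finset V}
    (hβ : ∀ j ∈ Λ₁ ∪ Λ₂, ∀ c, 0 ≤ β j c) (hd : Disjoint Λ₁ Λ₂)
    (h : ∀ a ∈ Λ₁, ∀ b ∈ Λ₂, X a b = 0) (q : ℕ) :
    Nq X β q (Λ₁ ∪ Λ₂) = Nq X β q Λ₁ + Nq X β q Λ₂ := by
  rcases Nat.eq_zero_or_pos q with rfl | hq
  · unfold Nq
    simp [newt]
  obtain ⟨θ₁, h₁⟩ := pol_real_rooted hX (β := β) (Λ := Λ₁)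
    fun j hj => hβ j (Finset.mem_union_left _ hj)
  obtain ⟨θ₂, h₂⟩ := pol_real_rooted hX (β := β) (Λ := Λ₂)
    fun j hj => hβ j (Finset.mem_union_right _ hj)
  have h₃ : pol X β (Λ₁ ∪ Λ₂) = ∏ j, (Polynomial.X - C (Sum.elim θ₁ θ₂ j)) := by
    rw [pol_union hX β hd h, h₁, h₂, Fintype.prod_sum_type]
    rfl
  rw [Nq_eq_of_pol h₁ hq, Nq_eq_of_pol h₂ hq, Nq_eq_of_pol h₃ hq, Fintype.sum_sum_type]
  rfl

theorem psi_congr (X : V → V → ℂ) {β β' : V → κ → ℝ} {T : Finset V} (hβ : ∀ j ∈ T, β j = β' j)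
    (q : ℕ) : psi X β q T = psi X β' q T :=
  mob_congr fun S hS => Nq_congr (fun _ _ _ _ => rfl) (fun j hj => hβ j (hS hj)) q

theorem psi_empty (X : V → V → ℂ) (β : V → κ → ℝ) (q : ℕ) : psi X β q ∅ = 0 := by
  unfold psi mob
  simp [Nq_empty]

theorem mob_mul_zero {F G : Finset V → ℝ} {m n : ℕ} (hF : ∀ T, m < T.card → mob F T = 0)
    (hG : ∀ T, n < T.card → mob G T = 0) (T : Finset V) (hT : m + n < T.card) :
    mob (fun S => F S * G S) T = 0 := by
  have h1 : ∀ S ⊆ T, F S * G S = ∑ p ∈ T.powerset ×ˢ T.powerset,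
      if p.1 ∪ p.2 ⊆ S then mob F p.1 * mob G p.2 else 0 := by
    intro S hS
    rw [← sum_mob F S, ← sum_mob G S, Finset.sum_mul_sum, ← Finset.sum_product',
      ← Finset.sum_filter]
    refine Finset.sum_congr ?_ fun _ _ => rfl
    ext p
    simp only [Finset.mem_product, Finset.mem_powerset, Finset.mem_filter,
      Finset.union_subset_iff]
    exact ⟨fun h => ⟨⟨h.1.trans hS, h.2.trans hS⟩, h⟩, fun h => h.2⟩
  rw [mob_congr h1, mob_sum]
  refine Finset.sum_eq_zero fun p _ => ?_
  by_cases h2 : (p.1 ∪ p.2).card < T.card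
  · obtain ⟨c, hc, hc'⟩ := Finset.exists_mem_notMem_of_card_lt_card h2
    refine mob_eq_zero_of_erase hc fun S _ => if_congr ?_ rfl rfl
    rw [Finset.subset_erase]
    exact ⟨fun h => ⟨h, hc'⟩, fun h => h.1⟩
  · have h3 := Finset.card_union_le p.1 p.2
    have h4 : mob F p.1 * mob G p.2 = 0 := by
      by_cases h5 : m < p.1.card
      · rw [hF _ h5, zero_mul]
      · rw [hG _ (by omega), mul_zero]
    rw [h4]
    simp [mob]

theorem mob_lin (c : ℝ) (F G : Finset V → ℝ) (T : Finset V) :
    mob (fun S => -(c * F S) - G S) T = -(c * mob F T) - mob G T := by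
  unfold mob
  rw [Finset.mul_sum, ← Finset.sum_neg_distrib, ← Finset.sum_sub_distrib]
  refine Finset.sum_congr rfl fun S _ => ?_
  ring

theorem mob_newt (a : Finset V → ℕ → ℝ)
    (ha : ∀ i T, i < T.card → mob (fun S => a S i) T = 0) (q : ℕ) :
    ∀ T : Finset V, q < T.card → mob (fun S => newt (a S) q) T = 0 := by
  induction q using Nat.strong_induction_on with
  | _ q ih =>
    intro T hT
    cases q with
    | zero => simp [newt, mob]
    | succ n =>
      simp only [newt]
      rw [mob_lin (n + 1 : ℝ) (fun S => a S (n + 1)), ha _ T hT, mob_sum, Finset.sum_eq_zero]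
      · simp
      · intro i _
        refine mob_mul_zero (ha (i + 1)) (ih (n - i) (by omega)) T ?_
        have := i.2
        omega

theorem psi_card (X : V → V → ℂ) (β : V → κ → ℝ) {q : ℕ} {T : Finset V} (h : q < T.card) :
    psi X β q T = 0 := by
  refine mob_newt (fun S i => ∑ U ∈ S.powersetCard i, kap X β U) (fun i U hU => ?_) q T h
  rw [mob_unique (ψ := fun U => if U.card = i then kap X β U else 0), if_neg hU.ne']
  intro S _
  rw [Finset.powersetCard_eq_filter, Finset.sum_filter]

theorem mob_near_stable {Y : V → V → ℂ} {n m : ℕ} {a c : V}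
    (hs : ∀ c, Near Y (n + 1) a c → Near Y n a c) (h : Near Y m a c) : Near Y n a c := by
  induction h with
  | refl m a => exact Near.refl n a
  | step h hbc ih => exact hs _ (Near.step (ih hs) hbc)

theorem mob_near_mem {Y : V → V → ℂ} {T : Finset V} (hY : ∀ u v, Y u v ≠ 0 → v ∈ T) {m : ℕ}
    {a c : V} (ha : a ∈ T) (h : Near Y m a c) : c ∈ T := by
  cases h with
  | refl => exact ha
  | step h hbc => exact hY _ _ hbc

/-- Locality of the cluster weights. -/
theorem psi_small {X : V → V → ℂ} (hX : Herm X) {β : V → κ → ℝ} {q : ℕ} {T : Finset V}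
    (hβ : ∀ j ∈ T, ∀ c, 0 ≤ β j c) (h : psi X β q T ≠ 0) : Small X q T := by
  classical
  intro a ha b hb
  have hq : T.card ≤ q := by
    by_contra h1
    exact h (psi_card X β (not_le.1 h1))
  let Y : V → V → ℂ := fun u v => if v ∈ T then X u v else 0
  have hYX : ∀ u v, Y u v ≠ 0 → X u v ≠ 0 := by
    intro u v h1 h2
    apply h1
    simp [Y, h2]
  have hYT : ∀ u v, Y u v ≠ 0 → v ∈ T := by
    intro u v h1
    by_contra h2
    apply h1
    simp [Y, h2]
  refine Near.of_imp hYX ?_
  have hreach : ∃ n, Near Y n a b := by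
    by_contra hnb
    apply h
    let T₁ : Finset V := T.filter fun c => ∃ n, Near Y n a c
    have haT : a ∈ T₁ := Finset.mem_filter.2 ⟨ha, 0, Near.refl 0 a⟩
    have hbT : b ∉ T₁ := fun h1 => hnb (Finset.mem_filter.1 h1).2
    have h1 : ∀ S ⊆ T, Nq X β q S = ∑ i : Bool,
        (if i = true then Nq X β q (S ∩ T₁) else Nq X β q (S \ T₁)) := by
      intro S hS
      rw [Fintype.sum_bool, if_pos rfl, if_neg (by simp), ← Nq_union hX]
      · rw [Finset.union_comm, Finset.sdiff_union_inter]
      · intro j hj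
        rw [Finset.union_comm, Finset.sdiff_union_inter] at hj
        exact hβ j (hS hj)
      · exact (Finset.disjoint_sdiff_inter S T₁).symm
      · intro u hu v hv
        by_contra h2
        obtain ⟨hvS, hvT⟩ := Finset.mem_sdiff.1 hv
        obtain ⟨_, n, hn⟩ := Finset.mem_filter.1 (Finset.mem_inter.1 hu).2
        refine hvT (Finset.mem_filter.2 ⟨hS hvS, n + 1, Near.step hn ?_⟩)
        simpa [Y, hS hvS] using h2
    unfold psi
    rw [mob_congr h1, mob_sum, Fintype.sum_bool]
    simp only [if_true, Bool.false_eq_true, if_false]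
    rw [mob_eq_zero_of_erase hb, mob_eq_zero_of_erase ha, add_zero]
    · intro S _
      congr 1
      ext x
      simp only [Finset.mem_sdiff, Finset.mem_erase]
      exact ⟨fun h2 => ⟨⟨fun h3 => h2.2 (h3 ▸ haT), h2.1⟩, h2.2⟩, fun h2 => ⟨h2.1.2, h2.2⟩⟩
    · intro S _
      congr 1
      ext x
      simp only [Finset.mem_inter, Finset.mem_erase]
      exact ⟨fun h2 => ⟨⟨fun h3 => hbT (h3 ▸ h2.2), h2.1⟩, h2.2⟩, fun h2 => ⟨h2.1.2, h2.2⟩⟩
  obtain ⟨m, hm⟩ := hreach
  have key : ∀ n, (∀ c, Near Y (n + 1) a c → Near Y n a c) ∨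
      n + 1 ≤ (T.filter fun c => Near Y n a c).card := by
    intro n
    induction n with
    | zero =>
      exact Or.inr (Finset.card_pos.2 ⟨a, Finset.mem_filter.2 ⟨ha, Near.refl 0 a⟩⟩)
    | succ n ih =>
      by_cases hs : ∀ c, Near Y (n + 1) a c → Near Y n a c
      · exact Or.inl fun c hc => (mob_near_stable hs hc).mono (Nat.le_succ n)
      · refine Or.inr ?_
        have h1 := ih.resolve_left hs
        push Not at hs
        obtain ⟨c, hc, hc'⟩ := hs
        refine Nat.succ_le_of_lt (h1.trans_lt (Finset.card_lt_card ?_))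
        refine Finset.ssubset_iff_subset_ne.2 ⟨fun x hx => ?_, fun h2 => hc' ?_⟩
        · rw [Finset.mem_filter] at hx ⊢
          exact ⟨hx.1, hx.2.mono (Nat.le_succ n)⟩
        · have h3 : c ∈ T.filter fun c => Near Y (n + 1) a c :=
            Finset.mem_filter.2 ⟨mob_near_mem hYT ha hc, hc⟩
          rw [← h2] at h3
          exact (Finset.mem_filter.1 h3).2
  rcases key q with h1 | h1
  · exact mob_near_stable h1 hm
  · have := Finset.card_filter_le T fun c => Near Y q a c
    omega

end Vale.Agent.P078
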