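import Vale.Agent.P078b.FD

/-! The abstract local model of a Cartan inclusion. -/

open scoped ComplexConjugate

namespace Vale.Agent.P078

universe u

/-- A kernel, orbit weights and a positive functional on a space `Ω`. -/
structure Base (Ω : Type u) [TopologicalSpace Ω] where
  X : Ω → Ω → ℂ
  w : Ω → ℝ
  I : (Ω → ℝ) → ℝ
  herm : Herm X
  diag : ∀ a, X a a = 0
  contr : Contr X
  w_pos : ∀ a, 0 < w a
  I_add : ∀ f g, Continuous f → Continuous g → I (fun a => f a + g a) = I f + I g
  I_smul : ∀ (c : ℝ) f, Continuous f → I (fun a => c * f a) = c * I f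
  I_nonneg : ∀ f, Continuous f → (∀ a, 0 ≤ f a) → 0 ≤ I f
  I_one : I (fun _ => 1) ≤ 1

/-- A finite family of local homeomorphisms covering the balls of radius `R`. -/
structure Chart {Ω : Type u} [TopologicalSpace Ω] [DecidableEq Ω] (B : Base Ω) (R : ℕ) where
  W : Type u
  [fin : Fintype W]
  [dec : DecidableEq W]
  t : W → Ω → Ω
  cont : ∀ u, Continuous (t u)
  e : W
  t_e : ∀ a, t e a = a
  coin : ∀ u u', IsOpen {a | t u a = t u' a}
  inv : W → W
  inv_inv : ∀ u, inv (inv u) = u
  t_inv : ∀ u a, t u a ≠ a → t (inv u) (t u a) = a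
  w_cont : ∀ u, Continuous fun a => B.w (t u a) / B.w a
  Y : W → W → Ω → ℂ
  θ : Ω → W → ℂ
  Y_cont : ∀ u u', Continuous (Y u u')
  θ_norm : ∀ a u, ‖θ a u‖ = 1
  gauge : ∀ a u u', B.X (t u a) (t u' a) = conj (θ a u) * θ a u' * Y u u' a
  transport : ∀ u (F : Ω → ℝ), Continuous F →
    B.I (fun a => if t u a = a then 0 else B.w (t u a) / B.w a * F (t u a)) =
      B.I fun b => if t (inv u) b = b then 0 else F b
  near : ∀ a b, Near B.X R a b → ∃ u, t u a = b

attribute [instance] Chart.fin Chart.dec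

variable {Ω : Type u} [TopologicalSpace Ω] [DecidableEq Ω] {B : Base Ω} {R : ℕ}
variable {κ : Type*} [Fintype κ] [DecidableEq κ]

/-- The neighbourhood of a point. -/
def Chart.N (ch : Chart B R) (a : Ω) : Finset Ω := Finset.univ.image fun u => ch.t u a

/-- Local continuity of a cluster function, normalised by the weight of the base point. -/
def Chart.LocC (ch : Chart B R) (Ψ : Finset Ω → Ω → ℝ) : Prop :=
  ∀ (U : Finset ch.W) (u : ch.W),
    Continuous fun a => Ψ (U.image fun v => ch.t v a) (ch.t u a) / B.w a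

/-- Local continuity of a scale invariant function. -/
def Chart.LocS (ch : Chart B R) (Θ : Finset Ω → Ω → ℝ) : Prop :=
  ∀ (U : Finset ch.W) (u : ch.W), Continuous fun a => Θ (U.image fun v => ch.t v a) (ch.t u a)

/-- The cluster function is supported on sets of diameter at most `R`. -/
def Base.Supp (B : Base Ω) (R : ℕ) (Ψ : Finset Ω → Ω → ℝ) : Prop :=
  ∀ T a, a ∈ T → Ψ T a ≠ 0 → Small B.X R T

/-- The local share at a point. -/
noncomputable def Chart.loc (ch : Chart B R) (Ψ : Finset Ω → Ω → ℝ) (a : Ω) : ℝ :=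
  (∑ T ∈ (ch.N a).powerset with a ∈ T, Ψ T a) / B.w a

/-- Site weights tilted by the orbit weights. -/
noncomputable def Base.tilt (B : Base Ω) (q : ℕ) (b : Ω → κ → ℝ) (a : Ω) (c : κ) : ℝ :=
  B.w a ^ (1 / q : ℝ) * b a c

/-- The cluster weights of a state. -/
noncomputable def Base.ps (B : Base Ω) (q : ℕ) (b : Ω → κ → ℝ) (T : Finset Ω) (_ : Ω) : ℝ :=
  psi B.X (B.tilt q b) q T

/-- The potential of a state. -/
noncomputable def Chart.pot (ch : Chart B R) (q : ℕ) (b : Ω → κ → ℝ) : ℝ :=
  B.I (ch.loc fun T a => B.ps q b T a * (1 / T.card))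

/-- The site weight of an undecided or decided site. -/
noncomputable def bet (h : ℕ) : Option (Fin (2 * h)) → Fin (2 * h) → ℝ
  | none => fun _ => 1 / (2 * h)
  | some σ => fun c => if σ = c then 1 / 3000 else 0

end Vale.Agent.P078
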