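import Vale.Agent.P078b.ZfB

open Polynomial MeasureTheory
open scoped ComplexConjugate

set_option linter.unusedSectionVars false
set_option linter.unusedVariables false

namespace Vale.Agent.P078

variable {V : Type*} [DecidableEq V] {κ : Type*} [Fintype κ] [DecidableEq κ]

theorem newt_congr {a a' : ℕ → ℝ} {q : ℕ} (h : ∀ i, 1 ≤ i → i ≤ q → a i = a' i) :
    newt a q = newt a' q := by
  induction q using Nat.strong_induction_on with
  | _ q ih =>
    rcases q with _ | n
    · rw [newt, newt]
    · rw [newt, newt, h (n + 1) (by omega) le_rfl]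
      congr 1
      refine Finset.sum_congr rfl fun i _ => ?_
      rw [h (i + 1) (by omega) (by omega), ih (n - i) (by omega) fun j h1 h2 => h j h1 (by omega)]

theorem newt_smul (a : ℕ → ℝ) (s : ℝ) (q : ℕ) :
    newt (fun i => s ^ i * a i) q = s ^ q * newt a q := by
  induction q using Nat.strong_induction_on with
  | _ q ih =>
    rcases q with _ | n
    · rw [newt, newt, mul_zero]
    · rw [newt, newt, mul_sub, Finset.mul_sum]
      congr 1
      · ring
      refine Finset.sum_congr rfl fun i _ => ?_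
      have e : s ^ (n + 1) = s ^ ((i : ℕ) + 1) * s ^ (n - i) := by
        rw [← pow_add]; congr 1; omega
      rw [ih (n - i) (by omega), e]; ring

theorem continuous_newt {P : Type*} [TopologicalSpace P] {a : P → ℕ → ℝ}
    (h : ∀ i, Continuous fun p => a p i) (q : ℕ) : Continuous fun p => newt (a p) q := by
  induction q using Nat.strong_induction_on with
  | _ q ih =>
    rcases q with _ | n
    · simp only [newt]; exact continuous_const
    · simp only [newt]
      exact (continuous_const.mul (h _)).neg.sub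
        (continuous_finsetSum _ fun i _ => (h _).mul (ih _ (by omega)))

/-- Newton's identities. -/
theorem newt_prod {ι : Type*} [Fintype ι] (θ : ι → ℝ) {a : ℕ → ℝ}
    (h : ∀ i, a i = if i ≤ Fintype.card ι then
      (∏ j, (X - C (θ j)) : ℝ[X]).coeff (Fintype.card ι - i) else 0) {q : ℕ} (hq : 1 ≤ q) :
    newt a q = ∑ j, θ j ^ q := by
  classical
  have ha : ∀ i, a i = (-1) ^ i * MvPolynomial.aeval θ (MvPolynomial.esymm ι ℝ i) := fun i => by
    have hc : Multiset.card (Finset.univ.val.map θ) = Fintype.card ι := by simp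
    rw [h, MvPolynomial.aeval_esymm_eq_multiset_esymm]
    split_ifs with hi
    · have := Multiset.prod_X_sub_C_coeff (Finset.univ.val.map θ) (k := Fintype.card ι - i)
        (by rw [hc]; omega)
      rw [hc, Multiset.map_map, show Fintype.card ι - (Fintype.card ι - i) = i by omega] at this
      exact this
    · rw [Multiset.esymm, Multiset.powersetCard_eq_empty _ (by rw [hc]; omega)]
      simp
  have hp : ∀ k, MvPolynomial.aeval θ (MvPolynomial.psum ι ℝ k) = ∑ j, θ j ^ k := fun k => by
    simp [MvPolynomial.psum]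
  induction q using Nat.strong_induction_on with
  | _ q ih =>
    obtain ⟨n, rfl⟩ : ∃ n, q = n + 1 := ⟨q - 1, by omega⟩
    have key := congrArg (MvPolynomial.aeval θ)
      (MvPolynomial.psum_eq_mul_esymm_sub_sum ι ℝ (n + 1) hq)
    rw [hp] at key
    rw [key, newt, map_sub, map_sum]
    congr 1
    · rw [ha]; simp only [map_mul, map_pow, map_neg, map_one, map_natCast]; push_cast; ring
    · refine Finset.sum_bij (fun i _ => ((i : ℕ) + 1, n - i)) (fun i _ => ?_)
        (fun i _ j _ hij => ?_) (fun b hb => ?_) (fun i _ => ?_)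
      · simp only [Finset.mem_filter, Finset.HasAntidiagonal.mem_antidiagonal, Set.mem_Ioo]; omega
      · exact Fin.ext (by simpa using congrArg Prod.fst hij)
      · simp only [Finset.mem_filter, Finset.HasAntidiagonal.mem_antidiagonal, Set.mem_Ioo] at hb
        exact ⟨⟨b.1 - 1, by omega⟩, Finset.mem_univ _, Prod.ext (by simp only; omega)
          (by simp only; omega)⟩
      · rw [ih (n - i) (by omega) (by omega), ha]
        simp only [map_mul, map_pow, map_neg, map_one, hp]

theorem Nq_eq_of_pol {X : V → V → ℂ} {β : V → κ → ℝ} {Λ : Finset V} {ι : Type*} [Fintype ι]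
    {θ : ι → ℝ} (h : pol X β Λ = ∏ j, (Polynomial.X - C (θ j))) {q : ℕ} (hq : 1 ≤ q) :
    Nq X β q Λ = ∑ j, θ j ^ q := by
  have hc : Fintype.card ι = Λ.card := by
    rw [← natDegree_pol X β Λ, h, natDegree_prod_of_monic _ _ fun j _ => monic_X_sub_C _]
    simp
  refine newt_prod θ (fun i => ?_) hq
  rw [hc, ← h]
  split_ifs with hi
  · exact (coeff_pol X β Λ hi).symm
  · rw [Finset.powersetCard_eq_empty.2 (by omega), Finset.sum_empty]

theorem Nq_empty (X : V → V → ℂ) (β : V → κ → ℝ) (q : ℕ) : Nq X β q ∅ = 0 := by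
  have h0 : ∀ q, newt (fun _ => 0) q = 0 := fun q => by
    rcases q with _ | n
    · rw [newt]
    · rw [newt]; simp
  rw [← h0 q]
  exact newt_congr fun i hi _ => by
    rw [Finset.powersetCard_eq_empty.2 (by simp only [Finset.card_empty]; omega), Finset.sum_empty]

theorem Nq_congr {X X' : V → V → ℂ} {β β' : V → κ → ℝ} {Λ : Finset V}
    (hX : ∀ a ∈ Λ, ∀ b ∈ Λ, X a b = X' a b) (hβ : ∀ j ∈ Λ, β j = β' j) (q : ℕ) :
    Nq X β q Λ = Nq X' β' q Λ := by
  refine newt_congr fun i _ _ => Finset.sum_congr rfl fun S hS => ?_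
  have hS' := (Finset.mem_powersetCard.1 hS).1
  unfold kap
  rw [Zf_congr (fun a ha b hb => hX a (hS' ha) b (hS' hb)) fun j hj => by rw [hβ j (hS' hj)]]

theorem Nq_image {V' : Type*} [DecidableEq V'] (X : V → V → ℂ) (β : V → κ → ℝ) (q : ℕ)
    {f : V' → V} {Λ : Finset V'} (hf : Set.InjOn f Λ) :
    Nq X β q (Λ.image f) = Nq (fun a b => X (f a) (f b)) (fun j => β (f j)) q Λ := by
  refine newt_congr fun i _ _ => (Finset.sum_bij (fun S _ => S.image f) (fun S hS => ?_)
    (fun S hS S' hS' h => ?_) (fun T hT => ?_) (fun S hS => ?_)).symm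
  · obtain ⟨h1, h2⟩ := Finset.mem_powersetCard.1 hS
    exact Finset.mem_powersetCard.2 ⟨Finset.image_subset_image h1,
      by rw [Finset.card_image_of_injOn (hf.mono h1), h2]⟩
  · have h1 := (Finset.mem_powersetCard.1 hS).1
    have h2 := (Finset.mem_powersetCard.1 hS').1
    rw [← Finset.coe_inj, ← hf.image_eq_image_iff h1 h2, ← Finset.coe_image, ← Finset.coe_image, h]
  · obtain ⟨h1, h2⟩ := Finset.mem_powersetCard.1 hT
    obtain ⟨S, hS, rfl⟩ := Finset.subset_image_iff.1 h1
    exact ⟨S, Finset.mem_powersetCard.2 ⟨hS,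
      by rw [← h2, Finset.card_image_of_injOn (hf.mono hS)]⟩, rfl⟩
  · unfold kap
    rw [Zf_image X _ (hf.mono (Finset.mem_powersetCard.1 hS).1)]

theorem Nq_gauge (X : V → V → ℂ) (β : V → κ → ℝ) (q : ℕ) (Λ : Finset V) {θ : V → ℂ}
    (hθ : ∀ a, ‖θ a‖ = 1) : Nq (fun a b => conj (θ a) * θ b * X a b) β q Λ = Nq X β q Λ := by
  refine newt_congr fun i _ _ => Finset.sum_congr rfl fun S _ => ?_
  unfold kap
  rw [Zf_gauge X _ S hθ]

theorem Nq_smul (X : V → V → ℂ) (β : V → κ → ℝ) (s : ℝ) (q : ℕ) (Λ : Finset V) :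
    Nq X (fun j c => s * β j c) q Λ = s ^ q * Nq X β q Λ := by
  unfold Nq
  rw [← newt_smul]
  refine newt_congr fun i _ _ => ?_
  rw [Finset.mul_sum]
  exact Finset.sum_congr rfl fun S hS => by rw [kap_smul, (Finset.mem_powersetCard.1 hS).2]

theorem continuous_Nq {P : Type*} [TopologicalSpace P] {X : P → V → V → ℂ}
    {β : P → V → κ → ℝ} (hX : ∀ a b, Continuous fun p => X p a b)
    (hβ : ∀ j c, Continuous fun p => β p j c) (q : ℕ) (Λ : Finset V) :
    Continuous fun p => Nq (X p) (β p) q Λ := by
  refine continuous_newt (fun i => continuous_finsetSum _ fun S _ => ?_) q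
  refine Complex.continuous_re.comp (continuous_Zf hX (fun j T => ?_) S)
  unfold cw1
  exact continuous_const.add (continuous_finsetSum _ fun c _ =>
    (Complex.continuous_ofReal.comp (hβ j c)).mul continuous_const)

end Vale.Agent.P078
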