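import Vale.Agent.P078b.CtxA
import Vale.Agent.P078b.Gel

open scoped InnerProductSpace ComplexConjugate ComplexOrder
open Filter Topology

set_option linter.unusedSectionVars false
set_option linter.unusedVariables false

namespace Vale.Agent.P078

variable {H : Type*} [NormedAddCommGroup H] [InnerProductSpace ℂ H] [CompleteSpace H]
variable {M : VonNeumannAlgebra H} {A : StarSubalgebra ℂ (H →L[ℂ] H)}

theorem pda_ev_re {hA : IsMASA M A} (χ : Spc hA) {a : H →L[ℂ] H} (ha : a ∈ A) (h0 : 0 ≤ a) :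
    χ.ev a = ((χ.ev a).re : ℂ) := by
  have h := χ.ev_nonneg ha h0
  apply Complex.ext
  · simp
  · simpa using (Complex.nonneg_iff.mp h).2.symm

theorem pda_lim_le (hA : IsMASA M A) {α : Type*} {l : Filter α} [l.NeBot]
    {y y' : α → H →L[ℂ] H} {z z' : H →L[ℂ] H} (h : WLim l y z) (h' : WLim l y' z')
    (hy : ∀ a, y a ∈ A) (hy' : ∀ a, y' a ∈ A)
    (hle : ∀ᶠ a in l, ∀ χ : Spc hA, χ.ev (y a) ≤ χ.ev (y' a)) (χ : Spc hA) :
    (χ.ev z).re ≤ (χ.ev z').re := by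
  have hz := h.memA hA (Eventually.of_forall hy)
  have hz' := h'.memA hA (Eventually.of_forall hy')
  have h1 : 0 ≤ z' - z := (h'.sub h).nonneg (hle.mono fun a ha =>
    sub_nonneg.mpr (le_of_ev hA (hy a) (hy' a) ha))
  exact (Complex.le_def.mp (χ.ev_mono hz hz' (sub_nonneg.mp h1))).1

theorem pda_proj_nonneg {e : H →L[ℂ] H} (he : IsP A e) : 0 ≤ e := he.2.nonneg

theorem pda_norm_proj {e : H →L[ℂ] H} (he : IsP A e) : ‖e‖ ≤ 1 := he.2.norm_le

namespace Ctx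

variable (c : Ctx M A) (x : H →L[ℂ] H)

/-- The operator valued measure. -/
noncomputable def pdaMu (g : H →L[ℂ] H) : H →L[ℂ] H := c.E (x * g * star x)

/-- Its Gelfand transform. -/
noncomputable def pdaU (g : H →L[ℂ] H) (χ : Spc c.hA) : ℝ := (χ.ev (c.pdaMu x g)).re

/-- The largest mass of a block. -/
noncomputable def pdaF (g : H →L[ℂ] H) (P : Part A) (χ : Spc c.hA) : ℝ :=
  ‖fun j => c.pdaU x (g * P.q j) χ‖

/-- The corresponding operator. -/
noncomputable def pdaL (g : H →L[ℂ] H) (P : Part A) : H →L[ℂ] H :=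
  lft c.hA fun χ => (c.pdaF x g P χ : ℂ)

variable {x}

theorem pda_mu_mem (hx : x ∈ M) {g : H →L[ℂ] H} (hg : g ∈ A) : c.pdaMu x g ∈ A :=
  c.E_mem (mul_mem (mul_mem hx (c.hA.1 g hg)) (star_mem hx))

theorem pda_mu_nonneg {g : H →L[ℂ] H} (hg : IsP A g) : 0 ≤ c.pdaMu x g :=
  c.E_nonneg (star_right_conjugate_nonneg (pda_proj_nonneg hg) x)

theorem pda_ev_mu (hx : x ∈ M) {g : H →L[ℂ] H} (hg : IsP A g) (χ : Spc c.hA) :
    χ.ev (c.pdaMu x g) = (c.pdaU x g χ : ℂ) :=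
  pda_ev_re χ (c.pda_mu_mem hx hg.1) (c.pda_mu_nonneg hg)

theorem pda_u_nonneg (hx : x ∈ M) {g : H →L[ℂ] H} (hg : IsP A g) (χ : Spc c.hA) :
    0 ≤ c.pdaU x g χ :=
  (Complex.nonneg_iff.mp (χ.ev_nonneg (c.pda_mu_mem hx hg.1) (c.pda_mu_nonneg hg))).1

theorem pda_u_add (hx : x ∈ M) {a b : H →L[ℂ] H} (ha : a ∈ A) (hb : b ∈ A) (χ : Spc c.hA) :
    c.pdaU x (a + b) χ = c.pdaU x a χ + c.pdaU x b χ := by
  have : c.pdaMu x (a + b) = c.pdaMu x a + c.pdaMu x b := by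
    simp only [pdaMu, mul_add, add_mul, map_add]
  simp only [pdaU, this, χ.ev_add (c.pda_mu_mem hx ha) (c.pda_mu_mem hx hb), Complex.add_re]

theorem pda_u_zero (χ : Spc c.hA) : c.pdaU x 0 χ = 0 := by
  simp [pdaU, pdaMu, χ.ev_zero]

theorem pda_u_mono (hx : x ∈ M) {e f : H →L[ℂ] H} (he : IsP A e) (hf : IsP A f)
    (h : f * e = e) (χ : Spc c.hA) : c.pdaU x e χ ≤ c.pdaU x f χ := by
  have h1 : f = e + f * (1 - e) := by rw [mul_sub, mul_one, h]; abel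
  have h2 := hf.mul c.hA he.one_sub
  have h3 := c.pda_u_add hx he.1 h2.1 χ
  rw [← h1] at h3
  linarith [c.pda_u_nonneg hx h2 χ]

theorem pda_u_le {g : H →L[ℂ] H} (hg : IsP A g) (χ : Spc c.hA) :
    c.pdaU x g χ ≤ ‖x‖ * ‖x‖ := by
  calc c.pdaU x g χ ≤ ‖χ.ev (c.pdaMu x g)‖ := Complex.re_le_norm _
    _ ≤ ‖c.pdaMu x g‖ := χ.norm_ev_le _
    _ ≤ ‖x * g * star x‖ := c.norm_E_le _
    _ ≤ ‖x‖ * ‖g‖ * ‖star x‖ := norm_mul₃_le
    _ ≤ ‖x‖ * 1 * ‖x‖ := by
        rw [norm_star]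
        gcongr
        exact pda_norm_proj hg
    _ = _ := by ring

theorem pda_u_cont (g : H →L[ℂ] H) : Continuous (c.pdaU x g) :=
  Complex.continuous_re.comp (continuous_ev c.hA _)

theorem pda_f_cont (g : H →L[ℂ] H) (P : Part A) : Continuous (c.pdaF x g P) :=
  continuous_norm.comp (continuous_pi fun j => c.pda_u_cont _)

theorem pda_f_nonneg (g : H →L[ℂ] H) (P : Part A) (χ : Spc c.hA) : 0 ≤ c.pdaF x g P χ :=
  norm_nonneg _

theorem pda_u_le_f (g : H →L[ℂ] H) (P : Part A) (j : P.ι) (χ : Spc c.hA) :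
    c.pdaU x (g * P.q j) χ ≤ c.pdaF x g P χ :=
  (le_abs_self _).trans (norm_le_pi_norm (fun j => c.pdaU x (g * P.q j) χ) j)

theorem pda_f_le (hx : x ∈ M) {g : H →L[ℂ] H} (hg : IsP A g) (P : Part A) (χ : Spc c.hA) {r : ℝ}
    (hr : 0 ≤ r) (h : ∀ j, c.pdaU x (g * P.q j) χ ≤ r) : c.pdaF x g P χ ≤ r := by
  refine (pi_norm_le_iff_of_nonneg hr).mpr fun j => ?_
  rw [Real.norm_eq_abs, abs_of_nonneg (c.pda_u_nonneg hx (hg.mul c.hA (P.hq.isP j)) χ)]
  exact h j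

theorem pda_f_le_u (hx : x ∈ M) {g : H →L[ℂ] H} (hg : IsP A g) (P : Part A) (χ : Spc c.hA) :
    c.pdaF x g P χ ≤ c.pdaU x g χ :=
  c.pda_f_le hx hg P χ (c.pda_u_nonneg hx hg χ) fun j =>
    c.pda_u_mono hx (hg.mul c.hA (P.hq.isP j)) hg
      (by rw [← mul_assoc, hg.2.isIdempotentElem.eq]) χ

theorem pda_f_refine (hx : x ∈ M) {g : H →L[ℂ] H} (hg : IsP A g) {P Q : Part A}
    (h : ∀ j, Adapted Q.q (P.q j)) (χ : Spc c.hA) : c.pdaF x g Q χ ≤ c.pdaF x g P χ := by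
  refine c.pda_f_le hx hg Q χ (c.pda_f_nonneg g P χ) fun i => ?_
  by_cases hi : ∃ j, P.q j * Q.q i = Q.q i
  · obtain ⟨j, hj⟩ := hi
    refine le_trans ?_ (c.pda_u_le_f g P j χ)
    refine c.pda_u_mono hx (hg.mul c.hA (Q.hq.isP i)) (hg.mul c.hA (P.hq.isP j)) ?_ χ
    calc g * P.q j * (g * Q.q i) = g * (P.q j * g) * Q.q i := by simp only [mul_assoc]
      _ = g * (g * P.q j) * Q.q i := by rw [c.hA.2.1 _ (P.hq.mem j) _ hg.1]
      _ = (g * g) * (P.q j * Q.q i) := by simp only [mul_assoc]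
      _ = _ := by rw [hg.2.isIdempotentElem.eq, hj]
  · have h0 : Q.q i = 0 := by
      have h1 : ∀ j, P.q j * Q.q i = 0 := fun j => (h j i).resolve_left fun h' => hi ⟨j, h'⟩
      calc Q.q i = (∑ j, P.q j) * Q.q i := by rw [P.hq.2.2, one_mul]
        _ = 0 := by rw [Finset.sum_mul]; exact Finset.sum_eq_zero fun j _ => h1 j
    rw [h0, mul_zero, c.pda_u_zero]
    exact c.pda_f_nonneg g P χ

theorem pda_f_max (hx : x ∈ M) {g g' : H →L[ℂ] H} (hg : IsP A g) (hg' : IsP A g')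
    (h0 : g * g' = 0) {P : Part A} (h : Adapted P.q g) (χ : Spc c.hA) :
    c.pdaF x (g + g') P χ ≤ max (c.pdaF x g P χ) (c.pdaF x g' P χ) := by
  refine c.pda_f_le hx (hg.add hg' h0) P χ (le_max_of_le_left (c.pda_f_nonneg g P χ)) fun i => ?_
  rcases h i with h1 | h1
  · have h2 : g' * P.q i = 0 := by
      rw [← h1, ← mul_assoc, c.hA.2.1 _ hg'.1 _ hg.1, h0, zero_mul]
    rw [add_mul, h2, add_zero]
    exact le_max_of_le_left (c.pda_u_le_f g P i χ)
  · rw [add_mul, h1, zero_add]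
    exact le_max_of_le_right (c.pda_u_le_f g' P i χ)

theorem pda_l_mem (g : H →L[ℂ] H) (P : Part A) : c.pdaL x g P ∈ A := lft_mem _

theorem pda_ev_l (g : H →L[ℂ] H) (P : Part A) (χ : Spc c.hA) :
    χ.ev (c.pdaL x g P) = (c.pdaF x g P χ : ℂ) :=
  ev_lft (Complex.continuous_ofReal.comp (c.pda_f_cont g P)) χ

theorem pda_l_nonneg (g : H →L[ℂ] H) (P : Part A) : 0 ≤ c.pdaL x g P :=
  nonneg_of_ev c.hA (c.pda_l_mem g P) fun χ => by
    rw [c.pda_ev_l]
    exact Complex.zero_le_real.mpr (c.pda_f_nonneg g P χ)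

theorem pda_l_norm (hx : x ∈ M) {g : H →L[ℂ] H} (hg : IsP A g) (P : Part A) :
    ‖c.pdaL x g P‖ ≤ ‖x‖ * ‖x‖ :=
  norm_le_of_ev c.hA (c.pda_l_mem g P) (by positivity) fun χ => by
    rw [c.pda_ev_l, Complex.norm_real, Real.norm_eq_abs, abs_of_nonneg (c.pda_f_nonneg g P χ)]
    exact (c.pda_f_le_u hx hg P χ).trans (c.pda_u_le hg χ)

theorem pda_exists_lim (hx : x ∈ M) : ∃ m : (H →L[ℂ] H) → (H →L[ℂ] H), ∀ g, IsP A g →
    WLim (netU A : Filter _) (fun T => c.pdaL x g (netPart c.hA T)) (m g) := by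
  have : ∀ g, ∃ z, IsP A g →
      WLim (netU A : Filter _) (fun T => c.pdaL x g (netPart c.hA T)) z := by
    intro g
    by_cases hg : IsP A g
    · obtain ⟨z, hz⟩ := exists_wlim (netU A) (fun T => c.pdaL x g (netPart c.hA T)) _
        (Eventually.of_forall fun T => c.pda_l_norm hx hg _)
      exact ⟨z, fun _ => hz⟩
    · exact ⟨0, fun h => absurd h hg⟩
  choose m hm using this
  exact ⟨m, hm⟩

section

variable {m : (H →L[ℂ] H) → (H →L[ℂ] H)}
  (hm : ∀ g, IsP A g → WLim (netU A : Filter _) (fun T => c.pdaL x g (netPart c.hA T)) (m g))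

include hm

theorem pda_m_mem {g : H →L[ℂ] H} (hg : IsP A g) : m g ∈ A :=
  (hm g hg).memA c.hA (Eventually.of_forall fun T => c.pda_l_mem g _)

theorem pda_m_nonneg {g : H →L[ℂ] H} (hg : IsP A g) : 0 ≤ m g :=
  (hm g hg).nonneg (Eventually.of_forall fun T => c.pda_l_nonneg g _)

theorem pda_ev_m {g : H →L[ℂ] H} (hg : IsP A g) (χ : Spc c.hA) :
    χ.ev (m g) = ((χ.ev (m g)).re : ℂ) :=
  pda_ev_re χ (c.pda_m_mem hm hg) (c.pda_m_nonneg hm hg)

theorem pda_m_le_f (hx : x ∈ M) {g : H →L[ℂ] H} (hg : IsP A g) (P : Part A) (χ : Spc c.hA) :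
    (χ.ev (m g)).re ≤ c.pdaF x g P χ := by
  have := pda_lim_le c.hA (hm g hg) (WLim.const (c.pdaL x g P)) (fun T => c.pda_l_mem g _)
    (fun T => c.pda_l_mem g _) ((eventually_refines c.hA P.hq).mono fun T hT χ => by
      rw [c.pda_ev_l, c.pda_ev_l]
      exact Complex.real_le_real.mpr (c.pda_f_refine hx hg hT χ)) χ
  rwa [c.pda_ev_l, Complex.ofReal_re] at this

theorem pda_m_le_u (hx : x ∈ M) {g : H →L[ℂ] H} (hg : IsP A g) (χ : Spc c.hA) :
    (χ.ev (m g)).re ≤ c.pdaU x g χ :=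
  (c.pda_m_le_f hm hx hg (netPart c.hA ∅) χ).trans (c.pda_f_le_u hx hg _ χ)

theorem pda_m_max (hx : x ∈ M) {g g' : H →L[ℂ] H} (hg : IsP A g) (hg' : IsP A g')
    (h0 : g * g' = 0) (χ : Spc c.hA) :
    (χ.ev (m (g + g'))).re ≤ max (χ.ev (m g)).re (χ.ev (m g')).re := by
  set b := lft c.hA fun χ => ((max (χ.ev (m g)).re (χ.ev (m g')).re : ℝ) : ℂ) with hb
  have hbA : b ∈ A := lft_mem _
  have hbe : ∀ χ : Spc c.hA, χ.ev b = ((max (χ.ev (m g)).re (χ.ev (m g')).re : ℝ) : ℂ) :=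
    ev_lft (Complex.continuous_ofReal.comp
      ((Complex.continuous_re.comp (continuous_ev c.hA _)).max
        (Complex.continuous_re.comp (continuous_ev c.hA _))))
  have hl := ((WLim.const b).add ((hm g hg).sub (WLim.const (m g)))).add
    ((hm g' hg').sub (WLim.const (m g')))
  have h1 := c.pda_m_mem hm hg
  have h2 := c.pda_m_mem hm hg'
  have := pda_lim_le c.hA (hm _ (hg.add hg' h0)) hl (fun T => c.pda_l_mem _ _)
    (fun T => add_mem (add_mem hbA (sub_mem (c.pda_l_mem _ _) h1)) (sub_mem (c.pda_l_mem _ _) h2))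
    ((eventually_adapted c.hA hg.1 hg.2).mono fun T hT χ => by
      rw [χ.ev_add (add_mem hbA (sub_mem (c.pda_l_mem _ _) h1)) (sub_mem (c.pda_l_mem _ _) h2),
        χ.ev_add hbA (sub_mem (c.pda_l_mem _ _) h1), χ.ev_sub (c.pda_l_mem _ _) h1,
        χ.ev_sub (c.pda_l_mem _ _) h2, hbe, c.pda_ev_l, c.pda_ev_l, c.pda_ev_l]
      have e1 := c.pda_ev_m hm hg χ
      have e2 := c.pda_ev_m hm hg' χ
      have i1 := c.pda_m_le_f hm hx hg (netPart c.hA T) χ
      have i2 := c.pda_m_le_f hm hx hg' (netPart c.hA T) χ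
      have i3 := c.pda_f_max hx hg hg' h0 hT χ
      generalize (χ.ev (m g)).re = s at *
      generalize (χ.ev (m g')).re = t at *
      rw [e1, e2, ← Complex.ofReal_sub, ← Complex.ofReal_sub, ← Complex.ofReal_add,
        ← Complex.ofReal_add, Complex.real_le_real]
      refine i3.trans (max_le ?_ ?_)
      · linarith [le_max_left s t]
      · linarith [le_max_right s t]) χ
  rwa [sub_self, sub_self, add_zero, add_zero, hbe, Complex.ofReal_re] at this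

theorem pda_m_fin (hx : x ∈ M) (P : Part A) (χ : Spc c.hA) {θ : ℝ} (hθ : 0 < θ)
    (s : Finset P.ι) (h : θ < (χ.ev (m (∑ j ∈ s, P.q j))).re) :
    ∃ j, θ < (χ.ev (m (P.q j))).re := by
  classical
  induction s using Finset.induction_on with
  | empty =>
    rw [Finset.sum_empty] at h
    have := c.pda_m_le_u hm hx IsP.zero χ
    rw [c.pda_u_zero] at this
    linarith
  | insert j s hj ih =>
    rw [Finset.sum_insert hj] at h
    have h0 : P.q j * ∑ i ∈ s, P.q i = 0 := by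
      rw [Finset.mul_sum]
      exact Finset.sum_eq_zero fun i hi => P.hq.2.1 j i fun e => hj (e ▸ hi)
    rcases lt_max_iff.mp (h.trans_le
      (c.pda_m_max hm hx (P.hq.isP j) (P.hq.isP_sum s) h0 χ)) with h1 | h1
    · exact ⟨j, h1⟩
    · exact ih h1

theorem pda_thin (hx : x ∈ M) (h0 : m 1 = 0) : c.Thin x := by
  intro θ δ hθ hδ
  have hl := hm 1 IsP.one
  rw [h0] at hl
  have ht := c.φ_tendsto (C := ‖x‖ * ‖x‖) (zero_mem M) (by rw [norm_zero]; positivity)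
    (Eventually.of_forall fun T => ⟨c.hA.1 _ (c.pda_l_mem 1 _), c.pda_l_norm hx IsP.one _⟩) hl
    (one_mem M) (one_mem M)
  simp only [one_mul, mul_one, map_zero] at ht
  have ht' := (Complex.continuous_re.tendsto 0).comp ht
  rw [Complex.zero_re] at ht'
  obtain ⟨T, hT⟩ := (ht'.eventually (gt_mem_nhds (mul_pos hθ hδ))).exists
  set P := netPart c.hA T with hP
  set a := c.pdaL x 1 P with ha
  have haA : a ∈ A := c.pda_l_mem 1 P
  have ha0 : 0 ≤ a := c.pda_l_nonneg 1 P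
  have hT' : (c.φ a).re < θ * δ := hT
  obtain ⟨e, he, h1, h2⟩ := c.hA.exists_cut haA (IsSelfAdjoint.of_nonneg ha0) θ
  refine ⟨P, 1 - e, he.one_sub, ?_, fun j => ?_⟩
  · rw [sub_sub_cancel]
    have h3 : a * e ≤ a := by
      have := c.hA.mul_nonneg haA he.one_sub.1 ha0 (pda_proj_nonneg he.one_sub)
      rwa [mul_sub, mul_one, sub_nonneg] at this
    have h4 := c.φ_re_mono (h1.trans h3)
    rw [map_smul, smul_eq_mul, Complex.re_ofReal_mul] at h4
    exact lt_of_mul_lt_mul_left (h4.trans_lt hT') hθ.le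
  · have hq := P.hq.isP j
    have hmu := c.pda_mu_mem hx hq.1
    refine norm_le_of_ev c.hA (mul_mem hmu he.one_sub.1) hθ.le fun χ => ?_
    change ‖χ.ev (c.pdaMu x (P.q j) * (1 - e))‖ ≤ θ
    rw [χ.ev_mul hmu he.one_sub.1]
    rcases χ.ev_proj he.one_sub with h3 | h3
    · rw [h3, mul_zero, norm_zero]
      exact hθ.le
    · have h4 := χ.ev_mono (mul_mem haA he.one_sub.1) (SMulMemClass.smul_mem _ he.one_sub.1) h2
      rw [χ.ev_mul haA he.one_sub.1, χ.ev_smul _ he.one_sub.1, h3, mul_one, mul_one, ha,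
        c.pda_ev_l, Complex.real_le_real] at h4
      have h5 := c.pda_u_le_f (x := x) 1 P j χ
      rw [one_mul] at h5
      rw [h3, mul_one, c.pda_ev_mu hx hq, Complex.norm_real, Real.norm_eq_abs,
        abs_of_nonneg (c.pda_u_nonneg hx hq χ)]
      exact h5.trans h4

theorem pda_point (hx : x ∈ M) (h0 : m 1 ≠ 0) : ∃ (θ : ℝ) (g₀ : H →L[ℂ] H) (χ₀ : Spc c.hA),
    0 < θ ∧ IsP A g₀ ∧ θ < (χ₀.ev (m g₀)).re ∧ c.pdaU x g₀ χ₀ < 2 * θ := by
  have hs : 0 < ‖m 1‖ := norm_pos_iff.mpr h0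
  have h1A := c.pda_m_mem hm IsP.one
  set θ := 2 * ‖m 1‖ / 3 with hθ
  have hθ0 : 0 < θ := by positivity
  have hU : ∃ χ : Spc c.hA, θ < (χ.ev (m 1)).re := by
    by_contra hc
    push Not at hc
    have := norm_le_of_ev c.hA h1A hθ0.le fun χ => by
      rw [c.pda_ev_m hm IsP.one χ, Complex.norm_real, Real.norm_eq_abs, abs_of_nonneg
        (Complex.nonneg_iff.mp (χ.ev_nonneg h1A (c.pda_m_nonneg hm IsP.one))).1]
      exact hc χ
    linarith
  have hP : ∃ (P : Part A) (χ : Spc c.hA), θ < (χ.ev (m 1)).re ∧ c.pdaF x 1 P χ < 2 * θ := by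
    by_contra hc
    push Not at hc
    obtain ⟨χ₁, hχ₁⟩ := hU
    obtain ⟨p, hp, hp1, hp2⟩ := exists_proj_nhds (U := {χ : Spc c.hA | θ < (χ.ev (m 1)).re})
      (isOpen_lt continuous_const (Complex.continuous_re.comp (continuous_ev c.hA _))) hχ₁
    have h2 := pda_lim_le c.hA (WLim.const (((2 * θ : ℝ) : ℂ) • p)) ((hm 1 IsP.one).mul_right p)
      (fun T => SMulMemClass.smul_mem _ hp.1) (fun T => mul_mem (c.pda_l_mem _ _) hp.1)
      (Eventually.of_forall fun T χ => by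
        rw [χ.ev_smul _ hp.1, χ.ev_mul (c.pda_l_mem _ _) hp.1, c.pda_ev_l]
        rcases χ.ev_proj hp with h3 | h3
        · rw [h3, mul_zero, mul_zero]
        · rw [h3, mul_one, mul_one, Complex.real_le_real]
          exact hc _ χ (hp2 χ h3)) χ₁
    rw [χ₁.ev_smul _ hp.1, χ₁.ev_mul h1A hp.1, hp1, mul_one, mul_one, Complex.ofReal_re] at h2
    have h3 := (Complex.re_le_norm _).trans (χ₁.norm_ev_le (m 1))
    linarith
  obtain ⟨P, χ₀, h1, h2⟩ := hP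
  rw [← P.hq.2.2] at h1
  obtain ⟨j, hj⟩ := c.pda_m_fin hm hx P χ₀ hθ0 _ h1
  refine ⟨θ, P.q j, χ₀, hθ0, P.hq.isP j, hj, ?_⟩
  have h5 := c.pda_u_le_f (x := x) 1 P j χ₀
  rw [one_mul] at h5
  exact h5.trans_lt h2

theorem pda_split (hx : x ∈ M) {g₀ g g' : H →L[ℂ] H} (hg₀ : IsP A g₀) (hg : IsP A g)
    (hg' : IsP A g') (h0 : g * g' = 0) {χ : Spc c.hA} {θ : ℝ}
    (h : θ < (χ.ev (m ((g + g') * g₀))).re) :
    θ < (χ.ev (m (g * g₀))).re ∨ θ < (χ.ev (m (g' * g₀))).re := by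
  have h1 : g * g₀ * (g' * g₀) = 0 := by
    calc g * g₀ * (g' * g₀) = g * (g₀ * g') * g₀ := by simp only [mul_assoc]
      _ = g * (g' * g₀) * g₀ := by rw [c.hA.2.1 _ hg₀.1 _ hg'.1]
      _ = g * g' * g₀ * g₀ := by simp only [mul_assoc]
      _ = 0 := by rw [h0, zero_mul, zero_mul]
  rw [add_mul] at h
  exact lt_max_iff.mp (h.trans_le
    (c.pda_m_max hm hx (hg.mul c.hA hg₀) (hg'.mul c.hA hg₀) h1 χ))

theorem pda_key (hx : x ∈ M) {g₀ g : H →L[ℂ] H} (hg₀ : IsP A g₀) (hg : IsP A g) {χ : Spc c.hA}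
    {θ : ℝ} (h1 : θ < (χ.ev (m g₀)).re) (h2 : c.pdaU x ((1 - g) * g₀) χ ≤ θ) :
    θ < (χ.ev (m (g * g₀))).re := by
  have h3 : θ < (χ.ev (m ((g + (1 - g)) * g₀))).re := by
    rwa [add_sub_cancel, one_mul]
  rcases c.pda_split hm hx hg₀ hg hg.one_sub hg.2.mul_one_sub_self h3 with h | h
  · exact h
  · exact absurd (h.trans_le (c.pda_m_le_u hm hx (hg.one_sub.mul c.hA hg₀) χ)) (not_lt.mpr h2)

end

theorem pda_u_compl (hx : x ∈ M) {g₀ g : H →L[ℂ] H} (hg₀ : IsP A g₀) (hg : IsP A g)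
    (χ : Spc c.hA) : c.pdaU x (g * g₀) χ + c.pdaU x ((1 - g) * g₀) χ = c.pdaU x g₀ χ := by
  rw [← c.pda_u_add hx (hg.mul c.hA hg₀).1 (hg.one_sub.mul c.hA hg₀).1, ← add_mul, add_sub_cancel,
    one_mul]

end Ctx

/-- Either the measure of `x` is thin or it carries a Boolean homomorphism. -/
theorem Ctx.atom_of_not_thin (c : Ctx M A) {x : H →L[ℂ] H} (hx : x ∈ M) (h : ¬c.Thin x) :
    ∃ α g₀ θ, c.AtomD x α g₀ θ := by
  obtain ⟨m, hm⟩ := c.pda_exists_lim hx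
  obtain ⟨θ, g₀, χ₀, hθ, hg₀, h1, h2⟩ := c.pda_point hm hx fun h0 => h (c.pda_thin hm hx h0)
  obtain ⟨p, hp, hp1, hp2⟩ := exists_proj_nhds
    (U := {χ : Spc c.hA | θ < (χ.ev (m g₀)).re} ∩ {χ : Spc c.hA | c.pdaU x g₀ χ < 2 * θ})
    ((isOpen_lt continuous_const (Complex.continuous_re.comp (continuous_ev c.hA _))).inter
      (isOpen_lt (c.pda_u_cont g₀) continuous_const)) ⟨h1, h2⟩
  set S : (H →L[ℂ] H) → Set (Spc c.hA) := fun g =>
    {χ | χ.ev p = 1} ∩ {χ | θ < c.pdaU x (g * g₀) χ} with hS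
  have hcl : ∀ g, IsP A g → IsClopen (S g) := by
    intro g hg
    refine ⟨?_, (isClopen_ev hp).isOpen.inter (isOpen_lt continuous_const (c.pda_u_cont _))⟩
    have : S g = {χ | χ.ev p = 1} ∩ {χ | c.pdaU x ((1 - g) * g₀) χ ≤ θ} := by
      ext χ
      refine and_congr_right fun hχ => ?_
      obtain ⟨i1, i2⟩ := hp2 χ hχ
      have i2' : c.pdaU x g₀ χ < 2 * θ := i2
      constructor
      · intro i3
        have i3' : θ < c.pdaU x (g * g₀) χ := i3
        change c.pdaU x ((1 - g) * g₀) χ ≤ θ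
        linarith [c.pda_u_compl hx hg₀ hg χ]
      · intro i3
        exact (c.pda_key hm hx hg₀ hg i1 i3).trans_le (c.pda_m_le_u hm hx (hg.mul c.hA hg₀) χ)
    rw [this]
    exact (isClopen_ev hp).isClosed.inter (isClosed_le (c.pda_u_cont _) continuous_const)
  refine ⟨fun g => ind c.hA (S g), g₀, θ, hθ, hg₀, ?_, fun g hg => ind_isP (hcl g hg), ?_, ?_⟩
  · intro h0
    have h3 : χ₀ ∈ S 1 := ⟨hp1, by
      change θ < c.pdaU x (1 * g₀) χ₀
      rw [one_mul]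
      exact h1.trans_le (c.pda_m_le_u hm hx hg₀ χ₀)⟩
    have h4 := ev_ind_of_mem (hcl 1 IsP.one) h3
    rw [h0, χ₀.ev_zero] at h4
    exact zero_ne_one h4
  · intro g g' hg hg' h0
    have hgg := hg.add hg' h0
    have a1 := (ind_isP (hcl g hg)).1
    have a2 := (ind_isP (hcl g' hg')).1
    refine eq_of_ev c.hA (ind_isP (hcl _ hgg)).1 (add_mem a1 a2) fun χ => ?_
    rw [χ.ev_add a1 a2]
    have hadd : c.pdaU x ((g + g') * g₀) χ = c.pdaU x (g * g₀) χ + c.pdaU x (g' * g₀) χ := by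
      rw [add_mul, c.pda_u_add hx (hg.mul c.hA hg₀).1 (hg'.mul c.hA hg₀).1]
    have n1 := c.pda_u_nonneg hx (hg.mul c.hA hg₀) χ
    have n2 := c.pda_u_nonneg hx (hg'.mul c.hA hg₀) χ
    have n3 := c.pda_u_nonneg hx (hgg.one_sub.mul c.hA hg₀) χ
    have hc := c.pda_u_compl hx hg₀ hgg χ
    by_cases b1 : χ ∈ S g
    · have b1' : θ < c.pdaU x (g * g₀) χ := b1.2
      have i2 : c.pdaU x g₀ χ < 2 * θ := (hp2 χ b1.1).2
      have b2 : χ ∉ S g' := fun b2 => by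
        have b2' : θ < c.pdaU x (g' * g₀) χ := b2.2
        linarith
      have b3 : χ ∈ S (g + g') := ⟨b1.1, by
        change θ < c.pdaU x ((g + g') * g₀) χ
        linarith⟩
      rw [ev_ind_of_mem (hcl _ hg) b1, ev_ind_of_notMem (hcl _ hg') b2,
        ev_ind_of_mem (hcl _ hgg) b3, add_zero]
    · by_cases b2 : χ ∈ S g'
      · have b2' : θ < c.pdaU x (g' * g₀) χ := b2.2
        have b3 : χ ∈ S (g + g') := ⟨b2.1, by
          change θ < c.pdaU x ((g + g') * g₀) χ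
          linarith⟩
        rw [ev_ind_of_notMem (hcl _ hg) b1, ev_ind_of_mem (hcl _ hg') b2,
          ev_ind_of_mem (hcl _ hgg) b3, zero_add]
      · have b3 : χ ∉ S (g + g') := fun b3 => by
          have b3' : θ < c.pdaU x ((g + g') * g₀) χ := b3.2
          have i2 : c.pdaU x g₀ χ < 2 * θ := (hp2 χ b3.1).2
          have k := c.pda_key hm hx hg₀ hgg (hp2 χ b3.1).1 (by linarith)
          rcases c.pda_split hm hx hg₀ hg hg' h0 k with k1 | k1
          · exact b1 ⟨b3.1, k1.trans_le (c.pda_m_le_u hm hx (hg.mul c.hA hg₀) χ)⟩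
          · exact b2 ⟨b3.1, k1.trans_le (c.pda_m_le_u hm hx (hg'.mul c.hA hg₀) χ)⟩
        rw [ev_ind_of_notMem (hcl _ hg) b1, ev_ind_of_notMem (hcl _ hg') b2,
          ev_ind_of_notMem (hcl _ hgg) b3, add_zero]
  · intro g hg
    have a1 := (ind_isP (hcl g hg)).1
    have hgg := hg.mul c.hA hg₀
    have hmu := c.pda_mu_mem hx hgg.1
    refine le_of_ev c.hA (SMulMemClass.smul_mem _ a1) (mul_mem hmu a1) fun χ => ?_
    change χ.ev ((θ : ℂ) • ind c.hA (S g)) ≤ χ.ev (c.pdaMu x (g * g₀) * ind c.hA (S g))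
    rw [χ.ev_smul _ a1, χ.ev_mul hmu a1, c.pda_ev_mu hx hgg]
    by_cases b : χ ∈ S g
    · rw [ev_ind_of_mem (hcl _ hg) b, mul_one, mul_one, Complex.real_le_real]
      exact le_of_lt b.2
    · rw [ev_ind_of_notMem (hcl _ hg) b, mul_zero, mul_zero]

end Vale.Agent.P078
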