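import Vale.Agent.P078b.RN
import Vale.Agent.P078b.Gel

open scoped InnerProductSpace ComplexConjugate ComplexOrder
open Filter Topology

set_option linter.unusedSectionVars false
set_option linter.unusedVariables false

namespace Vale.Agent.P078

variable {H : Type*} [NormedAddCommGroup H] [InnerProductSpace ℂ H] [CompleteSpace H]
variable {M : VonNeumannAlgebra H} {A : StarSubalgebra ℂ (H →L[ℂ] H)}

variable {hA : IsMASA M A}

theorem Spc.dom_one (χ : Spc hA) : χ.Dom 1 := by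
  rw [Spc.Dom, star_one, one_mul, χ.ev_one]

theorem pt_ex {v : H →L[ℂ] H} (hv : IsG M A v) {χ : Spc hA} (h : χ.Dom v) :
    ∃ χ' : Spc hA, ∀ b ∈ A, χ'.ev b = χ.ev (star v * b * v) :=
  exists_char (f := fun b => χ.ev (star v * b * v)) (by rw [mul_one]; exact h)
    (fun a ha b hb => by
      rw [mul_add, add_mul, χ.ev_add (hv.2.2.2 a ha) (hv.2.2.2 b hb)])
    (fun a ha b hb => by
      rw [hv.conj_mul hA ha, χ.ev_mul (hv.2.2.2 a ha) (hv.2.2.2 b hb)])
    (fun z a ha => by rw [mul_smul_comm, smul_mul_assoc, χ.ev_smul z (hv.2.2.2 a ha)])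

theorem ev_tp {v : H →L[ℂ] H} (hv : IsG M A v) {χ : Spc hA} (h : χ.Dom v) {b : H →L[ℂ] H}
    (hb : b ∈ A) : (tp v χ).ev b = χ.ev (star v * b * v) := by
  rw [tp, dif_pos (pt_ex hv h)]
  exact (pt_ex hv h).choose_spec b hb

theorem tp_of_not_dom {v : H →L[ℂ] H} {χ : Spc hA} (h : ¬χ.Dom v) : tp v χ = χ := by
  rw [tp, dif_neg]
  rintro ⟨χ', h'⟩
  have h1 := h' 1 (one_mem A)
  rw [χ'.ev_one, mul_one] at h1
  exact h h1.symm

theorem tp_one (χ : Spc hA) : tp 1 χ = χ :=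
  Spc.ext_ev fun a ha => by rw [ev_tp (IsP.one.isG hA) χ.dom_one ha, star_one, one_mul, mul_one]

theorem isClopen_dom {v : H →L[ℂ] H} (hv : IsG M A v) : IsClopen {χ : Spc hA | χ.Dom v} :=
  isClopen_ev hv.src

theorem pt_zero {v : H →L[ℂ] H} (hv : IsG M A v) {χ : Spc hA} (h : ¬χ.Dom v) :
    χ.ev (star v * v) = 0 := (χ.ev_proj hv.src).resolve_right h

theorem pt_conj_zero {v : H →L[ℂ] H} (hv : IsG M A v) {χ : Spc hA} (h : ¬χ.Dom v)
    {a : H →L[ℂ] H} (ha : a ∈ A) : χ.ev (star v * a * v) = 0 := by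
  have h1 := hv.conj_mul hA (one_mem A) a
  rw [one_mul, mul_one] at h1
  rw [h1, χ.ev_mul hv.src.1 (hv.2.2.2 a ha), pt_zero hv h, zero_mul]

theorem continuous_tp {v : H →L[ℂ] H} (hv : IsG M A v) :
    Continuous (tp v : Spc hA → Spc hA) := by
  refine continuous_spc fun a ha => ?_
  have hc : Continuous fun χ : Spc hA =>
      χ.ev (star v * a * v) + (1 - χ.ev (star v * v)) * χ.ev a :=
    (continuous_ev hA (star v * a * v)).add
      ((continuous_const.sub (continuous_ev hA (star v * v))).mul (continuous_ev hA a))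
  refine hc.congr fun χ => ?_
  by_cases h : χ.Dom v
  · rw [ev_tp hv h ha, show χ.ev (star v * v) = 1 from h, sub_self, zero_mul, add_zero]
  · rw [tp_of_not_dom h, pt_zero hv h, pt_conj_zero hv h ha, sub_zero, one_mul, zero_add]

theorem dom_star_tp {v : H →L[ℂ] H} (hv : IsG M A v) {χ : Spc hA} (h : χ.Dom v) :
    (tp v χ).Dom (star v) ∧ tp (star v) (tp v χ) = χ := by
  have h1 : (tp v χ).Dom (star v) := by
    rw [Spc.Dom, star_star, ev_tp hv h hv.rng.1, mul_assoc, hv.2.1]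
    exact h
  refine ⟨h1, Spc.ext_ev fun a ha => ?_⟩
  have h2 : star v * (v * a * star v) * v = star v * v * a * (star v * v) := by
    simp only [mul_assoc]
  rw [ev_tp hv.star h1 ha, star_star, ev_tp hv h (hv.2.2.1 a ha), h2,
    χ.ev_mul (mul_mem hv.src.1 ha) hv.src.1, χ.ev_mul hv.src.1 ha,
    show χ.ev (star v * v) = 1 from h, one_mul, mul_one]

theorem dom_mul_iff {v w : H →L[ℂ] H} (hv : IsG M A v) (hw : IsG M A w) {χ : Spc hA} :
    χ.Dom (v * w) ↔ χ.Dom w ∧ (tp w χ).Dom v := by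
  have h1 : star (v * w) * (v * w) = star w * (star v * v) * w := by
    simp only [star_mul, mul_assoc]
  by_cases h : χ.Dom w
  · rw [and_iff_right h, Spc.Dom, Spc.Dom, ev_tp hw h hv.src.1, h1]
  · rw [Spc.Dom, h1, pt_conj_zero hw h hv.src.1]
    exact ⟨fun h2 => (zero_ne_one h2).elim, fun h2 => (h h2.1).elim⟩

theorem tp_mul {v w : H →L[ℂ] H} (hv : IsG M A v) (hw : IsG M A w) {χ : Spc hA}
    (h : χ.Dom (v * w)) : tp (v * w) χ = tp v (tp w χ) := by
  obtain ⟨h1, h2⟩ := (dom_mul_iff hv hw).1 h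
  refine Spc.ext_ev fun a ha => ?_
  rw [ev_tp (hv.mul hA hw) h ha, ev_tp hv h2 ha, ev_tp hw h1 (hv.2.2.2 a ha)]
  simp only [star_mul, mul_assoc]

theorem pt_proj {e : H →L[ℂ] H} (he : IsP A e) {χ : Spc hA} (h : χ.ev e = 1) :
    χ.Dom e ∧ tp e χ = χ := by
  have h1 : χ.Dom e := by
    rw [Spc.Dom, he.2.isSelfAdjoint.star_eq, he.2.isIdempotentElem.eq, h]
  refine ⟨h1, Spc.ext_ev fun a ha => ?_⟩
  rw [ev_tp (he.isG hA) h1 ha, he.2.isSelfAdjoint.star_eq, χ.ev_mul (mul_mem he.1 ha) he.1,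
    χ.ev_mul he.1 ha, h, one_mul, mul_one]

theorem pt_sq {a f : H →L[ℂ] H} (ha : a ∈ A) (hf : IsP A f) (h : star a * a = f) (χ : Spc hA) :
    χ.ev a ≠ 0 ↔ χ.ev f = 1 := by
  have h1 : χ.ev f = conj (χ.ev a) * χ.ev a := by
    rw [← h, χ.ev_mul (star_mem ha) ha, χ.ev_star ha]
  refine ⟨fun h0 => (χ.ev_proj hf).resolve_left ?_, fun h2 h0 => ?_⟩
  · rw [h1]
    exact mul_ne_zero ((map_ne_zero _).2 h0) h0
  · rw [h1, h0, mul_zero] at h2
    exact zero_ne_one h2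

namespace Ctx
variable (c : Ctx M A)

/-- Outside the domain everything vanishes. -/
theorem ev_E_of_not_dom {v T : H →L[ℂ] H} (hv : IsG M A v) (hT : T ∈ M) {χ : Spc c.hA}
    (h : ¬χ.Dom v) : χ.ev (c.E (T * v)) = 0 := by
  have h1 : T * v = T * v * (star v * v) := by rw [mul_assoc, ← mul_assoc v, hv.2.1]
  rw [h1, c.E_right hv.src.1, χ.ev_mul (c.E_mem (mul_mem hT hv.1)) hv.src.1, pt_zero hv h,
    mul_zero]

theorem pt_free {v : H →L[ℂ] H} (hv : IsG M A v) (h0 : c.E v = 0) {χ : Spc c.hA} (h : χ.Dom v) :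
    tp v χ ≠ χ := by
  intro hf
  obtain ⟨p, hp, h1, h2⟩ := c.exists_free hv h0
  obtain ⟨h3, h4⟩ := dom_star_tp hv h
  rw [hf] at h3 h4
  have e1 : χ.ev (star v * p * v) = χ.ev p := by rw [← ev_tp hv h hp.1, hf]
  have e2 : χ.ev (v * p * star v) = χ.ev p := by
    have h5 := ev_tp hv.star h3 hp.1
    rw [h4, star_star] at h5
    exact h5.symm
  have m1 := hv.2.2.1 p hp.1
  have m2 := hv.2.2.2 p hp.1
  have o := one_mem A
  have h5 := congrArg χ.ev h1
  rw [χ.ev_mul hp.1 m1, e2, χ.ev_zero, mul_self_eq_zero] at h5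
  have h6 := congrArg χ.ev h2
  rw [χ.ev_mul (mul_mem (mul_mem hv.src.1 (sub_mem o hp.1)) (sub_mem o m1)) (sub_mem o m2),
    χ.ev_mul (mul_mem hv.src.1 (sub_mem o hp.1)) (sub_mem o m1),
    χ.ev_mul hv.src.1 (sub_mem o hp.1), χ.ev_sub o hp.1, χ.ev_sub o m1, χ.ev_sub o m2, e1, e2, h5,
    χ.ev_one, χ.ev_zero, show χ.ev (star v * v) = 1 from h] at h6
  simp at h6

theorem pt_fix {v : H →L[ℂ] H} (hv : IsG M A v) : ∃ f, IsP A f ∧ c.E v = v * f ∧
    f * v = v * f ∧ star (c.E v) * c.E v = f ∧ f * (star v * v) = f ∧ f * (v * star v) = f := by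
  obtain ⟨f, hf, h1, h2, h3, h4⟩ := c.E_G hv
  refine ⟨f, hf, h1.trans h2, h2, ?_, h3, h4⟩
  rw [h1, h2, star_mul, hf.2.isSelfAdjoint.star_eq, mul_assoc, ← mul_assoc (star v), ← mul_assoc,
    h3, hf.2.isIdempotentElem.eq]

/-- Fixed points. -/
theorem fixed_iff {v : H →L[ℂ] H} (hv : IsG M A v) {χ : Spc c.hA} (h : χ.Dom v) :
    tp v χ = χ ↔ χ.ev (c.E v) ≠ 0 := by
  obtain ⟨f, hf, h1, -, h3, -, -⟩ := c.pt_fix hv
  have ha := c.E_mem hv.1
  rw [pt_sq ha hf h3]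
  refine ⟨fun h4 => (χ.ev_proj hf).resolve_left fun h5 => ?_, fun h4 => ?_⟩
  · have h6 : χ.ev (1 - f) = 1 := by rw [χ.ev_sub (one_mem A) hf.1, h5, χ.ev_one, sub_zero]
    obtain ⟨h7, h8⟩ := pt_proj hf.one_sub h6
    have hg := hf.one_sub.isG c.hA
    have h9 : χ.Dom (v * (1 - f)) := (dom_mul_iff hv hg).2 ⟨h7, h8.symm ▸ h⟩
    refine c.pt_free (hv.mul c.hA hg) ?_ h9 (by rw [tp_mul hv hg h9, h8, h4])
    rw [c.E_right hf.one_sub.1, h1, mul_assoc, mul_sub, mul_one, hf.2.isIdempotentElem.eq,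
      sub_self, mul_zero]
  · refine Spc.ext_ev fun b hb => ?_
    have hb' := hv.2.2.2 b hb
    have h5 : star (c.E v) * b * c.E v = f * (star v * b * v) * f := by
      rw [h1, star_mul, hf.2.isSelfAdjoint.star_eq]
      simp only [mul_assoc]
    have h6 := congrArg χ.ev h5
    rw [χ.ev_mul (mul_mem hf.1 hb') hf.1, χ.ev_mul hf.1 hb', h4, one_mul, mul_one,
      c.hA.2.1 _ (star_mem ha) b hb, mul_assoc, h3, χ.ev_mul hb hf.1, h4, mul_one] at h6
    rw [ev_tp hv h hb, ← h6]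

theorem exists_fix_proj {v : H →L[ℂ] H} (hv : IsG M A v) : ∃ f, IsP A f ∧ c.E v = v * f ∧
    f * v = v * f ∧ star (c.E v) * c.E v = f ∧ f * (star v * v) = f ∧ f * (v * star v) = f ∧
    ∀ χ : Spc c.hA, (tp v χ ≠ χ ↔ χ.ev (star v * v - f) = 1) := by
  obtain ⟨f, hf, h1, h2, h3, h4, h5⟩ := c.pt_fix hv
  refine ⟨f, hf, h1, h2, h3, h4, h5, fun χ => ?_⟩
  rw [χ.ev_sub hv.src.1 hf.1]
  by_cases h : χ.Dom v
  · rw [show χ.ev (star v * v) = 1 from h, sub_eq_self, Ne, c.fixed_iff hv h,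
      pt_sq (c.E_mem hv.1) hf h3]
    exact ⟨fun h6 => (χ.ev_proj hf).resolve_right h6, fun h6 h7 => zero_ne_one (h6.symm.trans h7)⟩
  · have h6 : χ.ev f = 0 := by rw [← h4, χ.ev_mul hf.1 hv.src.1, pt_zero hv h, mul_zero]
    rw [tp_of_not_dom h, pt_zero hv h, h6, sub_zero]
    exact ⟨fun h7 => (h7 rfl).elim, fun h7 => (zero_ne_one h7).elim⟩

theorem coin_iff {v w : H →L[ℂ] H} (hv : IsG M A v) (hw : IsG M A w) {χ : Spc c.hA}
    (h1 : χ.Dom v) (h2 : χ.Dom w) : tp v χ = tp w χ ↔ χ.ev (c.E (star v * w)) ≠ 0 := by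
  have hg := hv.star.mul c.hA hw
  constructor
  · intro h
    obtain ⟨h3, h4⟩ := dom_star_tp hv h1
    have h5 : χ.Dom (star v * w) := (dom_mul_iff hv.star hw).2 ⟨h2, h ▸ h3⟩
    exact (c.fixed_iff hg h5).1 (by rw [tp_mul hv.star hw h5, ← h, h4])
  · intro h
    have h5 : χ.Dom (star v * w) := by
      by_contra h6
      exact h (by simpa only [one_mul] using c.ev_E_of_not_dom hg (one_mem M) h6)
    have h6 := (c.fixed_iff hg h5).2 h
    have h7 := (dom_star_tp hv.star ((dom_mul_iff hv.star hw).1 h5).2).2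
    rwa [← tp_mul hv.star hw h5, h6, star_star] at h7

theorem isOpen_coin {v w : H →L[ℂ] H} (hv : IsG M A v) (hw : IsG M A w) :
    IsOpen {χ : Spc c.hA | tp v χ = tp w χ} := by
  have hU : ∀ a : H →L[ℂ] H, IsOpen {χ : Spc c.hA | χ.ev a ≠ 0} := fun a =>
    isOpen_ne_fun (continuous_ev c.hA a) continuous_const
  have d1 := isClopen_dom (hA := c.hA) hv
  have d2 := isClopen_dom (hA := c.hA) hw
  rw [isOpen_iff_mem_nhds]
  intro χ hχ
  by_cases h1 : χ.Dom v <;> by_cases h2 : χ.Dom w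
  · filter_upwards [d1.isOpen.mem_nhds h1, d2.isOpen.mem_nhds h2,
      (hU _).mem_nhds ((c.coin_iff hv hw h1 h2).1 hχ)] with ψ e1 e2 e3
    exact (c.coin_iff hv hw e1 e2).2 e3
  · filter_upwards [d1.isOpen.mem_nhds h1, d2.compl.isOpen.mem_nhds h2,
      (hU _).mem_nhds ((c.fixed_iff hv h1).1 (hχ.trans (tp_of_not_dom h2)))] with ψ e1 e2 e3
    exact ((c.fixed_iff hv e1).2 e3).trans (tp_of_not_dom e2).symm
  · filter_upwards [d1.compl.isOpen.mem_nhds h1, d2.isOpen.mem_nhds h2,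
      (hU _).mem_nhds ((c.fixed_iff hw h2).1 (hχ.symm.trans (tp_of_not_dom h1)))] with ψ e1 e2 e3
    exact (tp_of_not_dom e1).trans ((c.fixed_iff hw e2).2 e3).symm
  · filter_upwards [d1.compl.isOpen.mem_nhds h1, d2.compl.isOpen.mem_nhds h2] with ψ e1 e2
    exact (tp_of_not_dom e1).trans (tp_of_not_dom e2).symm

theorem rel_equiv : Equivalence c.Rel := by
  refine ⟨fun a => ⟨1, isGb_proj IsP.one, a.dom_one, tp_one a⟩, ?_, ?_⟩
  · rintro a _ ⟨v, hv, h, rfl⟩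
    exact ⟨star v, hv.star, dom_star_tp hv.1 h⟩
  · rintro a _ _ ⟨v, hv, h, rfl⟩ ⟨w, hw, h', rfl⟩
    have h1 := (dom_mul_iff hw.1 hv.1).2 ⟨h, h'⟩
    exact ⟨w * v, hw.mul hv, h1, tp_mul hw.1 hv.1 h1⟩

theorem pt_base (a : Spc c.hA) : c.Rel (c.base a) a :=
  Classical.epsilon_spec (p := fun o => c.Rel o a) ⟨a, c.rel_equiv.refl a⟩

theorem base_eq_iff {a b : Spc c.hA} : c.base a = c.base b ↔ c.Rel a b := by
  constructor
  · intro h
    exact c.rel_equiv.trans (c.rel_equiv.symm (c.pt_base a)) (h ▸ c.pt_base b)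
  · intro h
    have h1 : (fun o => c.Rel o a) = fun o => c.Rel o b := funext fun o => propext
      ⟨fun h2 => c.rel_equiv.trans h2 h, fun h2 => c.rel_equiv.trans h2 (c.rel_equiv.symm h)⟩
    rw [base, base, h1]

theorem uu_spec (a : Spc c.hA) :
    c.IsGb (c.uu a) ∧ (c.base a).Dom (c.uu a) ∧ tp (c.uu a) (c.base a) = a := by
  rw [uu, dif_pos (c.pt_base a)]
  exact (c.pt_base a).choose_spec

/-- Two groupoid elements with the same image of a point agree locally up to a phase. -/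
theorem exists_phase {v w : H →L[ℂ] H} (hv : IsG M A v) (hw : IsG M A w) {χ : Spc c.hA}
    (h1 : χ.Dom v) (h2 : χ.Dom w) (h : tp v χ = tp w χ) : ∃ f a, IsP A f ∧ a ∈ A ∧ χ.ev f = 1 ∧
      star a * a = f ∧ v * f = w * a := by
  have hg := hw.star.mul c.hA hv
  obtain ⟨f, hf, e1, -, e3, e4, -⟩ := c.pt_fix hg
  have ha := c.E_mem hg.1
  refine ⟨f, _, hf, ha, (pt_sq ha hf e3 χ).1 ((c.coin_iff hw hv h2 h1).1 h.symm), e3, ?_⟩
  rw [c.hA.2.1 f hf.1 _ hg.src.1] at e4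
  calc v * f = v * (star (star w * v) * (star w * v) * f) := by rw [e4]
    _ = v * (star v * (w * star w) * v) * f := by simp only [star_mul, star_star, mul_assoc]
    _ = w * c.E (star w * v) := by
      rw [← hv.eq_mul c.hA hw.rng.1, e1]
      simp only [mul_assoc]

end Ctx

end Vale.Agent.P078
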