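import Vale.Agent.P078b.Core

open scoped InnerProductSpace ComplexConjugate ComplexOrder
open Filter Topology

set_option linter.unusedSectionVars false
set_option linter.unusedVariables false

namespace Vale.Agent.P078

variable {H : Type*} [NormedAddCommGroup H] [InnerProductSpace ℂ H] [CompleteSpace H]
variable {M : VonNeumannAlgebra H} {A : StarSubalgebra ℂ (H →L[ℂ] H)}

theorem top_wlim {E : (H →L[ℂ] H) →ₗ[ℂ] (H →L[ℂ] H)} (hE : IsNormalCondExp M A 1 E)
    {α : Type*} {l : Filter α} {y : α → H →L[ℂ] H} {z : H →L[ℂ] H} {C : ℝ}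
    (hz : z ∈ M) (hzC : ‖z‖ ≤ C) (hy : ∀ᶠ a in l, y a ∈ M ∧ ‖y a‖ ≤ C) (h : WLim l y z) :
    WLim l (fun a => E (y a)) (E z) := by
  have hC : 0 ≤ C := (norm_nonneg _).trans hzC
  set s : ℂ := ((C + 1 : ℝ) : ℂ)⁻¹ with hs
  have hs0 : ((C + 1 : ℝ) : ℂ) ≠ 0 := by exact_mod_cast (by positivity : C + 1 ≠ 0)
  have hn : ∀ T : H →L[ℂ] H, ‖T‖ ≤ C → ‖s • T‖ ≤ 1 := by
    intro T hT
    rw [norm_smul, hs, norm_inv, Complex.norm_real, Real.norm_of_nonneg (by positivity),
      inv_mul_le_iff₀ (by positivity)]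
    linarith
  have h1 : Tendsto (fun a => (ContinuousLinearMapWOT.ofCLM (s • y a) : H →WOT[ℂ] H)) l
      (𝓝[{y : H →WOT[ℂ] H | y.toCLM ∈ M ∧ 1 * y.toCLM * 1 = y.toCLM ∧ ‖y.toCLM‖ ≤ 1}]
        (ContinuousLinearMapWOT.ofCLM (s • z))) := by
    refine tendsto_nhdsWithin_iff.2 ⟨?_, hy.mono fun a ha => ⟨smul_mem_vN s ha.1, by simp,
      hn _ ha.2⟩⟩
    exact ContinuousLinearMapWOT.tendsto_iff_forall_inner_apply_tendsto.mpr fun v w =>
      h.smul s w v
  have h2 := ContinuousLinearMapWOT.tendsto_iff_forall_inner_apply_tendsto.mp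
    ((hE.2.2.2.2 (ContinuousLinearMapWOT.ofCLM (s • z))
      ⟨smul_mem_vN s hz, by simp, hn _ hzC⟩).tendsto.comp h1)
  have h3 : WLim l (fun a => E (s • y a)) (E (s • z)) := fun w v => h2 v w
  have h4 := h3.smul ((C + 1 : ℝ) : ℂ)
  simpa only [map_smul, smul_smul, hs, mul_inv_cancel₀ hs0, one_smul] using h4

theorem goodProj_one_of_normal (hA : IsMASA M A) {E : (H →L[ℂ] H) →ₗ[ℂ] (H →L[ℂ] H)}
    (hE : IsNormalCondExp M A 1 E) : GoodProj hA 1 := by
  have hpin : ∀ {ι : Type} [Fintype ι] {p : ι → H →L[ℂ] H}, IsPartition A p → ∀ y ∈ M,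
      E (pinch p y) = E y := by
    intro ι _ p hp y hy
    have hEy := (hE.1 y hy (by simp)).1
    rw [pinch, map_sum]
    calc ∑ i, E (p i * y * p i) = pinch p (E y) :=
          Finset.sum_congr rfl fun i _ => hE.2.2.2.1 _ (hp.mem i) _ (hp.mem i) y hy (by simp)
      _ = E y := hp.pinch_of_mem hA hEy
  have hEq : ∀ y ∈ M, condE hA y = E y := by
    intro y hy
    have h1 := top_wlim hE (hA.1 _ (condE_mem hA hy)) (norm_condE_le hA y)
      (Eventually.of_forall fun T => ⟨(netPart hA T).hq.pinch_mem hA hy,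
        (netPart hA T).hq.norm_pinch_le y⟩) (wlim_condE hA y)
    have h2 : WLim (netU A : Filter _) (fun T => E (pinch (netPart hA T).q y)) (E y) :=
      (WLim.const (E y)).congr' (Eventually.of_forall fun T => (hpin (netPart hA T).hq y hy).symm)
    rw [← h1.unique h2, hE.2.1 _ (condE_mem hA hy) (one_mul _)]
  refine ⟨one_mem _, IsStarProjection.one _, fun w v l y0 C h0 h1 h2 h3 => ?_⟩
  simp only [mul_one]
  rw [hEq y0 h0]
  refine (top_wlim hE h0 h1 h2 h3 w v).congr' (h2.mono fun y hy => ?_)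
  simp only [hEq y hy.1]

theorem soPavable_of_good (hA : IsMASA M A) (hg : GoodProj hA 1) {h : ℕ} (hh : 1 ≤ h) {ε : ℝ}
    (hε : 80000 / √h < ε) {x : H →L[ℂ] H} (hxM : x ∈ M) (hx : IsSelfAdjoint x) :
    SoPavable M A x ε (2 * h) := by
  classical
  intro F δ hδ
  set n := F.card
  let ζ : Fin n → H := fun i => (F.equivFin.symm i : H)
  have hζ : ∀ v ∈ F, ∃ i, ζ i = v := fun v hv => ⟨F.equivFin ⟨v, hv⟩, by simp [ζ]⟩
  obtain ⟨z, hzA, hz, hz1, -, hz3⟩ := exists_support hA ζ ζ
  have hzζ : ∀ i, z (ζ i) = ζ i := by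
    have h1 := hz1 (1 - z) (sub_mem (one_mem _) hzA)
    rw [hz.one_sub_mul_self, map_zero, vecFn_apply] at h1
    have h2 : ∑ i, ‖(1 - z) (ζ i)‖ ^ 2 = 0 := by
      have h3 := congrArg Complex.re h1
      rw [Complex.re_sum, Complex.zero_re] at h3
      rw [h3]
      refine Finset.sum_congr rfl fun i _ => ?_
      rw [← re_inner_star_mul_self, hz.one_sub.isSelfAdjoint.star_eq,
        hz.one_sub.isIdempotentElem.eq]
    intro i
    have h4 := (Finset.sum_eq_zero_iff_of_nonneg fun i _ => sq_nonneg _).1 h2 i (Finset.mem_univ i)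
    have h5 : (1 - z) (ζ i) = 0 := by simpa using h4
    exact (sub_eq_zero.1 (show ζ i - z (ζ i) = 0 from h5)).symm
  let U : Submodule ℂ H := (1 - z : H →L[ℂ] H).ker
  have : CompleteSpace U := ContinuousLinearMap.completeSpace_ker _
  have hUz : U.starProjection = z := by
    ext v
    refine Submodule.eq_starProjection_of_mem_of_inner_eq_zero ?_ fun w hw => ?_
    · show (1 - z) (z v) = 0
      rw [← mul_apply_eq_comp, hz.one_sub_mul_self, zero_apply]
    · have hw' : (1 - z) w = 0 := hw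
      have : v - z v = (1 - z) v := by simp
      rw [this, inner_sa hz.one_sub.isSelfAdjoint, hw', inner_zero_right]
  have hU : GoodProj hA U.starProjection := by
    rw [hUz]
    refine ⟨hzA, hz, fun w v => ?_⟩
    simpa only [mul_one, mul_apply_eq_comp] using hg.2.2 w (z v)
  obtain ⟨E, hE⟩ := isNormalCondExp_corner hA hU
  set s : ℝ := (√(∑ i, ‖ζ i‖ ^ 2 + 1))⁻¹ with hs
  have hs0 : 0 < s := by positivity
  let c : Ctx (cornerVN M (hA.1 _ hU.1)) (cornerAlg A hU.1) :=
    { hA := isMASA_corner hA hU.1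
      good := goodProj_one_of_normal _ hE
      n := n
      ξ := fun i => (s : ℂ) • U.orthogonalProjectionOnto (ζ i)
      norm_le := by
        calc _ ≤ ∑ i, s ^ 2 * ‖ζ i‖ ^ 2 := by
              refine Finset.sum_le_sum fun i _ => ?_
              rw [norm_smul, Complex.norm_real, Real.norm_of_nonneg hs0.le, mul_pow]
              gcongr
              exact U.norm_orthogonalProjectionOnto_apply_le _
          _ ≤ 1 := by
              rw [← Finset.mul_sum, hs, inv_pow, Real.sq_sqrt (by positivity),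
                inv_mul_le_iff₀ (by positivity)]
              linarith
      faith := fun a ha h0 => by
        apply ext0_injective
        rw [ext0_zero]
        refine hz3 _ ha (by rw [← hUz, ext0_mul_proj]) fun b _ => ?_
        rw [vecFn_apply]
        refine Finset.sum_eq_zero fun i _ => ?_
        have h1 : a (U.orthogonalProjectionOnto (ζ i)) = 0 := by
          have h2 := h0 i
          rw [map_smul, smul_eq_zero] at h2
          exact h2.resolve_left (by exact_mod_cast hs0.ne')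
        rw [mul_apply_eq_comp, ext0_apply, h1]
        simp }
  have hzM := hA.1 _ hU.1
  obtain ⟨p, hp, a, haB, has, han, q, hqN, hq, hqF, hqn⟩ := c.core hh hε (x := cmp U x)
    (by rw [mem_cornerVN, ext0_cmp]; exact mul_mem (mul_mem hzM hxM) hzM)
    (by rw [IsSelfAdjoint, ← cmp_star, hx.star_eq]) (F.image U.orthogonalProjectionOnto) δ hδ
  let i₀ : Fin (2 * h) := ⟨0, by omega⟩
  have hpz : ∀ t : U →L[ℂ] U, ext0 U t * (1 - z) = 0 := fun t => by
    rw [mul_sub, mul_one, ← hUz, ext0_mul_proj, sub_self]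
  have hzp : ∀ t : U →L[ℂ] U, (1 - z) * ext0 U t = 0 := fun t => by
    rw [sub_mul, one_mul, ← hUz, proj_mul_ext0, sub_self]
  let P : Fin (2 * h) → H →L[ℂ] H := fun i => ext0 U (p i) + if i = i₀ then 1 - z else 0
  have hqP : ∀ i, ext0 U q * P i = ext0 U q * ext0 U (p i) := fun i => by
    simp only [P]
    split_ifs <;> simp [mul_add, hpz]
  have hPq : ∀ i, P i * ext0 U q = ext0 U (p i) * ext0 U q := fun i => by
    simp only [P]
    split_ifs <;> simp [add_mul, hzp]
  refine ⟨P, ⟨fun i => ⟨?_, ?_⟩, fun i j hij => ?_, ?_⟩, ext0 U a, haB,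
    by rw [IsSelfAdjoint, ← ext0_star, has.star_eq],
    (norm_ext0_le a).trans (han.trans (norm_cmp_le x)), ext0 U q, hqN, isStarProjection_ext0 hq,
    fun ξ hξ => ?_, ?_⟩
  · refine add_mem (hp.mem i) ?_
    split_ifs
    · exact sub_mem (one_mem _) hzA
    · exact zero_mem _
  · simp only [P]
    split_ifs
    · exact (isStarProjection_ext0 (hp.proj i)).add hz.one_sub (hpz _)
    · simpa using isStarProjection_ext0 (hp.proj i)
  · have h1 : ext0 U (p i) * ext0 U (p j) = 0 := by rw [← ext0_mul, hp.2.1 i j hij, ext0_zero]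
    simp only [P]
    by_cases hi : i = i₀ <;> by_cases hj : j = i₀
    · exact absurd (hi.trans hj.symm) hij
    · rw [if_pos hi, if_neg hj, add_zero, add_mul, h1, hzp, add_zero]
    · rw [if_neg hi, if_pos hj, add_zero, mul_add, h1, hpz, add_zero]
    · rw [if_neg hi, if_neg hj, add_zero, add_zero, h1]
  · simp only [P]
    rw [Finset.sum_add_distrib, ← ext0_sum, hp.2.2, ext0_one, hUz]
    simp
  · obtain ⟨i, rfl⟩ := hζ ξ hξ
    have h1 : (1 - ext0 U q) (ζ i) = (z - ext0 U q) (ζ i) := by simp [hzζ]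
    rw [h1, ← hUz, ← ext0_one, ← ext0_sub, ext0_apply, Submodule.norm_coe]
    exact hqF _ (Finset.mem_image_of_mem _ hξ)
  · have h1 : ext0 U q * pinch P x * ext0 U q =
        ext0 U q * ext0 U (pinch p (cmp U x)) * ext0 U q := by
      simp only [pinch, ext0_sum, ext0_mul, ext0_cmp, Finset.mul_sum, Finset.sum_mul]
      refine Finset.sum_congr rfl fun i _ => ?_
      calc ext0 U q * (P i * x * P i) * ext0 U q
          = (ext0 U q * P i) * x * (P i * ext0 U q) := by simp only [mul_assoc]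
        _ = ext0 U q * ((ext0 U (p i) * U.starProjection) * x *
            (U.starProjection * ext0 U (p i))) * ext0 U q := by
            rw [hqP, hPq, ext0_mul_proj, proj_mul_ext0]; simp only [mul_assoc]
        _ = _ := by simp only [mul_assoc]
    rw [mul_sub, sub_mul, h1, ← sub_mul, ← mul_sub, ← ext0_sub, ← ext0_mul, ← ext0_mul]
    refine (norm_ext0_le _).trans (hqn.trans ?_)
    have : 0 ≤ ε := le_trans (by positivity) hε.le
    gcongr
    exact norm_cmp_le x

theorem pavingNumber_le_const (hA : IsMASA M A) {ε : ℝ} (h0 : 0 < ε) (h1 : ε < 1) :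
    ∃ r : ℕ, pavingNumber M A ε ≤ r ∧ (r : ℝ) ≤ 10 ^ 11 / ε ^ 2 := by
  obtain ⟨U, _, N, B, -, -, -, hB, ⟨E, hE⟩, hle⟩ := reduction hA
  set h : ℕ := ⌊(80000 / ε) ^ 2⌋₊ + 1 with hh
  have h2 : (80000 / ε) ^ 2 < h := by rw [hh]; push_cast; exact Nat.lt_floor_add_one _
  have h3 : 80000 / √h < ε := by
    have : 80000 / ε < √h := Real.lt_sqrt_of_sq_lt h2
    rw [div_lt_iff₀ h0] at this
    rw [div_lt_iff₀ (by positivity)]
    linarith
  have h4 : pavingNumber N B ε ≤ (2 * h : ℕ) := pavingNumber_le (by omega) fun x hxM hx =>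
    soPavable_of_good hB (goodProj_one_of_normal hB hE) (by omega) h3 hxM hx
  refine ⟨2 * h + (⌊1 / ε⌋₊ + 1), (hle ε h0).trans ?_, ?_⟩
  · rw [Nat.cast_add (2 * h)]
    gcongr
  · have h5 : (⌊(80000 / ε) ^ 2⌋₊ : ℝ) ≤ (80000 / ε) ^ 2 := Nat.floor_le (by positivity)
    have h6 : (⌊1 / ε⌋₊ : ℝ) ≤ 1 / ε := Nat.floor_le (by positivity)
    have h7 : 1 ≤ 1 / ε := by rw [le_div_iff₀ h0]; linarith
    have h8 : (80000 / ε) ^ 2 = 6400000000 * (1 / ε) ^ 2 := by ring
    have h9 : (10 : ℝ) ^ 11 / ε ^ 2 = 100000000000 * (1 / ε) ^ 2 := by ring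
    rw [hh, h9]
    push_cast
    nlinarith

end Vale.Agent.P078
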