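import Vale.Agent.P078b.Model
import Vale.Agent.P078b.Mob

open Polynomial MeasureTheory
open scoped ComplexConjugate

set_option linter.unusedSectionVars false
set_option linter.unusedVariables false

namespace Vale.Agent.P078

universe u

variable {Ω : Type u} [TopologicalSpace Ω] [CompactSpace Ω] [T2Space Ω]
  [TotallyDisconnectedSpace Ω] [DecidableEq Ω] {B : Base Ω} {R : ℕ}
variable {κ : Type*} [Fintype κ] [DecidableEq κ]

theorem Base.I_mono (B : Base Ω) {f g : Ω → ℝ} (hf : Continuous f) (hg : Continuous g)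
    (h : ∀ a, f a ≤ g a) : B.I f ≤ B.I g := by
  have h1 := B.I_nonneg (fun a => g a + (-1) * f a) (hg.add (continuous_const.mul hf))
    fun a => by linarith [h a]
  rw [B.I_add g (fun a => -1 * f a) hg (continuous_const.mul hf), B.I_smul _ _ hf] at h1
  linarith

theorem Base.I_sub (B : Base Ω) {f g : Ω → ℝ} (hf : Continuous f) (hg : Continuous g) :
    B.I (fun a => f a - g a) = B.I f - B.I g := by
  have : (fun a => f a - g a) = fun a => f a + (-1) * g a := funext fun a => by ring
  rw [this, B.I_add f (fun a => -1 * g a) hf (continuous_const.mul hg), B.I_smul _ _ hg]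
  ring

theorem Base.I_sum (B : Base Ω) {α : Type*} (s : Finset α) {f : α → Ω → ℝ}
    (hf : ∀ i ∈ s, Continuous (f i)) : B.I (fun a => ∑ i ∈ s, f i a) = ∑ i ∈ s, B.I (f i) := by
  classical
  induction s using Finset.induction_on with
  | empty =>
    have := B.I_smul 0 (fun _ => 0) continuous_const
    simpa using this
  | insert i s hi ih =>
    simp only [Finset.sum_insert hi]
    rw [B.I_add _ _ (hf i (Finset.mem_insert_self _ _))
      (continuous_finsetSum _ fun j hj => hf j (Finset.mem_insert_of_mem hj)),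
      ih fun j hj => hf j (Finset.mem_insert_of_mem hj)]

theorem Base.I_le_const (B : Base Ω) {f : Ω → ℝ} (hf : Continuous f) {c : ℝ} (hc : 0 ≤ c)
    (h : ∀ a, f a ≤ c) : B.I f ≤ c := by
  have h1 := B.I_mono hf (g := fun _ => c * 1) continuous_const fun a => by simpa using h a
  rw [B.I_smul c (fun _ => 1) continuous_const] at h1
  nlinarith [B.I_one]

theorem Chart.self_mem_N (ch : Chart B R) (a : Ω) : a ∈ ch.N a := by
  exact Finset.mem_image.2 ⟨ch.e, Finset.mem_univ _, ch.t_e a⟩

theorem Chart.mem_N_of_near (ch : Chart B R) {a b : Ω} (h : Near B.X R a b) : b ∈ ch.N a := by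
  obtain ⟨u, hu⟩ := ch.near a b h
  exact Finset.mem_image.2 ⟨u, Finset.mem_univ _, hu⟩

theorem Chart.subset_N (ch : Chart B R) {T : Finset Ω} (h : Small B.X R T) {a : Ω} (ha : a ∈ T) :
    T ⊆ ch.N a := by
  exact fun b hb => ch.mem_N_of_near (h a ha b hb)

theorem Chart.eventually_coin (ch : Chart B R) (a₀ : Ω) :
    ∀ᶠ a in nhds a₀, ∀ u u', ch.t u a = ch.t u' a ↔ ch.t u a₀ = ch.t u' a₀ := by
  refine Filter.eventually_all.2 fun u => Filter.eventually_all.2 fun u' => ?_
  by_cases h : ch.t u a₀ = ch.t u' a₀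
  · filter_upwards [(ch.coin u u').mem_nhds h] with a ha
    exact iff_of_true ha h
  · filter_upwards [(isClosed_eq (ch.cont u) (ch.cont u')).isOpen_compl.mem_nhds h] with a ha
    exact iff_of_false ha h

theorem trans_rep (ch : Chart B R) (U : Finset ch.W) (a₀ : Ω) :
    ∃ U₀ ⊆ U, Set.InjOn (fun v => ch.t v a₀) U₀ ∧ ∀ v ∈ U, ∃ v₀ ∈ U₀, ch.t v₀ a₀ = ch.t v a₀ := by
  obtain ⟨U₀, h1, h2, h3⟩ := Finset.exists_subset_injOn_image_eq_of_surjOn (U : Set ch.W)
    (U.image fun v => ch.t v a₀) (f := fun v => ch.t v a₀) (by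
      rw [Finset.coe_image]; exact Set.surjOn_image _ _)
  refine ⟨U₀, h1, h2, fun v hv => ?_⟩
  have : ch.t v a₀ ∈ U₀.image fun v => ch.t v a₀ := by
    rw [h3]; exact Finset.mem_image_of_mem _ hv
  exact Finset.mem_image.1 this

theorem trans_image (ch : Chart B R) {U U₀ : Finset ch.W} {a₀ a : Ω} (h1 : U₀ ⊆ U)
    (h : ∀ v ∈ U, ∃ v₀ ∈ U₀, ch.t v₀ a₀ = ch.t v a₀)
    (ha : ∀ u u', ch.t u a = ch.t u' a ↔ ch.t u a₀ = ch.t u' a₀) :
    (U.image fun v => ch.t v a) = U₀.image fun v => ch.t v a := by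
  refine Finset.Subset.antisymm (fun x hx => ?_) (Finset.image_subset_image h1)
  obtain ⟨v, hv, rfl⟩ := Finset.mem_image.1 hx
  obtain ⟨v₀, hv₀, e⟩ := h v hv
  exact Finset.mem_image.2 ⟨v₀, hv₀, (ha _ _).2 e⟩

theorem trans_sum_powerset {α β : Type*} [DecidableEq β] {f : α → β} {U : Finset α}
    (hf : Set.InjOn f U) (F : Finset β → ℝ) :
    ∑ T ∈ (U.image f).powerset, F T = ∑ S ∈ U.powerset, F (S.image f) := by
  rw [Finset.powerset_image, Finset.sum_image]
  intro S hS S' hS' h
  have h1 := Finset.mem_powerset.1 hS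
  have h2 := Finset.mem_powerset.1 hS'
  have h' : S.image f = S'.image f := h
  rw [← Finset.coe_inj, ← hf.image_eq_image_iff h1 h2, ← Finset.coe_image, ← Finset.coe_image, h']

/-- It suffices to check continuity at points where the family is injective. -/
theorem Chart.continuous_of_inj (ch : Chart B R) {G : Finset Ω → Ω → Ω → ℝ}
    (h : ∀ (U : Finset ch.W) (u : ch.W) (a₀ : Ω), Set.InjOn (fun v => ch.t v a₀) U →
      ((∃ v ∈ U, ch.t v a₀ = ch.t u a₀) → u ∈ U) →
      ContinuousAt (fun a => G (U.image fun v => ch.t v a) (ch.t u a) a) a₀)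
    (U : Finset ch.W) (u : ch.W) :
    Continuous fun a => G (U.image fun v => ch.t v a) (ch.t u a) a := by
  refine continuous_iff_continuousAt.2 fun a₀ => ?_
  obtain ⟨U₀, h1, h2, h3⟩ := trans_rep ch U a₀
  obtain ⟨u₀, hu₀, hu⟩ : ∃ u₀, ch.t u₀ a₀ = ch.t u a₀ ∧
      ((∃ v ∈ U₀, ch.t v a₀ = ch.t u₀ a₀) → u₀ ∈ U₀) := by
    by_cases hex : ∃ v ∈ U₀, ch.t v a₀ = ch.t u a₀
    · obtain ⟨v, hv, e⟩ := hex
      exact ⟨v, e, fun _ => hv⟩
    · exact ⟨u, rfl, fun h => absurd h hex⟩
  refine (h U₀ u₀ a₀ h2 hu).congr ?_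
  filter_upwards [ch.eventually_coin a₀] with a ha
  rw [trans_image ch h1 h3 ha, (ha _ _).2 hu₀]

theorem Chart.LocC.mul {ch : Chart B R} {Ψ Θ : Finset Ω → Ω → ℝ} (h : ch.LocC Ψ)
    (h' : ch.LocS Θ) : ch.LocC fun T a => Ψ T a * Θ T a := by
  intro U u
  exact ((h U u).mul (h' U u)).congr fun a => by simp only [Pi.mul_apply]; ring

theorem Chart.LocC.sub {ch : Chart B R} {Ψ Ψ' : Finset Ω → Ω → ℝ} (h : ch.LocC Ψ)
    (h' : ch.LocC Ψ') : ch.LocC fun T a => Ψ T a - Ψ' T a := by
  intro U u
  exact ((h U u).sub (h' U u)).congr fun a => by simp only [Pi.sub_apply]; ring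

theorem Chart.locS_card (ch : Chart B R) (g : ℕ → ℝ) : ch.LocS fun T _ => g T.card := by
  intro U u
  refine ch.continuous_of_inj (G := fun T _ _ => g T.card) (fun U u a₀ hU _ => ?_) U u
  refine (continuousAt_const (y := g U.card)).congr ?_
  filter_upwards [ch.eventually_coin a₀] with a ha
  rw [Finset.card_image_of_injOn fun v hv v' hv' e => hU hv hv' ((ha _ _).1 e)]

theorem Chart.locS_point (ch : Chart B R) {g : Ω → ℝ} (hg : Continuous g) :
    ch.LocS fun _ a => g a := by
  exact fun _ u => hg.comp (ch.cont u)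

theorem Chart.LocC.mob {ch : Chart B R} {F : Finset Ω → Ω → ℝ} (h : ch.LocC F) :
    ch.LocC fun T a => mob (fun S => F S a) T := by
  intro U u
  refine ch.continuous_of_inj (G := fun T b a => P078.mob (fun S => F S b) T / B.w a)
    (fun U u a₀ hU _ => ?_) U u
  have hc : Continuous fun a => ∑ S ∈ U.powerset, (-1) ^ (U.card - S.card) *
      (F (S.image fun v => ch.t v a) (ch.t u a) / B.w a) :=
    continuous_finsetSum _ fun S _ => continuous_const.mul (h S u)
  refine hc.continuousAt.congr ?_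
  filter_upwards [ch.eventually_coin a₀] with a ha
  have hi : Set.InjOn (fun v => ch.t v a) U := fun v hv v' hv' e => hU hv hv' ((ha _ _).1 e)
  unfold P078.mob
  rw [trans_sum_powerset hi, Finset.sum_div, Finset.card_image_of_injOn hi]
  refine Finset.sum_congr rfl fun S hS => ?_
  rw [Finset.card_image_of_injOn (hi.mono (Finset.mem_powerset.1 hS)), mul_div_assoc]

theorem Chart.LocC.continuous_loc {ch : Chart B R} {Ψ : Finset Ω → Ω → ℝ} (h : ch.LocC Ψ) :
    Continuous (ch.loc Ψ) := by
  classical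
  have key := ch.continuous_of_inj
    (G := fun T b a => (∑ S ∈ T.powerset with b ∈ S, Ψ S b) / B.w a) (fun U u a₀ hU _ => by
      have hc : Continuous fun a => ∑ S ∈ U.powerset,
          if ∃ v ∈ S, ch.t v a₀ = ch.t u a₀ then
            Ψ (S.image fun v => ch.t v a) (ch.t u a) / B.w a else 0 :=
        continuous_finsetSum _ fun S _ => by
          split_ifs
          · exact h S u
          · exact continuous_const
      refine hc.continuousAt.congr ?_
      filter_upwards [ch.eventually_coin a₀] with a ha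
      have hi : Set.InjOn (fun v => ch.t v a) U := fun v hv v' hv' e => hU hv hv' ((ha _ _).1 e)
      rw [Finset.sum_filter, trans_sum_powerset hi, Finset.sum_div]
      refine Finset.sum_congr rfl fun S _ => ?_
      have e : ch.t u a ∈ S.image (fun v => ch.t v a) ↔ ∃ v ∈ S, ch.t v a₀ = ch.t u a₀ := by
        simp only [Finset.mem_image, ha]
      simp only [e]
      split_ifs
      · rfl
      · rw [zero_div]) Finset.univ ch.e
  simp only [ch.t_e] at key
  exact key

end Vale.Agent.P078
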