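import Vale.Agent.P078.Reduce

/-! Definitions for the operator algebraic part of the paving proof. -/

open scoped InnerProductSpace ComplexConjugate ComplexOrder
open Filter Topology

set_option linter.unusedSectionVars false
set_option linter.unusedVariables false

namespace Vale.Agent.P078

variable {H : Type*} [NormedAddCommGroup H] [InnerProductSpace ℂ H] [CompleteSpace H]
variable {M : VonNeumannAlgebra H} {A : StarSubalgebra ℂ (H →L[ℂ] H)}

/-- A MASA with normal expectation and a finite family of vectors separating it. -/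
structure Ctx (M : VonNeumannAlgebra H) (A : StarSubalgebra ℂ (H →L[ℂ] H)) where
  hA : IsMASA M A
  good : GoodProj hA 1
  n : ℕ
  ξ : Fin n → H
  norm_le : ∑ i, ‖ξ i‖ ^ 2 ≤ 1
  faith : ∀ a ∈ A, (∀ i, a (ξ i) = 0) → a = 0

/-- The conditional expectation. -/
noncomputable def Ctx.E (c : Ctx M A) : (H →L[ℂ] H) →ₗ[ℂ] (H →L[ℂ] H) := condE c.hA

/-- The positive functional. -/
noncomputable def Ctx.φ (c : Ctx M A) : (H →L[ℂ] H) →ₗ[ℂ] ℂ := vecFn c.ξ c.ξ ∘ₗ c.E

/-- The `L²` seminorm. -/
noncomputable def Ctx.n2 (c : Ctx M A) (T : H →L[ℂ] H) : ℝ := √((c.φ (star T * T)).re)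

/-- Projections of `A`. -/
def IsP (A : StarSubalgebra ℂ (H →L[ℂ] H)) (e : H →L[ℂ] H) : Prop := e ∈ A ∧ IsStarProjection e

/-- The normalising groupoid. -/
def IsG (M : VonNeumannAlgebra H) (A : StarSubalgebra ℂ (H →L[ℂ] H)) (v : H →L[ℂ] H) : Prop :=
  v ∈ M ∧ v * star v * v = v ∧ (∀ a ∈ A, v * a * star v ∈ A) ∧ ∀ a ∈ A, star v * a * v ∈ A

/-- Groupoid elements with bounded Radon-Nikodym derivatives. -/
def Ctx.IsGb (c : Ctx M A) (v : H →L[ℂ] H) : Prop :=
  IsG M A v ∧ ∃ K : ℝ, 0 < K ∧ ∀ e, IsP A e →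
    (c.φ (v * e * star v)).re ≤ K * (c.φ e).re ∧ (c.φ (star v * e * v)).re ≤ K * (c.φ e).re

open Classical in
/-- The Radon-Nikodym derivative. -/
noncomputable def Ctx.rn (c : Ctx M A) (v : H →L[ℂ] H) : H →L[ℂ] H :=
  if h : ∃ d ∈ A, ∀ b ∈ A, c.φ (v * b * star v) = c.φ (d * b) then h.choose else 0

/-- The algebra generated by `A` and the bounded groupoid. -/
noncomputable def Ctx.N0 (c : Ctx M A) : StarSubalgebra ℂ (H →L[ℂ] H) :=
  StarAlgebra.adjoin ℂ ((A : Set (H →L[ℂ] H)) ∪ {v | c.IsGb v})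

/-- The operator valued measure of `x` has no atoms. -/
def Ctx.Thin (c : Ctx M A) (x : H →L[ℂ] H) : Prop :=
  ∀ θ δ : ℝ, 0 < θ → 0 < δ → ∃ (P : Part A) (p : H →L[ℂ] H), IsP A p ∧ (c.φ (1 - p)).re < δ ∧
    ∀ j, ‖c.E (x * P.q j * star x) * p‖ ≤ θ

/-- A Boolean homomorphism carried by `x`. -/
structure Ctx.AtomD (c : Ctx M A) (x : H →L[ℂ] H) (α : (H →L[ℂ] H) → (H →L[ℂ] H))
    (g₀ : H →L[ℂ] H) (θ : ℝ) : Prop where
  pos : 0 < θ
  proj : IsP A g₀
  ne : α 1 ≠ 0
  isP : ∀ g, IsP A g → IsP A (α g)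
  add : ∀ g g', IsP A g → IsP A g' → g * g' = 0 → α (g + g') = α g + α g'
  le : ∀ g, IsP A g → (θ : ℂ) • α g ≤ c.E (x * (g * g₀) * star x) * α g

theorem IsMASA.isClosed (hA : IsMASA M A) : IsClosed (A : Set (H →L[ℂ] H)) := by
  have hM : IsClosed (M : Set (H →L[ℂ] H)) := by
    rw [← M.centralizer_centralizer]
    exact Set.isClosed_centralizer _
  have : (A : Set (H →L[ℂ] H)) = (M : Set (H →L[ℂ] H)) ∩ Set.centralizer (A : Set _) := by
    ext y
    constructor
    · intro hy
      exact ⟨hA.1 y hy, fun a ha => hA.2.1 a ha y hy⟩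
    · rintro ⟨h1, h2⟩
      exact hA.mem_of_commute h1 fun a ha => h2 a ha
  rw [this]
  exact hM.inter (Set.isClosed_centralizer _)

/-- The MASA as a commutative C-star algebra. -/
def Alg (hA : IsMASA M A) : Type _ := ↥A

noncomputable instance (hA : IsMASA M A) : CommCStarAlgebra (Alg hA) :=
  { StarSubalgebra.cstarAlgebra A (h_closed := hA.isClosed) with
    mul_comm := fun a b => Subtype.ext (hA.2.1 a.1 a.2 b.1 b.2) }

/-- The spectrum of the MASA. -/
def Spc (hA : IsMASA M A) : Type _ := WeakDual.characterSpace ℂ (Alg hA)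

noncomputable instance (hA : IsMASA M A) : TopologicalSpace (Spc hA) :=
  inferInstanceAs (TopologicalSpace (WeakDual.characterSpace ℂ (Alg hA)))

instance (hA : IsMASA M A) : CompactSpace (Spc hA) :=
  inferInstanceAs (CompactSpace (WeakDual.characterSpace ℂ (Alg hA)))

instance (hA : IsMASA M A) : T2Space (Spc hA) :=
  inferInstanceAs (T2Space (WeakDual.characterSpace ℂ (Alg hA)))

noncomputable instance (hA : IsMASA M A) : DecidableEq (Spc hA) := Classical.decEq _

/-- The underlying character. -/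
def Spc.ch {hA : IsMASA M A} (χ : Spc hA) : WeakDual.characterSpace ℂ (Alg hA) := χ

open Classical in
/-- Evaluation of an operator of `A` at a point of the spectrum. -/
noncomputable def Spc.ev {hA : IsMASA M A} (χ : Spc hA) (T : H →L[ℂ] H) : ℂ :=
  if h : T ∈ A then χ.ch (show Alg hA from ⟨T, h⟩) else 0

open Classical in
/-- The operator of `A` with a given Gelfand transform. -/
noncomputable def lft (hA : IsMASA M A) (f : Spc hA → ℂ) : H →L[ℂ] H :=
  if h : ∃ a ∈ A, ∀ χ : Spc hA, χ.ev a = f χ then h.choose else 0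

open Classical in
/-- The projection of a clopen set. -/
noncomputable def ind (hA : IsMASA M A) (S : Set (Spc hA)) : H →L[ℂ] H :=
  lft hA fun χ => if χ ∈ S then 1 else 0

/-- The point lies in the domain of `v`. -/
def Spc.Dom {hA : IsMASA M A} (χ : Spc hA) (v : H →L[ℂ] H) : Prop := χ.ev (star v * v) = 1

open Classical in
/-- The action of a groupoid element on the spectrum, extended by the identity. -/
noncomputable def tp {hA : IsMASA M A} (v : H →L[ℂ] H) (χ : Spc hA) : Spc hA :=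
  if h : ∃ χ' : Spc hA, ∀ b ∈ A, χ'.ev b = χ.ev (star v * b * v) then h.choose else χ

/-- The orbit relation. -/
def Ctx.Rel (c : Ctx M A) (a b : Spc c.hA) : Prop := ∃ v, c.IsGb v ∧ a.Dom v ∧ tp v a = b

/-- The base point of an orbit. -/
noncomputable def Ctx.base (c : Ctx M A) (a : Spc c.hA) : Spc c.hA :=
  @Classical.epsilon _ ⟨a⟩ fun o => c.Rel o a

open Classical in
/-- A groupoid element from the base point to the point. -/
noncomputable def Ctx.uu (c : Ctx M A) (a : Spc c.hA) : H →L[ℂ] H :=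
  if h : c.Rel (c.base a) a then h.choose else 1

/-- The kernel of an operator. -/
noncomputable def Ctx.K (c : Ctx M A) (T : H →L[ℂ] H) (a b : Spc c.hA) : ℂ :=
  if c.base a = c.base b then (c.base a).ev (c.E (star (c.uu a) * T * c.uu b)) else 0

/-- The orbit weight. -/
noncomputable def Ctx.wt (c : Ctx M A) (a : Spc c.hA) : ℝ := ((c.base a).ev (c.rn (c.uu a))).re

open Classical in
/-- The functional on continuous functions. -/
noncomputable def Ctx.I (c : Ctx M A) (f : Spc c.hA → ℝ) : ℝ :=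
  (c.φ (lft c.hA fun χ => (f χ : ℂ))).re

end Vale.Agent.P078
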