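import Vale.Agent.P078b.FD

open Polynomial MeasureTheory
open scoped ComplexConjugate

set_option linter.unusedSectionVars false
set_option linter.unusedVariables false

namespace Vale.Agent.P078

variable {V : Type*} [DecidableEq V] {κ : Type*} [Fintype κ] [DecidableEq κ]

theorem mu_empty (X : V → V → ℂ) : mu X ∅ = 1 := by
  simp [mu]

theorem mu_singleton (X : V → V → ℂ) (a : V) : mu X {a} = -X a a := by
  simp [mu]

theorem Zf_empty (X : V → V → ℂ) (ω : V → Finset κ → ℂ) : Zf X ω ∅ = 1 := by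
  simp [Zf, mu_empty]

theorem Zf_congr {X X' : V → V → ℂ} {ω ω' : V → Finset κ → ℂ} {Λ : Finset V}
    (hX : ∀ a ∈ Λ, ∀ b ∈ Λ, X a b = X' a b) (hω : ∀ j ∈ Λ, ω j = ω' j) :
    Zf X ω Λ = Zf X' ω' Λ := by
  refine Finset.sum_congr rfl fun O hO => ?_
  rw [Finset.prod_congr rfl fun j hj => congrFun (hω j hj) _]
  refine congrArg _ (Finset.prod_congr rfl fun c _ => ?_)
  have h := Finset.mem_powerset.1 (Fintype.mem_piFinset.1 hO c)
  unfold mu
  congr 1
  ext i j
  simp [hX _ (h i.2) _ (h j.2)]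

theorem zfa_prod_update (ω : V → Finset κ → ℂ) {Λ : Finset V} {a : V} (ha : a ∈ Λ)
    (f : Finset κ → ℂ) (g : V → Finset κ) :
    ∏ j ∈ Λ, Function.update ω a f j (g j) = f (g a) * ∏ j ∈ Λ.erase a, ω j (g j) := by
  rw [← Finset.mul_prod_erase Λ _ ha, Function.update_self]
  exact congrArg _ (Finset.prod_congr rfl fun j hj => by
    rw [Function.update_of_ne (Finset.ne_of_mem_erase hj)])

/-- Linearity in the weight of one site. -/
theorem Zf_update_sum (X : V → V → ℂ) (ω : V → Finset κ → ℂ) {Λ : Finset V} {a : V}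
    (ha : a ∈ Λ) {α : Type*} (s : Finset α) (c : α → ℂ) (f : α → Finset κ → ℂ) :
    Zf X (Function.update ω a fun S => ∑ i ∈ s, c i * f i S) Λ =
      ∑ i ∈ s, c i * Zf X (Function.update ω a (f i)) Λ := by
  simp only [Zf, Finset.mul_sum]
  rw [Finset.sum_comm]
  refine Finset.sum_congr rfl fun O _ => ?_
  simp only [zfa_prod_update ω ha, Finset.sum_mul, mul_assoc]

theorem Zf_update_add (X : V → V → ℂ) (ω : V → Finset κ → ℂ) {Λ : Finset V} {a : V}
    (ha : a ∈ Λ) (c d : ℂ) (f g : Finset κ → ℂ) :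
    Zf X (Function.update ω a fun S => c * f S + d * g S) Λ =
      c * Zf X (Function.update ω a f) Λ + d * Zf X (Function.update ω a g) Λ := by
  simpa [Fin.sum_univ_two] using
    Zf_update_sum X ω ha (Finset.univ : Finset (Fin 2)) ![c, d] ![f, g]

theorem Zf_insert_empty (X : V → V → ℂ) (ω : V → Finset κ → ℂ) {L : Finset V} {a : V}
    (ha : a ∉ L) : Zf X (Function.update ω a (dlt ∅)) (insert a L) = Zf X ω L := by
  unfold Zf
  symm
  refine (Finset.sum_congr rfl fun O hO => ?_).trans (Finset.sum_subset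
    (Fintype.piFinset_subset _ _ fun _ => Finset.powerset_mono.2 (Finset.subset_insert a L))
    fun O hO hO' => ?_)
  · rw [zfa_prod_update ω (Finset.mem_insert_self a L), Finset.erase_insert ha, dlt, if_pos,
      one_mul]
    exact Finset.filter_eq_empty_iff.2 fun c _ h =>
      ha (Finset.mem_powerset.1 (Fintype.mem_piFinset.1 hO c) h)
  · rw [zfa_prod_update ω (Finset.mem_insert_self a L), dlt, if_neg, zero_mul, zero_mul]
    intro h
    refine hO' (Fintype.mem_piFinset.2 fun c => Finset.mem_powerset.2 fun x hx => ?_)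
    rcases Finset.mem_insert.1 (Finset.mem_powerset.1 (Fintype.mem_piFinset.1 hO c) hx) with
      rfl | h'
    · exact absurd hx (Finset.filter_eq_empty_iff.1 h (Finset.mem_univ c))
    · exact h'

theorem Zf_insert_cw1 (X : V → V → ℂ) (ω : V → Finset κ → ℂ) {L : Finset V} {a : V}
    (ha : a ∉ L) (z : ℂ) (b : κ → ℂ) :
    Zf X (Function.update ω a (cw1 z b)) (insert a L) =
      z * Zf X ω L + ∑ c, b c * Zf X (Function.update ω a (dlt {c})) (insert a L) := by
  have h := Zf_update_add X ω (Finset.mem_insert_self a L) z 1 (dlt ∅)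
    fun S => ∑ c, b c * dlt {c} S
  rw [Zf_insert_empty X ω ha, Zf_update_sum X ω (Finset.mem_insert_self a L)] at h
  simp only [one_mul] at h
  exact h

theorem pw1_zero : pw1 (fun _ : κ => (0 : ℂ)) = dlt ∅ := by
  funext S
  rcases S.eq_empty_or_nonempty with rfl | h
  · simp [pw1, dlt]
  · simp [pw1, dlt, h.ne_empty]

theorem pwd_zero (c₀ : κ) : pwd (fun _ : κ => (0 : ℂ)) c₀ = dlt {c₀} := by
  funext S
  unfold pwd dlt
  by_cases h : S = {c₀}
  · simp [h]
  · rw [if_neg h]
    split_ifs with h1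
    · obtain ⟨c, hc⟩ : (S.erase c₀).Nonempty := Finset.nonempty_iff_ne_empty.2 fun e =>
        h (by rw [← Finset.insert_erase h1, e]; rfl)
      exact Finset.prod_eq_zero hc rfl
    · rfl

theorem pw1_update (t : κ → ℂ) (c₀ : κ) (τ : ℂ) (S : Finset κ) :
    pw1 (Function.update t c₀ τ) S = pw1 (Function.update t c₀ 0) S + τ * pwd t c₀ S := by
  unfold pw1 pwd
  split_ifs with h
  · rw [Finset.prod_update_of_mem h, Finset.prod_update_of_mem h, zero_mul, zero_add,
      Finset.sdiff_singleton_eq_erase]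
  · rw [Finset.prod_update_of_notMem h, Finset.prod_update_of_notMem h, mul_zero, add_zero]

/-- Homogeneity in all site weights. -/
theorem Zf_smul (X : V → V → ℂ) (ω : V → Finset κ → ℂ) (Λ : Finset V) (s : V → ℂ) :
    Zf X (fun j S => s j * ω j S) Λ = (∏ j ∈ Λ, s j) * Zf X ω Λ := by
  simp only [Zf, Finset.mul_sum, Finset.prod_mul_distrib, mul_assoc]

theorem zfa_det (X : V → V → ℂ) (t : V → ℂ) (Λ : Finset V) :
    (1 - Matrix.of fun i j : Λ => t i * X i j).det =
      ∑ S ∈ Λ.powerset, (∏ j ∈ S, t j) * mu X S := by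
  have h : (1 - Matrix.of fun i j : Λ => t i * X i j).det = Matrix.detRowAlternating
      ((Matrix.of fun i j : Λ => t i * -X i j).row + (1 : Matrix Λ Λ ℂ).row) := by
    unfold Matrix.det
    congr 1
    ext i j
    show (1 : Matrix Λ Λ ℂ) i j - t i * X i j = t i * -X i j + (1 : Matrix Λ Λ ℂ) i j
    ring
  rw [h, AlternatingMap.map_add_univ]
  symm
  refine Finset.sum_nbij' (fun S => S.subtype (· ∈ Λ))
    (fun s => s.map (Function.Embedding.subtype _)) (fun _ _ => Finset.mem_univ _)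
    (fun s _ => Finset.mem_powerset.2 fun x hx => Finset.property_of_mem_map_subtype s hx)
    (fun S hS => Finset.subtype_map_of_mem fun x hx => Finset.mem_powerset.1 hS hx)
    (fun s _ => by ext x; simp) fun S hS => ?_
  refine Eq.trans ?_ (Matrix.det_piecewise_one_eq_submatrix_det _ _).symm
  let e : S ≃ S.subtype (· ∈ Λ) :=
    ⟨fun x => ⟨⟨x, Finset.mem_powerset.1 hS x.2⟩, Finset.mem_subtype.2 x.2⟩,
      fun x => ⟨x, Finset.mem_subtype.1 x.2⟩, fun _ => rfl, fun _ => rfl⟩
  rw [← Matrix.det_submatrix_equiv_self e, mu, ← Finset.prod_coe_sort S, ← Matrix.det_mul_column]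
  rfl

/-- Product weights give a product of determinants. -/
theorem Zf_pw1 (X : V → V → ℂ) (t : V → κ → ℂ) (Λ : Finset V) :
    Zf X (fun j => pw1 (t j)) Λ =
      ∏ c, (1 - Matrix.of fun i j : Λ => t i c * X i j).det := by
  rw [Finset.prod_congr rfl fun c _ => zfa_det X (fun i => t i c) Λ, Finset.prod_univ_sum]
  refine Finset.sum_congr rfl fun O hO => ?_
  rw [Finset.prod_mul_distrib]
  congr 1
  simp only [pw1, Finset.prod_filter]
  rw [Finset.prod_comm]
  refine Finset.prod_congr rfl fun c _ => ?_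
  rw [← Finset.prod_filter, Finset.filter_mem_eq_inter,
    Finset.inter_eq_right.2 (Finset.mem_powerset.1 (Fintype.mem_piFinset.1 hO c))]

/-- Expansion of contracted weights in the variables. -/
theorem Zf_cw1 (X : V → V → ℂ) (Z : V → ℂ) (b : V → κ → ℂ) (Λ : Finset V) :
    Zf X (fun j => cw1 (Z j) (b j)) Λ =
      ∑ S ∈ Λ.powerset, (∏ j ∈ Λ \ S, Z j) * Zf X (fun j => cw1 0 (b j)) S := by
  have h : ∀ S ∈ Λ.powerset, (∏ j ∈ Λ \ S, Z j) * Zf X (fun j => cw1 0 (b j)) S =
      ∑ O ∈ Fintype.piFinset (fun _ : κ => Λ.powerset),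
        ((∏ j ∈ S, cw1 0 (b j) (Finset.univ.filter fun c => j ∈ O c)) *
          ∏ j ∈ Λ \ S, Z j * dlt ∅ (Finset.univ.filter fun c => j ∈ O c)) * ∏ c, mu X (O c) := by
    intro S hS
    have hS' := Finset.mem_powerset.1 hS
    rw [Zf, Finset.mul_sum]
    refine (Finset.sum_congr rfl fun O hO => ?_).trans (Finset.sum_subset
      (Fintype.piFinset_subset _ _ fun _ => Finset.powerset_mono.2 hS') fun O hO hO' => ?_)
    · rw [← mul_assoc, mul_comm (∏ j ∈ Λ \ S, Z j)]
      congr 2
      refine Finset.prod_congr rfl fun j hj => ?_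
      rw [dlt, if_pos, mul_one]
      exact Finset.filter_eq_empty_iff.2 fun c _ h => (Finset.mem_sdiff.1 hj).2
        (Finset.mem_powerset.1 (Fintype.mem_piFinset.1 hO c) h)
    · obtain ⟨c, hc⟩ := not_forall.1 (mt Fintype.mem_piFinset.2 hO')
      obtain ⟨j, h1, h2⟩ := Finset.not_subset.1 (mt Finset.mem_powerset.2 hc)
      rw [Finset.prod_eq_zero (Finset.mem_sdiff.2
        ⟨Finset.mem_powerset.1 (Fintype.mem_piFinset.1 hO c) h1, h2⟩), mul_zero, zero_mul]
      rw [dlt, if_neg, mul_zero]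
      exact fun h => Finset.filter_eq_empty_iff.1 h (Finset.mem_univ c) h1
  rw [Finset.sum_congr rfl h, Finset.sum_comm]
  refine Finset.sum_congr rfl fun O _ => ?_
  rw [← Finset.sum_mul, ← Finset.prod_add]
  simp only [cw1, zero_mul, zero_add, add_comm]

theorem zfa_conj_mu {X : V → V → ℂ} (hX : Herm X) (S : Finset V) : conj (mu X S) = mu X S := by
  rw [mu, RingHom.map_det, ← Matrix.det_transpose]
  congr 1
  ext i j
  simp [hX j i]

theorem conj_Zf {X : V → V → ℂ} (hX : Herm X) (ω : V → Finset κ → ℂ) (Λ : Finset V) :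
    conj (Zf X ω Λ) = Zf X (fun j S => conj (ω j S)) Λ := by
  simp only [Zf, map_sum, map_mul, map_prod, zfa_conj_mu hX]

theorem Zf_im_eq_zero {X : V → V → ℂ} (hX : Herm X) {ω : V → Finset κ → ℂ} {Λ : Finset V}
    (hω : ∀ j ∈ Λ, ∀ S, (ω j S).im = 0) : (Zf X ω Λ).im = 0 := by
  rw [← Complex.conj_eq_iff_im, conj_Zf hX]
  exact Zf_congr (fun _ _ _ _ => rfl) fun j hj => funext fun S =>
    Complex.conj_eq_iff_im.2 (hω j hj S)

theorem continuous_Zf {P : Type*} [TopologicalSpace P] {X : P → V → V → ℂ}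
    {ω : P → V → Finset κ → ℂ} (hX : ∀ a b, Continuous fun p => X p a b)
    (hω : ∀ j S, Continuous fun p => ω p j S) (Λ : Finset V) :
    Continuous fun p => Zf (X p) (ω p) Λ := by
  refine continuous_finsetSum _ fun O _ => (continuous_finsetProd _ fun j _ => hω _ _).mul
    (continuous_finsetProd _ fun c _ => Continuous.matrix_det ?_)
  exact continuous_matrix fun i j => (hX _ _).neg

theorem differentiable_Zf (X : V → V → ℂ) {ω : ℂ → V → Finset κ → ℂ}
    (hω : ∀ j S, Differentiable ℂ fun p => ω p j S) (Λ : Finset V) :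
    Differentiable ℂ fun p => Zf X (ω p) Λ := by
  unfold Zf
  exact Differentiable.fun_sum fun O _ =>
    (Differentiable.fun_finset_prod fun j _ => hω _ _).mul_const _

end Vale.Agent.P078
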